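import Mathlib

/-!
# P230: lattice coverings of convex bodies, basic definitions

`CovOn ι r f Dens Qmin Qmax` is the central recursive statement of the proof that
`Θ_L(n) ≤ n^{1+o(1)}`.  See the blueprint in the branch notes.
-/

open MeasureTheory
open scoped ENNReal

namespace Vale.Agent.Lib.P230

/-- An integer vector seen as a real vector. -/
def toR {ι : Type*} (v : ι → ℤ) : ι → ℝ := fun i => (v i : ℝ)

/-- A family of integer vectors whose reductions modulo `q` are affinely independent
(that is, the vectors `(v j mod q, 1)` are linearly independent over `ZMod q`). -/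
def AffIndMod (q : ℕ) {ι κ : Type*} (v : κ → ι → ℤ) : Prop :=
  LinearIndependent (ZMod q) (fun j : κ => ((fun i => ((v j i : ℤ) : ZMod q)), (1 : ZMod q)))

/-- The central recursive statement.  Every bounded convex `B ⊆ ℝ^ι` containing a cube of half
side `f` has, for each prime `q ∈ [Qmin, Qmax]`, a finite index subgroup `Λ ≤ ℤ^ι` with
`vol B ≤ Dens * [ℤ^ι : Λ]`, such that each coset of `Λ` has `r + 1` points in `B` that are
affinely independent modulo `q`. -/
def CovOn (ι : Type) [Fintype ι] (r : ℕ) (f Dens : ℝ) (Qmin Qmax : ℕ) : Prop :=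
  ∀ B : Set (ι → ℝ), Convex ℝ B → Bornology.IsBounded B →
    (∃ c : ι → ℝ, ∀ x : ι → ℝ, (∀ i, |x i - c i| ≤ f) → x ∈ B) →
    ∀ q : ℕ, q.Prime → Qmin ≤ q → q ≤ Qmax →
    ∃ Λ : AddSubgroup (ι → ℤ), Λ.index ≠ 0 ∧
      volume B ≤ ENNReal.ofReal (Dens * (Λ.index : ℝ)) ∧
      ∀ x : ι → ℤ, ∃ v : Fin (r + 1) → ι → ℤ,
        (∀ i, v i - x ∈ Λ) ∧ (∀ i, toR (v i) ∈ B) ∧ AffIndMod q v

section Norm

variable {ι : Type} [Fintype ι]

/-- Center of the small cube in a normalized body. -/
noncomputable def cen (ι : Type) [Fintype ι] : ι → ℝ := fun _ => 1 / (2 * (Fintype.card ι : ℝ))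

/-- Homothety about `cen` with ratio `lam`. -/
def hom (lam : ℝ) (E : Set (ι → ℝ)) : Set (ι → ℝ) :=
  (fun y => cen ι + lam • (y - cen ι)) '' E

/-- The standard scale of shrinking: `1 - 1/n`. -/
noncomputable def lam1 (ι : Type) [Fintype ι] : ℝ := 1 - 1 / (Fintype.card ι : ℝ)

/-- A normalized body: compact convex, contains the cube of half side `1/(2n)` about `cen`,
contained in `[-1,1]^ι`. -/
structure Normalized (E : Set (ι → ℝ)) : Prop where
  compact : IsCompact E
  convex : Convex ℝ E
  cube : ∀ x : ι → ℝ, (∀ i, |x i - cen ι i| ≤ 1 / (2 * (Fintype.card ι : ℝ))) → x ∈ E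
  bound : ∀ x ∈ E, ∀ i, |x i| ≤ 1

end Norm

/-- Additive energy of a finite set of integer vectors: triples `(a,b,c)` of points with
`a + b - c` a point. -/
noncomputable def energy {β : Type*} (S : Finset (β → ℤ)) : ℕ :=
  open Classical in ((S ×ˢ S ×ˢ S).filter (fun p => p.1 + p.2.1 - p.2.2 ∈ S)).card

/-- The energy constant. -/
noncomputable def cE : ℝ := 1 - 1 / 30000000

end Vale.Agent.Lib.P230
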