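import Vale.Agent.Lib.P230.EnergyOneDim
import Vale.Agent.Lib.P230.Defs

/-!
# P230: AM-GM with deficit and the integrated one-dimensional inequality.
-/

open MeasureTheory Set
open scoped ENNReal

namespace Vale.Agent.Lib.P230

open Vale.Agent.Lib.P074

lemma prod_le_pow_four {a b c d : ℝ} (ha : 0 ≤ a) (hb : 0 ≤ b) (hc : 0 ≤ c) (hd : 0 ≤ d) :
    a * b * c * d ≤ ((a + b + c + d) / 4) ^ 4 := by
  have h1 : a * b ≤ ((a + b) / 2) ^ 2 := by nlinarith [sq_nonneg (a - b)]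
  have h2 : c * d ≤ ((c + d) / 2) ^ 2 := by nlinarith [sq_nonneg (c - d)]
  have h3 : (a + b) / 2 * ((c + d) / 2) ≤ ((a + b + c + d) / 4) ^ 2 := by
    nlinarith [sq_nonneg (a + b - c - d)]
  have h4 : 0 ≤ (a + b) / 2 * ((c + d) / 2) := by positivity
  calc a * b * c * d = (a * b) * (c * d) := by ring
    _ ≤ ((a + b) / 2) ^ 2 * ((c + d) / 2) ^ 2 := by gcongr
    _ = ((a + b) / 2 * ((c + d) / 2)) ^ 2 := by ring
    _ ≤ (((a + b + c + d) / 4) ^ 2) ^ 2 := by gcongr
    _ = _ := by ring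

lemma amgm_real {a b c d w : ℝ} (ha : 0 ≤ a) (hb : 0 ≤ b) (hc : 0 ≤ c) (hd : 0 ≤ d) (hw : 0 ≤ w)
    (h : w ^ 4 ≤ a * b * c * d) : 100 * w ≤ 25 * (a + b + c + d) := by
  have hT : 0 ≤ (a + b + c + d) / 4 := by positivity
  have := (pow_le_pow_iff_left₀ hw hT (by norm_num : 4 ≠ 0)).1
    (h.trans (prod_le_pow_four ha hb hc hd))
  linarith

lemma amgm_real' {a b c d w : ℝ} (ha : 0 ≤ a) (hb : 0 ≤ b) (hc : 0 ≤ c) (hd : 0 ≤ d) (hw : 0 ≤ w)
    (hba : 2 * b ≤ a) (hca : 2 * c ≤ a) (hda : 2 * d ≤ a)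
    (h : w ^ 4 ≤ a * b * c * d) : 100 * w + 2 * a ≤ 25 * (a + b + c + d) := by
  have h1 := prod_le_pow_four (a := a / 2) (b := b) (c := c) (d := d) (by positivity) hb hc hd
  set T := (a / 2 + b + c + d) / 4 with hT
  have hT0 : 0 ≤ T := by positivity
  have h2 : w ^ 4 ≤ (119 / 100 * T) ^ 4 := by
    have hT4 : 0 ≤ T ^ 4 := by positivity
    calc w ^ 4 ≤ a * b * c * d := h
      _ = 2 * (a / 2 * b * c * d) := by ring
      _ ≤ 2 * T ^ 4 := by gcongr
      _ ≤ (119 / 100) ^ 4 * T ^ 4 := by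
          gcongr
          norm_num
      _ = _ := by ring
  have h3 := (pow_le_pow_iff_left₀ hw (by positivity) (by norm_num : 4 ≠ 0)).1 h2
  rw [hT] at h3
  linarith

lemma amgm_enn {a b c d w : ℝ≥0∞} (ha : a ≠ ⊤) (hb : b ≠ ⊤) (hc : c ≠ ⊤) (hd : d ≠ ⊤)
    (h : w ^ 4 ≤ a * b * c * d) : 100 * w ≤ 25 * (a + b + c + d) := by
  have hw : w ≠ ⊤ := by
    intro h'
    rw [h', ENNReal.top_pow (by norm_num), top_le_iff] at h
    exact ENNReal.mul_ne_top (ENNReal.mul_ne_top (ENNReal.mul_ne_top ha hb) hc) hd h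
  lift a to NNReal using ha
  lift b to NNReal using hb
  lift c to NNReal using hc
  lift d to NNReal using hd
  lift w to NNReal using hw
  have h' : w ^ 4 ≤ a * b * c * d := by exact_mod_cast h
  have h2 : ((w : ℝ)) ^ 4 ≤ (a : ℝ) * b * c * d := by exact_mod_cast h'
  have h3 := amgm_real a.coe_nonneg b.coe_nonneg c.coe_nonneg d.coe_nonneg w.coe_nonneg h2
  have h4 : 100 * w ≤ 25 * (a + b + c + d) := by exact_mod_cast h3
  exact_mod_cast h4

lemma amgm_enn' {a b c d w : ℝ≥0∞} (ha : a ≠ ⊤) (hb : b ≠ ⊤) (hc : c ≠ ⊤) (hd : d ≠ ⊤)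
    (hba : 2 * b ≤ a) (hca : 2 * c ≤ a) (hda : 2 * d ≤ a)
    (h : w ^ 4 ≤ a * b * c * d) : 100 * w + 2 * a ≤ 25 * (a + b + c + d) := by
  have hw : w ≠ ⊤ := by
    intro h'
    rw [h', ENNReal.top_pow (by norm_num), top_le_iff] at h
    exact ENNReal.mul_ne_top (ENNReal.mul_ne_top (ENNReal.mul_ne_top ha hb) hc) hd h
  lift a to NNReal using ha
  lift b to NNReal using hb
  lift c to NNReal using hc
  lift d to NNReal using hd
  lift w to NNReal using hw
  have h' : w ^ 4 ≤ a * b * c * d := by exact_mod_cast h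
  have h2 : ((w : ℝ)) ^ 4 ≤ (a : ℝ) * b * c * d := by exact_mod_cast h'
  have hb2 : 2 * b ≤ a := by exact_mod_cast hba
  have hc2 : 2 * c ≤ a := by exact_mod_cast hca
  have hd2 : 2 * d ≤ a := by exact_mod_cast hda
  have h3 := amgm_real' a.coe_nonneg b.coe_nonneg c.coe_nonneg d.coe_nonneg w.coe_nonneg
    (by exact_mod_cast hb2) (by exact_mod_cast hc2) (by exact_mod_cast hd2) h2
  have h4 : 100 * w + 2 * a ≤ 25 * (a + b + c + d) := by exact_mod_cast h3
  exact_mod_cast h4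

/-- Triple lower integral over the line. -/
noncomputable def tri (F : ℝ → ℝ → ℝ → ℝ≥0∞) : ℝ≥0∞ := ∫⁻ t₁, ∫⁻ t₂, ∫⁻ t₃, F t₁ t₂ t₃

lemma tri_eq {F : ℝ → ℝ → ℝ → ℝ≥0∞} (hF : Measurable fun p : ℝ × ℝ × ℝ => F p.1 p.2.1 p.2.2) :
    tri F = ∫⁻ p : ℝ × ℝ × ℝ, F p.1 p.2.1 p.2.2 := by
  rw [Measure.volume_eq_prod, lintegral_prod _ hF.aemeasurable]
  unfold tri
  refine lintegral_congr fun t₁ => ?_
  rw [Measure.volume_eq_prod, lintegral_prod]
  have : Measurable fun p : ℝ × ℝ => F t₁ p.1 p.2 :=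
    hF.comp (measurable_const.prodMk measurable_id)
  exact this.aemeasurable

lemma tri_mono {F G : ℝ → ℝ → ℝ → ℝ≥0∞} (h : ∀ a b c, F a b c ≤ G a b c) : tri F ≤ tri G :=
  lintegral_mono fun a => lintegral_mono fun b => lintegral_mono fun c => h a b c

lemma tri_add_le (F G : ℝ → ℝ → ℝ → ℝ≥0∞) :
    tri F + tri G ≤ tri fun a b c => F a b c + G a b c := by
  unfold tri
  refine (le_lintegral_add _ _).trans (lintegral_mono fun a => ?_)
  refine (le_lintegral_add _ _).trans (lintegral_mono fun b => ?_)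
  exact le_lintegral_add _ _

lemma tri_const_mul (r : ℝ≥0∞) (hr : r ≠ ⊤) (F : ℝ → ℝ → ℝ → ℝ≥0∞) :
    tri (fun a b c => r * F a b c) = r * tri F := by
  unfold tri
  rw [← lintegral_const_mul' _ _ hr]
  refine lintegral_congr fun a => ?_
  rw [← lintegral_const_mul' _ _ hr]
  refine lintegral_congr fun b => ?_
  rw [lintegral_const_mul' _ _ hr]

lemma tri_add_meas {F G : ℝ → ℝ → ℝ → ℝ≥0∞}
    (hF : Measurable fun p : ℝ × ℝ × ℝ => F p.1 p.2.1 p.2.2)
    (hG : Measurable fun p : ℝ × ℝ × ℝ => G p.1 p.2.1 p.2.2) :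
    tri (fun a b c => F a b c + G a b c) = tri F + tri G := by
  rw [tri_eq hF, tri_eq hG, tri_eq (F := fun a b c => F a b c + G a b c) (hF.add hG),
    lintegral_add_left hF]

lemma tri_prod {f₁ f₂ f₃ : ℝ → ℝ≥0∞} (h₁ : Measurable f₁) (h₂ : Measurable f₂)
    (h₃ : Measurable f₃) :
    tri (fun a b c => f₁ a * f₂ b * f₃ c) = (∫⁻ t, f₁ t) * (∫⁻ t, f₂ t) * (∫⁻ t, f₃ t) := by
  unfold tri
  have h1 : ∀ a b, ∫⁻ c, f₁ a * f₂ b * f₃ c = f₁ a * f₂ b * ∫⁻ t, f₃ t := fun a b =>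
    lintegral_const_mul _ h₃
  simp_rw [h1]
  have h2 : ∀ a, ∫⁻ b, f₁ a * f₂ b * ∫⁻ t, f₃ t = f₁ a * (∫⁻ t, f₂ t) * ∫⁻ t, f₃ t := by
    intro a
    rw [lintegral_mul_const _ ((h₂.const_mul _)), lintegral_const_mul _ h₂]
  simp_rw [h2]
  rw [lintegral_mul_const _ (h₁.mul_const _), lintegral_mul_const _ h₁]

section

variable {g : ℝ → ℝ≥0∞} (hg : Measurable g)

include hg

lemma tri_term_a : tri (fun a b c => g a * g b * g c) = (∫⁻ t, g t) ^ 3 := by
  rw [tri_prod hg hg hg]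
  ring

lemma tri_term_b : tri (fun a b c => g a * g b * g (a + b - c)) = (∫⁻ t, g t) ^ 3 := by
  rw [← tri_term_a hg]
  unfold tri
  refine lintegral_congr fun a => lintegral_congr fun b => ?_
  have m1 : Measurable fun c => g (a + b - c) := hg.comp (measurable_const.sub measurable_id)
  calc ∫⁻ c, g a * g b * g (a + b - c) = g a * g b * ∫⁻ c, g (a + b - c) :=
        lintegral_const_mul _ m1
    _ = g a * g b * ∫⁻ c, g c := by rw [lintegral_sub_left_eq_self g (a + b)]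
    _ = ∫⁻ c, g a * g b * g c := (lintegral_const_mul _ hg).symm

lemma tri_term_c : tri (fun a b c => g a * g c * g (a + b - c)) = (∫⁻ t, g t) ^ 3 := by
  rw [← tri_term_a hg]
  unfold tri
  refine lintegral_congr fun a => ?_
  rw [lintegral_lintegral_swap]
  · refine lintegral_congr fun c => ?_
    have m1 : Measurable fun b => g (b + (a - c)) := hg.comp (measurable_id.add_const _)
    calc ∫⁻ b, g a * g c * g (a + b - c) = ∫⁻ b, g a * g c * g (b + (a - c)) := by
          refine lintegral_congr fun b => ?_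
          rw [show a + b - c = b + (a - c) by ring]
      _ = g a * g c * ∫⁻ b, g (b + (a - c)) := lintegral_const_mul _ m1
      _ = g a * g c * ∫⁻ b, g b := by rw [lintegral_add_right_eq_self]
      _ = ∫⁻ b, g a * g c * g b := (lintegral_const_mul _ hg).symm
  · have : Measurable fun p : ℝ × ℝ => g a * g p.2 * g (a + p.1 - p.2) := by fun_prop
    exact this.aemeasurable

lemma tri_term_d : tri (fun a b c => g b * g c * g (a + b - c)) = (∫⁻ t, g t) ^ 3 := by
  show ∫⁻ a, ∫⁻ b, ∫⁻ c, g b * g c * g (a + b - c) = _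
  rw [lintegral_lintegral_swap]
  · have h : ∀ b, ∫⁻ a, ∫⁻ c, g b * g c * g (a + b - c)
        = g b * (∫⁻ t, g t) * ∫⁻ t, g t := by
      intro b
      rw [lintegral_lintegral_swap]
      · have h' : ∀ c, ∫⁻ a, g b * g c * g (a + b - c) = g b * g c * ∫⁻ t, g t := by
          intro c
          have m1 : Measurable fun a => g (a + (b - c)) := hg.comp (measurable_id.add_const _)
          calc ∫⁻ a, g b * g c * g (a + b - c) = ∫⁻ a, g b * g c * g (a + (b - c)) := by
                refine lintegral_congr fun a => ?_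
                rw [show a + b - c = a + (b - c) by ring]
            _ = g b * g c * ∫⁻ a, g (a + (b - c)) := lintegral_const_mul _ m1
            _ = _ := by rw [lintegral_add_right_eq_self]
        simp_rw [h']
        rw [lintegral_mul_const _ (hg.const_mul _), lintegral_const_mul _ hg]
      · have : Measurable fun p : ℝ × ℝ => g b * g p.2 * g (p.1 + b - p.2) := by fun_prop
        exact this.aemeasurable
    simp_rw [h]
    rw [lintegral_mul_const _ (hg.mul_const _), lintegral_mul_const _ hg]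
    ring
  · have : Measurable fun p : ℝ × ℝ => ∫⁻ c, g p.2 * g c * g (p.1 + p.2 - c) := by
      have : Measurable fun q : (ℝ × ℝ) × ℝ => g q.1.2 * g q.2 * g (q.1.1 + q.1.2 - q.2) := by
        fun_prop
      exact this.lintegral_prod_right'
    exact this.aemeasurable

/-- The sum of the four AM terms integrates to four cubes. -/
lemma tri_sum (κ : ℝ≥0∞) (hκ : κ ≠ ⊤) :
    tri (fun a b c => 25 * (κ * (g a * g b * g c) + κ * (g a * g b * g (a + b - c))
      + κ * (g a * g c * g (a + b - c)) + κ * (g b * g c * g (a + b - c))))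
      = 100 * (κ * (∫⁻ t, g t) ^ 3) := by
  have mA : Measurable fun p : ℝ × ℝ × ℝ => κ * (g p.1 * g p.2.1 * g p.2.2) := by fun_prop
  have mB : Measurable fun p : ℝ × ℝ × ℝ => κ * (g p.1 * g p.2.1 * g (p.1 + p.2.1 - p.2.2)) := by
    fun_prop
  have mC : Measurable fun p : ℝ × ℝ × ℝ => κ * (g p.1 * g p.2.2 * g (p.1 + p.2.1 - p.2.2)) := by
    fun_prop
  have mD : Measurable fun p : ℝ × ℝ × ℝ => κ * (g p.2.1 * g p.2.2 * g (p.1 + p.2.1 - p.2.2)) := by
    fun_prop
  rw [tri_const_mul 25 (by norm_num),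
    tri_add_meas (F := fun a b c => κ * (g a * g b * g c) + κ * (g a * g b * g (a + b - c))
      + κ * (g a * g c * g (a + b - c))) (G := fun a b c => κ * (g b * g c * g (a + b - c)))
      (by exact ((mA.add mB).add mC)) mD,
    tri_add_meas (F := fun a b c => κ * (g a * g b * g c) + κ * (g a * g b * g (a + b - c)))
      (G := fun a b c => κ * (g a * g c * g (a + b - c))) (mA.add mB) mC,
    tri_add_meas (F := fun a b c => κ * (g a * g b * g c))
      (G := fun a b c => κ * (g a * g b * g (a + b - c))) mA mB,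
    tri_const_mul κ hκ, tri_const_mul κ hκ, tri_const_mul κ hκ, tri_const_mul κ hκ,
    tri_term_a hg, tri_term_b hg, tri_term_c hg, tri_term_d hg]
  generalize κ * (∫⁻ t, g t) ^ 3 = X
  have : (100 : ℝ≥0∞) = 25 * 4 := by norm_num
  rw [this]
  ring

end

/-- The inequality with deficit. -/
lemma int_with_deficit {g : ℝ → ℝ≥0∞} (hg : Measurable g) (hfin : ∀ t, g t ≠ ⊤) {κ : ℝ≥0∞}
    (hκ : κ ≠ ⊤) {w : ℝ → ℝ → ℝ → ℝ≥0∞}
    (hw : ∀ a b c, w a b c ^ 4 ≤ κ ^ 4 * (g a * g b * g c * g (a + b - c)) ^ 3)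
    {A E : Set ℝ} (hA : MeasurableSet A) (hE : MeasurableSet E)
    (hAE : ∀ a ∈ A, ∀ b ∈ A, ∀ c ∈ E,
      2 * g (a + b - c) ≤ g a ∧ 2 * g (a + b - c) ≤ g b ∧ 2 * g (a + b - c) ≤ g c) :
    100 * tri w + 2 * (κ * ((∫⁻ t in A, g t) * (∫⁻ t in A, g t) * (∫⁻ t in E, g t)))
      ≤ 100 * (κ * (∫⁻ t, g t) ^ 3) := by
  set hA' := A.indicator g with hA'def
  set hE' := E.indicator g with hE'def
  have mA : Measurable hA' := hg.indicator hA
  have mE : Measurable hE' := hg.indicator hE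
  have e1 : tri (fun a b c => hA' a * hA' b * hE' c)
      = (∫⁻ t in A, g t) * (∫⁻ t in A, g t) * (∫⁻ t in E, g t) := by
    rw [tri_prod mA mA mE, hA'def, hE'def, lintegral_indicator hA, lintegral_indicator hE]
  rw [← e1, ← tri_sum hg κ hκ, ← tri_const_mul 100 (by norm_num),
    ← tri_const_mul κ hκ, ← tri_const_mul 2 (by norm_num)]
  refine (tri_add_le _ _).trans (tri_mono fun a b c => ?_)
  have hprod : ∀ x y z : ℝ, κ * (g x * g y * g z) ≠ ⊤ := fun x y z =>
    ENNReal.mul_ne_top hκ (ENNReal.mul_ne_top (ENNReal.mul_ne_top (hfin x) (hfin y)) (hfin z))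
  have hw' : w a b c ^ 4 ≤ κ * (g a * g b * g c) * (κ * (g a * g b * g (a + b - c)))
      * (κ * (g a * g c * g (a + b - c))) * (κ * (g b * g c * g (a + b - c))) := by
    refine (hw a b c).trans (le_of_eq ?_)
    ring
  by_cases hQ : a ∈ A ∧ b ∈ A ∧ c ∈ E
  · obtain ⟨ha, hb, hc⟩ := hQ
    rw [hA'def, hE'def, indicator_of_mem ha, indicator_of_mem hb, indicator_of_mem hc]
    obtain ⟨h1, h2, h3⟩ := hAE a ha b hb c hc
    set u := g (a + b - c)
    refine amgm_enn' (hprod a b c) (hprod a b _) (hprod a c _) (hprod b c _) ?_ ?_ ?_ hw'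
    · calc 2 * (κ * (g a * g b * u)) = κ * (g a * g b * (2 * u)) := by ring
        _ ≤ κ * (g a * g b * g c) := by gcongr
    · calc 2 * (κ * (g a * g c * u)) = κ * (g a * g c * (2 * u)) := by ring
        _ ≤ κ * (g a * g c * g b) := by gcongr
        _ = _ := by ring
    · calc 2 * (κ * (g b * g c * u)) = κ * (g b * g c * (2 * u)) := by ring
        _ ≤ κ * (g b * g c * g a) := by gcongr
        _ = _ := by ring
  · have h0 : hA' a * hA' b * hE' c = 0 := by
      rw [hA'def, hE'def]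
      by_cases ha : a ∈ A
      · by_cases hb : b ∈ A
        · have hc : c ∉ E := fun hc => hQ ⟨ha, hb, hc⟩
          rw [indicator_of_notMem hc, mul_zero]
        · rw [indicator_of_notMem hb, mul_zero, zero_mul]
      · rw [indicator_of_notMem ha, zero_mul, zero_mul]
    rw [h0]
    simp only [mul_zero, add_zero]
    exact amgm_enn (hprod a b c) (hprod a b _) (hprod a c _) (hprod b c _) hw'

/-- The integrated one-dimensional inequality. -/
theorem key_1d {g : ℝ → ℝ} (hg : LogConc g) (hm : Measurable g) {C Rr : ℝ}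
    (hC : ∀ t, g t ≤ C) (hR : ∀ t, g t ≠ 0 → |t| ≤ Rr)
    (hfin : ∫⁻ t, ENNReal.ofReal (g t) ≠ ⊤) {κ : ℝ≥0∞} (hκ : κ ≠ ⊤) {w : ℝ → ℝ → ℝ → ℝ≥0∞}
    (hw : ∀ a b c, w a b c ^ 4 ≤ κ ^ 4 * (ENNReal.ofReal (g a) * ENNReal.ofReal (g b)
      * ENNReal.ofReal (g c) * ENNReal.ofReal (g (a + b - c))) ^ 3) :
    tri w ≤ κ * ENNReal.ofReal cE * (∫⁻ t, ENNReal.ofReal (g t)) ^ 3 := by
  set g' : ℝ → ℝ≥0∞ := fun t => ENNReal.ofReal (g t) with hg'
  have hg'm : Measurable g' := hm.ennreal_ofReal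
  have hg'fin : ∀ t, g' t ≠ ⊤ := fun t => ENNReal.ofReal_ne_top
  set I := ∫⁻ t, g' t with hI
  have hκI : κ * I ^ 3 ≠ ⊤ := ENNReal.mul_ne_top hκ (ENNReal.pow_ne_top hfin)
  by_cases hpos : I = 0
  · have h := int_with_deficit hg'm hg'fin hκ hw (A := ∅) (E := ∅) MeasurableSet.empty
      MeasurableSet.empty (by simp)
    rw [← hI, hpos] at h
    rw [hpos]
    have h3 : (0 : ℝ≥0∞) ^ 3 = 0 := by norm_num
    simp only [h3, mul_zero] at h ⊢
    have h4 : 100 * tri w = 0 := by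
      refine le_antisymm ?_ zero_le
      exact le_trans le_self_add h
    have h5 : tri w = 0 := by
      rcases mul_eq_zero.1 h4 with h6 | h6
      · norm_num at h6
      · exact h6
    rw [h5]
  · obtain ⟨A, E, hA, hE, hmA, hmE, hAE⟩ := deficit_1d hg hm hC hR hpos
    have hAE' : ∀ a ∈ A, ∀ b ∈ A, ∀ c ∈ E,
        2 * g' (a + b - c) ≤ g' a ∧ 2 * g' (a + b - c) ≤ g' b ∧ 2 * g' (a + b - c) ≤ g' c := by
      intro a ha b hb c hc
      obtain ⟨h1, h2, h3⟩ := hAE a ha b hb c hc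
      have key : ∀ x y : ℝ, 2 * g x ≤ g y → 2 * g' x ≤ g' y := by
        intro x y h
        have := ENNReal.ofReal_le_ofReal h
        rwa [ENNReal.ofReal_mul (by norm_num), ENNReal.ofReal_ofNat] at this
      exact ⟨key _ _ h1, key _ _ h2, key _ _ h3⟩
    have h := int_with_deficit hg'm hg'fin hκ hw hA hE hAE'
    set P := ∫⁻ t in A, g' t
    set P' := ∫⁻ t in E, g' t
    -- the cube of `I` against `P P P'`
    have hcube : I ^ 3 ≤ 68 ^ 3 * (P * P * P') := by
      calc I ^ 3 = I * I * I := by ring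
        _ ≤ (68 * P) * (68 * P) * (68 * P') := by gcongr
        _ = _ := by ring
    have hcE : 0 < cE := by
      unfold cE
      norm_num
    set δ := ENNReal.ofReal (1 - cE) with hδ
    have hδ1 : ENNReal.ofReal cE + δ = 1 := by
      rw [hδ, ← ENNReal.ofReal_add hcE.le]
      · simp
      · unfold cE
        norm_num
    have hδfin : δ ≠ ⊤ := ENNReal.ofReal_ne_top
    have hδ2 : 100 * δ * 68 ^ 3 ≤ 2 := by
      have : (100 : ℝ≥0∞) * δ * 68 ^ 3 = ENNReal.ofReal (100 * (1 - cE) * 68 ^ 3) := by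
        rw [ENNReal.ofReal_mul (by unfold cE; norm_num), ENNReal.ofReal_mul (by norm_num)]
        norm_num
        rfl
      rw [this]
      have h2 : (2 : ℝ≥0∞) = ENNReal.ofReal 2 := by norm_num
      rw [h2]
      apply ENNReal.ofReal_le_ofReal
      unfold cE
      norm_num
    have hsplit : κ * I ^ 3 = κ * ENNReal.ofReal cE * I ^ 3 + κ * δ * I ^ 3 := by
      calc κ * I ^ 3 = κ * (ENNReal.ofReal cE + δ) * I ^ 3 := by rw [hδ1, mul_one]
        _ = _ := by ring
    have hfin2 : 100 * (κ * δ * I ^ 3) ≠ ⊤ :=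
      ENNReal.mul_ne_top (by norm_num) (ENNReal.mul_ne_top (ENNReal.mul_ne_top hκ hδfin)
        (ENNReal.pow_ne_top hfin))
    have hdef : 100 * (κ * δ * I ^ 3) ≤ 2 * (κ * (P * P * P')) := by
      calc 100 * (κ * δ * I ^ 3) ≤ 100 * (κ * δ * (68 ^ 3 * (P * P * P'))) := by gcongr
        _ = (100 * δ * 68 ^ 3) * (κ * (P * P * P')) := by ring
        _ ≤ 2 * (κ * (P * P * P')) := by gcongr
    have hmain : 100 * tri w + 100 * (κ * δ * I ^ 3)
        ≤ 100 * (κ * ENNReal.ofReal cE * I ^ 3) + 100 * (κ * δ * I ^ 3) := by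
      calc 100 * tri w + 100 * (κ * δ * I ^ 3) ≤ 100 * tri w + 2 * (κ * (P * P * P')) := by gcongr
        _ ≤ 100 * (κ * I ^ 3) := h
        _ = _ := by rw [hsplit]; ring
    have h2 := (ENNReal.add_le_add_iff_right hfin2).1 hmain
    exact (ENNReal.mul_le_mul_iff_right (by norm_num) (by norm_num)).1 h2

end Vale.Agent.Lib.P230
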