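import Vale.Agent.Lib.P230.EnergyGCS
import Vale.Agent.Lib.P230.EnergyInt

/-!
# P230 module E: exponentially small additive energy of convex sets.

Induction on the dimension: Gowers-Cauchy-Schwarz on the sections (`EnergyGCS`), and the
one-dimensional inequality with deficit for the log-concave section function (`EnergyInt`).
-/

open MeasureTheory
open scoped ENNReal

namespace Vale.Agent.Lib.P230

open Vale.Agent.Lib.P074

/-- Continuous additive energy of a set. -/
noncomputable def contEnergy {m : ℕ} (D : Set (Fin m → ℝ)) : ℝ≥0∞ :=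
  volume {p : (Fin m → ℝ) × (Fin m → ℝ) × (Fin m → ℝ) |
    p.1 ∈ D ∧ p.2.1 ∈ D ∧ p.2.2 ∈ D ∧ p.1 + p.2.1 - p.2.2 ∈ D}

lemma swap6 {V : Type*} [MeasurableSpace V] {μ : Measure V} [SFinite μ]
    {Ψ : ℝ → V → ℝ → V → ℝ → V → ℝ≥0∞}
    (hΨ : Measurable fun p : ℝ × V × ℝ × V × ℝ × V =>
      Ψ p.1 p.2.1 p.2.2.1 p.2.2.2.1 p.2.2.2.2.1 p.2.2.2.2.2) :
    ∫⁻ t₁, ∫⁻ x₁, ∫⁻ t₂, ∫⁻ x₂, ∫⁻ t₃, ∫⁻ x₃, Ψ t₁ x₁ t₂ x₂ t₃ x₃ ∂μ ∂volume ∂μ ∂volume ∂μ ∂volume
      = ∫⁻ t₁, ∫⁻ t₂, ∫⁻ t₃, ∫⁻ x₁, ∫⁻ x₂, ∫⁻ x₃, Ψ t₁ x₁ t₂ x₂ t₃ x₃ ∂μ ∂μ ∂μ ∂volume ∂volume ∂volume := by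
  have m0 : ∀ {α : Type _} [MeasurableSpace α] {a1 : α → ℝ} {a2 : α → V} {a3 : α → ℝ} {a4 : α → V}
      {a5 : α → ℝ} {a6 : α → V}, Measurable a1 → Measurable a2 → Measurable a3 → Measurable a4 →
      Measurable a5 → Measurable a6 →
      Measurable fun q => Ψ (a1 q) (a2 q) (a3 q) (a4 q) (a5 q) (a6 q) := by
    intro α _ a1 a2 a3 a4 a5 a6 h1 h2 h3 h4 h5 h6
    exact hΨ.comp (h1.prodMk (h2.prodMk (h3.prodMk (h4.prodMk (h5.prodMk h6)))))
  refine lintegral_congr fun t₁ => ?_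
  rw [lintegral_lintegral_swap]
  · refine lintegral_congr fun t₂ => ?_
    have h1 : ∀ x₁, ∫⁻ x₂, ∫⁻ t₃, ∫⁻ x₃, Ψ t₁ x₁ t₂ x₂ t₃ x₃ ∂μ ∂volume ∂μ
        = ∫⁻ t₃, ∫⁻ x₂, ∫⁻ x₃, Ψ t₁ x₁ t₂ x₂ t₃ x₃ ∂μ ∂μ ∂volume := by
      intro x₁
      rw [lintegral_lintegral_swap]
      have : Measurable fun p : V × ℝ => ∫⁻ x₃, Ψ t₁ x₁ t₂ p.1 p.2 x₃ ∂μ := by
        have : Measurable fun q : (V × ℝ) × V => Ψ t₁ x₁ t₂ q.1.1 q.1.2 q.2 :=
          m0 measurable_const measurable_const measurable_const (by fun_prop) (by fun_prop)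
            (by fun_prop)
        exact this.lintegral_prod_right'
      exact this.aemeasurable
    simp_rw [h1]
    rw [lintegral_lintegral_swap]
    have : Measurable fun p : V × ℝ => ∫⁻ x₂, ∫⁻ x₃, Ψ t₁ p.1 t₂ x₂ p.2 x₃ ∂μ ∂μ := by
      have h0 : Measurable fun q : ((V × ℝ) × V) × V => Ψ t₁ q.1.1.1 t₂ q.1.2 q.1.1.2 q.2 :=
        m0 measurable_const (by fun_prop) measurable_const (by fun_prop) (by fun_prop)
          (by fun_prop)
      have h2 : Measurable fun q : (V × ℝ) × V => ∫⁻ x₃, Ψ t₁ q.1.1 t₂ q.2 q.1.2 x₃ ∂μ :=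
        h0.lintegral_prod_right'
      exact h2.lintegral_prod_right'
    exact this.aemeasurable
  · have : Measurable fun p : V × ℝ => ∫⁻ x₂, ∫⁻ t₃, ∫⁻ x₃, Ψ t₁ p.1 p.2 x₂ t₃ x₃ ∂μ ∂volume ∂μ := by
      have h0 : Measurable fun q : (((V × ℝ) × V) × ℝ) × V =>
          Ψ t₁ q.1.1.1.1 q.1.1.1.2 q.1.1.2 q.1.2 q.2 :=
        m0 measurable_const (by fun_prop) (by fun_prop) (by fun_prop) (by fun_prop)
          (by fun_prop)
      have h1 : Measurable fun q : ((V × ℝ) × V) × ℝ =>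
          ∫⁻ x₃, Ψ t₁ q.1.1.1 q.1.1.2 q.1.2 q.2 x₃ ∂μ :=
        h0.lintegral_prod_right'
      have h2 : Measurable fun q : (V × ℝ) × V => ∫⁻ t₃, ∫⁻ x₃, Ψ t₁ q.1.1 q.1.2 q.2 t₃ x₃ ∂μ :=
        h1.lintegral_prod_right'
      exact h2.lintegral_prod_right'
    exact this.aemeasurable

variable {m : ℕ}

lemma ins_add_sub (k : Fin (m + 1)) (t₁ t₂ t₃ : ℝ) (x₁ x₂ x₃ : Vec m) :
    ins k t₁ x₁ + ins k t₂ x₂ - ins k t₃ x₃ = ins k (t₁ + t₂ - t₃) (x₁ + x₂ - x₃) := by
  ext j
  rcases Fin.eq_self_or_eq_succAbove k j with rfl | ⟨i, rfl⟩ <;> simp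

lemma en_slice (k : Fin (m + 1)) {F : Vec (m + 1) → ℝ≥0∞} (hF : Measurable F) :
    en volume F F F F = ∫⁻ t₁, ∫⁻ t₂, ∫⁻ t₃, en volume (fun x => F (ins k t₁ x))
      (fun x => F (ins k t₂ x)) (fun x => F (ins k t₃ x)) (fun x => F (ins k (t₁ + t₂ - t₃) x)) := by
  set Ψ : ℝ → Vec m → ℝ → Vec m → ℝ → Vec m → ℝ≥0∞ := fun t₁ x₁ t₂ x₂ t₃ x₃ =>
    F (ins k t₁ x₁) * F (ins k t₂ x₂) * F (ins k t₃ x₃) * F (ins k t₁ x₁ + ins k t₂ x₂ - ins k t₃ x₃)
    with hΨ
  have mi : ∀ {α : Type _} [MeasurableSpace α] {a : α → ℝ} {b : α → Vec m}, Measurable a →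
      Measurable b → Measurable fun q => ins k (a q) (b q) := by
    intro α _ a b ha hb
    exact (measurable_ins_pair k).comp (ha.prodMk hb)
  have mΨ : Measurable fun p : ℝ × Vec m × ℝ × Vec m × ℝ × Vec m =>
      Ψ p.1 p.2.1 p.2.2.1 p.2.2.2.1 p.2.2.2.2.1 p.2.2.2.2.2 := by
    have h1 : Measurable fun p : ℝ × Vec m × ℝ × Vec m × ℝ × Vec m => ins k p.1 p.2.1 :=
      mi (by fun_prop) (by fun_prop)
    have h2 : Measurable fun p : ℝ × Vec m × ℝ × Vec m × ℝ × Vec m => ins k p.2.2.1 p.2.2.2.1 :=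
      mi (by fun_prop) (by fun_prop)
    have h3 : Measurable fun p : ℝ × Vec m × ℝ × Vec m × ℝ × Vec m =>
        ins k p.2.2.2.2.1 p.2.2.2.2.2 := mi (by fun_prop) (by fun_prop)
    simp only [hΨ]
    fun_prop
  have step : en volume F F F F = ∫⁻ t₁, ∫⁻ x₁, ∫⁻ t₂, ∫⁻ x₂, ∫⁻ t₃, ∫⁻ x₃, Ψ t₁ x₁ t₂ x₂ t₃ x₃ := by
    have m1 : Measurable fun q : (Vec (m + 1) × Vec (m + 1)) × Vec (m + 1) =>
        F q.1.1 * F q.1.2 * F q.2 * F (q.1.1 + q.1.2 - q.2) := by fun_prop
    have m2 : Measurable fun q : Vec (m + 1) × Vec (m + 1) =>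
        ∫⁻ c, F q.1 * F q.2 * F c * F (q.1 + q.2 - c) := m1.lintegral_prod_right'
    have m3 : Measurable fun a => ∫⁻ b, ∫⁻ c, F a * F b * F c * F (a + b - c) :=
      m2.lintegral_prod_right'
    unfold en
    rw [lintegral_slice k m3]
    refine lintegral_congr fun t₁ => lintegral_congr fun x₁ => ?_
    have m2' : Measurable fun b => ∫⁻ c, F (ins k t₁ x₁) * F b * F c * F (ins k t₁ x₁ + b - c) :=
      m2.comp (measurable_const.prodMk measurable_id)
    rw [lintegral_slice k m2']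
    refine lintegral_congr fun t₂ => lintegral_congr fun x₂ => ?_
    have m1' : Measurable fun c => F (ins k t₁ x₁) * F (ins k t₂ x₂) * F c
        * F (ins k t₁ x₁ + ins k t₂ x₂ - c) := by fun_prop
    rw [lintegral_slice k m1']
  rw [step, swap6 mΨ]
  refine lintegral_congr fun t₁ => lintegral_congr fun t₂ => lintegral_congr fun t₃ => ?_
  unfold en
  refine lintegral_congr fun x₁ => lintegral_congr fun x₂ => lintegral_congr fun x₃ => ?_
  simp only [hΨ]
  rw [ins_add_sub]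

/-- The indicator with values `0,1`. -/
noncomputable def ind (D : Set (Vec m)) : Vec m → ℝ≥0∞ := D.indicator 1

lemma measurable_ind {D : Set (Vec m)} (hD : MeasurableSet D) : Measurable (ind D) :=
  measurable_one.indicator hD

lemma ind_sec (k : Fin (m + 1)) (D : Set (Vec (m + 1))) (t : ℝ) :
    (fun x => ind D (ins k t x)) = ind (sec k D t) := by
  ext x
  by_cases h : ins k t x ∈ D
  · have h' : x ∈ sec k D t := h
    simp [ind, h, h']
  · have h' : x ∉ sec k D t := h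
    simp [ind, h, h']

/-- The energy bound, by induction on the dimension. -/
theorem en_ind_le : ∀ (m : ℕ) {D : Set (Vec m)}, Convex ℝ D → Bornology.IsBounded D →
    MeasurableSet D →
    en volume (ind D) (ind D) (ind D) (ind D) ≤ ENNReal.ofReal (cE ^ m) * volume D ^ 3 := by
  intro m
  induction m with
  | zero =>
    intro D _ _ hm
    have hvol : (volume : Measure (Vec 0)) = Measure.dirac 0 := by
      rw [volume_pi, Measure.pi_of_empty]
      congr 1
      exact Subsingleton.elim _ _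
    unfold en
    simp only [hvol, lintegral_dirac]
    have e : (0 : Vec 0) + 0 - 0 = 0 := Subsingleton.elim _ _
    rw [e]
    by_cases h : (0 : Vec 0) ∈ D
    · have h1 : ind D 0 = 1 := by
        unfold ind
        rw [Set.indicator_of_mem h]
        rfl
      have h2 : Measure.dirac (0 : Vec 0) D = 1 := by
        rw [Measure.dirac_apply' _ hm]
        unfold ind at h1
        exact h1
      rw [h1, h2]
      simp
    · have h1 : ind D 0 = 0 := by
        unfold ind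
        rw [Set.indicator_of_notMem h]
      rw [h1]
      simp
  | succ m ih =>
    intro D hc hb hm
    set k : Fin (m + 1) := 0
    obtain ⟨ρ, hρ⟩ := hb.subset_closedBall (0 : Vec (m + 1))
    set g : ℝ → ℝ := fun t => (volume (sec k D t)).toReal with hg
    have hvol : ∀ t, ENNReal.ofReal (g t) = volume (sec k D t) := fun t =>
      ENNReal.ofReal_toReal (volume_sec_ne_top hb t)
    have hlc : LogConc g := logConc_sec k hc hb hm
    have hvm : Measurable fun t => volume (sec k D t) := by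
      have h0 : Measurable fun q : ℝ × Vec m => ind D (ins k q.1 q.2) :=
        (measurable_ind hm).comp (measurable_ins_pair k)
      have h1 : Measurable fun t => ∫⁻ x, ind D (ins k t x) := h0.lintegral_prod_right'
      have h2 : (fun t => ∫⁻ x, ind D (ins k t x)) = fun t => volume (sec k D t) := by
        ext t
        rw [show (fun x => ind D (ins k t x)) = ind (sec k D t) from ind_sec k D t]
        unfold ind
        exact lintegral_indicator_one (measurableSet_sec k hm t)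
      rwa [h2] at h1
    have hgm : Measurable g := hvm.ennreal_toReal
    have hC : ∀ t, g t ≤ (volume (Metric.closedBall (0 : Vec m) ρ)).toReal :=
      fun t => ENNReal.toReal_mono measure_closedBall_lt_top.ne (volume_sec_le hρ t)
    have hR : ∀ t, g t ≠ 0 → |t| ≤ ρ := by
      intro t ht
      refine volume_sec_eq_zero (k := k) hρ ?_
      intro h
      exact ht (by simp [hg, h])
    have hInt : ∫⁻ t, ENNReal.ofReal (g t) = volume D := by
      rw [volume_eq_lintegral_sec k hm]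
      exact lintegral_congr hvol
    have hfin : ∫⁻ t, ENNReal.ofReal (g t) ≠ ⊤ := by
      rw [hInt]
      exact hb.measure_lt_top.ne
    set κ := ENNReal.ofReal (cE ^ m) with hκ
    have hκfin : κ ≠ ⊤ := ENNReal.ofReal_ne_top
    set w : ℝ → ℝ → ℝ → ℝ≥0∞ := fun t₁ t₂ t₃ => en volume (ind (sec k D t₁)) (ind (sec k D t₂))
      (ind (sec k D t₃)) (ind (sec k D (t₁ + t₂ - t₃))) with hw
    have hE : ∀ t, en volume (ind (sec k D t)) (ind (sec k D t)) (ind (sec k D t)) (ind (sec k D t))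
        ≤ κ * ENNReal.ofReal (g t) ^ 3 := by
      intro t
      rw [hvol]
      exact ih (Convex.sec hc t) (IsBounded.sec hb t) (measurableSet_sec k hm t)
    have hw4 : ∀ a b c, w a b c ^ 4 ≤ κ ^ 4 * (ENNReal.ofReal (g a) * ENNReal.ofReal (g b)
        * ENNReal.ofReal (g c) * ENNReal.ofReal (g (a + b - c))) ^ 3 := by
      intro a b c
      have hms : ∀ t, Measurable (ind (sec k D t)) := fun t =>
        measurable_ind (measurableSet_sec k hm t)
      calc w a b c ^ 4 ≤ _ := en_pow_four_le (hms _) (hms _) (hms _) (hms _)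
        _ ≤ (κ * ENNReal.ofReal (g a) ^ 3) * (κ * ENNReal.ofReal (g b) ^ 3)
            * (κ * ENNReal.ofReal (g c) ^ 3) * (κ * ENNReal.ofReal (g (a + b - c)) ^ 3) := by
            gcongr <;> exact hE _
        _ = _ := by ring
    have hmain := key_1d hlc hgm hC hR hfin hκfin hw4
    rw [hInt] at hmain
    have hslice := en_slice k (measurable_ind hm)
    simp_rw [ind_sec k D] at hslice
    rw [hslice]
    have hfinal : ENNReal.ofReal (cE ^ (m + 1)) = κ * ENNReal.ofReal cE := by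
      rw [hκ, ← ENNReal.ofReal_mul (by unfold cE; positivity), pow_succ]
    rw [hfinal]
    exact hmain

lemma contEnergy_eq {D : Set (Vec m)} (hm : MeasurableSet D) :
    contEnergy D = en volume (ind D) (ind D) (ind D) (ind D) := by
  have hS : MeasurableSet {p : Vec m × Vec m × Vec m |
      p.1 ∈ D ∧ p.2.1 ∈ D ∧ p.2.2 ∈ D ∧ p.1 + p.2.1 - p.2.2 ∈ D} := by
    have h1 : MeasurableSet {p : Vec m × Vec m × Vec m | p.1 ∈ D} := measurable_fst hm
    have h2 : MeasurableSet {p : Vec m × Vec m × Vec m | p.2.1 ∈ D} :=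
      (measurable_fst.comp measurable_snd) hm
    have h3 : MeasurableSet {p : Vec m × Vec m × Vec m | p.2.2 ∈ D} :=
      (measurable_snd.comp measurable_snd) hm
    have h4 : MeasurableSet {p : Vec m × Vec m × Vec m | p.1 + p.2.1 - p.2.2 ∈ D} := by
      have : Measurable fun p : Vec m × Vec m × Vec m => p.1 + p.2.1 - p.2.2 := by fun_prop
      exact this hm
    exact h1.inter (h2.inter (h3.inter h4))
  unfold contEnergy
  rw [← lintegral_indicator_one hS, Measure.volume_eq_prod]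
  have hmeas : Measurable fun p : Vec m × Vec m × Vec m =>
      ind D p.1 * ind D p.2.1 * ind D p.2.2 * ind D (p.1 + p.2.1 - p.2.2) := by
    have := measurable_ind hm
    fun_prop
  have hpt : ∀ p : Vec m × Vec m × Vec m, Set.indicator {p : Vec m × Vec m × Vec m |
      p.1 ∈ D ∧ p.2.1 ∈ D ∧ p.2.2 ∈ D ∧ p.1 + p.2.1 - p.2.2 ∈ D} 1 p
      = ind D p.1 * ind D p.2.1 * ind D p.2.2 * ind D (p.1 + p.2.1 - p.2.2) := by
    intro p
    by_cases h1 : p.1 ∈ D <;> by_cases h2 : p.2.1 ∈ D <;> by_cases h3 : p.2.2 ∈ D <;>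
      by_cases h4 : p.1 + p.2.1 - p.2.2 ∈ D <;> simp [ind, Set.indicator, h1, h2, h3, h4]
  simp_rw [hpt]
  rw [lintegral_prod _ hmeas.aemeasurable]
  unfold en
  refine lintegral_congr fun a => ?_
  have hmeas' : Measurable fun q : Vec m × Vec m =>
      ind D a * ind D q.1 * ind D q.2 * ind D (a + q.1 - q.2) :=
    hmeas.comp (measurable_const.prodMk measurable_id)
  rw [Measure.volume_eq_prod, lintegral_prod _ hmeas'.aemeasurable]

/-- Main continuous theorem. -/
theorem contEnergy_le {m : ℕ} {D : Set (Fin m → ℝ)} (hc : Convex ℝ D)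
    (hb : Bornology.IsBounded D) (hm : MeasurableSet D) :
    contEnergy D ≤ ENNReal.ofReal (cE ^ m) * volume D ^ 3 := by
  rw [contEnergy_eq hm]
  exact en_ind_le m hc hb hm

/-- The half open unit box at an integer point. -/
def ubox (s : Fin m → ℤ) : Set (Vec m) := Set.pi Set.univ fun i => Set.Ico (s i : ℝ) (s i + 1)

lemma measurableSet_ubox (s : Fin m → ℤ) : MeasurableSet (ubox s) :=
  MeasurableSet.univ_pi fun _ => measurableSet_Ico

lemma volume_ubox (s : Fin m → ℤ) : volume (ubox s) = 1 := by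
  unfold ubox
  rw [volume_pi_pi]
  simp

lemma ubox_unique {s t : Fin m → ℤ} {x : Vec m} (h1 : x ∈ ubox s) (h2 : x ∈ ubox t) : s = t := by
  ext i
  have a := h1 i (Set.mem_univ i)
  have b := h2 i (Set.mem_univ i)
  have a1 : (s i : ℝ) < t i + 1 := lt_of_le_of_lt a.1 b.2
  have b1 : (t i : ℝ) < s i + 1 := lt_of_le_of_lt b.1 a.2
  have a2 : s i < t i + 1 := by exact_mod_cast a1
  have b2 : t i < s i + 1 := by exact_mod_cast b1
  omega

/-- Discrete version: if the unit thickening of `A` stays in `D`. -/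
theorem energy_le_of_thick {m : ℕ} {D : Set (Fin m → ℝ)} (hc : Convex ℝ D)
    (hb : Bornology.IsBounded D) (hm : MeasurableSet D) (A : Finset (Fin m → ℤ))
    (hA : ∀ v ∈ A, ∀ δ : Fin m → ℝ, (∀ i, -1 ≤ δ i ∧ δ i ≤ 2) → toR v + δ ∈ D) :
    (energy A : ℝ≥0∞) ≤ ENNReal.ofReal (cE ^ m) * volume D ^ 3 := by
  refine le_trans ?_ (contEnergy_le hc hb hm)
  classical
  set T := (A ×ˢ A ×ˢ A).filter (fun p => p.1 + p.2.1 - p.2.2 ∈ A) with hT
  have hE : energy A = T.card := by
    unfold energy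
    rw [hT]
    congr!
  set box : (Fin m → ℤ) × (Fin m → ℤ) × (Fin m → ℤ) → Set (Vec m × Vec m × Vec m) :=
    fun p => ubox p.1 ×ˢ ubox p.2.1 ×ˢ ubox p.2.2 with hbox
  have hboxm : ∀ p, MeasurableSet (box p) := fun p =>
    (measurableSet_ubox _).prod ((measurableSet_ubox _).prod (measurableSet_ubox _))
  have hboxv : ∀ p, volume (box p) = 1 := by
    intro p
    rw [Measure.volume_eq_prod, hbox]
    simp only
    rw [Measure.prod_prod, Measure.volume_eq_prod, Measure.prod_prod, volume_ubox, volume_ubox,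
      volume_ubox]
    simp
  have hdisj : Set.PairwiseDisjoint (T : Set ((Fin m → ℤ) × (Fin m → ℤ) × (Fin m → ℤ))) box := by
    intro p _ q _ hpq
    rw [Function.onFun, Set.disjoint_left]
    rintro ⟨x, y, z⟩ ⟨h1, h2, h3⟩ ⟨h4, h5, h6⟩
    apply hpq
    have e1 := ubox_unique h1 h4
    have e2 := ubox_unique h2 h5
    have e3 := ubox_unique h3 h6
    exact Prod.ext e1 (Prod.ext e2 e3)
  have hvolT : volume (⋃ p ∈ T, box p) = (T.card : ℝ≥0∞) := by
    rw [measure_biUnion_finset hdisj fun p _ => hboxm p]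
    simp [hboxv]
  rw [hE, ← hvolT]
  unfold contEnergy
  refine measure_mono ?_
  intro w hw
  simp only [Set.mem_iUnion, exists_prop] at hw
  obtain ⟨p, hp, h1, h2, h3⟩ := hw
  rw [hT, Finset.mem_filter, Finset.mem_product, Finset.mem_product] at hp
  obtain ⟨⟨hp1, hp2, hp3⟩, hp4⟩ := hp
  have hthick : ∀ s ∈ A, ∀ x ∈ ubox s, x ∈ D := by
    intro s hs x hx
    have := hA s hs (x - toR s) (fun i => by
      have := hx i (Set.mem_univ i)
      simp only [Pi.sub_apply, toR]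
      constructor <;> linarith [this.1, this.2])
    simpa using this
  refine ⟨hthick _ hp1 _ h1, hthick _ hp2 _ h2, hthick _ hp3 _ h3, ?_⟩
  have := hA _ hp4 (w.1 + w.2.1 - w.2.2 - toR (p.1 + p.2.1 - p.2.2)) (fun i => by
    have a := h1 i (Set.mem_univ i)
    have b := h2 i (Set.mem_univ i)
    have c := h3 i (Set.mem_univ i)
    simp only [Pi.sub_apply, Pi.add_apply, toR]
    push_cast
    constructor <;> linarith [a.1, a.2, b.1, b.2, c.1, c.2])
  simpa using this

end Vale.Agent.Lib.P230
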