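import Mathlib

/-!
# P230: Gowers-Cauchy-Schwarz for the additive energy form on a measurable abelian group.
-/

open MeasureTheory
open scoped ENNReal

set_option linter.unusedSectionVars false

namespace Vale.Agent.Lib.P230

section CS

variable {α : Type*} [MeasurableSpace α] {μ : Measure α}

/-- Cauchy-Schwarz for lower integrals. -/
lemma lintegral_mul_sq_le {F G : α → ℝ≥0∞} (hF : AEMeasurable F μ) (hG : AEMeasurable G μ) :
    (∫⁻ a, F a * G a ∂μ) ^ 2 ≤ (∫⁻ a, F a ^ 2 ∂μ) * (∫⁻ a, G a ^ 2 ∂μ) := by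
  have h := ENNReal.lintegral_mul_le_Lp_mul_Lq μ Real.HolderConjugate.two_two hF hG
  have h2 : (∫⁻ a, (F * G) a ∂μ) ^ 2 ≤
      ((∫⁻ a, F a ^ (2 : ℝ) ∂μ) ^ ((1 : ℝ) / 2) * (∫⁻ a, G a ^ (2 : ℝ) ∂μ) ^ ((1 : ℝ) / 2)) ^ 2 := by
    gcongr
  have e1 : ∀ x : ℝ≥0∞, x ^ ((1 : ℝ) / 2) * x ^ ((1 : ℝ) / 2) = x := by
    intro x
    rw [← ENNReal.rpow_add_of_nonneg _ _ (by norm_num) (by norm_num)]
    norm_num
  have e2 : ∀ H : α → ℝ≥0∞, (∫⁻ a, H a ^ (2 : ℝ) ∂μ) = ∫⁻ a, H a ^ 2 ∂μ := by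
    intro H
    refine lintegral_congr fun a => ?_
    rw [← ENNReal.rpow_natCast]
    norm_num
  rw [e2 F, e2 G] at h2
  calc (∫⁻ a, F a * G a ∂μ) ^ 2 = (∫⁻ a, (F * G) a ∂μ) ^ 2 := rfl
    _ ≤ _ := h2
    _ = _ := by
      rw [mul_pow, pow_two ((∫⁻ a, F a ^ 2 ∂μ) ^ ((1 : ℝ) / 2)),
        pow_two ((∫⁻ a, G a ^ 2 ∂μ) ^ ((1 : ℝ) / 2)), e1, e1]

end CS

section Group

variable {G : Type*} [AddCommGroup G] [MeasurableSpace G] [MeasurableAdd₂ G] [MeasurableSub₂ G]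
  {μ : Measure G} [μ.IsAddLeftInvariant] [SFinite μ]

/-- The energy form. -/
noncomputable def en (μ : Measure G) (f₁ f₂ f₃ f₄ : G → ℝ≥0∞) : ℝ≥0∞ :=
  ∫⁻ a, ∫⁻ b, ∫⁻ c, f₁ a * f₂ b * f₃ c * f₄ (a + b - c) ∂μ ∂μ ∂μ

/-- Convolution. -/
noncomputable def cnv (μ : Measure G) (f g : G → ℝ≥0∞) (x : G) : ℝ≥0∞ :=
  ∫⁻ a, f a * g (x - a) ∂μ

/-- Correlation. -/
noncomputable def corr (μ : Measure G) (f : G → ℝ≥0∞) (y : G) : ℝ≥0∞ :=
  ∫⁻ c, f (c + y) * f c ∂μ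

lemma measurable_cnv {f g : G → ℝ≥0∞} (hf : Measurable f) (hg : Measurable g) :
    Measurable (cnv μ f g) := by
  have : Measurable fun p : G × G => f p.2 * g (p.1 - p.2) := by fun_prop
  exact this.lintegral_prod_right'

lemma measurable_corr {f : G → ℝ≥0∞} (hf : Measurable f) : Measurable (corr μ f) := by
  have : Measurable fun p : G × G => f (p.2 + p.1) * f p.2 := by fun_prop
  exact this.lintegral_prod_right'

lemma en_eq_cnv {f₁ f₂ f₃ f₄ : G → ℝ≥0∞} (h₁ : Measurable f₁) (h₂ : Measurable f₂)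
    (h₃ : Measurable f₃) (h₄ : Measurable f₄) :
    en μ f₁ f₂ f₃ f₄ = ∫⁻ x, cnv μ f₁ f₂ x * cnv μ f₃ f₄ x ∂μ := by
  have step1 : ∀ x, cnv μ f₁ f₂ x * cnv μ f₃ f₄ x
      = ∫⁻ a, ∫⁻ c, f₁ a * f₂ (x - a) * (f₃ c * f₄ (x - c)) ∂μ ∂μ := by
    intro x
    have hm : Measurable fun a => f₁ a * f₂ (x - a) := by fun_prop
    have hm' : Measurable fun c => f₃ c * f₄ (x - c) := by fun_prop
    rw [cnv, cnv, ← lintegral_mul_const _ hm]
    refine lintegral_congr fun a => ?_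
    rw [lintegral_const_mul _ hm']
  simp_rw [step1]
  rw [lintegral_lintegral_swap]
  · unfold en
    refine lintegral_congr fun a => ?_
    rw [← lintegral_add_left_eq_self (fun x => ∫⁻ c, f₁ a * f₂ (x - a) * (f₃ c * f₄ (x - c)) ∂μ) a]
    refine lintegral_congr fun b => ?_
    refine lintegral_congr fun c => ?_
    have : a + b - a = b := by abel
    rw [this]
    ring
  · have : Measurable fun p : G × G => ∫⁻ c, f₁ p.2 * f₂ (p.1 - p.2) * (f₃ c * f₄ (p.1 - c)) ∂μ := by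
      have : Measurable fun q : (G × G) × G =>
          f₁ q.1.2 * f₂ (q.1.1 - q.1.2) * (f₃ q.2 * f₄ (q.1.1 - q.2)) := by fun_prop
      exact this.lintegral_prod_right'
    exact this.aemeasurable

lemma en_eq_corr {f g : G → ℝ≥0∞} (hf : Measurable f) (hg : Measurable g) :
    en μ f g f g = ∫⁻ y, corr μ f y * corr μ g y ∂μ := by
  have step1 : ∀ y, corr μ f y * corr μ g y
      = ∫⁻ c, ∫⁻ b, f (c + y) * f c * (g (b + y) * g b) ∂μ ∂μ := by
    intro y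
    have hm : Measurable fun c => f (c + y) * f c := by fun_prop
    have hm' : Measurable fun b => g (b + y) * g b := by fun_prop
    rw [corr, corr, ← lintegral_mul_const _ hm]
    refine lintegral_congr fun c => ?_
    rw [lintegral_const_mul _ hm']
  simp_rw [step1]
  rw [lintegral_lintegral_swap]
  · unfold en
    -- reorder the left side as `c, a, b`
    have hL : ∀ a, (∫⁻ b, ∫⁻ c, f a * g b * f c * g (a + b - c) ∂μ ∂μ)
        = ∫⁻ c, ∫⁻ b, f a * g b * f c * g (a + b - c) ∂μ ∂μ := by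
      intro a
      rw [lintegral_lintegral_swap]
      have : Measurable fun p : G × G => f a * g p.1 * f p.2 * g (a + p.1 - p.2) := by fun_prop
      exact this.aemeasurable
    simp_rw [hL]
    rw [lintegral_lintegral_swap]
    · refine lintegral_congr fun c => ?_
      rw [← lintegral_add_left_eq_self (fun a => ∫⁻ b, f a * g b * f c * g (a + b - c) ∂μ) c]
      refine lintegral_congr fun y => ?_
      refine lintegral_congr fun b => ?_
      have : c + y + b - c = b + y := by abel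
      rw [this]
      ring
    · have : Measurable fun p : G × G => ∫⁻ b, f p.1 * g b * f p.2 * g (p.1 + b - p.2) ∂μ := by
        have : Measurable fun q : (G × G) × G =>
            f q.1.1 * g q.2 * f q.1.2 * g (q.1.1 + q.2 - q.1.2) := by fun_prop
        exact this.lintegral_prod_right'
      exact this.aemeasurable
  · have : Measurable fun p : G × G => ∫⁻ b, f (p.2 + p.1) * f p.2 * (g (b + p.1) * g b) ∂μ := by
      have : Measurable fun q : (G × G) × G =>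
          f (q.1.2 + q.1.1) * f q.1.2 * (g (q.2 + q.1.1) * g q.2) := by fun_prop
      exact this.lintegral_prod_right'
    exact this.aemeasurable

lemma en_sq_le {f₁ f₂ f₃ f₄ : G → ℝ≥0∞} (h₁ : Measurable f₁) (h₂ : Measurable f₂)
    (h₃ : Measurable f₃) (h₄ : Measurable f₄) :
    en μ f₁ f₂ f₃ f₄ ^ 2 ≤ en μ f₁ f₂ f₁ f₂ * en μ f₃ f₄ f₃ f₄ := by
  rw [en_eq_cnv h₁ h₂ h₃ h₄, en_eq_cnv h₁ h₂ h₁ h₂, en_eq_cnv h₃ h₄ h₃ h₄]
  simp only [← pow_two]
  exact lintegral_mul_sq_le (measurable_cnv h₁ h₂).aemeasurable (measurable_cnv h₃ h₄).aemeasurable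

lemma en_sq_le' {f g : G → ℝ≥0∞} (hf : Measurable f) (hg : Measurable g) :
    en μ f g f g ^ 2 ≤ en μ f f f f * en μ g g g g := by
  rw [en_eq_corr hf hg, en_eq_corr hf hf, en_eq_corr hg hg]
  simp only [← pow_two]
  exact lintegral_mul_sq_le (measurable_corr hf).aemeasurable (measurable_corr hg).aemeasurable

/-- **Gowers-Cauchy-Schwarz.** -/
theorem en_pow_four_le {f₁ f₂ f₃ f₄ : G → ℝ≥0∞} (h₁ : Measurable f₁) (h₂ : Measurable f₂)
    (h₃ : Measurable f₃) (h₄ : Measurable f₄) :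
    en μ f₁ f₂ f₃ f₄ ^ 4 ≤
      en μ f₁ f₁ f₁ f₁ * en μ f₂ f₂ f₂ f₂ * en μ f₃ f₃ f₃ f₃ * en μ f₄ f₄ f₄ f₄ := by
  calc en μ f₁ f₂ f₃ f₄ ^ 4 = (en μ f₁ f₂ f₃ f₄ ^ 2) ^ 2 := by ring
    _ ≤ (en μ f₁ f₂ f₁ f₂ * en μ f₃ f₄ f₃ f₄) ^ 2 := by
        gcongr
        exact en_sq_le h₁ h₂ h₃ h₄
    _ = en μ f₁ f₂ f₁ f₂ ^ 2 * en μ f₃ f₄ f₃ f₄ ^ 2 := by ring
    _ ≤ (en μ f₁ f₁ f₁ f₁ * en μ f₂ f₂ f₂ f₂) * (en μ f₃ f₃ f₃ f₃ * en μ f₄ f₄ f₄ f₄) := by
        gcongr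
        · exact en_sq_le' h₁ h₂
        · exact en_sq_le' h₃ h₄
    _ = _ := by ring

end Group

end Vale.Agent.Lib.P230
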