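import Vale.Agent.Lib.P230.EnergyGCS
import Vale.Agent.Lib.P074.Part1

/-!
# P230: log-concave functions on coordinate space, Prekopa-Leindler, convolution.
-/

open MeasureTheory Set Filter Topology
open scoped ENNReal

namespace Vale.Agent.Lib.P230

open Vale.Agent.Lib.P074

variable {n : ℕ}

/-- Bounded measurable log-concave functions with bounded support. -/
structure LCF (F : Vec n → ℝ≥0∞) : Prop where
  meas : Measurable F
  bdd : ∃ C : ℝ≥0∞, C ≠ ⊤ ∧ ∀ x, F x ≤ C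
  supp : ∃ ρ : ℝ, ∀ x, F x ≠ 0 → ‖x‖ ≤ ρ
  lc : ∀ (x z : Vec n) (l : ℝ), 0 < l → l < 1 →
    F x ^ (1 - l) * F z ^ l ≤ F ((1 - l) • x + l • z)

lemma norm_le_norm_ins (k : Fin (n + 1)) (t : ℝ) (x : Vec n) : ‖x‖ ≤ ‖ins k t x‖ := by
  refine (pi_norm_le_iff_of_nonneg (norm_nonneg _)).2 fun j => ?_
  have h2 := norm_le_pi_norm (ins k t x) (k.succAbove j)
  simpa only [ins_succAbove] using h2

lemma abs_le_norm_ins (k : Fin (n + 1)) (t : ℝ) (x : Vec n) : |t| ≤ ‖ins k t x‖ := by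
  have h2 := norm_le_pi_norm (ins k t x) k
  simpa only [ins_same, Real.norm_eq_abs] using h2

/-- Slices of a log-concave function. -/
lemma LCF.sec {F : Vec (n + 1) → ℝ≥0∞} (h : LCF F) (k : Fin (n + 1)) (t : ℝ) :
    LCF (fun x => F (ins k t x)) := by
  refine ⟨h.meas.comp (measurable_ins k t), ?_, ?_, ?_⟩
  · obtain ⟨C, hC, hC'⟩ := h.bdd
    exact ⟨C, hC, fun x => hC' _⟩
  · obtain ⟨ρ, hρ⟩ := h.supp
    exact ⟨ρ, fun x hx => (norm_le_norm_ins k t x).trans (hρ _ hx)⟩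
  · intro x z l h0 h1
    have := h.lc (ins k t x) (ins k t z) l h0 h1
    rw [ins_combo] at this
    have e : (1 - l) * t + l * t = t := by ring
    rwa [e] at this

/-- The slice inequality. -/
lemma LCF.sec_le {F : Vec (n + 1) → ℝ≥0∞} (h : LCF F) (k : Fin (n + 1)) (s t : ℝ) (x z : Vec n)
    (l : ℝ) (h0 : 0 < l) (h1 : l < 1) :
    F (ins k s x) ^ (1 - l) * F (ins k t z) ^ l ≤
      F (ins k ((1 - l) * s + l * t) ((1 - l) • x + l • z)) := by
  have := h.lc (ins k s x) (ins k t z) l h0 h1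
  rwa [ins_combo] at this

/-- The integral of a bounded function with bounded support is finite. -/
lemma LCF.lintegral_ne_top {F : Vec n → ℝ≥0∞} (h : LCF F) : ∫⁻ x, F x ≠ ⊤ := by
  obtain ⟨C, hC, hC'⟩ := h.bdd
  obtain ⟨ρ, hρ⟩ := h.supp
  have h1 : ∀ x, F x ≤ (Metric.closedBall (0 : Vec n) ρ).indicator (fun _ => C) x := by
    intro x
    by_cases hx : F x = 0
    · rw [hx]; exact zero_le
    · rw [Set.indicator_of_mem (by
        rw [mem_closedBall_zero_iff]
        exact hρ x hx)]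
      exact hC' x
  have h2 : ∫⁻ x, (Metric.closedBall (0 : Vec n) ρ).indicator (fun _ => C) x < ⊤ := by
    rw [lintegral_indicator Metric.isClosed_closedBall.measurableSet]
    simp only [lintegral_const, Measure.restrict_apply, MeasurableSet.univ, Set.univ_inter]
    exact ENNReal.mul_lt_top hC.lt_top measure_closedBall_lt_top
  exact ne_top_of_le_ne_top h2.ne (lintegral_mono h1)

/-- The integral of the slices is bounded, uniformly. -/
lemma LCF.lintegral_sec_le {F : Vec (n + 1) → ℝ≥0∞} (h : LCF F) (k : Fin (n + 1)) :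
    ∃ C : ℝ≥0∞, C ≠ ⊤ ∧ ∀ t, ∫⁻ x, F (ins k t x) ≤ C := by
  obtain ⟨C, hC, hC'⟩ := h.bdd
  obtain ⟨ρ, hρ⟩ := h.supp
  refine ⟨C * volume (Metric.closedBall (0 : Vec n) ρ),
    ENNReal.mul_ne_top hC measure_closedBall_lt_top.ne, fun t => ?_⟩
  have h1 : ∀ x, F (ins k t x) ≤ (Metric.closedBall (0 : Vec n) ρ).indicator (fun _ => C) x := by
    intro x
    by_cases hx : F (ins k t x) = 0
    · rw [hx]; exact zero_le
    · rw [Set.indicator_of_mem (by
        rw [mem_closedBall_zero_iff]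
        exact (norm_le_norm_ins k t x).trans (hρ _ hx))]
      exact hC' _
  refine (lintegral_mono h1).trans ?_
  rw [lintegral_indicator Metric.isClosed_closedBall.measurableSet]
  simp

lemma LCF.sec_support {F : Vec (n + 1) → ℝ≥0∞} (h : LCF F) (k : Fin (n + 1)) :
    ∃ ρ : ℝ, ∀ t, ∫⁻ x, F (ins k t x) ≠ 0 → |t| ≤ ρ := by
  obtain ⟨ρ, hρ⟩ := h.supp
  refine ⟨ρ, fun t ht => ?_⟩
  have : ∃ x, F (ins k t x) ≠ 0 := by
    by_contra hcon
    push Not at hcon
    exact ht (by simp [hcon])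
  obtain ⟨x, hx⟩ := this
  exact (abs_le_norm_ins k t x).trans (hρ _ hx)

/-- **Prekopa-Leindler** for bounded log-concave functions with bounded support. -/
theorem pl_vec : ∀ (n : ℕ) {A B C : Vec n → ℝ≥0∞}, LCF A → LCF B → Measurable C →
    ∀ {ε : ℝ}, 0 < ε → ε < 1 →
    (∀ x z, A x ^ (1 - ε) * B z ^ ε ≤ C ((1 - ε) • x + ε • z)) →
    (∫⁻ x, A x) ^ (1 - ε) * (∫⁻ x, B x) ^ ε ≤ ∫⁻ x, C x := by
  intro n
  induction n with
  | zero =>
    intro A B C _ _ _ ε _ _ hsub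
    have hvol : (volume : Measure (Vec 0)) = Measure.dirac 0 := by
      rw [volume_pi, Measure.pi_of_empty]
      congr 1
      exact Subsingleton.elim _ _
    simp only [hvol, lintegral_dirac]
    have := hsub 0 0
    rwa [Subsingleton.elim ((1 - ε) • (0 : Vec 0) + ε • (0 : Vec 0)) 0] at this
  | succ n ih =>
    intro A B C hA hB hC ε h0 h1 hsub
    have h1e : 0 < 1 - ε := by linarith
    set k : Fin (n + 1) := 0
    have mC : ∀ w, Measurable fun x => C (ins k w x) := fun w => hC.comp (measurable_ins k w)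
    -- the slice functions
    have hloga : ∀ {E : Vec (n + 1) → ℝ≥0∞}, LCF E → LogConc (fun t => (∫⁻ x, E (ins k t x)).toReal) := by
      intro E hE
      refine ⟨fun t => ENNReal.toReal_nonneg, fun s t l hl0 hl1 => ?_⟩
      have h2 := ih (hE.sec k s) (hE.sec k t) (hE.meas.comp (measurable_ins k _)) hl0 hl1
        (fun x z => hE.sec_le k s t x z l hl0 hl1)
      exact toReal_rpow_mul_le (hE.sec k _).lintegral_ne_top h2
    have hboundR : ∀ {E : Vec (n + 1) → ℝ≥0∞}, LCF E →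
        ∃ D : ℝ, ∀ t, (∫⁻ x, E (ins k t x)).toReal ≤ D := by
      intro E hE
      obtain ⟨D, hD, hD'⟩ := hE.lintegral_sec_le k
      exact ⟨D.toReal, fun t => ENNReal.toReal_mono hD (hD' t)⟩
    have hsuppR : ∀ {E : Vec (n + 1) → ℝ≥0∞}, LCF E →
        ∃ ρ : ℝ, ∀ t, (∫⁻ x, E (ins k t x)).toReal ≠ 0 → |t| ≤ ρ := by
      intro E hE
      obtain ⟨ρ, hρ⟩ := hE.sec_support k
      exact ⟨ρ, fun t ht => hρ t (fun h => ht (by simp [h]))⟩
    obtain ⟨D₁, hD₁⟩ := hboundR hA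
    obtain ⟨D₂, hD₂⟩ := hboundR hB
    obtain ⟨ρ₁, hρ₁⟩ := hsuppR hA
    obtain ⟨ρ₂, hρ₂⟩ := hsuppR hB
    set a : ℝ → ℝ := fun t => (∫⁻ x, A (ins k t x)).toReal with ha
    set u : ℝ → ℝ := fun t => (∫⁻ x, B (ins k t x)).toReal with hu
    have hv : ∀ s t, ENNReal.ofReal (a s ^ (1 - ε) * u t ^ ε) ≤
        ∫⁻ x, C (ins k ((1 - ε) * s + ε * t) x) := by
      intro s t
      rw [ofReal_rpow_mul (hA.sec k s).lintegral_ne_top (hB.sec k t).lintegral_ne_top h1e h0]
      refine ih (hA.sec k s) (hB.sec k t) (mC _) h0 h1 (fun x z => ?_)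
      have := hsub (ins k s x) (ins k t z)
      rwa [ins_combo] at this
    have key := pl_one_dim (hloga hA) (hloga hB)
      (C := max D₁ D₂) (R := max ρ₁ ρ₂)
      (fun t => (hD₁ t).trans (le_max_left _ _)) (fun t ht => (hρ₁ t ht).trans (le_max_left _ _))
      (fun t => (hD₂ t).trans (le_max_right _ _)) (fun t ht => (hρ₂ t ht).trans (le_max_right _ _))
      h0 h1 (fun w => ∫⁻ x, C (ins k w x)) hv
    have hI : ∀ {E : Vec (n + 1) → ℝ≥0∞}, LCF E →
        ∫⁻ t, ENNReal.ofReal ((∫⁻ x, E (ins k t x)).toReal) = ∫⁻ x, E x := by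
      intro E hE
      rw [lintegral_slice k hE.meas]
      exact lintegral_congr fun t => ENNReal.ofReal_toReal (hE.sec k t).lintegral_ne_top
    rw [hI hA, hI hB, ← lintegral_slice k hC] at key
    exact key

/-- The integrals of the slices of a log-concave function are log-concave. -/
lemma LCF.logConc_slice {E : Vec (n + 1) → ℝ≥0∞} (hE : LCF E) (k : Fin (n + 1)) :
    LogConc (fun t => (∫⁻ x, E (ins k t x)).toReal) := by
  refine ⟨fun t => ENNReal.toReal_nonneg, fun s t l hl0 hl1 => ?_⟩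
  have h2 := pl_vec n (hE.sec k s) (hE.sec k t) (hE.meas.comp (measurable_ins k _)) hl0 hl1
    (fun x z => hE.sec_le k s t x z l hl0 hl1)
  exact toReal_rpow_mul_le (hE.sec k _).lintegral_ne_top h2

/-- Powers. -/
lemma LCF.rpow {F : Vec n → ℝ≥0∞} (h : LCF F) {p : ℝ} (hp : 0 < p) : LCF (fun x => F x ^ p) := by
  refine ⟨h.meas.pow_const p, ?_, ?_, ?_⟩
  · obtain ⟨C, hC, hC'⟩ := h.bdd
    exact ⟨C ^ p, ENNReal.rpow_ne_top_of_nonneg hp.le hC, fun x =>
      ENNReal.rpow_le_rpow (hC' x) hp.le⟩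
  · obtain ⟨ρ, hρ⟩ := h.supp
    refine ⟨ρ, fun x hx => hρ x ?_⟩
    intro h0
    apply hx
    simp [h0, hp]
  · intro x z l h0 h1
    have h1e : 0 ≤ 1 - l := by linarith
    have e : (F x ^ p) ^ (1 - l) * (F z ^ p) ^ l = (F x ^ (1 - l) * F z ^ l) ^ p := by
      rw [ENNReal.mul_rpow_of_nonneg _ _ hp.le, ← ENNReal.rpow_mul, ← ENNReal.rpow_mul,
        ← ENNReal.rpow_mul, ← ENNReal.rpow_mul, mul_comm p, mul_comm p]
    rw [e]
    exact ENNReal.rpow_le_rpow (h.lc x z l h0 h1) hp.le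

/-- Products. -/
lemma LCF.mul {F G : Vec n → ℝ≥0∞} (hF : LCF F) (hG : LCF G) : LCF (fun x => F x * G x) := by
  refine ⟨hF.meas.mul hG.meas, ?_, ?_, ?_⟩
  · obtain ⟨C, hC, hC'⟩ := hF.bdd
    obtain ⟨D, hD, hD'⟩ := hG.bdd
    exact ⟨C * D, ENNReal.mul_ne_top hC hD, fun x => mul_le_mul' (hC' x) (hD' x)⟩
  · obtain ⟨ρ, hρ⟩ := hF.supp
    refine ⟨ρ, fun x hx => hρ x ?_⟩
    intro h0
    apply hx
    simp [h0]
  · intro x z l h0 h1
    have h1e : 0 ≤ 1 - l := by linarith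
    have e : (F x * G x) ^ (1 - l) * (F z * G z) ^ l =
        (F x ^ (1 - l) * F z ^ l) * (G x ^ (1 - l) * G z ^ l) := by
      rw [ENNReal.mul_rpow_of_nonneg _ _ h1e, ENNReal.mul_rpow_of_nonneg _ _ h0.le]
      ring
    rw [e]
    exact mul_le_mul' (hF.lc x z l h0 h1) (hG.lc x z l h0 h1)

/-- Reflections. -/
lemma LCF.comp_sub {F : Vec n → ℝ≥0∞} (hF : LCF F) (a : Vec n) : LCF (fun x => F (a - x)) := by
  refine ⟨hF.meas.comp (measurable_const.sub measurable_id), ?_, ?_, ?_⟩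
  · obtain ⟨C, hC, hC'⟩ := hF.bdd
    exact ⟨C, hC, fun x => hC' _⟩
  · obtain ⟨ρ, hρ⟩ := hF.supp
    refine ⟨ρ + ‖a‖, fun x hx => ?_⟩
    have h1 := hρ _ hx
    have h2 : ‖x‖ ≤ ‖a - x‖ + ‖a‖ := by
      have := norm_sub_le a (a - x)
      rw [sub_sub_cancel] at this
      linarith
    linarith
  · intro x z l h0 h1
    have := hF.lc (a - x) (a - z) l h0 h1
    have e : (1 - l) • (a - x) + l • (a - z) = a - ((1 - l) • x + l • z) := by
      simp only [smul_sub, sub_smul, one_smul]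
      abel
    rwa [e] at this

/-- Indicators of convex bounded measurable sets. -/
lemma LCF.indicator {K : Set (Vec n)} (hc : Convex ℝ K) (hb : Bornology.IsBounded K)
    (hm : MeasurableSet K) : LCF (K.indicator (1 : Vec n → ℝ≥0∞)) := by
  refine ⟨measurable_one.indicator hm, ⟨1, by simp, fun x => ?_⟩, ?_, ?_⟩
  · by_cases hx : x ∈ K <;> simp [hx]
  · obtain ⟨ρ, hρ⟩ := hb.subset_closedBall (0 : Vec n)
    refine ⟨ρ, fun x hx => ?_⟩
    have hxK : x ∈ K := by
      by_contra hn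
      exact hx (Set.indicator_of_notMem hn _)
    simpa [mem_closedBall_zero_iff] using hρ hxK
  · intro x z l h0 h1
    have h1e : 0 < 1 - l := by linarith
    by_cases hx : x ∈ K
    · by_cases hz : z ∈ K
      · have := hc hx hz h1e.le h0.le (by ring)
        simp [hx, hz, this]
      · simp [hz, ENNReal.zero_rpow_of_pos h0]
    · simp [hx, ENNReal.zero_rpow_of_pos h1e]

/-- The integral of a convolution. -/
lemma lintegral_cnv {F G : Vec n → ℝ≥0∞} (hF : Measurable F) (hG : Measurable G) :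
    ∫⁻ x, cnv volume F G x = (∫⁻ x, F x) * ∫⁻ x, G x := by
  unfold cnv
  rw [lintegral_lintegral_swap (by
    have : Measurable fun p : Vec n × Vec n => F p.2 * G (p.1 - p.2) := by fun_prop
    exact this.aemeasurable), ← lintegral_mul_const _ hF]
  refine lintegral_congr fun a => ?_
  rw [lintegral_const_mul _ (by fun_prop)]
  congr 1
  exact lintegral_sub_right_eq_self (fun x => G x) a

/-- Convolutions of log-concave functions are log-concave. -/
lemma LCF.cnv {F G : Vec n → ℝ≥0∞} (hF : LCF F) (hG : LCF G) : LCF (cnv volume F G) := by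
  refine ⟨measurable_cnv hF.meas hG.meas, ?_, ?_, ?_⟩
  · obtain ⟨D, hD, hD'⟩ := hG.bdd
    refine ⟨(∫⁻ x, F x) * D, ENNReal.mul_ne_top hF.lintegral_ne_top hD, fun x => ?_⟩
    unfold P230.cnv
    rw [← lintegral_mul_const _ hF.meas]
    exact lintegral_mono fun a => mul_le_mul' le_rfl (hD' _)
  · obtain ⟨ρ₁, hρ₁⟩ := hF.supp
    obtain ⟨ρ₂, hρ₂⟩ := hG.supp
    refine ⟨ρ₁ + ρ₂, fun x hx => ?_⟩
    have : ∃ a, F a * G (x - a) ≠ 0 := by
      by_contra hcon
      push Not at hcon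
      apply hx
      unfold P230.cnv
      simp [hcon]
    obtain ⟨a, ha⟩ := this
    have h1 := hρ₁ a (left_ne_zero_of_mul ha)
    have h2 := hρ₂ _ (right_ne_zero_of_mul ha)
    have h3 : ‖x‖ ≤ ‖a‖ + ‖x - a‖ := by
      have := norm_add_le a (x - a)
      rwa [add_sub_cancel] at this
    linarith
  · intro x z l h0 h1
    unfold P230.cnv
    refine pl_vec n (hF.mul (hG.comp_sub x)) (hF.mul (hG.comp_sub z))
      (hF.meas.mul (hG.meas.comp (measurable_const.sub measurable_id))) h0 h1 (fun y₀ y₁ => ?_)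
    have h1e : 0 ≤ 1 - l := by linarith
    have e : (F y₀ * G (x - y₀)) ^ (1 - l) * (F y₁ * G (z - y₁)) ^ l =
        (F y₀ ^ (1 - l) * F y₁ ^ l) * (G (x - y₀) ^ (1 - l) * G (z - y₁) ^ l) := by
      rw [ENNReal.mul_rpow_of_nonneg _ _ h1e, ENNReal.mul_rpow_of_nonneg _ _ h0.le]
      ring
    rw [e]
    have h2 := hF.lc y₀ y₁ l h0 h1
    have h3 := hG.lc (x - y₀) (z - y₁) l h0 h1
    have e2 : (1 - l) • (x - y₀) + l • (z - y₁) = (1 - l) • x + l • z - ((1 - l) • y₀ + l • y₁) := by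
      simp only [smul_sub]
      abel
    rw [e2] at h3
    exact mul_le_mul' h2 h3

end Vale.Agent.Lib.P230
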