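import Vale.Agent.Lib.P230.Energy
import Vale.Agent.Lib.P230.LCFun

/-!
# P230: additive energy of log-concave functions and of the iterated convolution powers.
-/

open MeasureTheory Set Filter Topology
open scoped ENNReal

namespace Vale.Agent.Lib.P230

open Vale.Agent.Lib.P074

/-- The energy inequality for log-concave functions, by induction on the dimension. -/
theorem en_lcf_le : ∀ (m : ℕ) {F : Vec m → ℝ≥0∞}, LCF F →
    en volume F F F F ≤ ENNReal.ofReal (cE ^ m) * (∫⁻ x, F x ^ ((4 : ℝ) / 3)) ^ 3 := by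
  intro m
  induction m with
  | zero =>
    intro F _
    have hvol : (volume : Measure (Vec 0)) = Measure.dirac 0 := by
      rw [volume_pi, Measure.pi_of_empty]
      congr 1
      exact Subsingleton.elim _ _
    unfold en
    simp only [hvol, lintegral_dirac]
    have e : (0 : Vec 0) + 0 - 0 = 0 := Subsingleton.elim _ _
    rw [e]
    have e2 : (F 0 ^ ((4 : ℝ) / 3)) ^ 3 = F 0 * F 0 * F 0 * F 0 := by
      rw [← ENNReal.rpow_natCast, ← ENNReal.rpow_mul]
      have : ((4 : ℝ) / 3) * ((3 : ℕ) : ℝ) = ((4 : ℕ) : ℝ) := by norm_num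
      rw [this, ENNReal.rpow_natCast]
      ring
    rw [e2]
    simp
  | succ m ih =>
    intro F hF
    set k : Fin (m + 1) := 0
    have hp : (0 : ℝ) < (4 : ℝ) / 3 := by norm_num
    set G : Vec (m + 1) → ℝ≥0∞ := fun x => F x ^ ((4 : ℝ) / 3) with hG
    have hGl : LCF G := hF.rpow hp
    set g : ℝ → ℝ := fun t => (∫⁻ x, G (ins k t x)).toReal with hg
    have hvol : ∀ t, ENNReal.ofReal (g t) = ∫⁻ x, G (ins k t x) := fun t =>
      ENNReal.ofReal_toReal (hGl.sec k t).lintegral_ne_top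
    have hlc : LogConc g := hGl.logConc_slice k
    have hvm : Measurable fun t => ∫⁻ x, G (ins k t x) :=
      (hGl.meas.comp (measurable_ins_pair k)).lintegral_prod_right'
    have hgm : Measurable g := hvm.ennreal_toReal
    obtain ⟨D, hD, hD'⟩ := hGl.lintegral_sec_le k
    have hC : ∀ t, g t ≤ D.toReal := fun t => ENNReal.toReal_mono hD (hD' t)
    obtain ⟨ρ, hρ⟩ := hGl.sec_support k
    have hR : ∀ t, g t ≠ 0 → |t| ≤ ρ := fun t ht => hρ t (fun h => ht (by simp [hg, h]))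
    have hInt : ∫⁻ t, ENNReal.ofReal (g t) = ∫⁻ x, G x := by
      rw [lintegral_slice k hGl.meas]
      exact lintegral_congr hvol
    have hfin : ∫⁻ t, ENNReal.ofReal (g t) ≠ ⊤ := by
      rw [hInt]
      exact hGl.lintegral_ne_top
    set κ := ENNReal.ofReal (cE ^ m) with hκ
    have hκfin : κ ≠ ⊤ := ENNReal.ofReal_ne_top
    set w : ℝ → ℝ → ℝ → ℝ≥0∞ := fun t₁ t₂ t₃ => en volume (fun x => F (ins k t₁ x))
      (fun x => F (ins k t₂ x)) (fun x => F (ins k t₃ x)) (fun x => F (ins k (t₁ + t₂ - t₃) x))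
      with hw
    have hE : ∀ t, en volume (fun x => F (ins k t x)) (fun x => F (ins k t x))
        (fun x => F (ins k t x)) (fun x => F (ins k t x)) ≤ κ * ENNReal.ofReal (g t) ^ 3 := by
      intro t
      rw [hvol]
      exact ih (hF.sec k t)
    have hw4 : ∀ a b c, w a b c ^ 4 ≤ κ ^ 4 * (ENNReal.ofReal (g a) * ENNReal.ofReal (g b)
        * ENNReal.ofReal (g c) * ENNReal.ofReal (g (a + b - c))) ^ 3 := by
      intro a b c
      have hms : ∀ t, Measurable fun x => F (ins k t x) := fun t =>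
        hF.meas.comp (measurable_ins k t)
      calc w a b c ^ 4 ≤ _ := en_pow_four_le (hms _) (hms _) (hms _) (hms _)
        _ ≤ (κ * ENNReal.ofReal (g a) ^ 3) * (κ * ENNReal.ofReal (g b) ^ 3)
            * (κ * ENNReal.ofReal (g c) ^ 3) * (κ * ENNReal.ofReal (g (a + b - c)) ^ 3) := by
            gcongr <;> exact hE _
        _ = _ := by ring
    have hmain := key_1d hlc hgm hC hR hfin hκfin hw4
    rw [hInt] at hmain
    rw [en_slice k hF.meas]
    have hfinal : ENNReal.ofReal (cE ^ (m + 1)) = κ * ENNReal.ofReal cE := by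
      rw [hκ, ← ENNReal.ofReal_mul (by unfold cE; positivity), pow_succ]
    rw [hfinal]
    exact hmain

/-- Hölder's inequality in the form used. -/
lemma holder_four_thirds {α : Type*} [MeasurableSpace α] {μ : Measure α} {F : α → ℝ≥0∞}
    (hF : Measurable F) :
    (∫⁻ x, F x ^ ((4 : ℝ) / 3) ∂μ) ^ 3 ≤ (∫⁻ x, F x ∂μ) ^ 2 * ∫⁻ x, F x ^ 2 ∂μ := by
  have hpq : Real.HolderConjugate (3 / 2 : ℝ) 3 := by
    constructor
    · norm_num
    · norm_num
    · norm_num
  set f : α → ℝ≥0∞ := fun x => F x ^ ((2 : ℝ) / 3) with hf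
  have hfm : AEMeasurable f μ := (hF.pow_const _).aemeasurable
  have h := ENNReal.lintegral_mul_le_Lp_mul_Lq μ hpq hfm hfm
  have e1 : ∀ x, (f * f) x = F x ^ ((4 : ℝ) / 3) := by
    intro x
    simp only [Pi.mul_apply, hf]
    rw [← ENNReal.rpow_add_of_nonneg _ _ (by norm_num) (by norm_num)]
    norm_num
  have e2 : ∀ x, f x ^ ((3 : ℝ) / 2) = F x := by
    intro x
    simp only [hf]
    rw [← ENNReal.rpow_mul]
    norm_num
  have e3 : ∀ x, f x ^ (3 : ℝ) = F x ^ 2 := by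
    intro x
    simp only [hf]
    rw [← ENNReal.rpow_mul, ← ENNReal.rpow_natCast]
    norm_num
  simp only [e1, e2, e3] at h
  have h3 := pow_le_pow_left' h 3
  refine h3.trans (le_of_eq ?_)
  rw [mul_pow, ← ENNReal.rpow_natCast, ← ENNReal.rpow_mul, ← ENNReal.rpow_natCast (_ ^ _) 3,
    ← ENNReal.rpow_mul]
  norm_num

variable {m : ℕ}

/-- Iterated convolution powers. -/
noncomputable def cpow (F : Vec m → ℝ≥0∞) : ℕ → Vec m → ℝ≥0∞
  | 0 => F
  | j + 1 => cnv volume (cpow F j) (cpow F j)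

lemma cpow_lcf {F : Vec m → ℝ≥0∞} (hF : LCF F) (j : ℕ) : LCF (cpow F j) := by
  induction j with
  | zero => exact hF
  | succ j ih => exact ih.cnv ih

lemma lintegral_cpow {F : Vec m → ℝ≥0∞} (hF : LCF F) (j : ℕ) :
    ∫⁻ x, cpow F j x = (∫⁻ x, F x) ^ (2 ^ j) := by
  induction j with
  | zero => simp [cpow]
  | succ j ih =>
    have h := cpow_lcf hF j
    simp only [cpow]
    rw [lintegral_cnv h.meas h.meas, ih, ← pow_add]
    congr 1
    rw [pow_succ]
    ring

lemma lintegral_cpow_succ_sq_le {F : Vec m → ℝ≥0∞} (hF : LCF F) (j : ℕ) :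
    ∫⁻ x, cpow F (j + 1) x ^ 2 ≤ ENNReal.ofReal (cE ^ m) * ((∫⁻ x, F x) ^ (2 ^ j)) ^ 2 *
      ∫⁻ x, cpow F j x ^ 2 := by
  have h := cpow_lcf hF j
  have h1 := en_lcf_le m h
  have h2 := holder_four_thirds (μ := volume) h.meas
  have h3 : en volume (cpow F j) (cpow F j) (cpow F j) (cpow F j) =
      ∫⁻ x, cpow F (j + 1) x ^ 2 := by
    rw [en_eq_cnv h.meas h.meas h.meas h.meas]
    refine lintegral_congr fun x => ?_
    simp only [cpow, pow_two]
  rw [← h3]
  refine h1.trans ?_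
  rw [mul_assoc]
  gcongr
  rw [lintegral_cpow hF j] at h2
  exact h2

/-- The iterated energy bound. -/
theorem lintegral_cpow_sq_le {F : Vec m → ℝ≥0∞} (hF : LCF F) (hF2 : ∫⁻ x, F x ^ 2 ≤ ∫⁻ x, F x)
    (j : ℕ) :
    ∫⁻ x, cpow F j x ^ 2 ≤ ENNReal.ofReal (cE ^ m) ^ j * (∫⁻ x, F x) ^ (2 ^ (j + 1) - 1) := by
  induction j with
  | zero => simpa [cpow] using hF2
  | succ j ih =>
    refine (lintegral_cpow_succ_sq_le hF j).trans ?_
    have e : (2 : ℕ) ^ (j + 1 + 1) - 1 = 2 ^ j * 2 + (2 ^ (j + 1) - 1) := by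
      have h1 : (2 : ℕ) ^ (j + 1 + 1) = 2 ^ j * 4 := by
        rw [pow_succ, pow_succ]; ring
      have h2 : (2 : ℕ) ^ (j + 1) = 2 ^ j * 2 := by
        rw [pow_succ]
      have h3 : 1 ≤ (2 : ℕ) ^ j := Nat.one_le_two_pow
      omega
    rw [e]
    calc ENNReal.ofReal (cE ^ m) * ((∫⁻ x, F x) ^ 2 ^ j) ^ 2 * ∫⁻ x, cpow F j x ^ 2
        ≤ ENNReal.ofReal (cE ^ m) * ((∫⁻ x, F x) ^ 2 ^ j) ^ 2 *
          (ENNReal.ofReal (cE ^ m) ^ j * (∫⁻ x, F x) ^ (2 ^ (j + 1) - 1)) := by gcongr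
      _ = _ := by
          rw [pow_succ (ENNReal.ofReal (cE ^ m)) j, pow_add (∫⁻ x, F x), pow_mul (∫⁻ x, F x)]
          ring

/-- The iterated energy bound for a convex set. -/
theorem lintegral_cpow_ind_sq_le {K : Set (Vec m)} (hc : Convex ℝ K) (hb : Bornology.IsBounded K)
    (hm : MeasurableSet K) (j : ℕ) :
    ∫⁻ x, cpow (K.indicator (1 : Vec m → ℝ≥0∞)) j x ^ 2 ≤
      ENNReal.ofReal (cE ^ m) ^ j * volume K ^ (2 ^ (j + 1) - 1) := by
  have hF := LCF.indicator hc hb hm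
  have e1 : ∫⁻ x, K.indicator (1 : Vec m → ℝ≥0∞) x = volume K :=
    lintegral_indicator_one hm
  rw [← e1]
  refine lintegral_cpow_sq_le hF (le_of_eq ?_) j
  refine lintegral_congr fun x => ?_
  by_cases hx : x ∈ K <;> simp [hx]

end Vale.Agent.Lib.P230
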