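import Vale.Agent.Lib.P074.Part1

/-!
# P230: the one-dimensional deficit for log-concave functions.
-/

open MeasureTheory Set
open scoped ENNReal

namespace Vale.Agent.Lib.P230

open Vale.Agent.Lib.P074

lemma logConc_pow4 {g : ℝ → ℝ} (hg : LogConc g) (z y : ℝ) :
    g z ^ 3 * g y ≤ g ((3 / 4) * z + (1 / 4) * y) ^ 4 := by
  have h := hg.le z y (1 / 4) (by norm_num) (by norm_num)
  have hz := hg.nonneg z
  have hy := hg.nonneg y
  have e : (1 - (1 / 4 : ℝ)) = 3 / 4 := by norm_num
  rw [e] at h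
  have h0 : 0 ≤ g z ^ (3 / 4 : ℝ) * g y ^ (1 / 4 : ℝ) := by positivity
  have h2 := pow_le_pow_left₀ h0 h 4
  have e1 : (g z ^ (3 / 4 : ℝ) * g y ^ (1 / 4 : ℝ)) ^ 4 = g z ^ 3 * g y := by
    rw [mul_pow, ← Real.rpow_natCast (g z ^ (3 / 4 : ℝ)), ← Real.rpow_natCast (g y ^ (1 / 4 : ℝ)),
      ← Real.rpow_mul hz, ← Real.rpow_mul hy]
    norm_num
  rw [e1] at h2
  exact h2

lemma logConc_pow2 {g : ℝ → ℝ} (hg : LogConc g) (z y : ℝ) :
    g z * g y ≤ g ((1 / 2) * z + (1 / 2) * y) ^ 2 := by
  have h := hg.le z y (1 / 2) (by norm_num) (by norm_num)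
  have hz := hg.nonneg z
  have hy := hg.nonneg y
  have e : (1 - (1 / 2 : ℝ)) = 1 / 2 := by norm_num
  rw [e] at h
  have h0 : 0 ≤ g z ^ (1 / 2 : ℝ) * g y ^ (1 / 2 : ℝ) := by positivity
  have h2 := pow_le_pow_left₀ h0 h 2
  have e1 : (g z ^ (1 / 2 : ℝ) * g y ^ (1 / 2 : ℝ)) ^ 2 = g z * g y := by
    rw [mul_pow, ← Real.rpow_natCast (g z ^ (1 / 2 : ℝ)), ← Real.rpow_natCast (g y ^ (1 / 2 : ℝ)),
      ← Real.rpow_mul hz, ← Real.rpow_mul hy]
    norm_num
  rw [e1] at h2
  exact h2

lemma lintegral_comp_mul_pos {a : ℝ} (ha : 0 < a) {h : ℝ → ℝ≥0∞} (hh : Measurable h) :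
    ∫⁻ x, h (a * x) = ENNReal.ofReal a⁻¹ * ∫⁻ x, h x := by
  have h1 := Real.map_volume_mul_left (ne_of_gt ha)
  have h2 : ∫⁻ x, h (a * x) = ∫⁻ y, h y ∂(Measure.map (a * ·) volume) :=
    (lintegral_map hh (measurable_const_mul a)).symm
  rw [h2, h1, lintegral_smul_measure, abs_of_pos (inv_pos.mpr ha)]
  rfl

/-- Right tail bound through the tripling style contraction. -/
lemma tail_bound {g : ℝ → ℝ} (hg : LogConc g) (hm : Measurable g) {z R' : ℝ} (hz : z ≤ R')
    (hM : 0 < g z) (hout : ∀ t, R' < t → g t ≤ g z / 2)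
    (hfin : ∫⁻ t in Ioi R', ENNReal.ofReal (g t) ≠ ⊤) :
    ∫⁻ t in Ioi R', ENNReal.ofReal (g t) ≤ ENNReal.ofReal (3 * (R' - z) * g z) := by
  set M := g z with hMdef
  set g' : ℝ → ℝ≥0∞ := fun t => ENNReal.ofReal (g t) with hg'
  have hg'm : Measurable g' := hm.ennreal_ofReal
  set X := ∫⁻ t in Ioi R', g' t with hX
  set R'' := R' + 3 * (R' - z) with hR''
  have hRR : R' ≤ R'' := by rw [hR'']; linarith
  -- contraction
  have hcontr : ∀ x, R' < x → g (4 * x - 3 * z) ≤ g x / 8 := by
    intro x hx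
    have h4 := logConc_pow4 hg z (4 * x - 3 * z)
    have e : (3 / 4 : ℝ) * z + (1 / 4) * (4 * x - 3 * z) = x := by ring
    rw [e] at h4
    have hx0 := hg.nonneg x
    have hx1 := hout x hx
    have h3 : g x ^ 3 ≤ (M / 2) ^ 3 := pow_le_pow_left₀ hx0 hx1 3
    have h5 : g x ^ 4 ≤ g x * (M / 2) ^ 3 := by
      calc g x ^ 4 = g x * g x ^ 3 := by ring
        _ ≤ _ := by gcongr
    have hM3 : 0 < M ^ 3 := by positivity
    have h6 : M ^ 3 * g (4 * x - 3 * z) ≤ M ^ 3 * (g x / 8) := by
      calc M ^ 3 * g (4 * x - 3 * z) ≤ g x ^ 4 := h4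
        _ ≤ g x * (M / 2) ^ 3 := h5
        _ = M ^ 3 * (g x / 8) := by ring
    exact le_of_mul_le_mul_left h6 hM3
  -- the far part
  have hfar : ∫⁻ t in Ioi R'', g' t ≤ X / 2 := by
    have e1 : ∫⁻ t in Ioi R'', g' t = ∫⁻ t, (Ioi R'').indicator g' t := by
      rw [lintegral_indicator measurableSet_Ioi]
    have hk : Measurable ((Ioi R'').indicator g') := hg'm.indicator measurableSet_Ioi
    have e2 : ∫⁻ t, (Ioi R'').indicator g' t
        = ∫⁻ t, (Ioi R'').indicator g' (t - 3 * z) :=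
      (lintegral_sub_right_eq_self _ _).symm
    have hk2 : Measurable fun t => (Ioi R'').indicator g' (t - 3 * z) :=
      hk.comp (measurable_id.sub_const _)
    have e3 := lintegral_comp_mul_pos (a := 4) (by norm_num) hk2
    have e4 : ∫⁻ x, (Ioi R'').indicator g' (4 * x - 3 * z)
        ≤ ∫⁻ x in Ioi R', g' x / 8 := by
      rw [← lintegral_indicator measurableSet_Ioi]
      refine lintegral_mono fun x => ?_
      by_cases hx : R' < x
      · have hmem : x ∈ Ioi R' := hx
        rw [indicator_of_mem hmem]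
        by_cases hy : 4 * x - 3 * z ∈ Ioi R''
        · rw [indicator_of_mem hy]
          have := hcontr x hx
          calc g' (4 * x - 3 * z) ≤ ENNReal.ofReal (g x / 8) := ENNReal.ofReal_le_ofReal this
            _ = g' x / 8 := by
              simp only [hg']
              rw [ENNReal.ofReal_div_of_pos (by norm_num)]
              norm_num
        · rw [indicator_of_notMem hy]
          exact zero_le
      · have hnot : x ∉ Ioi R' := hx
        have hy : 4 * x - 3 * z ∉ Ioi R'' := by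
          simp only [mem_Ioi, not_lt] at hnot ⊢
          rw [hR'']
          linarith
        rw [indicator_of_notMem hy]
        exact zero_le
    have e5 : ∫⁻ x in Ioi R', g' x / 8 = X / 8 := by
      simp_rw [div_eq_mul_inv]
      rw [lintegral_mul_const _ hg'm]
    calc ∫⁻ t in Ioi R'', g' t = ∫⁻ t, (Ioi R'').indicator g' (t - 3 * z) := by rw [e1, e2]
      _ = 4 * ∫⁻ x, (Ioi R'').indicator g' (4 * x - 3 * z) := by
          rw [e3, ← mul_assoc]
          have : (4 : ℝ≥0∞) * ENNReal.ofReal (4 : ℝ)⁻¹ = 1 := by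
            rw [ENNReal.ofReal_inv_of_pos (by norm_num)]
            norm_num
            exact ENNReal.mul_inv_cancel (by norm_num) (by norm_num)
          rw [this, one_mul]
      _ ≤ 4 * (X / 8) := by
          gcongr
          rw [← e5]
          exact e4
      _ = X / 2 := by
          rw [div_eq_mul_inv, div_eq_mul_inv]
          have : (4 : ℝ≥0∞) * (X * 8⁻¹) = X * (4 * 8⁻¹) := by ring
          rw [this]
          congr 1
          rw [show (8 : ℝ≥0∞) = 4 * 2 by norm_num, ENNReal.mul_inv (by norm_num) (by norm_num),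
            ← mul_assoc, ENNReal.mul_inv_cancel (by norm_num) (by norm_num), one_mul]
  -- the near part
  have hnear : ∫⁻ t in Ioc R' R'', g' t ≤ ENNReal.ofReal (3 * (R' - z) * (M / 2)) := by
    calc ∫⁻ t in Ioc R' R'', g' t ≤ ∫⁻ _t in Ioc R' R'', ENNReal.ofReal (M / 2) := by
          refine setLIntegral_mono measurable_const fun t ht => ?_
          exact ENNReal.ofReal_le_ofReal (hout t ht.1)
      _ = ENNReal.ofReal (M / 2) * ENNReal.ofReal (3 * (R' - z)) := by
          rw [setLIntegral_const, Real.volume_Ioc]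
          congr 2
          rw [hR'']
          ring
      _ = _ := by
          rw [← ENNReal.ofReal_mul (by positivity)]
          congr 1
          ring
  have hsplit : X = (∫⁻ t in Ioc R' R'', g' t) + ∫⁻ t in Ioi R'', g' t := by
    rw [hX, ← Ioc_union_Ioi_eq_Ioi hRR]
    rw [lintegral_union measurableSet_Ioi]
    rw [disjoint_left]
    intro t ht ht2
    exact absurd ht.2 (not_le.mpr ht2)
  have hX2 : X / 2 ≠ ⊤ := ENNReal.div_ne_top hfin (by norm_num)
  have hhalf : X / 2 + X / 2 = X := ENNReal.add_halves X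
  have key : X / 2 + X / 2 ≤ ENNReal.ofReal (3 * (R' - z) * (M / 2)) + X / 2 := by
    rw [hhalf]
    calc X = _ := hsplit
      _ ≤ _ := add_le_add hnear hfar
  have key2 := (ENNReal.add_le_add_iff_right hX2).1 key
  calc X = X / 2 + X / 2 := hhalf.symm
    _ ≤ ENNReal.ofReal (3 * (R' - z) * (M / 2)) + ENNReal.ofReal (3 * (R' - z) * (M / 2)) :=
        add_le_add key2 key2
    _ = _ := by
        rw [← ENNReal.ofReal_add (by have := sub_nonneg.2 hz; positivity)
          (by have := sub_nonneg.2 hz; positivity)]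
        congr 1
        ring

lemma logConc_neg {g : ℝ → ℝ} (hg : LogConc g) : LogConc (fun t => g (-t)) := by
  refine ⟨fun t => hg.nonneg _, fun s t l h0 h1 => ?_⟩
  have := hg.le (-s) (-t) l h0 h1
  have e : (1 - l) * -s + l * -t = -((1 - l) * s + l * t) := by ring
  rwa [e] at this

lemma setLIntegral_neg_Ioi (k : ℝ → ℝ≥0∞) (L : ℝ) :
    ∫⁻ t in Ioi (-L), k (-t) = ∫⁻ t in Iio L, k t := by
  have hm1 : MeasurableSet (Ioi (-L)) := measurableSet_Ioi
  have hm2 : MeasurableSet (Iio L) := measurableSet_Iio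
  rw [← lintegral_indicator hm1, ← lintegral_indicator hm2,
    ← lintegral_neg_eq_self ((Iio L).indicator k)]
  refine lintegral_congr fun t => ?_
  by_cases ht : t ∈ Ioi (-L)
  · have : -t ∈ Iio L := by
      simp only [mem_Ioi, mem_Iio] at ht ⊢
      linarith
    rw [indicator_of_mem ht, indicator_of_mem this]
  · have : -t ∉ Iio L := by
      simp only [mem_Ioi, mem_Iio, not_lt] at ht ⊢
      linarith
    rw [indicator_of_notMem ht, indicator_of_notMem this]

lemma tail_bound_left {g : ℝ → ℝ} (hg : LogConc g) (hm : Measurable g) {z L : ℝ} (hz : L ≤ z)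
    (hM : 0 < g z) (hout : ∀ t, t < L → g t ≤ g z / 2)
    (hfin : ∫⁻ t in Iio L, ENNReal.ofReal (g t) ≠ ⊤) :
    ∫⁻ t in Iio L, ENNReal.ofReal (g t) ≤ ENNReal.ofReal (3 * (z - L) * g z) := by
  have e := setLIntegral_neg_Ioi (fun t => ENNReal.ofReal (g t)) L
  have h := tail_bound (g := fun t => g (-t)) (z := -z) (R' := -L) (logConc_neg hg)
    (hm.comp measurable_neg) (by linarith) (by simpa using hM)
    (fun t ht => by
      have : -t < L := by linarith
      simpa using hout _ this)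
    (by rw [e]; exact hfin)
  rw [e] at h
  have e2 : 3 * (-L - -z) * g (- -z) = 3 * (z - L) * g z := by
    rw [neg_neg]
    ring
  rwa [e2] at h

/-- The one-dimensional deficit. -/
theorem deficit_1d {g : ℝ → ℝ} (hg : LogConc g) (hm : Measurable g) {C Rr : ℝ}
    (hC : ∀ t, g t ≤ C) (hR : ∀ t, g t ≠ 0 → |t| ≤ Rr)
    (hpos : ∫⁻ t, ENNReal.ofReal (g t) ≠ 0) :
    ∃ A E : Set ℝ, MeasurableSet A ∧ MeasurableSet E ∧
      (∫⁻ t, ENNReal.ofReal (g t)) ≤ 68 * ∫⁻ t in A, ENNReal.ofReal (g t) ∧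
      (∫⁻ t, ENNReal.ofReal (g t)) ≤ 68 * ∫⁻ t in E, ENNReal.ofReal (g t) ∧
      ∀ a ∈ A, ∀ b ∈ A, ∀ c ∈ E,
        2 * g (a + b - c) ≤ g a ∧ 2 * g (a + b - c) ≤ g b ∧ 2 * g (a + b - c) ≤ g c := by
  have hex : ∃ t, 0 < g t := by
    by_contra h
    push Not at h
    have h0 : ∀ t, g t = 0 := fun t => le_antisymm (h t) (hg.nonneg t)
    apply hpos
    simp [h0]
  obtain ⟨t0, ht0⟩ := hex
  set S := sSup (range g) with hS
  have hbdd : BddAbove (range g) := ⟨C, by rintro _ ⟨t, rfl⟩; exact hC t⟩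
  have hle : ∀ t, g t ≤ S := fun t => le_csSup hbdd ⟨t, rfl⟩
  have hSpos : 0 < S := lt_of_lt_of_le ht0 (hle t0)
  obtain ⟨_, ⟨z, rfl⟩, hz⟩ := exists_lt_of_lt_csSup (range_nonempty g)
    (show (9 / 10) * S < S by linarith)
  set M := g z with hMdef
  have hMpos : 0 < M := by nlinarith
  have hupper : ∀ t, g t ≤ (10 / 9) * M := by
    intro t
    have := hle t
    linarith
  set J := {t | M / 2 ≤ g t} with hJ
  have hzJ : z ∈ J := by
    show M / 2 ≤ g z
    rw [← hMdef]
    linarith
  have hJne : J.Nonempty := ⟨z, hzJ⟩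
  have hJb : ∀ t ∈ J, |t| ≤ Rr := by
    intro t ht
    refine hR t (ne_of_gt ?_)
    have : M / 2 ≤ g t := ht
    linarith
  have hba : BddAbove J := ⟨Rr, fun t ht => (abs_le.1 (hJb t ht)).2⟩
  have hbb : BddBelow J := ⟨-Rr, fun t ht => (abs_le.1 (hJb t ht)).1⟩
  set L := sInf J with hL
  set R' := sSup J with hR'
  have hzL : L ≤ z := csInf_le hbb hzJ
  have hzR : z ≤ R' := le_csSup hba hzJ
  have houtR : ∀ t, R' < t → g t < M / 2 := by
    intro t ht
    by_contra h
    push Not at h
    have := le_csSup hba (show t ∈ J from h)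
    linarith
  have houtL : ∀ t, t < L → g t < M / 2 := by
    intro t ht
    by_contra h
    push Not at h
    have := csInf_le hbb (show t ∈ J from h)
    linarith
  have hin : ∀ t, L < t → t < R' → M / 2 ≤ g t := by
    intro t h1 h2
    obtain ⟨a, ha, hat⟩ := exists_lt_of_csInf_lt hJne h1
    obtain ⟨b, hb, htb⟩ := exists_lt_of_lt_csSup hJne h2
    have hab : 0 < b - a := by linarith
    set l := (t - a) / (b - a) with hl
    have hl0 : 0 < l := div_pos (by linarith) hab
    have hl1 : l < 1 := by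
      rw [hl, div_lt_one hab]
      linarith
    have hcomb : (1 - l) * a + l * b = t := by
      rw [hl]
      field_simp
      ring
    have h := hg.le a b l hl0 hl1
    rw [hcomb] at h
    have hM2 : 0 < M / 2 := by linarith
    have ha' : M / 2 ≤ g a := ha
    have hb' : M / 2 ≤ g b := hb
    calc M / 2 = (M / 2) ^ (1 - l) * (M / 2) ^ l := by
          rw [← Real.rpow_add hM2]
          simp
      _ ≤ g a ^ (1 - l) * g b ^ l := by
          have h1l : 0 ≤ 1 - l := by linarith
          exact mul_le_mul (Real.rpow_le_rpow hM2.le ha' h1l) (Real.rpow_le_rpow hM2.le hb' hl0.le)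
            (by positivity) (Real.rpow_nonneg (hg.nonneg a) _)
      _ ≤ g t := h
  set g' : ℝ → ℝ≥0∞ := fun t => ENNReal.ofReal (g t) with hg'
  have hg'm : Measurable g' := hm.ennreal_ofReal
  -- finiteness
  have hfin : ∫⁻ t, g' t ≠ ⊤ := by
    have h1 : ∫⁻ t, g' t ≤ ∫⁻ t in Icc (-Rr) Rr, ENNReal.ofReal ((10 / 9) * M) := by
      rw [← lintegral_indicator measurableSet_Icc]
      refine lintegral_mono fun t => ?_
      by_cases ht : g t = 0
      · simp [hg', ht]
      · have : t ∈ Icc (-Rr) Rr := abs_le.1 (hR t ht)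
        rw [indicator_of_mem this]
        exact ENNReal.ofReal_le_ofReal (hupper t)
    refine ne_top_of_le_ne_top ?_ h1
    rw [setLIntegral_const, Real.volume_Icc]
    exact ENNReal.mul_ne_top ENNReal.ofReal_ne_top ENNReal.ofReal_ne_top
  have hfinR : ∫⁻ t in Ioi R', g' t ≠ ⊤ := ne_top_of_le_ne_top hfin (setLIntegral_le_lintegral _ _)
  have hfinL : ∫⁻ t in Iio L, g' t ≠ ⊤ := ne_top_of_le_ne_top hfin (setLIntegral_le_lintegral _ _)
  have htR := tail_bound hg hm hzR hMpos (fun t ht => (houtR t ht).le) hfinR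
  have htL := tail_bound_left hg hm hzL hMpos (fun t ht => (houtL t ht).le) hfinL
  have hLR : L ≤ R' := hzL.trans hzR
  have hmid : ∫⁻ t in Icc L R', g' t ≤ ENNReal.ofReal ((10 / 9) * M * (R' - L)) := by
    calc ∫⁻ t in Icc L R', g' t ≤ ∫⁻ _t in Icc L R', ENNReal.ofReal ((10 / 9) * M) := by
          refine setLIntegral_mono measurable_const fun t _ => ?_
          exact ENNReal.ofReal_le_ofReal (hupper t)
      _ = _ := by
          rw [setLIntegral_const, Real.volume_Icc, ← ENNReal.ofReal_mul (by positivity)]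
  have hunion : Iio L ∪ (Icc L R' ∪ Ioi R') = (univ : Set ℝ) := by
    ext t
    simp only [mem_union, mem_Iio, mem_Icc, mem_Ioi, mem_univ, iff_true]
    by_cases h1 : t < L
    · exact Or.inl h1
    · by_cases h2 : R' < t
      · exact Or.inr (Or.inr h2)
      · exact Or.inr (Or.inl ⟨not_lt.1 h1, not_lt.1 h2⟩)
  have htotal : ∫⁻ t, g' t ≤ ENNReal.ofReal ((17 / 4) * M * (R' - L)) := by
    calc ∫⁻ t, g' t = ∫⁻ t in Iio L ∪ (Icc L R' ∪ Ioi R'), g' t := by
          rw [hunion, Measure.restrict_univ]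
      _ ≤ (∫⁻ t in Iio L, g' t) + ((∫⁻ t in Icc L R', g' t) + ∫⁻ t in Ioi R', g' t) := by
          refine (lintegral_union_le _ _ _).trans ?_
          gcongr
          exact lintegral_union_le _ _ _
      _ ≤ ENNReal.ofReal (3 * (z - L) * M) + (ENNReal.ofReal ((10 / 9) * M * (R' - L))
            + ENNReal.ofReal (3 * (R' - z) * M)) := by
          gcongr
      _ = ENNReal.ofReal (3 * (z - L) * M + ((10 / 9) * M * (R' - L) + 3 * (R' - z) * M)) := by
          have h1 : 0 ≤ z - L := by linarith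
          have h2 : 0 ≤ R' - z := by linarith
          have h3 : 0 ≤ R' - L := by linarith
          rw [← ENNReal.ofReal_add (by positivity) (by positivity),
            ← ENNReal.ofReal_add (by positivity) (by positivity)]
      _ ≤ _ := by
          apply ENNReal.ofReal_le_ofReal
          have h3 : 0 ≤ (R' - L) * M := mul_nonneg (by linarith) hMpos.le
          nlinarith
  have hlpos : 0 < R' - L := by
    by_contra h
    have h0 : R' - L ≤ 0 := not_lt.1 h
    apply hpos
    have : ENNReal.ofReal ((17 / 4) * M * (R' - L)) = 0 :=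
      ENNReal.ofReal_eq_zero.2 (mul_nonpos_of_nonneg_of_nonpos (by positivity) h0)
    rw [this] at htotal
    exact le_antisymm htotal zero_le
  set ℓ := R' - L with hℓ
  have hlow : ∀ a b, L ≤ a → b ≤ R' → a < b →
      ENNReal.ofReal ((M / 2) * (b - a)) ≤ ∫⁻ t in Ioo a b, g' t := by
    intro a b ha hb hab
    calc ENNReal.ofReal ((M / 2) * (b - a))
        = ∫⁻ _t in Ioo a b, ENNReal.ofReal (M / 2) := by
          rw [setLIntegral_const, Real.volume_Ioo, ← ENNReal.ofReal_mul (by positivity)]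
      _ ≤ _ := by
          refine setLIntegral_mono hg'm fun t ht => ?_
          exact ENNReal.ofReal_le_ofReal (hin t (by linarith [ht.1]) (by linarith [ht.2]))
  have hmass : ∀ a b, L ≤ a → b ≤ R' → b - a = ℓ / 8 → ∫⁻ t, g' t ≤ 68 * ∫⁻ t in Ioo a b, g' t := by
    intro a b ha hb hab
    have hlt : a < b := by linarith
    calc ∫⁻ t, g' t ≤ ENNReal.ofReal ((17 / 4) * M * ℓ) := htotal
      _ = 68 * ENNReal.ofReal ((M / 2) * (b - a)) := by
          rw [show (68 : ℝ≥0∞) = ENNReal.ofReal 68 by norm_num,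
            ← ENNReal.ofReal_mul (by norm_num), hab]
          congr 1
          ring
      _ ≤ _ := by
          gcongr
          exact hlow a b ha hb hlt
  have hfar : ∀ d, ((1 / 2) * z + (1 / 2) * d < L ∨ R' < (1 / 2) * z + (1 / 2) * d) →
      2 * g d ≤ M / 2 := by
    intro d hd
    have h2 := logConc_pow2 hg z d
    rw [← hMdef] at h2
    set x := (1 / 2) * z + (1 / 2) * d with hx
    have hxlt : g x < M / 2 := by
      rcases hd with hd | hd
      · exact houtL x hd
      · exact houtR x hd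
    have h3 : g x ^ 2 ≤ (M / 2) ^ 2 := pow_le_pow_left₀ (hg.nonneg x) hxlt.le 2
    have h4 : M * g d ≤ M * (M / 4) := by nlinarith
    have h5 := le_of_mul_le_mul_left h4 hMpos
    linarith
  by_cases hcase : z - L ≤ ℓ / 2
  · refine ⟨Ioo L (L + ℓ / 8), Ioo (R' - ℓ / 8) R', measurableSet_Ioo, measurableSet_Ioo,
      hmass _ _ le_rfl (by linarith) (by ring), hmass _ _ (by linarith) le_rfl (by ring), ?_⟩
    intro a ha b hb c hc
    have hd := hfar (a + b - c) (Or.inl (by
      have h1 := ha.2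
      have h2 := hb.2
      have h3 := hc.1
      rw [hℓ] at h1 h2 h3 hcase
      linarith))
    have h1 := hin a ha.1 (by linarith [ha.2])
    have h2 := hin b hb.1 (by linarith [hb.2])
    have h3 := hin c (by linarith [hc.1]) hc.2
    exact ⟨hd.trans h1, hd.trans h2, hd.trans h3⟩
  · push Not at hcase
    refine ⟨Ioo (R' - ℓ / 8) R', Ioo L (L + ℓ / 8), measurableSet_Ioo, measurableSet_Ioo,
      hmass _ _ (by linarith) le_rfl (by ring), hmass _ _ le_rfl (by linarith) (by ring), ?_⟩
    intro a ha b hb c hc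
    have hd := hfar (a + b - c) (Or.inr (by
      have h1 := ha.1
      have h2 := hb.1
      have h3 := hc.2
      rw [hℓ] at h1 h2 h3 hcase
      linarith))
    have h1 := hin a (by linarith [ha.1]) ha.2
    have h2 := hin b (by linarith [hb.1]) hb.2
    have h3 := hin c hc.1 (by linarith [hc.2])
    exact ⟨hd.trans h1, hd.trans h2, hd.trans h3⟩

end Vale.Agent.Lib.P230
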