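import Vale.Agent.Lib.P230.FinalA

/-!
# P230 module F: from `CovOn` to real lattice coverings (see `FinalA` for the blueprint).
-/

open MeasureTheory
open scoped ENNReal Matrix Pointwise

namespace Vale.Agent.Lib.P230

/-- A finite index subgroup of `ℤ^n` is the image of an integer matrix with `|det| = index`. -/
theorem exists_basis_matrix {n : ℕ} (Λ : AddSubgroup (Fin n → ℤ)) (hΛ : Λ.index ≠ 0) :
    ∃ M : Matrix (Fin n) (Fin n) ℤ, M.det.natAbs = Λ.index ∧
      ∀ l ∈ Λ, ∃ u : Fin n → ℤ, l = M *ᵥ u := by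
  classical
  let N : Submodule ℤ (Fin n → ℤ) := AddSubgroup.toIntSubmodule Λ
  have hmem : ∀ x : Fin n → ℤ, Λ.index • x ∈ Λ := fun x => Λ.nsmul_index_mem x
  -- rank computation
  have hle : Module.finrank ℤ N ≤ n := by
    have := Submodule.finrank_le N
    simpa using this
  have hge : n ≤ Module.finrank ℤ N := by
    let w : Fin n → N := fun i => ⟨Λ.index • Pi.single i (1 : ℤ), hmem _⟩
    have hw : LinearIndependent ℤ w := by
      rw [Fintype.linearIndependent_iff]
      intro g hg i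
      have h1 := congrArg (fun z : N => (z : Fin n → ℤ) i) hg
      simp only [w, Submodule.coe_sum, Submodule.coe_smul, Finset.sum_apply, Pi.smul_apply,
        Submodule.coe_zero, Pi.zero_apply] at h1
      rw [Finset.sum_eq_single i] at h1
      · simp only [Pi.single_eq_same, smul_eq_mul, nsmul_eq_mul, mul_one] at h1
        have hi : (Λ.index : ℤ) ≠ 0 := by exact_mod_cast hΛ
        rcases mul_eq_zero.mp h1 with h2 | h2
        · exact h2
        · exact absurd h2 hi
      · intro j _ hj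
        simp [hj.symm]
      · simp
    have := hw.fintype_card_le_finrank
    simpa using this
  have hrank : Module.finrank ℤ N = n := le_antisymm hle hge
  let bN : Module.Basis (Fin n) ℤ N := Module.finBasisOfFinrankEq ℤ N hrank
  let M : Matrix (Fin n) (Fin n) ℤ := Matrix.of fun i j => (bN j : Fin n → ℤ) i
  refine ⟨M, ?_, ?_⟩
  · have h1 := Submodule.natAbs_det_basis_change (Pi.basisFun ℤ (Fin n)) N bN
    rw [Pi.basisFun_det_apply] at h1
    have h2 : (Matrix.of ((↑) ∘ bN : Fin n → Fin n → ℤ)) = M.transpose := by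
      ext i j
      rfl
    rw [h2, Matrix.det_transpose] at h1
    rw [h1]
    rfl
  · intro l hl
    refine ⟨fun j => bN.repr ⟨l, hl⟩ j, ?_⟩
    have h1 := bN.sum_repr ⟨l, hl⟩
    have h2 := congrArg (fun z : N => (z : Fin n → ℤ)) h1
    simp only [Submodule.coe_sum, Submodule.coe_smul] at h2
    funext i
    have h3 := congrFun h2 i
    simp only [Finset.sum_apply, Pi.smul_apply, smul_eq_mul] at h3
    simp only [M, Matrix.mulVec, dotProduct, Matrix.of_apply]
    rw [← h3]
    apply Finset.sum_congr rfl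
    intro j _
    ring

/-- From the recursive statement to lattice coverings of an arbitrary convex body. -/
theorem covering_of_cov {n : ℕ} (hn : 2 ≤ n) {r : ℕ} {f Dens : ℝ} {Qmin Qmax : ℕ}
    (hf : (n : ℝ) ≤ f) (hD : 0 ≤ Dens) (hq : ∃ q : ℕ, q.Prime ∧ Qmin ≤ q ∧ q ≤ Qmax)
    (h : CovOn (Fin n) r f Dens Qmin Qmax)
    {K : Set (Fin n → ℝ)} (hKc : IsCompact K) (hKconv : Convex ℝ K) (hKi : (interior K).Nonempty) :
    ∃ A : Matrix (Fin n) (Fin n) ℝ, A.det ≠ 0 ∧
      (∀ x : Fin n → ℝ, ∃ u : Fin n → ℤ, ∃ y ∈ K, x = y + A.mulVec (fun i => (u i : ℝ))) ∧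
      (volume K).toReal ≤ 4 * Dens * |A.det| := by
  classical
  have hn2 : (2 : ℝ) ≤ n := by exact_mod_cast hn
  have hnpos : (0 : ℝ) < n := by linarith
  have hfpos : 0 < f := by linarith
  -- a cube in `K`
  obtain ⟨c₀, hc₀⟩ := hKi
  obtain ⟨ε, hε, hball⟩ := Metric.mem_nhds_iff.mp (mem_interior_iff_mem_nhds.mp hc₀)
  set s : ℝ := ε / 2 with hs
  have hspos : 0 < s := by positivity
  have hcubeK : ∀ x : Fin n → ℝ, (∀ i, |x i - c₀ i| ≤ s) → x ∈ K := by
    intro x hx
    apply hball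
    have : dist x c₀ ≤ s := by
      rw [dist_pi_le_iff hspos.le]
      intro i
      rw [Real.dist_eq]
      exact hx i
    rw [Metric.mem_ball]
    linarith
  -- scales
  set ρ : ℝ := 2 * f / s with hρ
  have hρpos : 0 < ρ := by positivity
  set lam : ℝ := 1 - 1 / (n : ℝ) with hlam
  have hlam2 : 1 / 2 ≤ lam := by
    have : 1 / (n : ℝ) ≤ 1 / 2 := one_div_le_one_div_of_le (by norm_num) hn2
    rw [hlam]
    linarith
  have hlam1 : lam < 1 := by
    have : 0 < 1 / (n : ℝ) := by positivity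
    rw [hlam]
    linarith
  have hlam0 : 0 < lam := by linarith
  -- the shrunk body
  let H : Set (Fin n → ℝ) := AffineMap.homothety c₀ lam '' K
  let K2 : Set (Fin n → ℝ) := ρ • H
  have hHsub : ∀ y ∈ H, ∃ k ∈ K, y = c₀ + lam • (k - c₀) := by
    rintro y ⟨k, hk, rfl⟩
    refine ⟨k, hk, ?_⟩
    rw [AffineMap.homothety_apply]
    simp [add_comm]
  have hconvK2 : Convex ℝ K2 := (hKconv.affine_image _).smul ρ
  have hc₀K : c₀ ∈ K := hball (Metric.mem_ball_self hε)
  have hHK : H ⊆ K := by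
    intro y hy
    obtain ⟨k, hk, rfl⟩ := hHsub y hy
    have h1 := hKconv hk hc₀K hlam0.le (by linarith : 0 ≤ 1 - lam) (by ring)
    convert h1 using 1
    ext i
    simp only [Pi.add_apply, Pi.smul_apply, Pi.sub_apply, smul_eq_mul]
    ring
  have hbdK2 : Bornology.IsBounded K2 :=
    (hKc.isBounded.subset hHK).smul₀ ρ
  have hcubeK2 : ∃ c : Fin n → ℝ, ∀ x : Fin n → ℝ, (∀ i, |x i - c i| ≤ f) → x ∈ K2 := by
    refine ⟨ρ • c₀, fun x hx => ?_⟩
    let k : Fin n → ℝ := c₀ + lam⁻¹ • (ρ⁻¹ • x - c₀)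
    have hk : k ∈ K := by
      apply hcubeK
      intro i
      simp only [k, Pi.add_apply, Pi.smul_apply, Pi.sub_apply, smul_eq_mul, add_sub_cancel_left]
      rw [abs_mul, abs_of_pos (inv_pos.mpr hlam0)]
      have h1 : ρ⁻¹ * x i - c₀ i = ρ⁻¹ * (x i - ρ * c₀ i) := by
        field_simp
      rw [h1, abs_mul, abs_of_pos (inv_pos.mpr hρpos)]
      have h2 : |x i - ρ * c₀ i| ≤ f := by
        simpa using hx i
      have h3 : ρ⁻¹ * |x i - ρ * c₀ i| ≤ ρ⁻¹ * f :=
        mul_le_mul_of_nonneg_left h2 (inv_pos.mpr hρpos).le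
      have h4 : ρ⁻¹ * f = s / 2 := by
        rw [hρ]
        field_simp
      rw [h4] at h3
      have h5 : lam⁻¹ ≤ 2 := by
        rw [inv_le_comm₀ hlam0 (by norm_num)]
        simpa using hlam2
      calc lam⁻¹ * (ρ⁻¹ * |x i - ρ * c₀ i|) ≤ 2 * (s / 2) :=
            mul_le_mul h5 h3 (by positivity) (by norm_num)
        _ = s := by ring
    refine ⟨c₀ + lam • (k - c₀), ⟨k, hk, ?_⟩, ?_⟩
    · rw [AffineMap.homothety_apply]
      simp [add_comm]
    · simp only [k, add_sub_cancel_left, smul_smul, mul_inv_cancel₀ hlam0.ne', one_smul]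
      simp only [smul_add, smul_sub, smul_smul, mul_inv_cancel₀ hρpos.ne', one_smul]
      abel
  obtain ⟨q, hq1, hq2, hq3⟩ := hq
  obtain ⟨Λ, hidx, hvol, hcov⟩ := h K2 hconvK2 hbdK2 hcubeK2 q hq1 hq2 hq3
  obtain ⟨M, hMdet, hMspan⟩ := exists_basis_matrix Λ hidx
  -- the shift property
  have hshift : ∀ v ∈ K2, ∀ t : Fin n → ℝ, (∀ i, 0 ≤ t i) → (∀ i, t i ≤ 1) →
      ρ⁻¹ • (v + t) ∈ K := by
    rintro _ ⟨h', hh', rfl⟩ t ht0 ht1
    obtain ⟨k, hk, rfl⟩ := hHsub h' hh'
    have hz : c₀ + ((n : ℝ) * ρ⁻¹) • t ∈ K := by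
      apply hcubeK
      intro i
      simp only [Pi.add_apply, Pi.smul_apply, smul_eq_mul, add_sub_cancel_left]
      rw [abs_mul, abs_of_nonneg (ht0 i), abs_of_pos (by positivity)]
      have h1 : (n : ℝ) * ρ⁻¹ ≤ s / 2 := by
        rw [hρ]
        have : (n : ℝ) * (2 * f / s)⁻¹ = (n / f) * (s / 2) := by
          field_simp
        rw [this]
        have h2 : (n : ℝ) / f ≤ 1 := by
          rw [div_le_one hfpos]
          exact hf
        have h3 : 0 < s / 2 := by positivity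
        nlinarith
      have h2 : (n : ℝ) * ρ⁻¹ * t i ≤ (n : ℝ) * ρ⁻¹ * 1 :=
        mul_le_mul_of_nonneg_left (ht1 i) (by positivity)
      linarith
    have h1 := hKconv hk hz hlam0.le (by linarith : 0 ≤ 1 - lam) (by ring)
    convert h1 using 1
    ext i
    simp only [Pi.add_apply, Pi.smul_apply, Pi.sub_apply, smul_eq_mul, Pi.smul_def]
    have h3 : 1 - lam = 1 / (n : ℝ) := by
      rw [hlam]; ring
    rw [h3]
    have h4 : (n : ℝ) ≠ 0 := hnpos.ne'
    have h5 : ρ ≠ 0 := hρpos.ne'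
    rw [hlam]
    field_simp
    ring
  -- the matrix
  let A : Matrix (Fin n) (Fin n) ℝ := ρ⁻¹ • M.map (Int.cast : ℤ → ℝ)
  have hMdetR : (M.map (Int.cast : ℤ → ℝ)).det = (M.det : ℝ) := by
    have := (Int.castRingHom ℝ).map_det M
    simpa using this.symm
  have hMne : M.det ≠ 0 := by
    intro h0
    rw [h0] at hMdet
    exact hidx (by simpa using hMdet.symm)
  have hAdet : A.det = (ρ⁻¹) ^ n * (M.det : ℝ) := by
    simp only [A]
    rw [Matrix.det_smul, hMdetR, Fintype.card_fin]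
  have hAne : A.det ≠ 0 := by
    rw [hAdet]
    have : (M.det : ℝ) ≠ 0 := by exact_mod_cast hMne
    positivity
  refine ⟨A, hAne, ?_, ?_⟩
  · -- covering
    intro x
    let w : Fin n → ℤ := fun i => ⌊ρ * x i⌋
    obtain ⟨v, hv1, hv2, _⟩ := hcov w
    have hv0 := hv1 0
    obtain ⟨u, hu⟩ := hMspan _ (Λ.neg_mem hv0)
    refine ⟨u, ρ⁻¹ • (toR (v 0) + fun i => Int.fract (ρ * x i)), ?_, ?_⟩
    · apply hshift _ (hv2 0)
      · intro i; exact Int.fract_nonneg _
      · intro i; exact (Int.fract_lt_one _).le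
    · funext i
      have h1 : ((-(v 0 - w) : Fin n → ℤ) i : ℝ) = ((M *ᵥ u) i : ℝ) := by
        rw [hu]
      have h2 : (A.mulVec (fun i => (u i : ℝ))) i = ρ⁻¹ * ((M *ᵥ u) i : ℝ) := by
        simp only [A, Matrix.smul_mulVec, Pi.smul_apply, smul_eq_mul]
        congr 1
        simp [Matrix.mulVec, dotProduct]
      simp only [Pi.add_apply, Pi.smul_apply, smul_eq_mul, toR]
      rw [h2, ← h1]
      have h3 : ((-(v 0 - w) : Fin n → ℤ) i : ℝ) = (w i : ℝ) - (v 0 i : ℝ) := by
        simp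
      rw [h3]
      have h4 : (w i : ℝ) + Int.fract (ρ * x i) = ρ * x i := Int.floor_add_fract _
      have h5 : x i = ρ⁻¹ * ((w i : ℝ) + Int.fract (ρ * x i)) := by
        rw [h4]
        field_simp
      calc x i = ρ⁻¹ * ((w i : ℝ) + Int.fract (ρ * x i)) := h5
        _ = _ := by ring
  · -- volume
    have hvolK2 : volume K2 = ENNReal.ofReal (ρ ^ n * lam ^ n) * volume K := by
      simp only [K2, H]
      rw [Measure.addHaar_smul, Measure.addHaar_image_homothety, Module.finrank_fintype_fun_eq_card,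
        Fintype.card_fin, abs_of_pos (by positivity), abs_of_pos (by positivity), ← mul_assoc,
        ← ENNReal.ofReal_mul (by positivity)]
    have hlampow : (1 / 4 : ℝ) ≤ lam ^ n := one_sub_inv_pow_ge hn
    have hfinite : volume K ≠ ⊤ := hKc.measure_lt_top.ne
    have hle : ENNReal.ofReal (ρ ^ n * lam ^ n) * volume K ≤
        ENNReal.ofReal (Dens * (Λ.index : ℝ)) := by
      rw [← hvolK2]
      exact hvol
    have hle2 : ρ ^ n * lam ^ n * (volume K).toReal ≤ Dens * (Λ.index : ℝ) := by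
      have h1 := ENNReal.toReal_mono (by exact ENNReal.ofReal_ne_top) hle
      rw [ENNReal.toReal_mul, ENNReal.toReal_ofReal (by positivity),
        ENNReal.toReal_ofReal (by positivity)] at h1
      exact h1
    have hidxR : (Λ.index : ℝ) = |(M.det : ℝ)| := by
      rw [← hMdet, Nat.cast_natAbs, Int.cast_abs]
    rw [hAdet, abs_mul, abs_of_pos (by positivity : 0 < (ρ⁻¹) ^ n), ← hidxR]
    have hV0 : 0 ≤ (volume K).toReal := ENNReal.toReal_nonneg
    have hρn : 0 < ρ ^ n := by positivity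
    have h6 : ρ ^ n * (1 / 4) * (volume K).toReal ≤ ρ ^ n * lam ^ n * (volume K).toReal := by
      apply mul_le_mul_of_nonneg_right _ hV0
      exact mul_le_mul_of_nonneg_left hlampow hρn.le
    have h7 : ρ ^ n * (1 / 4) * (volume K).toReal ≤ Dens * (Λ.index : ℝ) := h6.trans hle2
    have h8 : (ρ⁻¹) ^ n * ρ ^ n = 1 := by
      rw [← mul_pow, inv_mul_cancel₀ hρpos.ne', one_pow]
    have h9 : (volume K).toReal = (ρ⁻¹) ^ n * (ρ ^ n * (volume K).toReal) := by
      rw [← mul_assoc, h8, one_mul]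
    rw [h9]
    have h10 : ρ ^ n * (volume K).toReal ≤ 4 * (Dens * (Λ.index : ℝ)) := by
      linarith
    calc (ρ⁻¹) ^ n * (ρ ^ n * (volume K).toReal) ≤ (ρ⁻¹) ^ n * (4 * (Dens * (Λ.index : ℝ))) :=
          mul_le_mul_of_nonneg_left h10 (by positivity)
      _ = 4 * Dens * ((ρ⁻¹) ^ n * (Λ.index : ℝ)) := by ring

end Vale.Agent.Lib.P230
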