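import Vale.Agent.Lib.P230.Defs

/-!
# P230 module F: transport of `CovOn` along an equivalence of index types, and from
`CovOn` to real lattice coverings.

Blueprint of `covering_of_cov`:  Let `K` be compact convex with nonempty interior.  It contains a cube of half side `s > 0` about some `c₀`.
Scale by `ρ = 2 * f / s`: `K' = ρ • K` has cube of half side `2 f` about `ρ c₀`.  Put `K'' = ρ c₀ + (1 - 1/n) (K' - ρ c₀)`, so that `K'' + [-2 f/n, 2 f/n]^n ⊆ K'`, and
`K''` contains a cube of half side `f`(if `n ≥ 2`).  As `f ≥ n`, `K'' + [0,1]^n ⊆ K'`.  Apply `CovOn` to `K''` (bounded, convex): a finite index subgroup `Λ ≤ ℤ^n` with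
`vol K'' ≤ Dens * index Λ`, and for each `x ∈ ℤ^n` a point `v ∈ K''∩ℤ^n` with `v - x ∈ Λ` (only `v 0` is used).
`Λ` is a `ℤ`-lattice: it has a `ℤ`-basis, given by an integer matrix `M` with `|det M| = index Λ`
(`Submodule.basisOfPid` or Smith normal form, `AddSubgroup.index_eq_natAbs_det` or `Submodule.natAbs_det_basis_change`).
Every real `y` is `⌊y⌋ + frac`, `⌊y⌋ = v + λ`, `λ ∈ Λ`, `v ∈ K''`; so `y ∈ K' + Λ`.
Put `A = ρ⁻¹ • M` (as a real matrix).  Then `K + A ℤ^n = ℝ^n` and `vol K = ρ^{-n} vol K'`, `|det A| = ρ^{-n} |det M|`, `vol K' = (1-1/n)^{-n} vol K'' ≤ 4 vol K''`.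
So `vol K ≤ 4 Dens |det A|`.
-/

open MeasureTheory
open scoped ENNReal

namespace Vale.Agent.Lib.P230

/-- Composition with an equivalence preserves Lebesgue measure. -/
theorem measurePreserving_comp_symm {ι ι' : Type} [Fintype ι] [Fintype ι'] (e : ι ≃ ι') :
    MeasurePreserving (fun x : ι → ℝ => x ∘ e.symm) volume volume := by
  classical
  have h := volume_measurePreserving_piCongrLeft (fun _ : ι' => ℝ) e
  have h2 : (fun x : ι → ℝ => x ∘ e.symm) = MeasurableEquiv.piCongrLeft (fun _ : ι' => ℝ) e := by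
    funext x i'
    simp [MeasurableEquiv.coe_piCongrLeft, Equiv.piCongrLeft_apply_eq_cast]
  rw [h2]
  exact h

/-- Transport along an equivalence of the index types. -/
theorem covOn_congr {ι ι' : Type} [Fintype ι] [Fintype ι'] (e : ι ≃ ι') {r : ℕ} {f Dens : ℝ}
    {Qmin Qmax : ℕ} (h : CovOn ι r f Dens Qmin Qmax) : CovOn ι' r f Dens Qmin Qmax := by
  classical
  intro B' hconv hbd hcube q hq hq1 hq2
  obtain ⟨c', hc'⟩ := hcube
  let B : Set (ι → ℝ) := {x | x ∘ e.symm ∈ B'}
  have hconvB : Convex ℝ B := by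
    intro x hx y hy a b ha hb hab
    have := hconv hx hy ha hb hab
    exact this
  have hbdB : Bornology.IsBounded B := by
    obtain ⟨R, hR, hsub⟩ := hbd.subset_closedBall_lt 0 0
    apply (Metric.isBounded_closedBall (x := (0 : ι → ℝ)) (r := R)).subset
    intro x hx
    have h1 := hsub hx
    rw [mem_closedBall_zero_iff, pi_norm_le_iff_of_nonneg hR.le] at h1 ⊢
    intro i
    have := h1 (e i)
    simpa using this
  have hcubeB : ∃ c : ι → ℝ, ∀ x : ι → ℝ, (∀ i, |x i - c i| ≤ f) → x ∈ B := by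
    refine ⟨c' ∘ e, fun x hx => ?_⟩
    apply hc'
    intro i'
    have := hx (e.symm i')
    simpa using this
  obtain ⟨Λ, hidx, hvol, hcov⟩ := h B hconvB hbdB hcubeB q hq hq1 hq2
  let ψ : (ι' → ℤ) →+ (ι → ℤ) :=
    { toFun := fun x => x ∘ e
      map_zero' := rfl
      map_add' := fun _ _ => rfl }
  have hψ : Function.Surjective ψ := fun x => ⟨x ∘ e.symm, by
    funext i
    simp [ψ]⟩
  refine ⟨Λ.comap ψ, ?_, ?_, ?_⟩
  · rw [AddSubgroup.index_comap_of_surjective _ hψ]
    exact hidx
  · rw [AddSubgroup.index_comap_of_surjective _ hψ]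
    have hm : volume B = volume B' := by
      have h1 := (measurePreserving_comp_symm e)
      have hme : MeasurableEmbedding (fun x : ι → ℝ => x ∘ e.symm) := by
        have h2 : (fun x : ι → ℝ => x ∘ e.symm) =
            MeasurableEquiv.piCongrLeft (fun _ : ι' => ℝ) e := by
          funext x i'
          simp [MeasurableEquiv.coe_piCongrLeft, Equiv.piCongrLeft_apply_eq_cast]
        rw [h2]
        exact (MeasurableEquiv.piCongrLeft (fun _ : ι' => ℝ) e).measurableEmbedding
      exact h1.measure_preimage_emb hme B'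
    rw [← hm]
    exact hvol
  · intro x'
    obtain ⟨v, hv1, hv2, hv3⟩ := hcov (x' ∘ e)
    refine ⟨fun i => v i ∘ e.symm, ?_, ?_, ?_⟩
    · intro i
      rw [AddSubgroup.mem_comap]
      have : ψ (v i ∘ e.symm - x') = v i - x' ∘ e := by
        funext k
        simp [ψ]
      rw [this]
      exact hv1 i
    · intro i
      exact hv2 i
    · unfold AffIndMod at hv3 ⊢
      let T : ((ι → ZMod q) × ZMod q) →ₗ[ZMod q] ((ι' → ZMod q) × ZMod q) :=
        LinearMap.prodMap (LinearMap.funLeft (ZMod q) (ZMod q) e.symm) LinearMap.id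
      have hT : LinearMap.ker T = ⊥ := by
        rw [LinearMap.ker_eq_bot]
        intro a b hab
        have h1 : a.1 ∘ e.symm = b.1 ∘ e.symm := by
          have := congrArg Prod.fst hab
          exact this
        have h2 : a.2 = b.2 := by
          have := congrArg Prod.snd hab
          exact this
        refine Prod.ext ?_ h2
        funext i
        have := congrFun h1 (e i)
        simpa using this
      have := hv3.map' T hT
      have hfun : (fun j => ((fun i => (((v j ∘ e.symm) i : ℤ) : ZMod q)), (1 : ZMod q))) =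
          (⇑T ∘ fun j => ((fun i => ((v j i : ℤ) : ZMod q)), (1 : ZMod q))) := by
        funext j
        rfl
      rw [hfun]
      exact this

/-- `(1 + 1/m)^m ≤ 3`. -/
theorem one_add_inv_pow_le_three {m : ℕ} (hm : 0 < m) : (1 + 1 / (m : ℝ)) ^ m ≤ 3 := by
  have hnr : (0 : ℝ) < m := by exact_mod_cast hm
  have h1 : 1 + 1 / (m : ℝ) ≤ Real.exp (1 / (m : ℝ)) := by
    have := Real.add_one_le_exp (1 / (m : ℝ))
    linarith
  have h2 : (1 + 1 / (m : ℝ)) ^ m ≤ Real.exp (1 / (m : ℝ)) ^ m :=
    pow_le_pow_left₀ (by positivity) h1 m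
  have h3 : Real.exp (1 / (m : ℝ)) ^ m = Real.exp 1 := by
    rw [← Real.exp_nat_mul]
    congr 1
    field_simp
  rw [h3] at h2
  have h4 := Real.exp_one_lt_d9
  linarith

/-- `(1 - 1/n)^n ≥ 1/4` for `n ≥ 2`. -/
theorem one_sub_inv_pow_ge {n : ℕ} (hn : 2 ≤ n) : (1 / 4 : ℝ) ≤ (1 - 1 / (n : ℝ)) ^ n := by
  obtain ⟨m, rfl⟩ : ∃ m, n = m + 1 := ⟨n - 1, by omega⟩
  have hm : 1 ≤ m := by omega
  have hmr : (1 : ℝ) ≤ m := by exact_mod_cast hm
  have hbig : (1 + 1 / (m : ℝ)) ^ (m + 1) ≤ 4 := by
    rcases Nat.lt_or_ge m 3 with h3 | h3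
    · interval_cases m
      · norm_num
      · norm_num
    · have h1 := one_add_inv_pow_le_three (m := m) (by omega)
      have hm3 : (3 : ℝ) ≤ m := by exact_mod_cast h3
      have h2 : 1 / (m : ℝ) ≤ 1 / 3 := one_div_le_one_div_of_le (by norm_num) hm3
      have h4 : 0 < 1 / (m : ℝ) := by positivity
      rw [pow_succ]
      nlinarith
  have he : 1 - 1 / ((m + 1 : ℕ) : ℝ) = (1 + 1 / (m : ℝ))⁻¹ := by
    push_cast
    have : (m : ℝ) ≠ 0 := by positivity
    have : (m : ℝ) + 1 ≠ 0 := by positivity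
    field_simp
    ring
  rw [he, inv_pow]
  have hpos : 0 < (1 + 1 / (m : ℝ)) ^ (m + 1) := by positivity
  rw [← one_div]
  exact one_div_le_one_div_of_le hpos hbig

end Vale.Agent.Lib.P230
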