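import Vale.Agent.Lib.P230.LevelCommon
import Vale.Agent.Lib.P230.Step
import Vale.Agent.Lib.P230.Final

/-!
# P230: one level of the recursion with explicit parameters.
-/

open MeasureTheory
open scoped ENNReal

namespace Vale.Agent.Lib.P230

/-- Assembling the estimate of `plBound`. -/
lemma plBound_le_of {Q q r t : ℕ} {θ θ₀ ε : ℝ} (hθ : θ₀ ≤ θ) (hθ0 : 0 < θ)
    (hN : 4 * θ ≤ ((2 * t + 1 : ℕ) : ℝ))
    (H1 : ε * (4 * t) * ((Q : ℝ) * θ) ^ (4 * t) ≤ Real.exp (-(θ₀ / 2)))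
    (H2 : 4 * Real.exp θ * ε * (4 * t) * 2 ^ (4 * t) * ((Q : ℝ) * θ) ^ (4 * t) ≤ Real.exp (-(θ₀ / 2)))
    (H3 : ε * (r + 1) * ((q : ℝ) * θ) ^ (r + 1) ≤ Real.exp (-(θ₀ / 2))) :
    plBound Q q r t θ ε ≤ 5 * 2 ^ r * Real.exp (-(θ₀ / 2)) := by
  have h1 : Real.exp (-(θ / 2)) ≤ Real.exp (-(θ₀ / 2)) := by
    apply Real.exp_le_exp.2
    linarith
  have h2 := poisson_tail hθ0 hN
  unfold plBound
  have h3 : (1 : ℝ) ≤ 2 ^ r := one_le_pow₀ (by norm_num)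
  have h4 : 0 < Real.exp (-(θ₀ / 2)) := Real.exp_pos _
  have h5 : (2 : ℝ) ^ r * (Real.exp (-(θ / 2)) + (θ / 2) ^ (2 * t + 1) / ((2 * t + 1).factorial : ℝ)
      + 4 * Real.exp θ * ε * (4 * t) * 2 ^ (4 * t) * ((Q : ℝ) * θ) ^ (4 * t)) ≤
      2 ^ r * (3 * Real.exp (-(θ₀ / 2))) := by
    apply mul_le_mul_of_nonneg_left _ (by positivity)
    linarith
  nlinarith only [h5, H1, H3, mul_le_mul_of_nonneg_right h3 h4.le]

/-- The threshold for the level parameter. -/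
def ℓ₀ : ℕ := 100000000000

/-- Numeric facts used at one level, in real form. -/
structure LevelNum (N M K ℓ Lg J θ₀ : ℝ) : Prop where
  hN : N = K + M
  hK : K = ℓ ^ 5
  hℓ : 100000000000 ≤ ℓ
  hLg : Lg ≤ ℓ
  hLg0 : 0 ≤ Lg
  hNℓ : ℓ ^ 30 ≤ N
  hJ : J ≤ K * ℓ + 6
  hθ₀ : θ₀ = M / ℓ ^ 2

section Num

variable {N M K ℓ Lg J θ₀ : ℝ}

lemma LevelNum.ℓ_pos (h : LevelNum N M K ℓ Lg J θ₀) : 0 < ℓ := by
  have := h.hℓ
  linarith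

lemma LevelNum.ℓ_ge_one (h : LevelNum N M K ℓ Lg J θ₀) : 1 ≤ ℓ := by
  have := h.hℓ
  linarith

lemma LevelNum.K_le (h : LevelNum N M K ℓ Lg J θ₀) : 2 * ℓ ^ 6 ≤ N := by
  have h1 := h.ℓ_ge_one
  have h2 : ℓ ^ 6 * ℓ ^ 24 = ℓ ^ 30 := by ring
  have h3 : (2 : ℝ) ≤ ℓ ^ 24 := by
    have : (2 : ℝ) ≤ ℓ := by have := h.hℓ; linarith
    calc (2 : ℝ) ≤ ℓ := this
      _ = ℓ ^ 1 := (pow_one ℓ).symm
      _ ≤ ℓ ^ 24 := pow_le_pow_right₀ h1 (by norm_num)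
  have h4 := h.hNℓ
  have h5 : 0 ≤ ℓ ^ 6 := by positivity
  nlinarith only [h2, h3, h4, h5, mul_le_mul_of_nonneg_left h3 h5]

lemma LevelNum.M_ge (h : LevelNum N M K ℓ Lg J θ₀) : N / 2 ≤ M := by
  have h1 := h.ℓ_ge_one
  have h2 := h.K_le
  have h3 : ℓ ^ 5 ≤ ℓ ^ 6 := pow_le_pow_right₀ h1 (by norm_num)
  have h4 := h.hN
  have h5 := h.hK
  rw [h5] at h4
  linarith

lemma LevelNum.N_big (h : LevelNum N M K ℓ Lg J θ₀) (e : ℕ) (he : e ≤ 30) : ℓ ^ e ≤ N :=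
  (pow_le_pow_right₀ h.ℓ_ge_one he).trans h.hNℓ

lemma LevelNum.M_big (h : LevelNum N M K ℓ Lg J θ₀) (e : ℕ) (he : e ≤ 29) : ℓ ^ e ≤ M := by
  have h1 := h.M_ge
  have h2 := h.hNℓ
  have h3 : ℓ ^ e ≤ ℓ ^ 29 := pow_le_pow_right₀ h.ℓ_ge_one he
  have h4 : 2 * ℓ ^ 29 ≤ ℓ ^ 30 := by
    have : ℓ ^ 30 = ℓ * ℓ ^ 29 := by ring
    rw [this]
    have h5 : (2 : ℝ) ≤ ℓ := by have := h.hℓ; linarith
    exact mul_le_mul_of_nonneg_right h5 (by have := h.ℓ_pos; positivity)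
  linarith

lemma LevelNum.M_pos (h : LevelNum N M K ℓ Lg J θ₀) : 0 < M := by
  have h1 := h.M_big 1 (by norm_num)
  have h2 := h.ℓ_pos
  simp only [pow_one] at h1
  linarith

lemma LevelNum.θ_pos (h : LevelNum N M K ℓ Lg J θ₀) : 0 < θ₀ := by
  rw [h.hθ₀]
  have h1 := h.M_pos
  have h2 := h.ℓ_pos
  positivity

lemma LevelNum.θ_mul (h : LevelNum N M K ℓ Lg J θ₀) : θ₀ * ℓ ^ 2 = M := by
  rw [h.hθ₀]
  have h2 := h.ℓ_pos
  field_simp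

lemma LevelNum.θ_big (h : LevelNum N M K ℓ Lg J θ₀) : ℓ ^ 27 ≤ θ₀ := by
  have h1 := h.M_big 29 (by norm_num)
  have h2 := h.ℓ_pos
  rw [h.hθ₀, le_div_iff₀ (by positivity)]
  calc ℓ ^ 27 * ℓ ^ 2 = ℓ ^ 29 := by ring
    _ ≤ M := h1

lemma LevelNum.θ_le (h : LevelNum N M K ℓ Lg J θ₀) : θ₀ + 1 ≤ N := by
  have h1 := h.θ_mul
  have h2 := h.θ_big
  have h3 := h.ℓ_ge_one
  have h4 : 1 ≤ ℓ ^ 2 := one_le_pow₀ h3
  have h5 : 1 ≤ ℓ ^ 27 := one_le_pow₀ h3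
  have h6 : 2 * θ₀ ≤ M := by
    rw [← h1]
    have h7 : (2 : ℝ) ≤ ℓ ^ 2 := by nlinarith only [h.hℓ]
    nlinarith only [h2, h7, mul_le_mul_of_nonneg_left h7 h.θ_pos.le]
  have h8 := h.hN
  have h9 : 0 ≤ K := by rw [h.hK]; have := h.ℓ_pos; positivity
  linarith

/-- The main numeric inequality. -/
lemma LevelNum.main (h : LevelNum N M K ℓ Lg J θ₀) {T : ℝ} (hT0 : 0 ≤ T) (hT : T ≤ 8 * θ₀ + 12) :
    7 + (3 / 2) * θ₀ + (3 / 2) * J + 2 * T + 6 * Lg * T ≤ γ₀ * M / 4 := by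
  have hℓ := h.hℓ
  have hℓ1 := h.ℓ_ge_one
  have hℓ0 := h.ℓ_pos
  have hθ0 := h.θ_pos
  have hθm := h.θ_mul
  have hJ := h.hJ
  rw [h.hK] at hJ
  have h1 : 6 * Lg * T ≤ 6 * ℓ * T := by
    have := h.hLg
    gcongr
  have h2 : 2 * T + 6 * ℓ * T ≤ 8 * ℓ * T := by nlinarith only [hT0, hℓ1, mul_le_mul_of_nonneg_right hℓ1 hT0]
  have h3 : 8 * ℓ * T ≤ 8 * ℓ * (8 * θ₀ + 12) := by gcongr
  have h4 : 8 * ℓ * (8 * θ₀ + 12) = 64 * (θ₀ * ℓ) + 96 * ℓ := by ring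
  have h5 : 66 * (θ₀ * ℓ) ≤ γ₀ * M / 8 := by
    rw [← hθm]
    have h6 : 66 / γ₀ * 8 ≤ ℓ := by
      unfold γ₀
      norm_num
      linarith
    have h7 := γ₀_pos
    have h8 : 66 * 8 ≤ γ₀ * ℓ := by
      rw [div_mul_eq_mul_div, div_le_iff₀ h7] at h6
      linarith
    have h9 : 0 ≤ θ₀ * ℓ := by positivity
    calc 66 * (θ₀ * ℓ) = (66 * 8) * (θ₀ * ℓ) / 8 := by ring
      _ ≤ (γ₀ * ℓ) * (θ₀ * ℓ) / 8 := by gcongr
      _ = γ₀ * (θ₀ * ℓ ^ 2) / 8 := by ring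
  have h10 : (3 / 2) * θ₀ ≤ 2 * (θ₀ * ℓ) := by nlinarith only [hθ0, hℓ1, mul_le_mul_of_nonneg_left hℓ1 hθ0.le]
  have h11 : 7 + (3 / 2) * J + 96 * ℓ ≤ γ₀ * M / 8 := by
    have hM := h.M_big 29 (by norm_num)
    have h12 : ℓ ≤ ℓ ^ 6 := by
      calc ℓ = ℓ ^ 1 := (pow_one ℓ).symm
        _ ≤ ℓ ^ 6 := pow_le_pow_right₀ hℓ1 (by norm_num)
    have h13 : 1 ≤ ℓ ^ 6 := one_le_pow₀ hℓ1
    have h14 : ℓ ^ 5 * ℓ = ℓ ^ 6 := by ring
    have h15 : 7 + (3 / 2) * J + 96 * ℓ ≤ 200 * ℓ ^ 6 := by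
      rw [h14] at hJ
      linarith
    have h16 : (200 * 8 / γ₀) ≤ ℓ ^ 23 := by
      have h17 : (200 * 8 / γ₀) ≤ ℓ := by
        unfold γ₀; norm_num; linarith
      calc (200 * 8 / γ₀) ≤ ℓ := h17
        _ = ℓ ^ 1 := (pow_one ℓ).symm
        _ ≤ ℓ ^ 23 := pow_le_pow_right₀ hℓ1 (by norm_num)
    have h7 := γ₀_pos
    have h18 : 200 * 8 ≤ γ₀ * ℓ ^ 23 := by
      rw [div_le_iff₀ h7] at h16
      linarith
    have h19 : ℓ ^ 6 * ℓ ^ 23 = ℓ ^ 29 := by ring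
    have h20 : 0 ≤ ℓ ^ 6 := by positivity
    calc 7 + (3 / 2) * J + 96 * ℓ ≤ 200 * ℓ ^ 6 := h15
      _ = (200 * 8) * ℓ ^ 6 / 8 := by ring
      _ ≤ (γ₀ * ℓ ^ 23) * ℓ ^ 6 / 8 := by gcongr
      _ = γ₀ * ℓ ^ 29 / 8 := by rw [← h19]; ring
      _ ≤ γ₀ * M / 8 := by gcongr
  linarith

end Num

/-- Bound on `plBound` at one level. -/
lemma level_plBound {N M K ℓ Lg J θ₀ : ℝ} (h : LevelNum N M K ℓ Lg J θ₀)
    {Q q r t : ℕ} {θ : ℝ} (hNpos : 16 ≤ N)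
    (hLg : Lg = Real.log N)
    (hQ : (Q : ℝ) ≤ 16 * N ^ 4) (hθ1 : θ₀ ≤ θ) (hθ2 : θ ≤ θ₀ + 1)
    (ht1 : 2 * θ₀ + 2 ≤ (t : ℝ)) (ht2 : (t : ℝ) ≤ 2 * θ₀ + 3)
    (hq : 1 ≤ (q : ℝ))
    (hr : ((r : ℝ) + 1) * (1 + Real.log ((q : ℝ) * N)) ≤ γ₀ * M / 8) :
    plBound Q q r t θ (Real.exp (4 + (3 / 2) * J - γ₀ * M / 2)) ≤
      5 * 2 ^ r * Real.exp (-(θ₀ / 2)) := by
  have hθ₀ := h.θ_pos
  have hθpos : 0 < θ := by linarith
  have hNpos' : 0 < N := by linarith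
  have hQ0 : (0 : ℝ) ≤ Q := Nat.cast_nonneg _
  have hT0 : (0 : ℝ) ≤ 4 * (t : ℝ) := by positivity
  have hN : 4 * θ ≤ ((2 * t + 1 : ℕ) : ℝ) := by
    push_cast
    linarith
  set T : ℝ := 4 * (t : ℝ) with hT
  have hTle : T ≤ 8 * θ₀ + 12 := by rw [hT]; linarith
  have hmain := h.main hT0 hTle
  have hexpN : Real.exp Lg = N := by rw [hLg]; exact Real.exp_log hNpos'
  -- the bound on `Q θ`
  have hQθ : (Q : ℝ) * θ ≤ Real.exp (6 * Lg) := by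
    have h1 : θ ≤ N := by linarith [h.θ_le]
    have h2 : (Q : ℝ) * θ ≤ 16 * N ^ 4 * N := by
      exact mul_le_mul hQ h1 hθpos.le (by positivity)
    have h3 : 16 * N ^ 4 * N ≤ N * N ^ 4 * N := by
      gcongr
    have h4 : N * N ^ 4 * N = N ^ 6 := by ring
    have h5 : Real.exp (6 * Lg) = N ^ 6 := by
      rw [mul_comm, Real.exp_mul, hexpN]
      norm_cast
    rw [h5]
    linarith
  have hQθ0 : 0 ≤ (Q : ℝ) * θ := by positivity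
  have hpowQ : ((Q : ℝ) * θ) ^ (4 * t) ≤ Real.exp (6 * Lg * T) := by
    calc ((Q : ℝ) * θ) ^ (4 * t) ≤ Real.exp (6 * Lg) ^ (4 * t) := pow_le_pow_left₀ hQθ0 hQθ _
      _ = Real.exp (6 * Lg * T) := by
        rw [← Real.exp_nat_mul, hT]
        congr 1
        push_cast
        ring
  have hTe : T ≤ Real.exp T := by
    have := Real.add_one_le_exp T
    linarith
  have h2T : (2 : ℝ) ^ (4 * t) ≤ Real.exp T := by
    have h2e : (2 : ℝ) ≤ Real.exp 1 := by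
      have := Real.add_one_le_exp (1 : ℝ)
      linarith
    calc (2 : ℝ) ^ (4 * t) ≤ Real.exp 1 ^ (4 * t) := pow_le_pow_left₀ (by norm_num) h2e _
      _ = Real.exp T := by
        rw [← Real.exp_nat_mul, hT]
        congr 1
        push_cast
        ring
  have hTT : (4 * (t : ℝ)) = T := rfl
  have he4 : (4 : ℝ) ≤ Real.exp 2 := by
    have h3 := Real.add_one_le_exp (1 : ℝ)
    have h4 : Real.exp 2 = Real.exp 1 * Real.exp 1 := by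
      rw [← Real.exp_add]; norm_num
    rw [h4]
    nlinarith only [h3]
  have hexp_pos : ∀ x : ℝ, 0 < Real.exp x := Real.exp_pos
  have hγM : 0 ≤ γ₀ * M := mul_nonneg γ₀_pos.le h.M_pos.le
  have hLT : 0 ≤ 6 * Lg * T := mul_nonneg (mul_nonneg (by norm_num) h.hLg0) hT0
  apply plBound_le_of hθ1 hθpos hN
  · -- H1
    rw [hTT]
    calc Real.exp (4 + (3 / 2) * J - γ₀ * M / 2) * T * ((Q : ℝ) * θ) ^ (4 * t)
        ≤ Real.exp (4 + (3 / 2) * J - γ₀ * M / 2) * Real.exp T * Real.exp (6 * Lg * T) := by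
          apply mul_le_mul _ hpowQ (by positivity) (by positivity)
          exact mul_le_mul_of_nonneg_left hTe (by positivity)
      _ = Real.exp ((4 + (3 / 2) * J - γ₀ * M / 2) + T + 6 * Lg * T) := by
          rw [Real.exp_add, Real.exp_add]
      _ ≤ Real.exp (-(θ₀ / 2)) := by
          apply Real.exp_le_exp.2
          linarith
  · -- H2
    rw [hTT]
    have hθe : Real.exp θ ≤ Real.exp (θ₀ + 1) := Real.exp_le_exp.2 hθ2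
    calc 4 * Real.exp θ * Real.exp (4 + (3 / 2) * J - γ₀ * M / 2) * T * 2 ^ (4 * t) * ((Q : ℝ) * θ) ^ (4 * t)
        ≤ Real.exp 2 * Real.exp (θ₀ + 1) * Real.exp (4 + (3 / 2) * J - γ₀ * M / 2) * Real.exp T *
            Real.exp T * Real.exp (6 * Lg * T) := by
          gcongr
      _ = Real.exp (2 + (θ₀ + 1) + (4 + (3 / 2) * J - γ₀ * M / 2) + T + T + 6 * Lg * T) := by
          simp only [Real.exp_add]
      _ ≤ Real.exp (-(θ₀ / 2)) := by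
          apply Real.exp_le_exp.2
          linarith
  · -- H3
    have hqθ0 : 0 < (q : ℝ) * θ := by positivity
    have hqθ : (q : ℝ) * θ ≤ (q : ℝ) * N := by
      apply mul_le_mul_of_nonneg_left (by linarith [h.θ_le]) (by linarith)
    have hqN0 : 0 < (q : ℝ) * N := by positivity
    have h1 : ((q : ℝ) * θ) ^ (r + 1) ≤ Real.exp (((r : ℝ) + 1) * Real.log ((q : ℝ) * N)) := by
      calc ((q : ℝ) * θ) ^ (r + 1) ≤ ((q : ℝ) * N) ^ (r + 1) := pow_le_pow_left₀ hqθ0.le hqθ _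
        _ = Real.exp (Real.log ((q : ℝ) * N)) ^ (r + 1) := by rw [Real.exp_log hqN0]
        _ = _ := by
          rw [← Real.exp_nat_mul]
          congr 1
          push_cast
          ring
    have h2 : (r : ℝ) + 1 ≤ Real.exp ((r : ℝ) + 1) := by
      have := Real.add_one_le_exp ((r : ℝ) + 1)
      linarith
    calc Real.exp (4 + (3 / 2) * J - γ₀ * M / 2) * ((r : ℝ) + 1) * ((q : ℝ) * θ) ^ (r + 1)
        ≤ Real.exp (4 + (3 / 2) * J - γ₀ * M / 2) * Real.exp ((r : ℝ) + 1) *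
            Real.exp (((r : ℝ) + 1) * Real.log ((q : ℝ) * N)) := by
          gcongr
      _ = Real.exp ((4 + (3 / 2) * J - γ₀ * M / 2) + ((r : ℝ) + 1) + ((r : ℝ) + 1) * Real.log ((q : ℝ) * N)) := by
          rw [Real.exp_add _ (((r : ℝ) + 1) * Real.log _), Real.exp_add _ ((r : ℝ) + 1)]
      _ ≤ Real.exp (-(θ₀ / 2)) := by
          apply Real.exp_le_exp.2
          have h5 : ((r : ℝ) + 1) + ((r : ℝ) + 1) * Real.log ((q : ℝ) * N) =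
              ((r : ℝ) + 1) * (1 + Real.log ((q : ℝ) * N)) := by ring
          linarith

/-- The union bound condition at one level. -/
lemma level_union {N M K ℓ Lg J θ₀ : ℝ} (h : LevelNum N M K ℓ Lg J θ₀) {r r' k m D₀ : ℕ}
    (hNpos : 16 ≤ N) (hLg : Lg = Real.log N) (hkK : (k : ℝ) = K) (hmM : (m : ℝ) = M)
    (hD₀ : (D₀ : ℝ) = 2 * N ^ 4) (hr' : (r' : ℝ) = 41 * ℓ ^ 3)
    (hr : (r : ℝ) ≤ θ₀ / 16) :
    ((2 * D₀ + 1 : ℕ) : ℝ) ^ (k + m) *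
      (((2 * D₀ + 1 : ℕ) : ℝ) ^ k * (5 * 2 ^ r * Real.exp (-(θ₀ / 2)))) ^ r' < 1 := by
  have hθ₀ := h.θ_pos
  have hNpos' : 0 < N := by linarith
  have hℓ0 := h.ℓ_pos
  have hℓ1 := h.ℓ_ge_one
  have hexpN : Real.exp Lg = N := by rw [hLg]; exact Real.exp_log hNpos'
  have hE : ((2 * D₀ + 1 : ℕ) : ℝ) ≤ Real.exp (5 * Lg) := by
    have h1 : Real.exp (5 * Lg) = N ^ 5 := by
      rw [mul_comm, Real.exp_mul, hexpN]
      norm_cast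
    rw [h1]
    push_cast
    rw [hD₀]
    have h2 : 0 < N ^ 4 := by positivity
    have h3 : N ^ 5 = N * N ^ 4 := by ring
    rw [h3]
    have h4 : 1 ≤ N ^ 4 := one_le_pow₀ (by linarith)
    have h5 : 16 * N ^ 4 ≤ N * N ^ 4 := mul_le_mul_of_nonneg_right hNpos h2.le
    linarith
  have hE0 : (0 : ℝ) ≤ ((2 * D₀ + 1 : ℕ) : ℝ) := Nat.cast_nonneg _
  have hEk : ((2 * D₀ + 1 : ℕ) : ℝ) ^ k ≤ Real.exp (5 * Lg * K) := by
    calc ((2 * D₀ + 1 : ℕ) : ℝ) ^ k ≤ Real.exp (5 * Lg) ^ k := pow_le_pow_left₀ hE0 hE _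
      _ = Real.exp (5 * Lg * K) := by
        rw [← Real.exp_nat_mul, hkK]
        congr 1
        ring
  have hEn : ((2 * D₀ + 1 : ℕ) : ℝ) ^ (k + m) ≤ Real.exp (5 * Lg * N) := by
    calc ((2 * D₀ + 1 : ℕ) : ℝ) ^ (k + m) ≤ Real.exp (5 * Lg) ^ (k + m) := pow_le_pow_left₀ hE0 hE _
      _ = Real.exp (5 * Lg * N) := by
        rw [← Real.exp_nat_mul, h.hN, ← hkK, ← hmM]
        congr 1
        push_cast
        ring
  have h5e : (5 : ℝ) ≤ Real.exp 2 := by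
    have he : (2.7182818283 : ℝ) < Real.exp 1 := Real.exp_one_gt_d9
    have h4 : Real.exp 2 = Real.exp 1 * Real.exp 1 := by
      rw [← Real.exp_add]; norm_num
    rw [h4]
    nlinarith only [he]
  have h2r : (2 : ℝ) ^ r ≤ Real.exp (r : ℝ) := by
    have h2e : (2 : ℝ) ≤ Real.exp 1 := by
      have := Real.add_one_le_exp (1 : ℝ)
      linarith
    calc (2 : ℝ) ^ r ≤ Real.exp 1 ^ r := pow_le_pow_left₀ (by norm_num) h2e _
      _ = Real.exp (r : ℝ) := by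
        rw [← Real.exp_nat_mul]; simp
  -- the key bound
  have hθbig := h.θ_big
  have hLK : 5 * Lg * K + 2 ≤ θ₀ / 8 := by
    have h1 : 5 * Lg * K ≤ 5 * ℓ * ℓ ^ 5 := by
      rw [h.hK]
      have := h.hLg
      gcongr
    have h2 : 5 * ℓ * ℓ ^ 5 = 5 * ℓ ^ 6 := by ring
    have h3 : (8 * (5 * ℓ ^ 6 + 2)) ≤ ℓ ^ 27 := by
      have h4 : 1 ≤ ℓ ^ 6 := one_le_pow₀ hℓ1
      have h5 : (56 : ℝ) ≤ ℓ ^ 21 := by
        calc (56 : ℝ) ≤ ℓ := by have := h.hℓ; linarith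
          _ = ℓ ^ 1 := (pow_one ℓ).symm
          _ ≤ ℓ ^ 21 := pow_le_pow_right₀ hℓ1 (by norm_num)
      have h6 : ℓ ^ 27 = ℓ ^ 6 * ℓ ^ 21 := by ring
      rw [h6]
      nlinarith only [h4, h5, mul_le_mul_of_nonneg_left h5 (by linarith : (0 : ℝ) ≤ ℓ ^ 6)]
    linarith
  have hb : ((2 * D₀ + 1 : ℕ) : ℝ) ^ k * (5 * 2 ^ r * Real.exp (-(θ₀ / 2))) ≤ Real.exp (-(θ₀ / 4)) := by
    calc ((2 * D₀ + 1 : ℕ) : ℝ) ^ k * (5 * 2 ^ r * Real.exp (-(θ₀ / 2)))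
        ≤ Real.exp (5 * Lg * K) * (Real.exp 2 * Real.exp (r : ℝ) * Real.exp (-(θ₀ / 2))) := by
          gcongr
      _ = Real.exp (5 * Lg * K + (2 + (r : ℝ) + -(θ₀ / 2))) := by
          rw [Real.exp_add (5 * Lg * K), Real.exp_add _ (-(θ₀ / 2)), Real.exp_add 2]
      _ ≤ Real.exp (-(θ₀ / 4)) := by
          apply Real.exp_le_exp.2
          linarith
  have hb0 : 0 ≤ ((2 * D₀ + 1 : ℕ) : ℝ) ^ k * (5 * 2 ^ r * Real.exp (-(θ₀ / 2))) := by positivity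
  have hbr : (((2 * D₀ + 1 : ℕ) : ℝ) ^ k * (5 * 2 ^ r * Real.exp (-(θ₀ / 2)))) ^ r' ≤
      Real.exp (-(θ₀ / 4) * (r' : ℝ)) := by
    calc _ ≤ Real.exp (-(θ₀ / 4)) ^ r' := pow_le_pow_left₀ hb0 hb _
      _ = _ := by
        rw [← Real.exp_nat_mul]
        congr 1
        ring
  have hfin : 5 * Lg * N < θ₀ / 4 * (r' : ℝ) := by
    rw [hr']
    have h1 : θ₀ / 4 * (41 * ℓ ^ 3) = (41 / 4) * ℓ * (θ₀ * ℓ ^ 2) := by ring
    rw [h1, h.θ_mul]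
    have hM := h.M_ge
    have hLg2 := h.hLg
    have h2 : 5 * Lg * N ≤ 5 * ℓ * N := by gcongr
    have h3 : (41 / 4) * ℓ * (N / 2) ≤ (41 / 4) * ℓ * M := by gcongr
    have h4 : 5 * ℓ * N < (41 / 4) * ℓ * (N / 2) := by
      have : 0 < ℓ * N := by positivity
      nlinarith only [this]
    linarith
  have hpos : 0 < Real.exp (-(θ₀ / 4) * (r' : ℝ)) := Real.exp_pos _
  calc ((2 * D₀ + 1 : ℕ) : ℝ) ^ (k + m) *
      (((2 * D₀ + 1 : ℕ) : ℝ) ^ k * (5 * 2 ^ r * Real.exp (-(θ₀ / 2)))) ^ r'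
      ≤ Real.exp (5 * Lg * N) * Real.exp (-(θ₀ / 4) * (r' : ℝ)) := by
        apply mul_le_mul hEn hbr (by positivity) (by positivity)
    _ = Real.exp (5 * Lg * N + -(θ₀ / 4) * (r' : ℝ)) := by rw [Real.exp_add]
    _ < 1 := by
        rw [Real.exp_lt_one_iff]
        linarith

set_option maxHeartbeats 1000000 in
/-- The level step with explicit parameters. -/
theorem level_step {n k m r r' ℓ Q Qmin Qmax Qk_min Qk_max : ℕ} {f_k D_k : ℝ}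
    (hn : n = k + m) (hk : k = ℓ ^ 5) (hr' : r' = 41 * ℓ ^ 3)
    (hℓ : 100000000000 ≤ ℓ) (hL : Real.log n ≤ ℓ) (hnℓ : ℓ ^ 30 ≤ n)
    (hQp : Q.Prime) (hQ1 : 8 * n ^ 4 < Q) (hQ2 : Q ≤ 16 * n ^ 4)
    (hcov : CovOn (Fin k) r' f_k D_k Qk_min Qk_max) (hDk : 0 ≤ D_k)
    (hQk1 : Qk_min ≤ Q) (hQk2 : Q ≤ Qk_max)
    (hf : 32 * f_k ≤ (n : ℝ) ^ 2) (hf0 : 0 ≤ f_k)
    (hqmin : 8 * n ^ 4 < Qmin)
    (hr1 : ∀ q : ℕ, q.Prime → Qmin ≤ q → q ≤ Qmax →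
      ((r : ℝ) + 1) * (1 + Real.log ((q : ℝ) * n)) ≤ γ₀ * m / 8)
    (hr2 : (r : ℝ) ≤ (m : ℝ) / (ℓ : ℝ) ^ 2 / 16) :
    CovOn (Fin k ⊕ Fin m) r (fatOf (k + m) ((n : ℝ) ^ 4))
      (3 * (112640 * ((levelJ k m : ℝ) + 1) * ((m : ℝ) / (ℓ : ℝ) ^ 2) * D_k)) Qmin Qmax := by
  classical
  have hnR : (n : ℝ) = (k : ℝ) + m := by rw [hn]; push_cast; rfl
  have hkR : (k : ℝ) = (ℓ : ℝ) ^ 5 := by rw [hk]; push_cast; rfl
  have hℓR : (100000000000 : ℝ) ≤ (ℓ : ℝ) := by exact_mod_cast hℓ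
  have hnℓR : (ℓ : ℝ) ^ 30 ≤ (n : ℝ) := by exact_mod_cast hnℓ
  have hℓ1 : (1 : ℝ) ≤ (ℓ : ℝ) := by linarith
  have hn1 : (1 : ℝ) ≤ (n : ℝ) := le_trans (one_le_pow₀ hℓ1) hnℓR
  have hn16 : (16 : ℝ) ≤ (n : ℝ) := by
    refine le_trans ?_ hnℓR
    calc (16 : ℝ) ≤ (ℓ : ℝ) := by linarith
      _ = (ℓ : ℝ) ^ 1 := (pow_one _).symm
      _ ≤ (ℓ : ℝ) ^ 30 := pow_le_pow_right₀ hℓ1 (by norm_num)
  have hn0 : (0 : ℝ) < (n : ℝ) := by linarith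
  have hm0R : (0 : ℝ) ≤ (m : ℝ) := Nat.cast_nonneg _
  have hmle : (m : ℝ) ≤ (n : ℝ) := by rw [hnR]; linarith [(Nat.cast_nonneg k : (0 : ℝ) ≤ k)]
  -- bound on the level count
  have hJ0 : ((levelJ k m : ℕ) : ℝ) ≤ (k : ℝ) * (ℓ : ℝ) + 6 := by
    unfold levelJ
    push_cast
    have h0 : (0 : ℝ) ≤ (k : ℝ) * Real.log m := by
      apply mul_nonneg (Nat.cast_nonneg _)
      exact Real.log_natCast_nonneg m
    have h1 := Nat.ceil_lt_add_one h0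
    have h2 : Real.log (m : ℝ) ≤ (ℓ : ℝ) := by
      rcases (Nat.eq_zero_or_pos m) with hm0 | hmpos
      · rw [hm0]; simp
      · have hmR : (0 : ℝ) < (m : ℝ) := by exact_mod_cast hmpos
        exact (Real.log_le_log hmR hmle).trans hL
    have h3 : (k : ℝ) * Real.log m ≤ (k : ℝ) * (ℓ : ℝ) :=
      mul_le_mul_of_nonneg_left h2 (Nat.cast_nonneg _)
    linarith
  have hLN : LevelNum (n : ℝ) (m : ℝ) (k : ℝ) (ℓ : ℝ) (Real.log n) ((levelJ k m : ℕ) : ℝ)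
      ((m : ℝ) / (ℓ : ℝ) ^ 2) :=
    ⟨hnR, hkR, hℓR, hL, Real.log_natCast_nonneg n, hnℓR, hJ0, rfl⟩
  have hMbig := hLN.M_big 29 (by norm_num)
  have hθbig := hLN.θ_big
  have hθmul := hLN.θ_mul
  obtain ⟨θ₀, hθ₀def⟩ : ∃ θ₀ : ℝ, θ₀ = (m : ℝ) / (ℓ : ℝ) ^ 2 := ⟨_, rfl⟩
  rw [← hθ₀def] at hLN hθbig hθmul hr2 ⊢
  have hθ₀1 : 1 ≤ θ₀ := le_trans (one_le_pow₀ hℓ1) hθbig
  have hθ₀pos : 0 < θ₀ := by linarith
  obtain ⟨J, hJdef⟩ : ∃ J : ℕ, J = levelJ k m := ⟨_, rfl⟩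
  rw [← hJdef] at hLN hJ0 ⊢
  have hk1 : 1 ≤ k := by rw [hk]; exact Nat.one_le_pow _ _ (by omega)
  have hmR2 : (2 : ℝ) ≤ (m : ℝ) := by
    refine le_trans ?_ hMbig
    calc (2 : ℝ) ≤ (ℓ : ℝ) := by linarith
      _ = (ℓ : ℝ) ^ 1 := (pow_one _).symm
      _ ≤ (ℓ : ℝ) ^ 29 := pow_le_pow_right₀ hℓ1 (by norm_num)
  have hm2 : 2 ≤ m := by exact_mod_cast hmR2
  have hτ : 64 * ((k : ℝ) + m) ^ 3 ≤ (n : ℝ) ^ 4 := by
    rw [← hnR]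
    have h64 : (64 : ℝ) ≤ (n : ℝ) := by
      refine le_trans ?_ hnℓR
      calc (64 : ℝ) ≤ (ℓ : ℝ) := by linarith
        _ = (ℓ : ℝ) ^ 1 := (pow_one _).symm
        _ ≤ (ℓ : ℝ) ^ 30 := pow_le_pow_right₀ hℓ1 (by norm_num)
    have : (n : ℝ) ^ 4 = (n : ℝ) * (n : ℝ) ^ 3 := by ring
    rw [this]
    exact mul_le_mul_of_nonneg_right h64 (by positivity)
  have hf' : f_k ≤ (n : ℝ) ^ 4 / (32 * ((k : ℝ) + m) * m) := by
    rw [← hnR]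
    have hmpos : (0 : ℝ) < (m : ℝ) := by linarith
    rw [le_div_iff₀ (by positivity)]
    have h1 : f_k * (32 * (n : ℝ) * m) = (32 * f_k) * ((n : ℝ) * m) := by ring
    rw [h1]
    calc (32 * f_k) * ((n : ℝ) * m) ≤ (n : ℝ) ^ 2 * ((n : ℝ) * n) := by
          apply mul_le_mul hf _ (by positivity) (by positivity)
          exact mul_le_mul_of_nonneg_left hmle hn0.le
      _ = (n : ℝ) ^ 4 := by ring
  have hD₀ : 2 * (n : ℝ) ^ 4 ≤ ((2 * n ^ 4 : ℕ) : ℝ) := by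
    push_cast; exact le_rfl
  have h2m : Real.exp ((m : ℝ) / 2) ≤ 2 ^ m := by
    have hlog2 : (1 / 2 : ℝ) ≤ Real.log 2 := by
      have := Real.log_two_gt_d9
      linarith
    have h3 : (2 : ℝ) ^ m = Real.exp (Real.log 2 * m) := by
      rw [mul_comm, Real.exp_nat_mul, Real.exp_log (by norm_num)]
    rw [h3]
    apply Real.exp_le_exp.2
    nlinarith only [mul_le_mul_of_nonneg_right hlog2 (Nat.cast_nonneg m : (0 : ℝ) ≤ m)]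
  have hQmR : (Q : ℝ) ≤ 16 * (n : ℝ) ^ 4 := by exact_mod_cast hQ2
  have hQm : Q ≤ 2 ^ m := by
    have h1 : (Q : ℝ) ≤ Real.exp (5 * Real.log n) := by
      have h5 : Real.exp (5 * Real.log n) = (n : ℝ) ^ 5 := by
        rw [mul_comm, Real.exp_mul, Real.exp_log hn0]
        norm_cast
      rw [h5]
      refine hQmR.trans ?_
      have : (n : ℝ) ^ 5 = (n : ℝ) * (n : ℝ) ^ 4 := by ring
      rw [this]
      exact mul_le_mul_of_nonneg_right hn16 (by positivity)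
    have h2 : 5 * Real.log n ≤ (m : ℝ) / 2 := by
      have h3 : (ℓ : ℝ) * 10 ≤ (ℓ : ℝ) ^ 29 := by
        have h4 : (10 : ℝ) ≤ (ℓ : ℝ) ^ 28 := by
          calc (10 : ℝ) ≤ (ℓ : ℝ) := by linarith
            _ = (ℓ : ℝ) ^ 1 := (pow_one _).symm
            _ ≤ (ℓ : ℝ) ^ 28 := pow_le_pow_right₀ hℓ1 (by norm_num)
        have h5 : (ℓ : ℝ) ^ 29 = (ℓ : ℝ) * (ℓ : ℝ) ^ 28 := by ring
        rw [h5]
        exact mul_le_mul_of_nonneg_left h4 (by linarith)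
      linarith
    have h3 : (Q : ℝ) ≤ (2 : ℝ) ^ m := h1.trans ((Real.exp_le_exp.2 h2).trans h2m)
    exact_mod_cast h3
  have hQn : k + m + 2 ≤ Qmin := by
    rw [← hn]
    have h1 : 1 ≤ n ^ 4 := Nat.one_le_pow _ _ (by
      have : (0 : ℝ) < (n : ℝ) := hn0
      exact_mod_cast this)
    have h2 : n ≤ n ^ 4 := by
      calc n = n ^ 1 := (pow_one n).symm
        _ ≤ n ^ 4 := Nat.pow_le_pow_right (by
          have : (0 : ℝ) < (n : ℝ) := hn0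
          exact_mod_cast this) (by norm_num)
    omega
  have hexp : 4 * θ₀ * Real.exp (J : ℝ) ≤ 2 ^ m := by
    have h4 : (4 : ℝ) ≤ Real.exp 2 := by
      have h3 := Real.add_one_le_exp (1 : ℝ)
      have h4 : Real.exp 2 = Real.exp 1 * Real.exp 1 := by
        rw [← Real.exp_add]; norm_num
      rw [h4]
      nlinarith only [h3]
    have h5 : θ₀ ≤ Real.exp θ₀ := by
      have := Real.add_one_le_exp θ₀
      linarith
    have h6 : 4 * θ₀ * Real.exp (J : ℝ) ≤ Real.exp (2 + θ₀ + (J : ℝ)) := by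
      rw [Real.exp_add, Real.exp_add]
      gcongr
    refine h6.trans (le_trans (Real.exp_le_exp.2 ?_) h2m)
    have h7 : 4 * θ₀ ≤ (m : ℝ) := by
      rw [← hθmul]
      have h8 : (4 : ℝ) ≤ (ℓ : ℝ) ^ 2 := by
        have h2ℓ : (2 : ℝ) ≤ (ℓ : ℝ) := by linarith
        nlinarith only [h2ℓ]
      nlinarith only [h8, hθ₀pos, mul_le_mul_of_nonneg_left h8 hθ₀pos.le]
    have h8 : (ℓ : ℝ) ^ 6 * 10 ≤ (ℓ : ℝ) ^ 29 := by
      have h9 : (10 : ℝ) ≤ (ℓ : ℝ) ^ 23 := by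
        calc (10 : ℝ) ≤ (ℓ : ℝ) := by linarith
          _ = (ℓ : ℝ) ^ 1 := (pow_one _).symm
          _ ≤ (ℓ : ℝ) ^ 23 := pow_le_pow_right₀ hℓ1 (by norm_num)
      have h10 : (ℓ : ℝ) ^ 29 = (ℓ : ℝ) ^ 6 * (ℓ : ℝ) ^ 23 := by ring
      rw [h10]
      exact mul_le_mul_of_nonneg_left h9 (by positivity)
    have h9 : (k : ℝ) * (ℓ : ℝ) = (ℓ : ℝ) ^ 6 := by rw [hkR]; ring
    have h10 : 10 ≤ (ℓ : ℝ) ^ 6 := by
      calc (10 : ℝ) ≤ (ℓ : ℝ) := by linarith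
        _ = (ℓ : ℝ) ^ 1 := (pow_one _).symm
        _ ≤ (ℓ : ℝ) ^ 6 := pow_le_pow_right₀ hℓ1 (by norm_num)
    linarith
  have ht : ∃ t : ℕ, 2 * θ₀ + 2 ≤ (t : ℝ) ∧ (t : ℝ) ≤ 2 * θ₀ + 3 := by
    refine ⟨⌈2 * θ₀⌉₊ + 2, ?_, ?_⟩
    · push_cast
      have := Nat.le_ceil (2 * θ₀)
      linarith
    · push_cast
      have := Nat.ceil_lt_add_one (by positivity : 0 ≤ 2 * θ₀)
      linarith
  obtain ⟨t, ht1, ht2⟩ := ht
  have hrt : r + 1 ≤ 2 * t := by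
    have h1 : ((r : ℝ) + 1) ≤ 2 * (t : ℝ) := by linarith
    exact_mod_cast h1
  have hε : 1728 * cE ^ m * Real.exp (3 * (J : ℝ)) ≤
      (Real.exp (4 + (3 / 2) * (J : ℝ) - γ₀ * (m : ℝ) / 2)) ^ 2 := by
    have h1 := cE_pow_le m
    have h2 : (1728 : ℝ) ≤ Real.exp 8 := by
      have he : (2.7182818283 : ℝ) < Real.exp 1 := Real.exp_one_gt_d9
      have h3 : Real.exp 8 = Real.exp 1 ^ 8 := by
        rw [← Real.exp_nat_mul]; norm_num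
      rw [h3]
      calc (1728 : ℝ) ≤ (2.7182818283 : ℝ) ^ 8 := by norm_num
        _ ≤ _ := pow_le_pow_left₀ (by norm_num) he.le 8
    have h3 : (Real.exp (4 + (3 / 2) * (J : ℝ) - γ₀ * (m : ℝ) / 2)) ^ 2 =
        Real.exp 8 * Real.exp (-(γ₀ * m)) * Real.exp (3 * (J : ℝ)) := by
      rw [← Real.exp_nat_mul, ← Real.exp_add, ← Real.exp_add]
      congr 1
      push_cast
      ring
    rw [h3]
    have h0 := cE_nonneg
    gcongr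
  have hPL : ∀ θ : ℝ, θ₀ ≤ θ → θ ≤ θ₀ + 1 → ∀ q : ℕ, q.Prime → Qmin ≤ q → q ≤ Qmax →
      plBound Q q r t θ (Real.exp (4 + (3 / 2) * (J : ℝ) - γ₀ * (m : ℝ) / 2)) ≤
        5 * 2 ^ r * Real.exp (-(θ₀ / 2)) := by
    intro θ h1 h2 q hqp hq1 hq2
    have hq0 : (1 : ℝ) ≤ (q : ℝ) := by exact_mod_cast hqp.one_lt.le
    exact level_plBound hLN hn16 rfl hQmR h1 h2 ht1 ht2 hq0 (hr1 q hqp hq1 hq2)
  have hU := level_union (r := r) (r' := r') (k := k) (m := m) (D₀ := 2 * n ^ 4) hLN hn16 rfl rfl rfl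
    (by push_cast; ring) (by rw [hr']; push_cast; ring) hr2
  have hbnn : (0 : ℝ) ≤ 5 * 2 ^ r * Real.exp (-(θ₀ / 2)) := by positivity
  have key := cov_step (τ₀ := (n : ℝ) ^ 4) (θ₀ := θ₀) (ε := Real.exp (4 + (3 / 2) * (J : ℝ) - γ₀ * (m : ℝ) / 2))
    (b := 5 * 2 ^ r * Real.exp (-(θ₀ / 2))) (Q := Q) (t := t) (D₀ := 2 * n ^ 4) hk1 hm2 hcov hDk
    hQp hQk1 hQk2 hτ hf' hD₀ (by
      have : 4 * (2 * n ^ 4) = 8 * n ^ 4 := by ring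
      omega) (by
      have : 4 * (2 * n ^ 4) = 8 * n ^ 4 := by ring
      omega) hQm hQn hθ₀1 (by rw [← hJdef]; exact hexp) hrt (Real.exp_pos _).le
    (by rw [← hJdef]; exact hε) hPL hbnn hU
  rw [← hJdef] at key
  exact key

end Vale.Agent.Lib.P230
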