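import Vale.Agent.Lib.P230.Defs

/-!
# P230: constants for the level selection.
-/

open MeasureTheory
open scoped ENNReal

namespace Vale.Agent.Lib.P230

/-- `γ₀ = 1 - cE`. -/
noncomputable def γ₀ : ℝ := 1 / 30000000

lemma cE_eq : cE = 1 - γ₀ := rfl

lemma γ₀_pos : 0 < γ₀ := by unfold γ₀; norm_num

lemma cE_nonneg : 0 ≤ cE := by unfold cE; norm_num

lemma cE_pow_le (m : ℕ) : cE ^ m ≤ Real.exp (-(γ₀ * m)) := by
  have h1 : cE ≤ Real.exp (-γ₀) := by
    rw [cE_eq]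
    exact Real.one_sub_le_exp_neg γ₀
  calc cE ^ m ≤ Real.exp (-γ₀) ^ m := pow_le_pow_left₀ cE_nonneg h1 m
    _ = Real.exp (-(γ₀ * m)) := by
      rw [← Real.exp_nat_mul]
      congr 1
      ring

/-- Tail of the Poisson series. -/
lemma poisson_tail {θ : ℝ} {N : ℕ} (hθ : 0 < θ) (hN : 4 * θ ≤ N) :
    (θ / 2) ^ N / (N.factorial : ℝ) ≤ Real.exp (-(θ / 2)) := by
  have hNpos : (0 : ℝ) < N := by linarith
  have h1 : (N : ℝ) ^ N / (N.factorial : ℝ) ≤ Real.exp N := Real.pow_div_factorial_le_exp _ hNpos.le N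
  have hf : (0 : ℝ) < N.factorial := by exact_mod_cast N.factorial_pos
  have h2 : (1 : ℝ) / N.factorial ≤ Real.exp N / (N : ℝ) ^ N := by
    rw [div_le_div_iff₀ hf (by positivity)]
    rw [div_le_iff₀ hf] at h1
    linarith
  have h3 : (θ / 2) ^ N / (N.factorial : ℝ) ≤ (θ / 2) ^ N * (Real.exp N / (N : ℝ) ^ N) := by
    rw [div_eq_mul_one_div]
    exact mul_le_mul_of_nonneg_left h2 (by positivity)
  refine h3.trans ?_
  have h4 : (θ / 2) ^ N * (Real.exp N / (N : ℝ) ^ N) = (θ / 2 * Real.exp 1 / N) ^ N := by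
    rw [div_pow (θ / 2 * Real.exp 1), mul_pow, Real.exp_one_pow]
    ring
  rw [h4]
  have h5 : θ / 2 * Real.exp 1 / N ≤ Real.exp (-1) := by
    have he : Real.exp 1 < 2.7182818286 := Real.exp_one_lt_d9
    have he0 : 0 < Real.exp 1 := Real.exp_pos 1
    have h6 : θ / N ≤ 1 / 4 := by
      rw [div_le_iff₀ hNpos]; linarith
    have h7 : Real.exp (-1) = (Real.exp 1)⁻¹ := Real.exp_neg 1
    have h8 : θ / 2 * Real.exp 1 / N = (θ / N) * (Real.exp 1 / 2) := by ring
    rw [h8, h7]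
    have h9 : (θ / N) * (Real.exp 1 / 2) ≤ (1 / 4) * (Real.exp 1 / 2) :=
      mul_le_mul_of_nonneg_right h6 (by positivity)
    refine h9.trans ?_
    rw [le_inv_comm₀ (by positivity) he0, inv_eq_one_div, le_div_iff₀ (by positivity)]
    nlinarith
  have h10 : 0 ≤ θ / 2 * Real.exp 1 / N := by positivity
  calc (θ / 2 * Real.exp 1 / N) ^ N ≤ Real.exp (-1) ^ N := pow_le_pow_left₀ h10 h5 N
    _ = Real.exp (-(N : ℝ)) := by
      rw [← Real.exp_nat_mul]
      congr 1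
      ring
    _ ≤ Real.exp (-(θ / 2)) := by
      apply Real.exp_le_exp.2
      linarith

end Vale.Agent.Lib.P230
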