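import Vale.Agent.Lib.P230.Step3
import Vale.Agent.Lib.P230.LevelCommon

/-!
# P230: one level of the recursion with the iterated energy.

`θ₀ = M / C₁`, `C₁ = 10^11`, `r' ≥ C₂ ℓ`, `C₂ = 10^13`, `K ≤ ℓ^4`, `U = 2^⌊ℓ/4⌋`.
-/

open MeasureTheory
open scoped ENNReal

namespace Vale.Agent.Lib.P230

/-- Assembling the estimate of `plMain3`. -/
lemma plMain3_le_of {r t : ℕ} {θ θ₀ Ξ : ℝ} (hθ : θ₀ ≤ θ) (hθ0 : 0 < θ)
    (hN : 4 * θ ≤ ((2 * t + 1 : ℕ) : ℝ))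
    (H1 : Ξ * (4 * t) ≤ Real.exp (-(θ₀ / 2)))
    (H2 : 4 * Real.exp θ * Ξ * (4 * t) * 2 ^ (4 * t) ≤ Real.exp (-(θ₀ / 2))) :
    plMain3 r t θ Ξ ≤ 4 * 2 ^ r * Real.exp (-(θ₀ / 2)) := by
  have h1 : Real.exp (-(θ / 2)) ≤ Real.exp (-(θ₀ / 2)) := by
    apply Real.exp_le_exp.2
    linarith
  have h2 := poisson_tail hθ0 hN
  unfold plMain3
  have h3 : (1 : ℝ) ≤ 2 ^ r := one_le_pow₀ (by norm_num)
  have h4 : 0 < Real.exp (-(θ₀ / 2)) := Real.exp_pos _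
  have h5 : (2 : ℝ) ^ r * (Real.exp (-(θ / 2)) + (θ / 2) ^ (2 * t + 1) / ((2 * t + 1).factorial : ℝ)
      + 4 * Real.exp θ * Ξ * (4 * t) * 2 ^ (4 * t)) ≤
      2 ^ r * (3 * Real.exp (-(θ₀ / 2))) := by
    apply mul_le_mul_of_nonneg_left _ (by positivity)
    linarith
  nlinarith only [h5, H1, mul_le_mul_of_nonneg_right h3 h4.le]

/-- Numeric facts used at one level, in real form. -/
structure LevelNum3 (N M K ℓ Lg J θ₀ U B : ℝ) : Prop where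
  hN : N = K + M
  hK0 : 0 ≤ K
  hK : K ≤ ℓ ^ 4
  hℓ : 100000000000000 ≤ ℓ
  hLg : Lg ≤ ℓ
  hLg0 : 1 ≤ Lg
  hNℓ : ℓ ^ 30 ≤ N
  hJ : J ≤ K * ℓ + 6
  hJ0 : 0 ≤ J
  hθ₀ : θ₀ = M / 100000000000
  hU1 : 1 ≤ U
  hU : U ^ 4 ≤ 3 * N
  hB : ℓ / 5 ≤ B

section Num

variable {N M K ℓ Lg J θ₀ U B : ℝ}

lemma LevelNum3.ℓ_pos (h : LevelNum3 N M K ℓ Lg J θ₀ U B) : 0 < ℓ := by
  have := h.hℓ
  linarith

lemma LevelNum3.ℓ_ge_one (h : LevelNum3 N M K ℓ Lg J θ₀ U B) : 1 ≤ ℓ := by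
  have := h.hℓ
  linarith

lemma LevelNum3.K_le (h : LevelNum3 N M K ℓ Lg J θ₀ U B) : 2 * ℓ ^ 6 ≤ N := by
  have h1 := h.ℓ_ge_one
  have h2 : ℓ ^ 6 * ℓ ^ 24 = ℓ ^ 30 := by ring
  have h3 : (2 : ℝ) ≤ ℓ ^ 24 := by
    have : (2 : ℝ) ≤ ℓ := by have := h.hℓ; linarith
    calc (2 : ℝ) ≤ ℓ := this
      _ = ℓ ^ 1 := (pow_one ℓ).symm
      _ ≤ ℓ ^ 24 := pow_le_pow_right₀ h1 (by norm_num)
  have h4 := h.hNℓ
  have h5 : 0 ≤ ℓ ^ 6 := by positivity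
  nlinarith only [h2, h3, h4, h5, mul_le_mul_of_nonneg_left h3 h5]

lemma LevelNum3.M_ge (h : LevelNum3 N M K ℓ Lg J θ₀ U B) : N / 2 ≤ M := by
  have h1 := h.ℓ_ge_one
  have h2 := h.K_le
  have h3 : ℓ ^ 4 ≤ ℓ ^ 6 := pow_le_pow_right₀ h1 (by norm_num)
  have h4 := h.hN
  have h5 := h.hK
  linarith

lemma LevelNum3.M_le (h : LevelNum3 N M K ℓ Lg J θ₀ U B) : M ≤ N := by
  have h4 := h.hN
  have h5 := h.hK0
  linarith

lemma LevelNum3.M_big (h : LevelNum3 N M K ℓ Lg J θ₀ U B) (e : ℕ) (he : e ≤ 29) : ℓ ^ e ≤ M := by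
  have h1 := h.M_ge
  have h2 := h.hNℓ
  have h3 : ℓ ^ e ≤ ℓ ^ 29 := pow_le_pow_right₀ h.ℓ_ge_one he
  have h4 : 2 * ℓ ^ 29 ≤ ℓ ^ 30 := by
    have : ℓ ^ 30 = ℓ * ℓ ^ 29 := by ring
    rw [this]
    have h5 : (2 : ℝ) ≤ ℓ := by have := h.hℓ; linarith
    exact mul_le_mul_of_nonneg_right h5 (by have := h.ℓ_pos; positivity)
  linarith

lemma LevelNum3.M_pos (h : LevelNum3 N M K ℓ Lg J θ₀ U B) : 0 < M := by
  have h1 := h.M_big 1 (by norm_num)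
  have h2 := h.ℓ_pos
  simp only [pow_one] at h1
  linarith

lemma LevelNum3.θ_pos (h : LevelNum3 N M K ℓ Lg J θ₀ U B) : 0 < θ₀ := by
  rw [h.hθ₀]
  have h1 := h.M_pos
  have h2 := h.ℓ_pos
  positivity

lemma LevelNum3.θ_mul (h : LevelNum3 N M K ℓ Lg J θ₀ U B) : θ₀ * 100000000000 = M := by
  rw [h.hθ₀]
  ring

lemma LevelNum3.θ_big (h : LevelNum3 N M K ℓ Lg J θ₀ U B) : ℓ ^ 27 ≤ θ₀ := by
  have h1 := h.M_big 29 (by norm_num)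
  have h2 := h.ℓ_pos
  rw [h.hθ₀, le_div_iff₀ (by positivity)]
  have h3 : (100000000000 : ℝ) ≤ ℓ := by have := h.hℓ; linarith
  calc ℓ ^ 27 * 100000000000 ≤ ℓ ^ 27 * ℓ := mul_le_mul_of_nonneg_left h3 (by positivity)
    _ = ℓ ^ 28 := by ring
    _ ≤ ℓ ^ 29 := pow_le_pow_right₀ h.ℓ_ge_one (by norm_num)
    _ ≤ M := h1

lemma LevelNum3.θ_le_M (h : LevelNum3 N M K ℓ Lg J θ₀ U B) : 100000000000 * θ₀ ≤ M := by
  have h1 := h.θ_mul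
  linarith

lemma LevelNum3.θ_le (h : LevelNum3 N M K ℓ Lg J θ₀ U B) : θ₀ + 1 ≤ N := by
  have h1 := h.θ_le_M
  have h2 := h.θ_big
  have h3 := h.ℓ_ge_one
  have h5 : 1 ≤ ℓ ^ 27 := one_le_pow₀ h3
  have h8 := h.hN
  have h9 := h.hK0
  linarith

/-- The key size estimate on `U`. -/
lemma LevelNum3.U_big (h : LevelNum3 N M K ℓ Lg J θ₀ U B) : U * ℓ ^ 7 ≤ M := by
  have hℓ1 := h.ℓ_ge_one
  have hℓ0 := h.ℓ_pos
  have hM := h.M_ge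
  have hNl := h.hNℓ
  have hU0 : 0 ≤ U := by have := h.hU1; linarith
  have hN1 : 1 ≤ N := le_trans (one_le_pow₀ hℓ1) hNl
  have hN0 : 0 < N := by linarith
  have hM0 : 0 ≤ M := h.M_pos.le
  have h1 : (U * ℓ ^ 7) ^ 4 ≤ M ^ 4 := by
    have e : (U * ℓ ^ 7) ^ 4 = U ^ 4 * ℓ ^ 28 := by ring
    rw [e]
    have h2 : U ^ 4 * ℓ ^ 28 ≤ 3 * N * ℓ ^ 28 := mul_le_mul_of_nonneg_right h.hU (by positivity)
    have h3 : (N / 2) ^ 4 ≤ M ^ 4 := pow_le_pow_left₀ (by positivity) hM 4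
    have h4 : 48 * ℓ ^ 28 ≤ N := by
      have h5 : (48 : ℝ) ≤ ℓ ^ 2 := by
        have h6 : (48 : ℝ) ≤ ℓ := by have := h.hℓ; linarith
        calc (48 : ℝ) ≤ ℓ := h6
          _ = ℓ ^ 1 := (pow_one ℓ).symm
          _ ≤ ℓ ^ 2 := pow_le_pow_right₀ hℓ1 (by norm_num)
      calc 48 * ℓ ^ 28 ≤ ℓ ^ 2 * ℓ ^ 28 := mul_le_mul_of_nonneg_right h5 (by positivity)
        _ = ℓ ^ 30 := by ring
        _ ≤ N := hNl
    have h5 : N ≤ N ^ 3 := by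
      calc N = N ^ 1 := (pow_one N).symm
        _ ≤ N ^ 3 := pow_le_pow_right₀ hN1 (by norm_num)
    have h6 : 3 * N * ℓ ^ 28 ≤ (N / 2) ^ 4 := by
      have e2 : (N / 2) ^ 4 = N * (N ^ 3 / 16) := by ring
      rw [e2]
      have h7 : 3 * ℓ ^ 28 ≤ N ^ 3 / 16 := by linarith
      calc 3 * N * ℓ ^ 28 = N * (3 * ℓ ^ 28) := by ring
        _ ≤ _ := mul_le_mul_of_nonneg_left h7 hN0.le
    linarith
  exact (pow_le_pow_iff_left₀ (by positivity) hM0 (by norm_num)).1 h1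

/-- The cost of the small relation sets and of the thickening. -/
lemma LevelNum3.U_cost (h : LevelNum3 N M K ℓ Lg J θ₀ U B) :
    100000000000000 * (U * ℓ ^ 6) ≤ M ∧ ℓ ≤ ℓ ^ 6 ∧ J + 9 ≤ 2 * ℓ ^ 5 ∧ 2 * ℓ ^ 5 ≤ ℓ ^ 6 := by
  have hℓ1 := h.ℓ_ge_one
  have hℓ0 := h.ℓ_pos
  have hU0 : 0 ≤ U := by have := h.hU1; linarith
  have hB := h.U_big
  have hℓ14 := h.hℓ
  have h5pos : (0 : ℝ) ≤ ℓ ^ 5 := by positivity
  refine ⟨?_, ?_, ?_, ?_⟩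
  · calc 100000000000000 * (U * ℓ ^ 6) ≤ ℓ * (U * ℓ ^ 6) :=
          mul_le_mul_of_nonneg_right hℓ14 (by positivity)
      _ = U * ℓ ^ 7 := by ring
      _ ≤ M := hB
  · calc ℓ = ℓ ^ 1 := (pow_one ℓ).symm
      _ ≤ ℓ ^ 6 := pow_le_pow_right₀ hℓ1 (by norm_num)
  · have h1 := h.hJ
    have h2 : K * ℓ ≤ ℓ ^ 5 := by
      calc K * ℓ ≤ ℓ ^ 4 * ℓ := by
            have := h.hK
            gcongr
        _ = ℓ ^ 5 := by ring
    have h3 : (15 : ℝ) ≤ ℓ ^ 5 := by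
      calc (15 : ℝ) ≤ ℓ := by linarith
        _ = ℓ ^ 1 := (pow_one ℓ).symm
        _ ≤ ℓ ^ 5 := pow_le_pow_right₀ hℓ1 (by norm_num)
    linarith
  · have e : ℓ ^ 6 = ℓ * ℓ ^ 5 := by ring
    rw [e]
    exact mul_le_mul_of_nonneg_right (by linarith) h5pos

end Num

/-- The bound on `Q θ`. -/
lemma level_Qθ {N M K ℓ Lg J θ₀ U B : ℝ} (h : LevelNum3 N M K ℓ Lg J θ₀ U B)
    {Q : ℕ} {θ : ℝ} (hNpos : 32 ≤ N) (hLg : Lg = Real.log N)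
    (hQ : (Q : ℝ) ≤ 32 * N ^ 5) (hθ1 : θ₀ ≤ θ) (hθ2 : θ ≤ θ₀ + 1) :
    0 ≤ (Q : ℝ) * θ ∧ (Q : ℝ) * θ ≤ Real.exp (7 * Lg) := by
  have hθ₀ := h.θ_pos
  have hθpos : 0 < θ := by linarith
  have hNpos' : 0 < N := by linarith
  have hexpN : Real.exp Lg = N := by rw [hLg]; exact Real.exp_log hNpos'
  refine ⟨by positivity, ?_⟩
  have h1 : θ ≤ N := by linarith [h.θ_le]
  have h2 : (Q : ℝ) * θ ≤ 32 * N ^ 5 * N := by
    exact mul_le_mul hQ h1 hθpos.le (by positivity)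
  have h3 : 32 * N ^ 5 * N ≤ N * N ^ 5 * N := by
    gcongr
  have h4 : N * N ^ 5 * N = N ^ 7 := by ring
  have h5 : Real.exp (7 * Lg) = N ^ 7 := by
    rw [mul_comm, Real.exp_mul, hexpN]
    norm_cast
  rw [h5]
  linarith

/-- The bound `Ξ` for the small relation sets. -/
lemma level_Ξ₁ {N M K ℓ Lg J θ₀ U B : ℝ} (h : LevelNum3 N M K ℓ Lg J θ₀ U B)
    {Q bb : ℕ} {θ : ℝ} (hNpos : 32 ≤ N) (hLg : Lg = Real.log N)
    (hQ : (Q : ℝ) ≤ 32 * N ^ 5) (hθ1 : θ₀ ≤ θ) (hθ2 : θ ≤ θ₀ + 1) (hUb : U = 2 ^ bb) :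
    ((Q : ℝ) * θ) ^ (2 ^ (bb + 1)) * Real.exp (4 + (3 / 2) * J - γ₀ * M / 2) ≤
      Real.exp (-(20 * θ₀)) := by
  obtain ⟨hQθ0, hQθ⟩ := level_Qθ h hNpos hLg hQ hθ1 hθ2
  have hℓ1 := h.ℓ_ge_one
  have hpow : ((Q : ℝ) * θ) ^ (2 ^ (bb + 1)) ≤ Real.exp (14 * Lg * U) := by
    calc ((Q : ℝ) * θ) ^ (2 ^ (bb + 1)) ≤ Real.exp (7 * Lg) ^ (2 ^ (bb + 1)) :=
          pow_le_pow_left₀ hQθ0 hQθ _
      _ = Real.exp (14 * Lg * U) := by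
        rw [← Real.exp_nat_mul, hUb]
        congr 1
        push_cast
        ring
  obtain ⟨hc1, hc2, hc3, hc4⟩ := h.U_cost
  have hU0 : 0 ≤ U := by have := h.hU1; linarith
  have hLgU : 14 * Lg * U ≤ 14 * (U * ℓ ^ 6) := by
    have h1 := h.hLg
    have h2 : Lg * U ≤ ℓ ^ 6 * U := mul_le_mul_of_nonneg_right (h1.trans hc2) hU0
    linarith
  have hU1 := h.hU1
  have hUℓ : 0 ≤ U * ℓ ^ 6 := by have := h.ℓ_pos; positivity
  have hUℓ1 : ℓ ^ 6 ≤ U * ℓ ^ 6 := by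
    have h6 : (0 : ℝ) ≤ ℓ ^ 6 := by have := h.ℓ_pos; positivity
    nlinarith only [hU1, h6]
  have hθM := h.θ_mul
  have hkey : 14 * Lg * U + (4 + (3 / 2) * J - γ₀ * M / 2) ≤ -(20 * θ₀) := by
    have hγ : γ₀ = 1 / 30000000 := rfl
    rw [hγ]
    have hJ0 := h.hJ0
    have hJ1 : J ≤ U * ℓ ^ 6 := by linarith
    have h4 : (4 : ℝ) ≤ U * ℓ ^ 6 := by linarith [h.hℓ]
    nlinarith only [hLgU, hJ1, h4, hc1, hθM, hUℓ]
  calc ((Q : ℝ) * θ) ^ (2 ^ (bb + 1)) * Real.exp (4 + (3 / 2) * J - γ₀ * M / 2)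
      ≤ Real.exp (14 * Lg * U) * Real.exp (4 + (3 / 2) * J - γ₀ * M / 2) :=
        mul_le_mul_of_nonneg_right hpow (Real.exp_pos _).le
    _ = Real.exp (14 * Lg * U + (4 + (3 / 2) * J - γ₀ * M / 2)) := by rw [Real.exp_add]
    _ ≤ _ := Real.exp_le_exp.2 hkey

/-- The saving from the iterated energy. -/
lemma level_ε₂ {N M K ℓ Lg J θ₀ U B : ℝ} (h : LevelNum3 N M K ℓ Lg J θ₀ U B)
    {m bb : ℕ} (hmM : (m : ℝ) = M) (hUb : U = 2 ^ bb) (hB : B = bb) :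
    (cE ^ m) ^ bb * (12 * Real.exp J) ^ (2 ^ (bb + 1) - 1) ≤
      Real.exp (-(γ₀ * M * B) + 2 * U * (J + 3)) := by
  have h1 : (cE ^ m) ^ bb ≤ Real.exp (-(γ₀ * M * B)) := by
    have h2 := cE_pow_le m
    calc (cE ^ m) ^ bb ≤ Real.exp (-(γ₀ * m)) ^ bb :=
          pow_le_pow_left₀ (pow_nonneg cE_nonneg _) h2 _
      _ = _ := by
        rw [← Real.exp_nat_mul, hmM, hB]
        congr 1
        ring
  have h12 : (12 : ℝ) ≤ Real.exp 3 := by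
    have he : (2.7182818283 : ℝ) < Real.exp 1 := Real.exp_one_gt_d9
    have h3 : Real.exp 3 = Real.exp 1 ^ 3 := by
      rw [← Real.exp_nat_mul]; norm_num
    rw [h3]
    calc (12 : ℝ) ≤ (2.7182818283 : ℝ) ^ 3 := by norm_num
      _ ≤ _ := pow_le_pow_left₀ (by norm_num) he.le 3
  have h3 : 12 * Real.exp J ≤ Real.exp (J + 3) := by
    rw [Real.exp_add]
    nlinarith only [h12, Real.exp_pos J]
  have h4 : (1 : ℝ) ≤ Real.exp (J + 3) := by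
    rw [Real.one_le_exp_iff]
    have := h.hJ0
    linarith
  have h5 : (12 * Real.exp J) ^ (2 ^ (bb + 1) - 1) ≤ Real.exp (2 * U * (J + 3)) := by
    calc (12 * Real.exp J) ^ (2 ^ (bb + 1) - 1) ≤ Real.exp (J + 3) ^ (2 ^ (bb + 1) - 1) :=
          pow_le_pow_left₀ (by positivity) h3 _
      _ ≤ Real.exp (J + 3) ^ (2 ^ (bb + 1)) := pow_le_pow_right₀ h4 (Nat.sub_le _ _)
      _ = _ := by
        rw [← Real.exp_nat_mul, hUb]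
        congr 1
        push_cast
        ring
  calc (cE ^ m) ^ bb * (12 * Real.exp J) ^ (2 ^ (bb + 1) - 1)
      ≤ Real.exp (-(γ₀ * M * B)) * Real.exp (2 * U * (J + 3)) :=
        mul_le_mul h1 h5 (by positivity) (Real.exp_pos _).le
    _ = _ := by rw [Real.exp_add]

/-- The bound `Ξ` for the large relation sets. -/
lemma level_Ξ₂ {N M K ℓ Lg J θ₀ U B : ℝ} (h : LevelNum3 N M K ℓ Lg J θ₀ U B)
    {Q t : ℕ} {θ : ℝ} (hNpos : 32 ≤ N) (hLg : Lg = Real.log N)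
    (hQ : (Q : ℝ) ≤ 32 * N ^ 5) (hθ1 : θ₀ ≤ θ) (hθ2 : θ ≤ θ₀ + 1)
    (ht2 : (t : ℝ) ≤ 2 * θ₀ + 3) :
    ((Q : ℝ) * θ) ^ (4 * t) * Real.exp (-(γ₀ * M * B) + 2 * U * (J + 3)) ≤
      Real.exp (-(20 * θ₀)) := by
  obtain ⟨hQθ0, hQθ⟩ := level_Qθ h hNpos hLg hQ hθ1 hθ2
  have hℓ1 := h.ℓ_ge_one
  have hℓ0 := h.ℓ_pos
  have hθ₀ := h.θ_pos
  set T : ℝ := 4 * (t : ℝ) with hT
  have hpow : ((Q : ℝ) * θ) ^ (4 * t) ≤ Real.exp (7 * Lg * T) := by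
    calc ((Q : ℝ) * θ) ^ (4 * t) ≤ Real.exp (7 * Lg) ^ (4 * t) := pow_le_pow_left₀ hQθ0 hQθ _
      _ = Real.exp (7 * Lg * T) := by
        rw [← Real.exp_nat_mul, hT]
        congr 1
        push_cast
        ring
  have hT0 : 0 ≤ T := by positivity
  have hTle : T ≤ 8 * θ₀ + 12 := by rw [hT]; linarith
  obtain ⟨hc1, hc2, hc3, hc4⟩ := h.U_cost
  have hU0 : 0 ≤ U := by have := h.hU1; linarith
  have hJcost : 2 * U * (J + 3) ≤ U * ℓ ^ 6 * 2 := by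
    have hJ9 : J + 3 ≤ ℓ ^ 6 := by linarith
    calc 2 * U * (J + 3) ≤ 2 * U * ℓ ^ 6 := mul_le_mul_of_nonneg_left hJ9 (by positivity)
      _ = _ := by ring
  have hθM := h.θ_mul
  have hθbig : (1000 : ℝ) ≤ θ₀ := by
    refine le_trans ?_ h.θ_big
    calc (1000 : ℝ) ≤ ℓ := by linarith [h.hℓ]
      _ = ℓ ^ 1 := (pow_one ℓ).symm
      _ ≤ ℓ ^ 27 := pow_le_pow_right₀ hℓ1 (by norm_num)
  have hMB : ℓ * M / 5 ≤ M * B := by
    have h1 := h.hB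
    have h2 := h.M_pos
    calc ℓ * M / 5 = M * (ℓ / 5) := by ring
      _ ≤ M * B := mul_le_mul_of_nonneg_left h1 h2.le
  have hLT : 7 * Lg * T ≤ 7 * ℓ * (8 * θ₀ + 12) := by
    have h1 := h.hLg
    have h2 : Lg * T ≤ ℓ * (8 * θ₀ + 12) := mul_le_mul h1 hTle hT0 hℓ0.le
    linarith
  have hℓθ : 0 ≤ ℓ * θ₀ := by positivity
  have hθℓ : θ₀ ≤ ℓ * θ₀ := by nlinarith only [hℓ1, hθ₀, mul_le_mul_of_nonneg_right hℓ1 hθ₀.le]
  have hℓ1000 : 1000 * ℓ ≤ ℓ * θ₀ := by nlinarith only [hθbig, hℓ0, mul_le_mul_of_nonneg_left hθbig hℓ0.le]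
  have hkey : 7 * Lg * T + (-(γ₀ * M * B) + 2 * U * (J + 3)) ≤ -(20 * θ₀) := by
    have hγ : γ₀ = 1 / 30000000 := rfl
    rw [hγ]
    have hMℓ : ℓ * M = ℓ * θ₀ * 100000000000 := by rw [← hθM]; ring
    have hUM : U * ℓ ^ 6 ≤ M / 100000000000000 := by linarith
    have hUθ : U * ℓ ^ 6 ≤ θ₀ := by rw [← hθM] at hUM; linarith
    have h9 : (1 / 30000000 : ℝ) * (ℓ * M / 5) ≤ (1 / 30000000) * (M * B) := by gcongr
    have e7 : 7 * ℓ * (8 * θ₀ + 12) = 56 * (ℓ * θ₀) + 84 * ℓ := by ring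
    have e8 : (1 / 30000000 : ℝ) * M * B = (1 / 30000000) * (M * B) := by ring
    rw [e8]
    rw [e7] at hLT
    rw [hMℓ] at h9
    nlinarith only [hLT, h9, hJcost, hUθ, hθℓ, hℓ1000, hℓθ]
  calc ((Q : ℝ) * θ) ^ (4 * t) * Real.exp (-(γ₀ * M * B) + 2 * U * (J + 3))
      ≤ Real.exp (7 * Lg * T) * Real.exp (-(γ₀ * M * B) + 2 * U * (J + 3)) :=
        mul_le_mul_of_nonneg_right hpow (Real.exp_pos _).le
    _ = Real.exp (7 * Lg * T + (-(γ₀ * M * B) + 2 * U * (J + 3))) := (Real.exp_add _ _).symm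
    _ ≤ _ := Real.exp_le_exp.2 hkey

/-- Bound on `plMain3` at one level. -/
lemma level_plMain3 {N M K ℓ Lg J θ₀ U B : ℝ} (h : LevelNum3 N M K ℓ Lg J θ₀ U B)
    {r t : ℕ} {θ : ℝ} (hθ1 : θ₀ ≤ θ) (hθ2 : θ ≤ θ₀ + 1)
    (ht1 : 2 * θ₀ + 2 ≤ (t : ℝ)) (ht2 : (t : ℝ) ≤ 2 * θ₀ + 3) :
    plMain3 r t θ (Real.exp (-(20 * θ₀))) ≤ 4 * 2 ^ r * Real.exp (-(θ₀ / 2)) := by
  have hθ₀ := h.θ_pos
  have hθpos : 0 < θ := by linarith
  have hT0 : (0 : ℝ) ≤ 4 * (t : ℝ) := by positivity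
  have hN : 4 * θ ≤ ((2 * t + 1 : ℕ) : ℝ) := by
    push_cast
    linarith
  set T : ℝ := 4 * (t : ℝ) with hT
  have hTle : T ≤ 8 * θ₀ + 12 := by rw [hT]; linarith
  have hTe : T ≤ Real.exp T := by
    have := Real.add_one_le_exp T
    linarith
  have h2T : (2 : ℝ) ^ (4 * t) ≤ Real.exp T := by
    have h2e : (2 : ℝ) ≤ Real.exp 1 := by
      have := Real.add_one_le_exp (1 : ℝ)
      linarith
    calc (2 : ℝ) ^ (4 * t) ≤ Real.exp 1 ^ (4 * t) := pow_le_pow_left₀ (by norm_num) h2e _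
      _ = Real.exp T := by
        rw [← Real.exp_nat_mul, hT]
        congr 1
        push_cast
        ring
  have hTT : (4 * (t : ℝ)) = T := rfl
  have he4 : (4 : ℝ) ≤ Real.exp 2 := by
    have h3 := Real.add_one_le_exp (1 : ℝ)
    have h4 : Real.exp 2 = Real.exp 1 * Real.exp 1 := by
      rw [← Real.exp_add]; norm_num
    rw [h4]
    nlinarith only [h3]
  have hθbig : (1000 : ℝ) ≤ θ₀ := by
    refine le_trans ?_ h.θ_big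
    calc (1000 : ℝ) ≤ ℓ := by linarith [h.hℓ]
      _ = ℓ ^ 1 := (pow_one ℓ).symm
      _ ≤ ℓ ^ 27 := pow_le_pow_right₀ h.ℓ_ge_one (by norm_num)
  apply plMain3_le_of hθ1 hθpos hN
  · -- H1
    rw [hTT]
    calc Real.exp (-(20 * θ₀)) * T ≤ Real.exp (-(20 * θ₀)) * Real.exp T :=
          mul_le_mul_of_nonneg_left hTe (Real.exp_pos _).le
      _ = Real.exp (-(20 * θ₀) + T) := by rw [Real.exp_add]
      _ ≤ _ := Real.exp_le_exp.2 (by linarith)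
  · -- H2
    rw [hTT]
    have hθe : Real.exp θ ≤ Real.exp (θ₀ + 1) := Real.exp_le_exp.2 hθ2
    calc 4 * Real.exp θ * Real.exp (-(20 * θ₀)) * T * 2 ^ (4 * t)
        ≤ Real.exp 2 * Real.exp (θ₀ + 1) * Real.exp (-(20 * θ₀)) * Real.exp T * Real.exp T := by
          gcongr
      _ = Real.exp (2 + (θ₀ + 1) + -(20 * θ₀) + T + T) := by
          simp only [Real.exp_add]
      _ ≤ _ := Real.exp_le_exp.2 (by linarith)

/-- The bound on the third term at one level. -/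
lemma level_third3 {N M K ℓ Lg J θ₀ U B : ℝ} (h : LevelNum3 N M K ℓ Lg J θ₀ U B) {r m D₀ : ℕ}
    (hNpos : 16 ≤ N) (hLg : Lg = Real.log N) (hmM : (m : ℝ) = M)
    (hD₀ : (D₀ : ℝ) = 2 * N ^ 4) (hr : (r : ℝ) ≤ θ₀ / 16) :
    ((r : ℝ) + 1) * Real.exp (θ₀ + 1) * ((2 * D₀ + 1 : ℕ) : ℝ) ^ r * (4 * θ₀ * Real.exp J) ≤
      Real.exp (-(θ₀ / 2)) * (N ^ 4 * (2 * (1 / (16 * N ^ 2)))) ^ m := by
  have hθ₀ := h.θ_pos
  have hNpos' : 0 < N := by linarith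
  have hexpN : Real.exp Lg = N := by rw [hLg]; exact Real.exp_log hNpos'
  have hE : ((2 * D₀ + 1 : ℕ) : ℝ) ≤ Real.exp (5 * Lg) := by
    have h1 : Real.exp (5 * Lg) = N ^ 5 := by
      rw [mul_comm, Real.exp_mul, hexpN]
      norm_cast
    rw [h1]
    push_cast
    rw [hD₀]
    have h2 : 0 < N ^ 4 := by positivity
    have h3 : N ^ 5 = N * N ^ 4 := by ring
    rw [h3]
    have h4 : 1 ≤ N ^ 4 := one_le_pow₀ (by linarith)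
    have h5 : 16 * N ^ 4 ≤ N * N ^ 4 := mul_le_mul_of_nonneg_right hNpos h2.le
    linarith
  have hE0 : (0 : ℝ) ≤ ((2 * D₀ + 1 : ℕ) : ℝ) := Nat.cast_nonneg _
  have hEr : ((2 * D₀ + 1 : ℕ) : ℝ) ^ r ≤ Real.exp (5 * Lg * (r : ℝ)) := by
    calc ((2 * D₀ + 1 : ℕ) : ℝ) ^ r ≤ Real.exp (5 * Lg) ^ r := pow_le_pow_left₀ hE0 hE _
      _ = _ := by
        rw [← Real.exp_nat_mul]
        congr 1
        ring
  have hr0 : (0 : ℝ) ≤ r := Nat.cast_nonneg _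
  have hr1 : (r : ℝ) + 1 ≤ Real.exp (r : ℝ) := by
    have := Real.add_one_le_exp (r : ℝ)
    linarith
  have hθe : 4 * θ₀ ≤ Real.exp (2 + θ₀) := by
    have he4 : (4 : ℝ) ≤ Real.exp 2 := by
      have h3 := Real.add_one_le_exp (1 : ℝ)
      have h4 : Real.exp 2 = Real.exp 1 * Real.exp 1 := by
        rw [← Real.exp_add]; norm_num
      rw [h4]
      nlinarith only [h3]
    have h5 : θ₀ ≤ Real.exp θ₀ := by
      have := Real.add_one_le_exp θ₀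
      linarith
    rw [Real.exp_add]
    exact mul_le_mul he4 h5 hθ₀.le (by positivity)
  have hbase : N ≤ N ^ 4 * (2 * (1 / (16 * N ^ 2))) := by
    have e : N ^ 4 * (2 * (1 / (16 * N ^ 2))) = N ^ 2 / 8 := by
      field_simp
      ring
    rw [e]
    nlinarith only [hNpos]
  have hpow : Real.exp (M * Lg) ≤ (N ^ 4 * (2 * (1 / (16 * N ^ 2)))) ^ m := by
    have h1 : Real.exp (M * Lg) = N ^ m := by
      rw [← hmM, Real.exp_nat_mul, hexpN]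
    rw [h1]
    exact pow_le_pow_left₀ hNpos'.le hbase m
  -- the exponent
  have hkey : (r : ℝ) + (θ₀ + 1) + 5 * Lg * (r : ℝ) + (2 + θ₀ + J) + θ₀ / 2 ≤ M * Lg := by
    have hLg1 := h.hLg0
    have hM1 : M ≤ M * Lg := by
      have := h.M_pos
      nlinarith only [this, hLg1, mul_le_mul_of_nonneg_left hLg1 this.le]
    have hθM := h.θ_mul
    have hℓ1 := h.ℓ_ge_one
    have hLℓ := h.hLg
    have h1 : 5 * Lg * (r : ℝ) ≤ Lg * M / 1000 := by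
      have h0 : (r : ℝ) ≤ M / 5000 := by
        have := h.θ_pos
        linarith
      have hLg0 : 0 ≤ Lg := by linarith
      calc 5 * Lg * (r : ℝ) ≤ 5 * Lg * (M / 5000) := mul_le_mul_of_nonneg_left h0 (by positivity)
        _ = _ := by ring
    have h2 : θ₀ * 100000000000 = M := hθM
    have h3 : 0 ≤ θ₀ := h.θ_pos.le
    have h4 : M ≤ Lg * M := by linarith
    have hJ1 : J ≤ ℓ ^ 5 + 6 := by
      have h5 := h.hJ
      have h6 : K * ℓ ≤ ℓ ^ 5 := by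
        have := h.hK
        calc K * ℓ ≤ ℓ ^ 4 * ℓ := by gcongr
          _ = ℓ ^ 5 := by ring
      linarith
    have hM29 := h.M_big 29 (by norm_num)
    have h7 : ℓ ^ 5 + 9 ≤ ℓ ^ 29 / 2 := by
      have h8 : (4 : ℝ) ≤ ℓ ^ 24 := by
        calc (4 : ℝ) ≤ ℓ := by have := h.hℓ; linarith
          _ = ℓ ^ 1 := (pow_one ℓ).symm
          _ ≤ ℓ ^ 24 := pow_le_pow_right₀ hℓ1 (by norm_num)
      have h9 : ℓ ^ 5 * ℓ ^ 24 = ℓ ^ 29 := by ring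
      have h10 : (1 : ℝ) ≤ ℓ ^ 5 := one_le_pow₀ hℓ1
      have h11 : (10 : ℝ) ≤ ℓ ^ 5 := by
        calc (10 : ℝ) ≤ ℓ := by have := h.hℓ; linarith
          _ = ℓ ^ 1 := (pow_one ℓ).symm
          _ ≤ ℓ ^ 5 := pow_le_pow_right₀ hℓ1 (by norm_num)
      nlinarith only [h8, h9, h11, mul_le_mul_of_nonneg_left h8 (by linarith : (0 : ℝ) ≤ ℓ ^ 5)]
    have h5 : θ₀ * 1000 ≤ M := by linarith
    have hr16 : (r : ℝ) ≤ θ₀ := by linarith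
    have hLgM : Lg * M = M * Lg := mul_comm _ _
    nlinarith only [h1, h2, h3, h4, hJ1, hM29, h7, hM1, hr16, h5, hLgM]
  calc ((r : ℝ) + 1) * Real.exp (θ₀ + 1) * ((2 * D₀ + 1 : ℕ) : ℝ) ^ r * (4 * θ₀ * Real.exp J)
      ≤ Real.exp (r : ℝ) * Real.exp (θ₀ + 1) * Real.exp (5 * Lg * (r : ℝ)) *
          (Real.exp (2 + θ₀) * Real.exp J) := by
        gcongr
    _ = Real.exp (-(θ₀ / 2)) * Real.exp ((r : ℝ) + (θ₀ + 1) + 5 * Lg * (r : ℝ) + (2 + θ₀ + J) + θ₀ / 2) := by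
        rw [← Real.exp_add, ← Real.exp_add, ← Real.exp_add, ← Real.exp_add, ← Real.exp_add]
        congr 1
        ring
    _ ≤ Real.exp (-(θ₀ / 2)) * Real.exp (M * Lg) := by
        apply mul_le_mul_of_nonneg_left _ (Real.exp_pos _).le
        exact Real.exp_le_exp.2 hkey
    _ ≤ _ := mul_le_mul_of_nonneg_left hpow (Real.exp_pos _).le

/-- The union bound condition at one level. -/
lemma level_union3 {N M K ℓ Lg J θ₀ U B : ℝ} (h : LevelNum3 N M K ℓ Lg J θ₀ U B) {r r' k m D₀ : ℕ}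
    (hNpos : 16 ≤ N) (hLg : Lg = Real.log N) (hkK : (k : ℝ) = K) (hmM : (m : ℝ) = M)
    (hD₀ : (D₀ : ℝ) = 2 * N ^ 4) (hr' : 10000000000000 * ℓ ≤ (r' : ℝ))
    (hr : (r : ℝ) ≤ θ₀ / 16) :
    ((2 * D₀ + 1 : ℕ) : ℝ) ^ (k + m) *
      (((2 * D₀ + 1 : ℕ) : ℝ) ^ k * (5 * 2 ^ r * Real.exp (-(θ₀ / 2)))) ^ r' < 1 := by
  have hθ₀ := h.θ_pos
  have hNpos' : 0 < N := by linarith
  have hℓ0 := h.ℓ_pos
  have hℓ1 := h.ℓ_ge_one
  have hexpN : Real.exp Lg = N := by rw [hLg]; exact Real.exp_log hNpos'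
  have hE : ((2 * D₀ + 1 : ℕ) : ℝ) ≤ Real.exp (5 * Lg) := by
    have h1 : Real.exp (5 * Lg) = N ^ 5 := by
      rw [mul_comm, Real.exp_mul, hexpN]
      norm_cast
    rw [h1]
    push_cast
    rw [hD₀]
    have h2 : 0 < N ^ 4 := by positivity
    have h3 : N ^ 5 = N * N ^ 4 := by ring
    rw [h3]
    have h4 : 1 ≤ N ^ 4 := one_le_pow₀ (by linarith)
    have h5 : 16 * N ^ 4 ≤ N * N ^ 4 := mul_le_mul_of_nonneg_right hNpos h2.le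
    linarith
  have hE0 : (0 : ℝ) ≤ ((2 * D₀ + 1 : ℕ) : ℝ) := Nat.cast_nonneg _
  have hEk : ((2 * D₀ + 1 : ℕ) : ℝ) ^ k ≤ Real.exp (5 * Lg * K) := by
    calc ((2 * D₀ + 1 : ℕ) : ℝ) ^ k ≤ Real.exp (5 * Lg) ^ k := pow_le_pow_left₀ hE0 hE _
      _ = Real.exp (5 * Lg * K) := by
        rw [← Real.exp_nat_mul, hkK]
        congr 1
        ring
  have hEn : ((2 * D₀ + 1 : ℕ) : ℝ) ^ (k + m) ≤ Real.exp (5 * Lg * N) := by
    calc ((2 * D₀ + 1 : ℕ) : ℝ) ^ (k + m) ≤ Real.exp (5 * Lg) ^ (k + m) := pow_le_pow_left₀ hE0 hE _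
      _ = Real.exp (5 * Lg * N) := by
        rw [← Real.exp_nat_mul, h.hN, ← hkK, ← hmM]
        congr 1
        push_cast
        ring
  have h5e : (5 : ℝ) ≤ Real.exp 2 := by
    have he : (2.7182818283 : ℝ) < Real.exp 1 := Real.exp_one_gt_d9
    have h4 : Real.exp 2 = Real.exp 1 * Real.exp 1 := by
      rw [← Real.exp_add]; norm_num
    rw [h4]
    nlinarith only [he]
  have h2r : (2 : ℝ) ^ r ≤ Real.exp (r : ℝ) := by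
    have h2e : (2 : ℝ) ≤ Real.exp 1 := by
      have := Real.add_one_le_exp (1 : ℝ)
      linarith
    calc (2 : ℝ) ^ r ≤ Real.exp 1 ^ r := pow_le_pow_left₀ (by norm_num) h2e _
      _ = Real.exp (r : ℝ) := by
        rw [← Real.exp_nat_mul]; simp
  -- the key bound
  have hθbig := h.θ_big
  have hLK : 5 * Lg * K + 2 ≤ θ₀ / 8 := by
    have hK0 := h.hK0
    have h1 : 5 * Lg * K ≤ 5 * ℓ * ℓ ^ 4 := by
      have := h.hLg
      have := h.hK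
      gcongr
    have h2 : 5 * ℓ * ℓ ^ 4 = 5 * ℓ ^ 5 := by ring
    have h3 : (8 * (5 * ℓ ^ 5 + 2)) ≤ ℓ ^ 27 := by
      have h4 : 1 ≤ ℓ ^ 5 := one_le_pow₀ hℓ1
      have h5 : (56 : ℝ) ≤ ℓ ^ 22 := by
        calc (56 : ℝ) ≤ ℓ := by have := h.hℓ; linarith
          _ = ℓ ^ 1 := (pow_one ℓ).symm
          _ ≤ ℓ ^ 22 := pow_le_pow_right₀ hℓ1 (by norm_num)
      have h6 : ℓ ^ 27 = ℓ ^ 5 * ℓ ^ 22 := by ring
      rw [h6]
      nlinarith only [h4, h5, mul_le_mul_of_nonneg_left h5 (by linarith : (0 : ℝ) ≤ ℓ ^ 5)]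
    linarith
  have hb : ((2 * D₀ + 1 : ℕ) : ℝ) ^ k * (5 * 2 ^ r * Real.exp (-(θ₀ / 2))) ≤ Real.exp (-(θ₀ / 4)) := by
    calc ((2 * D₀ + 1 : ℕ) : ℝ) ^ k * (5 * 2 ^ r * Real.exp (-(θ₀ / 2)))
        ≤ Real.exp (5 * Lg * K) * (Real.exp 2 * Real.exp (r : ℝ) * Real.exp (-(θ₀ / 2))) := by
          gcongr
      _ = Real.exp (5 * Lg * K + (2 + (r : ℝ) + -(θ₀ / 2))) := by
          rw [Real.exp_add (5 * Lg * K), Real.exp_add _ (-(θ₀ / 2)), Real.exp_add 2]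
      _ ≤ Real.exp (-(θ₀ / 4)) := by
          apply Real.exp_le_exp.2
          linarith
  have hb0 : 0 ≤ ((2 * D₀ + 1 : ℕ) : ℝ) ^ k * (5 * 2 ^ r * Real.exp (-(θ₀ / 2))) := by positivity
  have hbr : (((2 * D₀ + 1 : ℕ) : ℝ) ^ k * (5 * 2 ^ r * Real.exp (-(θ₀ / 2)))) ^ r' ≤
      Real.exp (-(θ₀ / 4) * (r' : ℝ)) := by
    calc _ ≤ Real.exp (-(θ₀ / 4)) ^ r' := pow_le_pow_left₀ hb0 hb _
      _ = _ := by
        rw [← Real.exp_nat_mul]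
        congr 1
        ring
  have hfin : 5 * Lg * N < θ₀ / 4 * (r' : ℝ) := by
    have hM := h.M_ge
    have hLg2 := h.hLg
    have hθM := h.θ_mul
    have h1 : θ₀ / 4 * (10000000000000 * ℓ) = 25 * ℓ * (θ₀ * 100000000000) := by ring
    have h2 : θ₀ / 4 * (10000000000000 * ℓ) ≤ θ₀ / 4 * (r' : ℝ) :=
      mul_le_mul_of_nonneg_left hr' (by positivity)
    rw [h1, hθM] at h2
    have h3 : 5 * Lg * N ≤ 5 * ℓ * N := by gcongr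
    have h4 : 25 * ℓ * (N / 2) ≤ 25 * ℓ * M := by gcongr
    have h5 : 5 * ℓ * N < 25 * ℓ * (N / 2) := by
      have : 0 < ℓ * N := by positivity
      nlinarith only [this]
    linarith
  have hpos : 0 < Real.exp (-(θ₀ / 4) * (r' : ℝ)) := Real.exp_pos _
  calc ((2 * D₀ + 1 : ℕ) : ℝ) ^ (k + m) *
      (((2 * D₀ + 1 : ℕ) : ℝ) ^ k * (5 * 2 ^ r * Real.exp (-(θ₀ / 2)))) ^ r'
      ≤ Real.exp (5 * Lg * N) * Real.exp (-(θ₀ / 4) * (r' : ℝ)) := by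
        apply mul_le_mul hEn hbr (by positivity) (by positivity)
    _ = Real.exp (5 * Lg * N + -(θ₀ / 4) * (r' : ℝ)) := by rw [Real.exp_add]
    _ < 1 := by
        rw [Real.exp_lt_one_iff]
        linarith

set_option maxHeartbeats 1000000 in
/-- The level step with explicit parameters. -/
theorem level_step3 {n k m r r' ℓ Q Qmin Qmax Qk_min Qk_max : ℕ} {f_k D_k : ℝ}
    (hn : n = k + m) (hk100 : 100 ≤ k) (hk : k ≤ ℓ ^ 4) (hr' : 10000000000000 * ℓ ≤ r')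
    (hℓ : 100000000000000 ≤ ℓ) (hL : Real.log n ≤ ℓ) (hL2 : (ℓ : ℝ) ≤ Real.log n + 1) (hnℓ : ℓ ^ 30 ≤ n)
    (hQp : Q.Prime) (hQ1 : 16 * n ^ 5 < Q) (hQ2 : Q ≤ 32 * n ^ 5)
    (hcov : CovOn (Fin k) r' f_k D_k Qk_min Qk_max) (hDk : 0 ≤ D_k)
    (hQk1 : Qk_min ≤ Q) (hQk2 : Q ≤ Qk_max)
    (hf : 32 * f_k ≤ (n : ℝ) ^ 2)
    (hqmin : 8 * n ^ 4 < Qmin)
    (hr2 : (r : ℝ) ≤ (m : ℝ) / 100000000000 / 16) :
    CovOn (Fin k ⊕ Fin m) r (fatOf (k + m) ((n : ℝ) ^ 4))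
      (3 * (1024000000 * Real.sqrt k * ((m : ℝ) / 100000000000) * D_k)) Qmin Qmax := by
  classical
  have hnR : (n : ℝ) = (k : ℝ) + m := by rw [hn]; push_cast; rfl
  have hkR : (k : ℝ) ≤ (ℓ : ℝ) ^ 4 := by exact_mod_cast hk
  have hℓR : (100000000000000 : ℝ) ≤ (ℓ : ℝ) := by exact_mod_cast hℓ
  have hnℓR : (ℓ : ℝ) ^ 30 ≤ (n : ℝ) := by exact_mod_cast hnℓ
  have hr'R : 10000000000000 * (ℓ : ℝ) ≤ (r' : ℝ) := by exact_mod_cast hr'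
  have hℓ1 : (1 : ℝ) ≤ (ℓ : ℝ) := by linarith
  have hn1 : (1 : ℝ) ≤ (n : ℝ) := le_trans (one_le_pow₀ hℓ1) hnℓR
  have hn16 : (16 : ℝ) ≤ (n : ℝ) := by
    refine le_trans ?_ hnℓR
    calc (16 : ℝ) ≤ (ℓ : ℝ) := by linarith
      _ = (ℓ : ℝ) ^ 1 := (pow_one _).symm
      _ ≤ (ℓ : ℝ) ^ 30 := pow_le_pow_right₀ hℓ1 (by norm_num)
  have hn0 : (0 : ℝ) < (n : ℝ) := by linarith
  have hn32 : (32 : ℝ) ≤ (n : ℝ) := by
    refine le_trans ?_ hnℓR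
    calc (32 : ℝ) ≤ (ℓ : ℝ) := by linarith
      _ = (ℓ : ℝ) ^ 1 := (pow_one _).symm
      _ ≤ (ℓ : ℝ) ^ 30 := pow_le_pow_right₀ hℓ1 (by norm_num)
  have hLg1 : 1 ≤ Real.log n := by
    rw [Real.le_log_iff_exp_le hn0]
    have he := Real.exp_one_lt_d9
    linarith
  have hm0R : (0 : ℝ) ≤ (m : ℝ) := Nat.cast_nonneg _
  have hmle : (m : ℝ) ≤ (n : ℝ) := by rw [hnR]; linarith [(Nat.cast_nonneg k : (0 : ℝ) ≤ k)]
  -- bound on the level count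
  have hJ0 : ((levelJ k m : ℕ) : ℝ) ≤ (k : ℝ) * (ℓ : ℝ) + 6 := by
    unfold levelJ
    push_cast
    have h0 : (0 : ℝ) ≤ (k : ℝ) * Real.log m := by
      apply mul_nonneg (Nat.cast_nonneg _)
      exact Real.log_natCast_nonneg m
    have h1 := Nat.ceil_lt_add_one h0
    have h2 : Real.log (m : ℝ) ≤ (ℓ : ℝ) := by
      rcases (Nat.eq_zero_or_pos m) with hm0 | hmpos
      · rw [hm0]; simp
      · have hmR : (0 : ℝ) < (m : ℝ) := by exact_mod_cast hmpos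
        exact (Real.log_le_log hmR hmle).trans hL
    have h3 : (k : ℝ) * Real.log m ≤ (k : ℝ) * (ℓ : ℝ) :=
      mul_le_mul_of_nonneg_left h2 (Nat.cast_nonneg _)
    linarith
  -- the number of doublings
  obtain ⟨bb, hbbdef⟩ : ∃ bb : ℕ, bb = ℓ / 4 := ⟨_, rfl⟩
  have hbb4 : 4 * bb ≤ ℓ := by rw [hbbdef]; omega
  have hbb5 : ℓ ≤ 4 * bb + 3 := by rw [hbbdef]; omega
  have hbb1 : 1 ≤ bb := by omega
  have hU4 : ((2 : ℝ) ^ bb) ^ 4 ≤ 3 * (n : ℝ) := by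
    have h1 : ((2 : ℝ) ^ bb) ^ 4 = 2 ^ (4 * bb) := by rw [← pow_mul, mul_comm]
    have h2 : (2 : ℝ) ^ (4 * bb) ≤ 2 ^ ℓ := pow_le_pow_right₀ (by norm_num) hbb4
    have h2e : (2 : ℝ) ≤ Real.exp 1 := by
      have := Real.add_one_le_exp (1 : ℝ)
      linarith
    have h3 : (2 : ℝ) ^ ℓ ≤ Real.exp (ℓ : ℝ) := by
      calc (2 : ℝ) ^ ℓ ≤ Real.exp 1 ^ ℓ := pow_le_pow_left₀ (by norm_num) h2e _
        _ = _ := by rw [← Real.exp_nat_mul]; simp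
    have h4 : Real.exp (ℓ : ℝ) ≤ Real.exp (Real.log n + 1) := Real.exp_le_exp.2 hL2
    have h5 : Real.exp (Real.log n + 1) = n * Real.exp 1 := by
      rw [Real.exp_add, Real.exp_log hn0]
    have h6 := Real.exp_one_lt_d9
    rw [h1]
    calc (2 : ℝ) ^ (4 * bb) ≤ n * Real.exp 1 := by linarith
      _ ≤ n * 3 := mul_le_mul_of_nonneg_left (by linarith) hn0.le
      _ = _ := by ring
  have hU1 : (1 : ℝ) ≤ (2 : ℝ) ^ bb := one_le_pow₀ (by norm_num)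
  have hBge : (ℓ : ℝ) / 5 ≤ (bb : ℝ) := by
    have h1 : (ℓ : ℝ) ≤ 4 * (bb : ℝ) + 3 := by exact_mod_cast hbb5
    linarith
  have hLN : LevelNum3 (n : ℝ) (m : ℝ) (k : ℝ) (ℓ : ℝ) (Real.log n) ((levelJ k m : ℕ) : ℝ)
      ((m : ℝ) / 100000000000) ((2 : ℝ) ^ bb) (bb : ℝ) :=
    ⟨hnR, Nat.cast_nonneg _, hkR, hℓR, hL, hLg1, hnℓR, hJ0, Nat.cast_nonneg _, rfl, hU1, hU4, hBge⟩
  have hMbig := hLN.M_big 29 (by norm_num)
  have hθbig := hLN.θ_big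
  have hθmul := hLN.θ_mul
  have hθM := hLN.θ_le_M
  obtain ⟨θ₀, hθ₀def⟩ : ∃ θ₀ : ℝ, θ₀ = (m : ℝ) / 100000000000 := ⟨_, rfl⟩
  rw [← hθ₀def] at hLN hθbig hθmul hθM hr2 ⊢
  have hθ₀1 : 1 ≤ θ₀ := le_trans (one_le_pow₀ hℓ1) hθbig
  have hθ₀pos : 0 < θ₀ := by linarith
  obtain ⟨J, hJdef⟩ : ∃ J : ℕ, J = levelJ k m := ⟨_, rfl⟩
  rw [← hJdef] at hLN hJ0
  have hmR2 : (2 : ℝ) ≤ (m : ℝ) := by
    refine le_trans ?_ hMbig
    calc (2 : ℝ) ≤ (ℓ : ℝ) := by linarith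
      _ = (ℓ : ℝ) ^ 1 := (pow_one _).symm
      _ ≤ (ℓ : ℝ) ^ 29 := pow_le_pow_right₀ hℓ1 (by norm_num)
  have hm2 : 2 ≤ m := by exact_mod_cast hmR2
  have hτ : 64 * ((k : ℝ) + m) ^ 3 ≤ (n : ℝ) ^ 4 := by
    rw [← hnR]
    have h64 : (64 : ℝ) ≤ (n : ℝ) := by
      refine le_trans ?_ hnℓR
      calc (64 : ℝ) ≤ (ℓ : ℝ) := by linarith
        _ = (ℓ : ℝ) ^ 1 := (pow_one _).symm
        _ ≤ (ℓ : ℝ) ^ 30 := pow_le_pow_right₀ hℓ1 (by norm_num)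
    have : (n : ℝ) ^ 4 = (n : ℝ) * (n : ℝ) ^ 3 := by ring
    rw [this]
    exact mul_le_mul_of_nonneg_right h64 (by positivity)
  have hf' : f_k ≤ (n : ℝ) ^ 4 / (32 * ((k : ℝ) + m) * m) := by
    rw [← hnR]
    have hmpos : (0 : ℝ) < (m : ℝ) := by linarith
    rw [le_div_iff₀ (by positivity)]
    have h1 : f_k * (32 * (n : ℝ) * m) = (32 * f_k) * ((n : ℝ) * m) := by ring
    rw [h1]
    calc (32 * f_k) * ((n : ℝ) * m) ≤ (n : ℝ) ^ 2 * ((n : ℝ) * n) := by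
          by_cases hf0 : 0 ≤ 32 * f_k
          · apply mul_le_mul hf _ (by positivity) (by positivity)
            exact mul_le_mul_of_nonneg_left hmle hn0.le
          · rw [not_le] at hf0
            have h2 : (32 * f_k) * ((n : ℝ) * m) ≤ 0 :=
              mul_nonpos_of_nonpos_of_nonneg hf0.le (by positivity)
            exact h2.trans (by positivity)
      _ = (n : ℝ) ^ 4 := by ring
  have hD₀ : 2 * (n : ℝ) ^ 4 ≤ ((2 * n ^ 4 : ℕ) : ℝ) := by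
    push_cast; exact le_rfl
  have h2m : Real.exp ((m : ℝ) / 2) ≤ 2 ^ m := by
    have hlog2 : (1 / 2 : ℝ) ≤ Real.log 2 := by
      have := Real.log_two_gt_d9
      linarith
    have h3 : (2 : ℝ) ^ m = Real.exp (Real.log 2 * m) := by
      rw [mul_comm, Real.exp_nat_mul, Real.exp_log (by norm_num)]
    rw [h3]
    apply Real.exp_le_exp.2
    nlinarith only [mul_le_mul_of_nonneg_right hlog2 (Nat.cast_nonneg m : (0 : ℝ) ≤ m)]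
  have hQmR : (Q : ℝ) ≤ 32 * (n : ℝ) ^ 5 := by exact_mod_cast hQ2
  have hQm : Q ≤ 2 ^ m := by
    have h1 : (Q : ℝ) ≤ Real.exp (6 * Real.log n) := by
      have h5 : Real.exp (6 * Real.log n) = (n : ℝ) ^ 6 := by
        rw [mul_comm, Real.exp_mul, Real.exp_log hn0]
        norm_cast
      rw [h5]
      refine hQmR.trans ?_
      have : (n : ℝ) ^ 6 = (n : ℝ) * (n : ℝ) ^ 5 := by ring
      rw [this]
      exact mul_le_mul_of_nonneg_right hn32 (by positivity)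
    have h2 : 6 * Real.log n ≤ (m : ℝ) / 2 := by
      have h3 : (ℓ : ℝ) * 12 ≤ (ℓ : ℝ) ^ 29 := by
        have h4 : (12 : ℝ) ≤ (ℓ : ℝ) ^ 28 := by
          calc (12 : ℝ) ≤ (ℓ : ℝ) := by linarith
            _ = (ℓ : ℝ) ^ 1 := (pow_one _).symm
            _ ≤ (ℓ : ℝ) ^ 28 := pow_le_pow_right₀ hℓ1 (by norm_num)
        have h5 : (ℓ : ℝ) ^ 29 = (ℓ : ℝ) * (ℓ : ℝ) ^ 28 := by ring
        rw [h5]
        exact mul_le_mul_of_nonneg_left h4 (by linarith)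
      linarith
    have h3 : (Q : ℝ) ≤ (2 : ℝ) ^ m := h1.trans ((Real.exp_le_exp.2 h2).trans h2m)
    exact_mod_cast h3
  have hQn : k + m + 2 ≤ Qmin := by
    rw [← hn]
    have h1 : 1 ≤ n ^ 4 := Nat.one_le_pow _ _ (by
      have : (0 : ℝ) < (n : ℝ) := hn0
      exact_mod_cast this)
    have h2 : n ≤ n ^ 4 := by
      calc n = n ^ 1 := (pow_one n).symm
        _ ≤ n ^ 4 := Nat.pow_le_pow_right (by
          have : (0 : ℝ) < (n : ℝ) := hn0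
          exact_mod_cast this) (by norm_num)
    omega
  have hexp : 4 * θ₀ * Real.exp (J : ℝ) ≤ 2 ^ m := by
    have h4 : (4 : ℝ) ≤ Real.exp 2 := by
      have h3 := Real.add_one_le_exp (1 : ℝ)
      have h4 : Real.exp 2 = Real.exp 1 * Real.exp 1 := by
        rw [← Real.exp_add]; norm_num
      rw [h4]
      nlinarith only [h3]
    have h5 : θ₀ ≤ Real.exp θ₀ := by
      have := Real.add_one_le_exp θ₀
      linarith
    have h6 : 4 * θ₀ * Real.exp (J : ℝ) ≤ Real.exp (2 + θ₀ + (J : ℝ)) := by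
      rw [Real.exp_add, Real.exp_add]
      gcongr
    refine h6.trans (le_trans (Real.exp_le_exp.2 ?_) h2m)
    have h7 : 4 * θ₀ ≤ (m : ℝ) := by linarith
    have h8 : (ℓ : ℝ) ^ 5 * 10 ≤ (ℓ : ℝ) ^ 29 := by
      have h9 : (10 : ℝ) ≤ (ℓ : ℝ) ^ 24 := by
        calc (10 : ℝ) ≤ (ℓ : ℝ) := by linarith
          _ = (ℓ : ℝ) ^ 1 := (pow_one _).symm
          _ ≤ (ℓ : ℝ) ^ 24 := pow_le_pow_right₀ hℓ1 (by norm_num)
      have h10 : (ℓ : ℝ) ^ 29 = (ℓ : ℝ) ^ 5 * (ℓ : ℝ) ^ 24 := by ring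
      rw [h10]
      exact mul_le_mul_of_nonneg_left h9 (by positivity)
    have h9 : (k : ℝ) * (ℓ : ℝ) ≤ (ℓ : ℝ) ^ 5 := by
      calc (k : ℝ) * (ℓ : ℝ) ≤ (ℓ : ℝ) ^ 4 * (ℓ : ℝ) := by gcongr
        _ = (ℓ : ℝ) ^ 5 := by ring
    have h10 : 10 ≤ (ℓ : ℝ) ^ 5 := by
      calc (10 : ℝ) ≤ (ℓ : ℝ) := by linarith
        _ = (ℓ : ℝ) ^ 1 := (pow_one _).symm
        _ ≤ (ℓ : ℝ) ^ 5 := pow_le_pow_right₀ hℓ1 (by norm_num)
    linarith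
  have ht : ∃ t : ℕ, 2 * θ₀ + 2 ≤ (t : ℝ) ∧ (t : ℝ) ≤ 2 * θ₀ + 3 := by
    refine ⟨⌈2 * θ₀⌉₊ + 2, ?_, ?_⟩
    · push_cast
      have := Nat.le_ceil (2 * θ₀)
      linarith
    · push_cast
      have := Nat.ceil_lt_add_one (by positivity : 0 ≤ 2 * θ₀)
      linarith
  obtain ⟨t, ht1, ht2⟩ := ht
  have hrt : r + 1 ≤ 2 * t := by
    have h1 : ((r : ℝ) + 1) ≤ 2 * (t : ℝ) := by linarith
    exact_mod_cast h1
  have hε : 1728 * cE ^ m * Real.exp (3 * (J : ℝ)) ≤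
      (Real.exp (4 + (3 / 2) * (J : ℝ) - γ₀ * (m : ℝ) / 2)) ^ 2 := by
    have h1 := cE_pow_le m
    have h2 : (1728 : ℝ) ≤ Real.exp 8 := by
      have he : (2.7182818283 : ℝ) < Real.exp 1 := Real.exp_one_gt_d9
      have h3 : Real.exp 8 = Real.exp 1 ^ 8 := by
        rw [← Real.exp_nat_mul]; norm_num
      rw [h3]
      calc (1728 : ℝ) ≤ (2.7182818283 : ℝ) ^ 8 := by norm_num
        _ ≤ _ := pow_le_pow_left₀ (by norm_num) he.le 8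
    have h3 : (Real.exp (4 + (3 / 2) * (J : ℝ) - γ₀ * (m : ℝ) / 2)) ^ 2 =
        Real.exp 8 * Real.exp (-(γ₀ * m)) * Real.exp (3 * (J : ℝ)) := by
      rw [← Real.exp_nat_mul, ← Real.exp_add, ← Real.exp_add]
      congr 1
      push_cast
      ring
    rw [h3]
    have h0 := cE_nonneg
    gcongr
  have hPL : ∀ θ : ℝ, θ₀ ≤ θ → θ ≤ θ₀ + 1 →
      plMain3 r t θ (Real.exp (-(20 * θ₀))) ≤ 4 * 2 ^ r * Real.exp (-(θ₀ / 2)) := by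
    intro θ h1 h2
    exact level_plMain3 hLN h1 h2 ht1 ht2
  have hΞ₁ : ∀ θ : ℝ, θ₀ ≤ θ → θ ≤ θ₀ + 1 →
      ((Q : ℝ) * θ) ^ (2 ^ (bb + 1)) * Real.exp (4 + (3 / 2) * (J : ℝ) - γ₀ * (m : ℝ) / 2) ≤
        Real.exp (-(20 * θ₀)) := by
    intro θ h1 h2
    exact level_Ξ₁ hLN hn32 rfl hQmR h1 h2 rfl
  have hε₂ := level_ε₂ hLN (m := m) (bb := bb) rfl rfl rfl
  have hΞ₂ : ∀ θ : ℝ, θ₀ ≤ θ → θ ≤ θ₀ + 1 →
      ((Q : ℝ) * θ) ^ (4 * t) * Real.exp (-(γ₀ * (m : ℝ) * (bb : ℝ)) + 2 * (2 : ℝ) ^ bb * ((J : ℝ) + 3)) ≤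
        Real.exp (-(20 * θ₀)) := by
    intro θ h1 h2
    exact level_Ξ₂ hLN hn32 rfl hQmR h1 h2 ht2
  -- the conditions on `bb`
  have hbbn : (bb : ℝ) + 1 ≤ (n : ℝ) / 16 := by
    have h1 : (bb : ℝ) ≤ (ℓ : ℝ) := by
      have : bb ≤ ℓ := by omega
      exact_mod_cast this
    have h2 : (16 : ℝ) * ((ℓ : ℝ) + 1) ≤ (n : ℝ) := by
      refine le_trans ?_ hnℓR
      have h3 : (17 : ℝ) ≤ (ℓ : ℝ) ^ 28 := by
        calc (17 : ℝ) ≤ (ℓ : ℝ) := by linarith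
          _ = (ℓ : ℝ) ^ 1 := (pow_one _).symm
          _ ≤ (ℓ : ℝ) ^ 28 := pow_le_pow_right₀ hℓ1 (by norm_num)
      have h4 : (ℓ : ℝ) ≤ (ℓ : ℝ) ^ 2 := by
        calc (ℓ : ℝ) = (ℓ : ℝ) ^ 1 := (pow_one _).symm
          _ ≤ (ℓ : ℝ) ^ 2 := pow_le_pow_right₀ hℓ1 (by norm_num)
      have h5 : (ℓ : ℝ) ^ 30 = (ℓ : ℝ) ^ 28 * (ℓ : ℝ) ^ 2 := by ring
      rw [h5]
      have h6 := mul_le_mul h3 h4 (by linarith) (by positivity)
      linarith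
    linarith
  have hτb : ((bb : ℝ) + 1) * m ≤ (n : ℝ) ^ 4 * (1 / (16 * ((k : ℝ) + m) ^ 2)) := by
    rw [← hnR]
    have e : (n : ℝ) ^ 4 * (1 / (16 * (n : ℝ) ^ 2)) = (n : ℝ) / 16 * n := by
      field_simp
    rw [e]
    exact mul_le_mul hbbn hmle hm0R (by positivity)
  have hQbb : 2 ^ (bb + 1) * (2 * n ^ 4) < Q := by
    have h1 : (2 : ℝ) ^ bb ≤ 3 * (n : ℝ) := by
      refine le_trans ?_ hU4
      calc (2 : ℝ) ^ bb = ((2 : ℝ) ^ bb) ^ 1 := (pow_one _).symm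
        _ ≤ ((2 : ℝ) ^ bb) ^ 4 := pow_le_pow_right₀ hU1 (by norm_num)
    have h2 : ((2 : ℝ) ^ (bb + 1) * (2 * (n : ℝ) ^ 4)) ≤ 12 * (n : ℝ) ^ 5 := by
      have e : (2 : ℝ) ^ (bb + 1) * (2 * (n : ℝ) ^ 4) = 4 * (2 : ℝ) ^ bb * (n : ℝ) ^ 4 := by
        rw [pow_succ]; ring
      rw [e]
      calc 4 * (2 : ℝ) ^ bb * (n : ℝ) ^ 4 ≤ 4 * (3 * (n : ℝ)) * (n : ℝ) ^ 4 := by gcongr
        _ = _ := by ring
    have h3 : (16 * (n : ℝ) ^ 5) < (Q : ℝ) := by exact_mod_cast hQ1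
    have h4 : (0 : ℝ) < (n : ℝ) ^ 5 := by positivity
    have h5 : ((2 : ℝ) ^ (bb + 1) * (2 * (n : ℝ) ^ 4)) < (Q : ℝ) := by linarith
    exact_mod_cast h5
  have hQ8 : 8 * n ^ 4 < Q := by
    have h1 : (8 : ℝ) * (n : ℝ) ^ 4 ≤ 16 * (n : ℝ) ^ 5 := by
      have e : 16 * (n : ℝ) ^ 5 = 16 * (n : ℝ) * (n : ℝ) ^ 4 := by ring
      rw [e]
      apply mul_le_mul_of_nonneg_right _ (by positivity)
      nlinarith only [hn1]
    have h3 : (16 * (n : ℝ) ^ 5) < (Q : ℝ) := by exact_mod_cast hQ1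
    have h5 : (8 : ℝ) * (n : ℝ) ^ 4 < (Q : ℝ) := by linarith
    exact_mod_cast h5
  have hthird := level_third3 (r := r) (m := m) (D₀ := 2 * n ^ 4) hLN hn16 rfl rfl
    (by push_cast; ring) hr2
  have hU := level_union3 (r := r) (r' := r') (k := k) (m := m) (D₀ := 2 * n ^ 4) hLN hn16 rfl rfl rfl
    (by push_cast; ring) hr'R hr2
  have hbnn : (0 : ℝ) ≤ 5 * 2 ^ r * Real.exp (-(θ₀ / 2)) := by positivity
  have hbb : 4 * 2 ^ r * Real.exp (-(θ₀ / 2)) + Real.exp (-(θ₀ / 2)) ≤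
      5 * 2 ^ r * Real.exp (-(θ₀ / 2)) := by
    have h1 : (1 : ℝ) ≤ 2 ^ r := one_le_pow₀ (by norm_num)
    have h2 := Real.exp_pos (-(θ₀ / 2))
    nlinarith only [h1, h2, mul_le_mul_of_nonneg_right h1 h2.le]
  exact cov_step3 (τ₀ := (n : ℝ) ^ 4) (θ₀ := θ₀) (ε := Real.exp (4 + (3 / 2) * (J : ℝ) - γ₀ * (m : ℝ) / 2))
    (b := 5 * 2 ^ r * Real.exp (-(θ₀ / 2))) (b₁ := 4 * 2 ^ r * Real.exp (-(θ₀ / 2)))
    (b₃ := Real.exp (-(θ₀ / 2))) (Q := Q) (t := t) (D₀ := 2 * n ^ 4)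
    (ε₂ := Real.exp (-(γ₀ * (m : ℝ) * (bb : ℝ)) + 2 * (2 : ℝ) ^ bb * ((J : ℝ) + 3)))
    (Ξ := Real.exp (-(20 * θ₀))) hk100 hm2 hcov hDk
    hQp hQk1 hQk2 hτ hf' hD₀ (by
      have : 4 * (2 * n ^ 4) = 8 * n ^ 4 := by ring
      omega) (by
      have : 4 * (2 * n ^ 4) = 8 * n ^ 4 := by ring
      omega) hQm hQn hθ₀1 (by rw [← hJdef]; exact hexp) hrt (Real.exp_pos _).le
    (by rw [← hJdef]; exact hε) hbb1 hτb hQbb (Real.exp_pos _).le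
    (by rw [← hJdef]; exact hε₂) (Real.exp_pos _).le hΞ₁ hΞ₂ hPL
    (by
      rw [← hJdef, ← hnR]
      exact hthird) hbb hbnn hU

end Vale.Agent.Lib.P230
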