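import Vale.Agent.Lib.P230.Poisson

/-!
# P230 module L: the lifting step (pure finite combinatorics).

Given a lower lattice `Λbar ≤ ℤ^α`, such that each coset has `r'+1` points of `Gfin` affinely independent
mod `Q`, and for each `z ∈ Gfin` a set `Sz z ⊆ ℤ^β` such that the fraction of bad `(T,y)` is at most `b`:
1. By averaging over `T` there is `T` with `|U_z(T)| ≤ |Gfin| b Q^c` for all `z ∈ Gfin`, where
   `U_z(T) = {y | ¬ GoodFibre q r (fibre (Sz z) T y)}`.  Put `α₀ = |Gfin| b`.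
2. `ψ` uniform in `Matrix (Fin c) α (ZMod Q)`.  Define the homomorphism
   `φ (z,x) = ([z] ∈ ℤ^α/Λbar, T x - ψ z)` and `Λ = ker φ`.
   For a fixed `(a,y)` pick representative points `v₀..v_{r'}` of the coset `a` from the hypothesis.
   Among `r'+1` affinely independent vectors, `r'` are linearly independent mod `Q`.  For those `(ψ v_j)_j` is
   uniform in `((ZMod Q)^c)^{r'}`, hence `P_ψ(∀ j, y + ψ v_j ∈ U_{v_j}) ≤ α₀^{r'}`.
3. Union bound over the at most `|Gfin| Q^c` pairs `(a,y)` (index of `Λbar` is at most `|Gfin|`): by `hU` some `ψ`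
   has no bad pair.  Then every fibre of `φ` is hit, in particular `φ` is onto and
   `[ℤ^{α⊕β} : Λ] = [ℤ^α : Λbar] Q^c`.
-/

namespace Vale.Agent.Lib.P230

section LinAlg

/-- Among `r'+1` affinely independent vectors, `r'` are linearly independent. -/
theorem exists_li_sub {F V : Type*} [Field F] [AddCommGroup V] [Module F V] [FiniteDimensional F V]
    {r' : ℕ} (w : Fin (r' + 1) → V) (h : LinearIndependent F (fun j => (w j, (1 : F)))) :
    ∃ e : Fin r' → Fin (r' + 1), LinearIndependent F (w ∘ e) := by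
  classical
  set W : Submodule F V := Submodule.span F (Set.range w) with hW
  have hmem : ∀ j, w j ∈ W := fun j => Submodule.subset_span ⟨j, rfl⟩
  let ŵ : Fin (r' + 1) → (W × F) := fun j => (⟨w j, hmem j⟩, 1)
  let incl : (W × F) →ₗ[F] (V × F) := LinearMap.prodMap W.subtype LinearMap.id
  have hcomp : incl ∘ ŵ = fun j => (w j, (1 : F)) := by
    funext j
    simp [incl, ŵ]
  have hŵ : LinearIndependent F ŵ := by
    apply LinearIndependent.of_comp incl
    rw [hcomp]
    exact h
  have hle := hŵ.fintype_card_le_finrank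
  rw [Fintype.card_fin, Module.finrank_prod, Module.finrank_self] at hle
  have hd : r' ≤ Module.finrank F W := by omega
  obtain ⟨f, hf1, -, hf3⟩ := Submodule.exists_fun_fin_finrank_span_eq F (Set.range w)
  choose e he using hf1
  refine ⟨fun i => e (Fin.castLE hd i), ?_⟩
  have : w ∘ (fun i => e (Fin.castLE hd i)) = f ∘ Fin.castLE hd := by
    funext i
    exact he _
  rw [this]
  exact hf3.comp _ (Fin.castLE_injective hd)

/-- Dual vectors: prescribed inner products with a linearly independent family. -/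
theorem exists_dual_vec {F : Type*} [Field F] {α J : Type*} [Fintype α] [DecidableEq α] [Fintype J]
    [DecidableEq J] (w : J → α → F) (hw : LinearIndependent F w) (t : J → F) :
    ∃ ρ : α → F, ∀ j, dotProduct ρ (w j) = t j := by
  have hinj : Function.Injective (Fintype.linearCombination F w) :=
    linearIndependent_iff_injective_fintypeLinearCombination.mp hw
  obtain ⟨g, hg⟩ := LinearMap.exists_leftInverse_of_injective (Fintype.linearCombination F w)
    (LinearMap.ker_eq_bot.mpr hinj)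
  have hgw : ∀ j k, g (w j) k = if j = k then 1 else 0 := by
    intro j k
    have h1 : Fintype.linearCombination F w (Pi.single j 1) = w j := by
      simp [Fintype.linearCombination_apply, Pi.single_apply, ite_smul]
    have h2 := LinearMap.congr_fun hg (Pi.single j 1)
    simp only [LinearMap.comp_apply, LinearMap.id_apply, h1] at h2
    rw [h2, Pi.single_apply]
    by_cases h : j = k
    · simp [h]
    · simp [h, Ne.symm h]
  refine ⟨fun i => ∑ k, t k * g (fun i' => if i = i' then 1 else 0) k, ?_⟩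
  intro j
  have h3 : ∀ k, g (w j) k = ∑ i, w j i * g (fun i' => if i = i' then 1 else 0) k := by
    intro k
    have := LinearMap.pi_apply_eq_sum_univ g (w j)
    rw [this, Finset.sum_apply]
    simp
  calc dotProduct (fun i => ∑ k, t k * g (fun i' => if i = i' then 1 else 0) k) (w j)
      = ∑ k, t k * ∑ i, w j i * g (fun i' => if i = i' then 1 else 0) k := by
        simp only [dotProduct, Finset.sum_mul, Finset.mul_sum]
        rw [Finset.sum_comm]
        refine Finset.sum_congr rfl fun k _ => Finset.sum_congr rfl fun i _ => ?_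
        ring
    _ = ∑ k, t k * (if j = k then 1 else 0) := by
        refine Finset.sum_congr rfl fun k _ => ?_
        rw [← h3, hgw]
    _ = t j := by simp

/-- For a surjective homomorphism of finite groups all fibres have equal size. -/
theorem card_filter_mem_surj {G H : Type*} [AddGroup G] [Fintype G] [AddGroup H] [Fintype H]
    [DecidableEq H] (f : G →+ H) (hf : Function.Surjective f) (S : Finset H) :
    (open Classical in (Finset.univ.filter (fun g => f g ∈ S)).card) * Fintype.card H =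
      Fintype.card G * S.card := by
  classical
  set K := (Finset.univ.filter (fun g => f g = 0)).card with hK
  have hfib : ∀ t : H, (Finset.univ.filter (fun g => f g = t)).card = K := by
    intro t
    exact AddMonoidHom.card_fiber_eq_of_mem_range f (hf t) (hf 0)
  have hG : Fintype.card G = K * Fintype.card H := by
    rw [← Finset.card_univ, Finset.card_eq_sum_card_fiberwise (f := f) (t := Finset.univ) (fun _ _ => Finset.mem_univ _)]
    simp [hfib, Finset.card_univ, mul_comm]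
  have hS : (Finset.univ.filter (fun g => f g ∈ S)).card = K * S.card := by
    rw [Finset.card_eq_sum_card_fiberwise (f := f) (t := S)
      (fun g hg => by simpa using hg)]
    have : ∀ t ∈ S, (Finset.filter (fun g => f g = t) (Finset.univ.filter (fun g => f g ∈ S))).card = K := by
      intro t ht
      rw [← hfib t]
      congr 1
      ext g
      simp only [Finset.mem_filter, Finset.mem_univ, true_and]
      constructor
      · exact fun h => h.2
      · intro h
        exact ⟨h ▸ ht, h⟩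
    rw [Finset.sum_congr rfl this]
    simp [mul_comm]
  rw [hG, hS]
  ring

end LinAlg

variable {α β : Type} [Fintype α] [DecidableEq α] [Fintype β] [DecidableEq β]

/-- The set of `y` with a bad fibre. -/
noncomputable def Ubad (Q q c r : ℕ) [NeZero Q] (S : Finset (β → ℤ)) (T : Matrix (Fin c) β (ZMod Q)) :
    Finset (Fin c → ZMod Q) :=
  open Classical in Finset.univ.filter (fun y => ¬ GoodFibre q r (fibre S T y))

lemma mem_Ubad {Q q c r : ℕ} [NeZero Q] {S : Finset (β → ℤ)} {T : Matrix (Fin c) β (ZMod Q)}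
    {y : Fin c → ZMod Q} : y ∈ Ubad Q q c r S T ↔ ¬ GoodFibre q r (fibre S T y) := by
  classical
  simp [Ubad]

lemma badCount_eq_sum {Q q c r : ℕ} [NeZero Q] (S : Finset (β → ℤ)) :
    badCount Q q c r S = ∑ T : Matrix (Fin c) β (ZMod Q), (Ubad Q q c r S T).card := by
  classical
  rw [badCount, Finset.card_filter, ← Finset.univ_product_univ, Finset.sum_product]
  refine Finset.sum_congr rfl fun T _ => ?_
  rw [Ubad, Finset.card_filter]

lemma card_matrix {γ : Type} [Fintype γ] [DecidableEq γ] {Q c : ℕ} [NeZero Q] :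
    Fintype.card (Matrix (Fin c) γ (ZMod Q)) = Q ^ (c * Fintype.card γ) := by
  show Fintype.card (Fin c → γ → ZMod Q) = _
  rw [Fintype.card_fun, Fintype.card_fun, ZMod.card, Fintype.card_fin, ← pow_mul, mul_comm]

/-- Averaging over `T`. -/
theorem exists_good_T {Q q c r : ℕ} [NeZero Q] (hQ : 0 < Q) (Gfin : Finset (α → ℤ))
    (Sz : (α → ℤ) → Finset (β → ℤ)) {b : ℝ}
    (hPL : ∀ z ∈ Gfin, (badCount Q q c r (Sz z) : ℝ) ≤ (Q : ℝ) ^ (c * Fintype.card β + c) * b) :
    ∃ T : Matrix (Fin c) β (ZMod Q), ∀ z ∈ Gfin,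
      ((Ubad Q q c r (Sz z) T).card : ℝ) ≤ (Gfin.card : ℝ) * b * (Q : ℝ) ^ c := by
  classical
  have hQr : (0 : ℝ) < (Q : ℝ) := by exact_mod_cast hQ
  have hsum : ∑ T : Matrix (Fin c) β (ZMod Q), ∑ z ∈ Gfin, ((Ubad Q q c r (Sz z) T).card : ℝ) ≤
      ∑ _T : Matrix (Fin c) β (ZMod Q), (Gfin.card : ℝ) * b * (Q : ℝ) ^ c := by
    rw [Finset.sum_comm, Finset.sum_const, Finset.card_univ, card_matrix (Q := Q) (c := c) (γ := β), nsmul_eq_mul]
    have h1 : ∀ z ∈ Gfin, ∑ T : Matrix (Fin c) β (ZMod Q), ((Ubad Q q c r (Sz z) T).card : ℝ) ≤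
        (Q : ℝ) ^ (c * Fintype.card β + c) * b := by
      intro z hz
      have := hPL z hz
      rw [badCount_eq_sum] at this
      push_cast at this
      exact this
    calc ∑ z ∈ Gfin, ∑ T : Matrix (Fin c) β (ZMod Q), ((Ubad Q q c r (Sz z) T).card : ℝ)
        ≤ ∑ _z ∈ Gfin, (Q : ℝ) ^ (c * Fintype.card β + c) * b := Finset.sum_le_sum h1
      _ = _ := by
        rw [Finset.sum_const, nsmul_eq_mul, pow_add]
        push_cast
        ring
  obtain ⟨T, -, hT⟩ := Finset.exists_le_of_sum_le Finset.univ_nonempty hsum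
  refine ⟨T, fun z hz => ?_⟩
  refine le_trans ?_ hT
  exact Finset.single_le_sum (f := fun z => ((Ubad Q q c r (Sz z) T).card : ℝ))
    (fun _ _ => Nat.cast_nonneg _) hz

/-- The reduction of an integer vector. -/
def redv (Q : ℕ) {γ : Type} (v : γ → ℤ) : γ → ZMod Q := fun i => ((v i : ℤ) : ZMod Q)

lemma redv_add (Q : ℕ) {γ : Type} (v w : γ → ℤ) : redv Q (v + w) = redv Q v + redv Q w := by
  funext i
  simp [redv]

lemma redv_sub (Q : ℕ) {γ : Type} (v w : γ → ℤ) : redv Q (v - w) = redv Q v - redv Q w := by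
  funext i
  simp [redv]

lemma redv_zero (Q : ℕ) {γ : Type} : redv Q (0 : γ → ℤ) = 0 := by
  funext i
  simp [redv]

/-- Counting the `ψ` with prescribed values on a linearly independent family. -/
theorem card_psi_le {Q c r' : ℕ} [Fact Q.Prime] (w : Fin r' → α → ZMod Q)
    (hw : LinearIndependent (ZMod Q) w) (A : Fin r' → Finset (Fin c → ZMod Q)) {B : ℝ} (hB : 0 ≤ B)
    (hA : ∀ j, ((A j).card : ℝ) ≤ B) :
    ((open Classical in (Finset.univ.filter
        (fun ψ : Matrix (Fin c) α (ZMod Q) => ∀ j, ψ.mulVec (w j) ∈ A j)).card : ℕ) : ℝ) *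
        (Q : ℝ) ^ (c * r') ≤ B ^ r' * (Q : ℝ) ^ (c * Fintype.card α) := by
  classical
  let L : Matrix (Fin c) α (ZMod Q) →+ (Fin r' → Fin c → ZMod Q) :=
    { toFun := fun ψ j => ψ.mulVec (w j)
      map_zero' := by
        funext j
        simp
      map_add' := by
        intro ψ₁ ψ₂
        funext j
        simp [Matrix.add_mulVec] }
  have hL : Function.Surjective L := by
    intro τ
    have h1 : ∀ a : Fin c, ∃ ρ : α → ZMod Q, ∀ j, dotProduct ρ (w j) = τ j a :=
      fun a => exists_dual_vec w hw (fun j => τ j a)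
    choose ρ hρ using h1
    refine ⟨Matrix.of ρ, ?_⟩
    funext j a
    exact hρ a j
  have h := card_filter_mem_surj L hL (Fintype.piFinset A)
  have hcardH : Fintype.card (Fin r' → Fin c → ZMod Q) = Q ^ (c * r') := by
    rw [Fintype.card_fun, Fintype.card_fun, ZMod.card, Fintype.card_fin, Fintype.card_fin, ← pow_mul]
  rw [hcardH, card_matrix, Fintype.card_piFinset] at h
  have h2 : (Finset.univ.filter (fun ψ : Matrix (Fin c) α (ZMod Q) => L ψ ∈ Fintype.piFinset A)) =
      Finset.univ.filter (fun ψ : Matrix (Fin c) α (ZMod Q) => ∀ j, ψ.mulVec (w j) ∈ A j) := by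
    ext ψ
    simp [Fintype.mem_piFinset, L]
  rw [h2] at h
  have h3 : ((∏ j, (A j).card : ℕ) : ℝ) ≤ B ^ r' := by
    push_cast
    calc ∏ j, ((A j).card : ℝ) ≤ ∏ _j : Fin r', B :=
          Finset.prod_le_prod (fun _ _ => Nat.cast_nonneg _) (fun j _ => hA j)
      _ = B ^ r' := by simp
  have h4 : ((Finset.univ.filter (fun ψ : Matrix (Fin c) α (ZMod Q) => ∀ j, ψ.mulVec (w j) ∈ A j)).card : ℝ) *
      (Q : ℝ) ^ (c * r') = (Q : ℝ) ^ (c * Fintype.card α) * ((∏ j, (A j).card : ℕ) : ℝ) := by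
    exact_mod_cast h
  rw [h4, mul_comm]
  exact mul_le_mul_of_nonneg_right h3 (by positivity)

theorem lift_exists {Q q : ℕ} [Fact Q.Prime] (c r r' : ℕ) (Λbar : AddSubgroup (α → ℤ))
    (hΛ : Λbar.index ≠ 0) (Gfin : Finset (α → ℤ))
    (hG : ∀ z₀ : α → ℤ, ∃ v : Fin (r' + 1) → α → ℤ,
      (∀ i, v i - z₀ ∈ Λbar) ∧ (∀ i, v i ∈ Gfin) ∧ AffIndMod Q v)
    (Sz : (α → ℤ) → Finset (β → ℤ)) (b : ℝ) (hb : 0 ≤ b)
    (hPL : ∀ z ∈ Gfin, (badCount Q q c r (Sz z) : ℝ) ≤ (Q : ℝ) ^ (c * Fintype.card β + c) * b)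
    (hU : (Gfin.card : ℝ) * (Q : ℝ) ^ c * ((Gfin.card : ℝ) * b) ^ r' < 1) :
    ∃ Λ : AddSubgroup (α ⊕ β → ℤ), Λ.index = Λbar.index * Q ^ c ∧
      ∀ x : α ⊕ β → ℤ, ∃ z ∈ Gfin, ∃ u : Fin (r + 1) → β → ℤ,
        (∀ i, u i ∈ Sz z) ∧ AffIndMod q u ∧ ∀ i, Sum.elim z (u i) - x ∈ Λ := by
  classical
  have hQpos : 0 < Q := (Fact.out : Q.Prime).pos
  have hQr : (0 : ℝ) < (Q : ℝ) := by exact_mod_cast hQpos
  obtain ⟨T, hT⟩ := exists_good_T (q := q) (c := c) (r := r) hQpos Gfin Sz hPL
  set α₀ : ℝ := (Gfin.card : ℝ) * b with hα₀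
  have hα₀0 : 0 ≤ α₀ := by positivity
  let BadSet : (α → ℤ) → (Fin c → ZMod Q) → Finset (Matrix (Fin c) α (ZMod Q)) := fun z₀ y =>
    Finset.univ.filter (fun ψ => ∀ z ∈ Gfin, z - z₀ ∈ Λbar →
      y + ψ.mulVec (redv Q z) ∈ Ubad Q q c r (Sz z) T)
  have hBad : ∀ z₀ y, ((BadSet z₀ y).card : ℝ) ≤ α₀ ^ r' * (Q : ℝ) ^ (c * Fintype.card α) := by
    intro z₀ y
    obtain ⟨v, hv1, hv2, hv3⟩ := hG z₀
    obtain ⟨e, he⟩ := exists_li_sub (F := ZMod Q) (fun j => redv Q (v j)) hv3
    let A : Fin r' → Finset (Fin c → ZMod Q) := fun j =>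
      Finset.univ.filter (fun t => y + t ∈ Ubad Q q c r (Sz (v (e j))) T)
    have hAcard : ∀ j, ((A j).card : ℝ) ≤ α₀ * (Q : ℝ) ^ c := by
      intro j
      have h1 : (A j).card ≤ (Ubad Q q c r (Sz (v (e j))) T).card :=
        Finset.card_le_card_of_injOn (fun t => y + t)
          (by
            intro t ht
            simpa [A] using ht)
          (by
            intro a _ b _ h
            simpa using h)
      exact le_trans (by exact_mod_cast h1) (hT _ (hv2 _))
    have hB0 : 0 ≤ α₀ * (Q : ℝ) ^ c := by positivity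
    have hc := card_psi_le (c := c) (fun j => redv Q (v (e j))) he A hB0 hAcard
    have hsub : BadSet z₀ y ⊆ Finset.univ.filter
        (fun ψ : Matrix (Fin c) α (ZMod Q) => ∀ j, ψ.mulVec (redv Q (v (e j))) ∈ A j) := by
      intro ψ hψ
      simp only [BadSet, Finset.mem_filter, Finset.mem_univ, true_and] at hψ ⊢
      intro j
      simp only [A, Finset.mem_filter, Finset.mem_univ, true_and]
      exact hψ (v (e j)) (hv2 _) (hv1 _)
    have hle : ((BadSet z₀ y).card : ℝ) ≤ ((Finset.univ.filter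
        (fun ψ : Matrix (Fin c) α (ZMod Q) => ∀ j, ψ.mulVec (redv Q (v (e j))) ∈ A j)).card : ℝ) := by
      exact_mod_cast Finset.card_le_card hsub
    have hpos : (0 : ℝ) < (Q : ℝ) ^ (c * r') := by positivity
    have h5 : ((BadSet z₀ y).card : ℝ) * (Q : ℝ) ^ (c * r') ≤
        (α₀ ^ r' * (Q : ℝ) ^ (c * Fintype.card α)) * (Q : ℝ) ^ (c * r') := by
      have h6 := mul_le_mul_of_nonneg_right hle hpos.le
      refine h6.trans (hc.trans (le_of_eq ?_))
      rw [mul_pow, ← pow_mul]
      ring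
    exact le_of_mul_le_mul_right h5 hpos
  have hunion : ∃ ψ : Matrix (Fin c) α (ZMod Q), ∀ z₀ ∈ Gfin, ∀ y, ψ ∉ BadSet z₀ y := by
    by_contra hcon
    push Not at hcon
    have hsub : (Finset.univ : Finset (Matrix (Fin c) α (ZMod Q))) ⊆
        Gfin.biUnion (fun z₀ => Finset.univ.biUnion (fun y => BadSet z₀ y)) := by
      intro ψ _
      obtain ⟨z₀, hz₀, y, hy⟩ := hcon ψ
      exact Finset.mem_biUnion.mpr ⟨z₀, hz₀, Finset.mem_biUnion.mpr ⟨y, Finset.mem_univ _, hy⟩⟩
    have h1 : ((Finset.univ : Finset (Matrix (Fin c) α (ZMod Q))).card : ℝ) ≤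
        ∑ z₀ ∈ Gfin, ∑ y : Fin c → ZMod Q, ((BadSet z₀ y).card : ℝ) := by
      have h2 := Finset.card_le_card hsub
      have h3 : (Gfin.biUnion (fun z₀ => Finset.univ.biUnion (fun y => BadSet z₀ y))).card ≤
          ∑ z₀ ∈ Gfin, ∑ y : Fin c → ZMod Q, (BadSet z₀ y).card := by
        refine Finset.card_biUnion_le.trans (Finset.sum_le_sum fun z₀ _ => ?_)
        exact Finset.card_biUnion_le
      exact_mod_cast h2.trans h3
    have h2 : ∑ z₀ ∈ Gfin, ∑ y : Fin c → ZMod Q, ((BadSet z₀ y).card : ℝ) ≤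
        (Gfin.card : ℝ) * (Q : ℝ) ^ c * (α₀ ^ r' * (Q : ℝ) ^ (c * Fintype.card α)) := by
      calc ∑ z₀ ∈ Gfin, ∑ y : Fin c → ZMod Q, ((BadSet z₀ y).card : ℝ)
          ≤ ∑ _z₀ ∈ Gfin, ∑ _y : Fin c → ZMod Q, (α₀ ^ r' * (Q : ℝ) ^ (c * Fintype.card α)) :=
            Finset.sum_le_sum fun z₀ _ => Finset.sum_le_sum fun y _ => hBad z₀ y
        _ = _ := by
            rw [Finset.sum_const, Finset.sum_const, Finset.card_univ, Fintype.card_fun, ZMod.card,
              Fintype.card_fin, nsmul_eq_mul, nsmul_eq_mul]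
            push_cast
            ring
    rw [Finset.card_univ, card_matrix] at h1
    push_cast at h1
    have hpos : (0 : ℝ) < (Q : ℝ) ^ (c * Fintype.card α) := by positivity
    have h3 : (Q : ℝ) ^ (c * Fintype.card α) * 1 ≤
        (Q : ℝ) ^ (c * Fintype.card α) * ((Gfin.card : ℝ) * (Q : ℝ) ^ c * α₀ ^ r') := by
      rw [mul_one]
      refine (h1.trans h2).trans (le_of_eq ?_)
      ring
    have h4 := le_of_mul_le_mul_left h3 hpos
    exact absurd hU (not_lt.mpr h4)
  obtain ⟨ψ, hψ⟩ := hunion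
  have hkey : ∀ (z₁ : α → ℤ) (y : Fin c → ZMod Q), ∃ z ∈ Gfin, z - z₁ ∈ Λbar ∧
      ∃ u : Fin (r + 1) → β → ℤ, (∀ i, u i ∈ Sz z) ∧ AffIndMod q u ∧
        ∀ i, T.mulVec (redv Q (u i)) = y + ψ.mulVec (redv Q z) := by
    intro z₁ y
    obtain ⟨v, hv1, hv2, -⟩ := hG z₁
    have h0 := hψ (v 0) (hv2 0) y
    simp only [BadSet, Finset.mem_filter, Finset.mem_univ, true_and] at h0
    push Not at h0
    obtain ⟨z, hz, hzz, hnb⟩ := h0
    rw [mem_Ubad, not_not] at hnb
    obtain ⟨u, hu1, hu2⟩ := hnb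
    refine ⟨z, hz, ?_, u, ?_, hu2, ?_⟩
    · have : z - z₁ = (z - v 0) + (v 0 - z₁) := by abel
      rw [this]
      exact Λbar.add_mem hzz (hv1 0)
    · intro i
      have := hu1 i
      simp only [fibre, Finset.mem_filter] at this
      exact this.1
    · intro i
      have := hu1 i
      simp only [fibre, Finset.mem_filter] at this
      exact this.2
  let φ : (α ⊕ β → ℤ) →+ ((α → ℤ) ⧸ Λbar) × (Fin c → ZMod Q) :=
    { toFun := fun x => ((QuotientAddGroup.mk (fun a => x (Sum.inl a)) : (α → ℤ) ⧸ Λbar),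
        T.mulVec (redv Q (fun k => x (Sum.inr k))) - ψ.mulVec (redv Q (fun a => x (Sum.inl a))))
      map_zero' := by
        have h1 : (fun a : α => (0 : α ⊕ β → ℤ) (Sum.inl a)) = 0 := rfl
        have h2 : (fun k : β => (0 : α ⊕ β → ℤ) (Sum.inr k)) = 0 := rfl
        simp only [h1, h2, redv_zero, Matrix.mulVec_zero, sub_zero]
        rfl
      map_add' := by
        intro x₁ x₂
        have h1 : (fun a : α => (x₁ + x₂) (Sum.inl a)) = (fun a => x₁ (Sum.inl a)) + (fun a => x₂ (Sum.inl a)) := rfl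
        have h2 : (fun k : β => (x₁ + x₂) (Sum.inr k)) = (fun k => x₁ (Sum.inr k)) + (fun k => x₂ (Sum.inr k)) := rfl
        simp only [h1, h2, redv_add, Matrix.mulVec_add]
        refine Prod.ext rfl ?_
        simp only [Prod.snd_add]
        abel }
  have hφ : ∀ (z : α → ℤ) (u : β → ℤ), φ (Sum.elim z u) =
      ((QuotientAddGroup.mk z : (α → ℤ) ⧸ Λbar), T.mulVec (redv Q u) - ψ.mulVec (redv Q z)) := by
    intro z u
    rfl
  have hsurj : Function.Surjective φ := by
    rintro ⟨a, y⟩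
    obtain ⟨z₁, rfl⟩ := QuotientAddGroup.mk_surjective a
    obtain ⟨z, -, hz, u, -, -, hu⟩ := hkey z₁ y
    refine ⟨Sum.elim z (u 0), ?_⟩
    rw [hφ, hu 0, add_sub_cancel_right]
    refine Prod.ext ?_ rfl
    show (QuotientAddGroup.mk z : (α → ℤ) ⧸ Λbar) = QuotientAddGroup.mk z₁
    rw [QuotientAddGroup.eq]
    have : -z + z₁ = -(z - z₁) := by abel
    rw [this]
    exact Λbar.neg_mem hz
  refine ⟨φ.ker, ?_, ?_⟩
  · rw [AddSubgroup.index_ker, AddMonoidHom.range_eq_top.mpr hsurj, Nat.card_congr AddSubgroup.topEquiv.toEquiv,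
      Nat.card_prod]
    congr 1
    rw [Nat.card_eq_fintype_card, Fintype.card_fun, ZMod.card, Fintype.card_fin]
  · intro x
    let z₁ : α → ℤ := fun a => x (Sum.inl a)
    let x₂ : β → ℤ := fun k => x (Sum.inr k)
    have hx : x = Sum.elim z₁ x₂ := by
      funext s
      cases s <;> rfl
    obtain ⟨z, hz, hzz, u, hu1, hu2, hu3⟩ :=
      hkey z₁ (T.mulVec (redv Q x₂) - ψ.mulVec (redv Q z₁))
    refine ⟨z, hz, u, hu1, hu2, fun i => ?_⟩
    rw [AddMonoidHom.mem_ker, map_sub, sub_eq_zero, hφ, hx, hφ, hu3 i, add_sub_cancel_right]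
    refine Prod.ext ?_ rfl
    show (QuotientAddGroup.mk z : (α → ℤ) ⧸ Λbar) = QuotientAddGroup.mk z₁
    rw [QuotientAddGroup.eq]
    have : -z + z₁ = -(z - z₁) := by abel
    rw [this]
    exact Λbar.neg_mem hzz

end Vale.Agent.Lib.P230
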