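import Vale.Agent.Lib.P230.Level

/-!
# P230: the recursion over dimensions and the final bound `C n (log n)^10`.
-/

open MeasureTheory Filter
open scoped ENNReal

namespace Vale.Agent.Lib.P230

/-- Monotonicity of `CovOn` in the fatness and the density. -/
theorem CovOn.mono {ι : Type} [Fintype ι] {r : ℕ} {f f' D D' : ℝ} {Qmin Qmax : ℕ}
    (h : CovOn ι r f D Qmin Qmax) (hf : f ≤ f') (hD : D ≤ D') : CovOn ι r f' D' Qmin Qmax := by
  intro B hconv hbdd hcube q hq hq1 hq2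
  obtain ⟨c, hc⟩ := hcube
  obtain ⟨Λ, h1, h2, h3⟩ := h B hconv hbdd ⟨c, fun x hx => hc x (fun i => (hx i).trans hf)⟩
    q hq hq1 hq2
  refine ⟨Λ, h1, h2.trans (ENNReal.ofReal_le_ofReal ?_), h3⟩
  exact mul_le_mul_of_nonneg_right hD (Nat.cast_nonneg _)

/-- The eventual inequalities used by the recursion. -/
lemma exists_threshold : ∃ L₀ : ℕ, 200000000000 ≤ L₀ ∧
    (∀ ℓ : ℕ, L₀ ≤ ℓ → (ℓ : ℝ) ^ 30 ≤ Real.exp ((ℓ : ℝ) - 1)) ∧
    (∀ ℓ : ℕ, L₀ ≤ ℓ → 675840 * (5 * Real.log ℓ + 1) ^ 10 ≤ (ℓ : ℝ)) := by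
  have h1 : ∀ᶠ x : ℝ in atTop, x ^ 30 ≤ Real.exp (x - 1) := by
    have h := Real.tendsto_pow_mul_exp_neg_atTop_nhds_zero 30
    have h2 : ∀ᶠ x : ℝ in atTop, x ^ 30 * Real.exp (-x) < Real.exp (-1) :=
      h.eventually (gt_mem_nhds (Real.exp_pos _))
    filter_upwards [h2] with x hx
    have h3 : x ^ 30 = x ^ 30 * Real.exp (-x) * Real.exp x := by
      rw [mul_assoc, ← Real.exp_add]; simp
    rw [h3, sub_eq_add_neg, Real.exp_add, mul_comm (Real.exp x)]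
    exact mul_le_mul_of_nonneg_right hx.le (Real.exp_pos x).le
  have h2 : ∀ᶠ x : ℝ in atTop, 675840 * (5 * Real.log x + 1) ^ 10 ≤ x := by
    have h := (Real.isLittleO_pow_log_id_atTop (n := 10)).def
      (c := 1 / (675840 * 6 ^ 10)) (by positivity)
    have hlog : ∀ᶠ x : ℝ in atTop, 1 ≤ Real.log x :=
      Real.tendsto_log_atTop.eventually_ge_atTop 1
    filter_upwards [h, hlog, eventually_gt_atTop 0] with x hx hl hx0
    simp only [id, Real.norm_eq_abs] at hx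
    rw [abs_of_pos hx0, abs_of_nonneg (by positivity)] at hx
    have h3 : (5 * Real.log x + 1) ^ 10 ≤ (6 * Real.log x) ^ 10 :=
      pow_le_pow_left₀ (by positivity) (by linarith) 10
    have h4 : (6 * Real.log x) ^ 10 = 6 ^ 10 * Real.log x ^ 10 := by ring
    rw [h4] at h3
    calc 675840 * (5 * Real.log x + 1) ^ 10 ≤ 675840 * (6 ^ 10 * Real.log x ^ 10) := by
          gcongr
      _ ≤ 675840 * (6 ^ 10 * (1 / (675840 * 6 ^ 10) * x)) := by gcongr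
      _ = x := by field_simp
  have h3 := tendsto_natCast_atTop_atTop (R := ℝ)
  have h1' := h3.eventually h1
  have h2' := h3.eventually h2
  obtain ⟨a, ha⟩ := eventually_atTop.1 (h1'.and h2')
  refine ⟨max a 200000000000, le_max_right _ _, ?_, ?_⟩
  · intro ℓ hℓ
    exact (ha ℓ ((le_max_left _ _).trans hℓ)).1
  · intro ℓ hℓ
    exact (ha ℓ ((le_max_left _ _).trans hℓ)).2

set_option maxHeartbeats 1000000 in
/-- The recursion over dimensions. -/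
theorem cov_rec {L₀ : ℕ} {D₀ : ℝ} (hbig : 200000000000 ≤ L₀)
    (he1 : ∀ ℓ : ℕ, L₀ ≤ ℓ → (ℓ : ℝ) ^ 30 ≤ Real.exp ((ℓ : ℝ) - 1))
    (he2 : ∀ ℓ : ℕ, L₀ ≤ ℓ → 675840 * (5 * Real.log ℓ + 1) ^ 10 ≤ (ℓ : ℝ))
    (hD₀ : ∀ k : ℕ, (k : ℝ) < Real.exp L₀ → 3 * (4 * (64 * (k : ℝ) ^ 2)) ^ k ≤ D₀)
    (hD₀0 : 0 ≤ D₀) :
    ∀ n : ℕ, Real.exp L₀ ≤ (n : ℝ) → ∀ r Q : ℕ, Q.Prime → 8 * n ^ 4 < Q →
      ((r : ℝ) + 1) * (1 + Real.log ((Q : ℝ) * n)) ≤ γ₀ * n / 16 →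
      (r : ℝ) ≤ (n : ℝ) / (32 * ((⌈Real.log n⌉₊ : ℕ) : ℝ) ^ 2) →
      CovOn (Fin n) r (4096 * (n : ℝ) ^ 9)
        (675840 * D₀ * n * ((⌈Real.log n⌉₊ : ℕ) : ℝ) ^ 10) Q Q := by
  intro n
  induction n using Nat.strong_induction_on with
  | _ n ih =>
  intro hn r Q hQ hQ8 hr1 hr2
  have hn0 : 0 < (n : ℝ) := lt_of_lt_of_le (Real.exp_pos _) hn
  have hn1 : 1 ≤ n := by exact_mod_cast hn0
  obtain ⟨ℓ, hℓdef⟩ : ∃ ℓ : ℕ, ℓ = ⌈Real.log n⌉₊ := ⟨_, rfl⟩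
  rw [← hℓdef] at hr2 ⊢
  have hlognn : 0 ≤ Real.log n := Real.log_natCast_nonneg n
  have hlog_le : Real.log n ≤ ℓ := by rw [hℓdef]; exact Nat.le_ceil _
  have hlog_lt : (ℓ : ℝ) < Real.log n + 1 := by rw [hℓdef]; exact Nat.ceil_lt_add_one hlognn
  have hLlog : (L₀ : ℝ) ≤ Real.log n := by
    rw [Real.le_log_iff_exp_le hn0]; exact hn
  have hℓL : L₀ ≤ ℓ := by exact_mod_cast hLlog.trans hlog_le
  have hℓbig : 200000000000 ≤ ℓ := hbig.trans hℓL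
  have hℓR : (200000000000 : ℝ) ≤ (ℓ : ℝ) := by exact_mod_cast hℓbig
  have hℓ1 : (1 : ℝ) ≤ (ℓ : ℝ) := by linarith
  have hℓ0 : (0 : ℝ) < (ℓ : ℝ) := by linarith
  have hexp : Real.exp ((ℓ : ℝ) - 1) ≤ n := by
    calc Real.exp ((ℓ : ℝ) - 1) ≤ Real.exp (Real.log n) := Real.exp_le_exp.2 (by linarith)
      _ = n := Real.exp_log hn0
  have hℓ30 : (ℓ : ℝ) ^ 30 ≤ n := (he1 ℓ hℓL).trans hexp
  have hℓ30N : ℓ ^ 30 ≤ n := by exact_mod_cast hℓ30
  -- the auxiliary dimension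
  obtain ⟨k, hkdef⟩ : ∃ k : ℕ, k = ℓ ^ 5 := ⟨_, rfl⟩
  have hkR : (k : ℝ) = (ℓ : ℝ) ^ 5 := by rw [hkdef]; push_cast; rfl
  have hpow : ∀ a : ℕ, 1 ≤ a → a ≤ 30 → (ℓ : ℝ) ^ a ≤ (ℓ : ℝ) ^ 30 := fun a _ h =>
    pow_le_pow_right₀ hℓ1 h
  have hk2 : 2 * (k : ℝ) ≤ n := by
    rw [hkR]
    refine le_trans ?_ hℓ30
    have h25 : (2 : ℝ) ≤ (ℓ : ℝ) ^ 25 := by
      calc (2 : ℝ) ≤ (ℓ : ℝ) := by linarith
        _ = (ℓ : ℝ) ^ 1 := (pow_one _).symm
        _ ≤ (ℓ : ℝ) ^ 25 := pow_le_pow_right₀ hℓ1 (by norm_num)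
    have h30 : (ℓ : ℝ) ^ 30 = (ℓ : ℝ) ^ 25 * (ℓ : ℝ) ^ 5 := by ring
    rw [h30]
    exact mul_le_mul_of_nonneg_right h25 (by positivity)
  have hkposR : (0 : ℝ) < (k : ℝ) := by rw [hkR]; positivity
  have hkn : k < n := by
    have : (k : ℝ) < n := by linarith
    exact_mod_cast this
  obtain ⟨m, hm⟩ : ∃ m : ℕ, n = k + m := ⟨n - k, by omega⟩
  have hnR : (n : ℝ) = (k : ℝ) + m := by rw [hm]; push_cast; rfl
  have hm2 : (n : ℝ) ≤ 2 * m := by linarith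
  have hmle : (m : ℝ) ≤ n := by linarith
  have hm0 : (0 : ℝ) < (m : ℝ) := by linarith
  -- the auxiliary prime
  have h8n : 8 * n ^ 4 ≠ 0 := by positivity
  obtain ⟨Q', hQ'p, hQ'1, hQ'2⟩ := Nat.exists_prime_lt_and_le_two_mul (8 * n ^ 4) h8n
  have hQ'1R : 8 * (n : ℝ) ^ 4 < (Q' : ℝ) := by exact_mod_cast hQ'1
  have hQ'2R : (Q' : ℝ) ≤ 16 * (n : ℝ) ^ 4 := by
    have : (Q' : ℝ) ≤ 2 * (8 * (n : ℝ) ^ 4) := by exact_mod_cast hQ'2
    linarith
  have hQ'2N : Q' ≤ 16 * n ^ 4 := by omega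
  -- the covering statement in the auxiliary dimension
  have hchild : ∃ (f_k D_k : ℝ) (Qk_min Qk_max : ℕ),
      CovOn (Fin k) (41 * ℓ ^ 3) f_k D_k Qk_min Qk_max ∧ 0 ≤ D_k ∧ Qk_min ≤ Q' ∧ Q' ≤ Qk_max ∧
        32 * f_k ≤ (n : ℝ) ^ 2 ∧ 0 ≤ f_k ∧ D_k ≤ D₀ * (ℓ : ℝ) ^ 6 := by
    by_cases hkL : Real.exp L₀ ≤ (k : ℝ)
    · -- recursion
      obtain ⟨ℓ', hℓ'def⟩ : ∃ ℓ' : ℕ, ℓ' = ⌈Real.log k⌉₊ := ⟨_, rfl⟩
      have hlogk : Real.log k = 5 * Real.log ℓ := by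
        rw [hkR, Real.log_pow]; norm_num
      have hlogℓ : 0 ≤ Real.log ℓ := Real.log_natCast_nonneg ℓ
      have hℓ'le : (ℓ' : ℝ) ≤ 5 * Real.log ℓ + 1 := by
        rw [hℓ'def, hlogk]
        exact (Nat.ceil_lt_add_one (by positivity)).le
      have hx1 : 1 ≤ 5 * Real.log ℓ + 1 := by linarith
      have hE2 := he2 ℓ hℓL
      have hx37 : 37 * (5 * Real.log ℓ + 1) ≤ (ℓ : ℝ) := by
        have h1 : 5 * Real.log ℓ + 1 ≤ (5 * Real.log ℓ + 1) ^ 10 := by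
          calc 5 * Real.log ℓ + 1 = (5 * Real.log ℓ + 1) ^ 1 := (pow_one _).symm
            _ ≤ (5 * Real.log ℓ + 1) ^ 10 := pow_le_pow_right₀ hx1 (by norm_num)
        have h2 : 0 ≤ (5 * Real.log ℓ + 1) ^ 10 := by positivity
        linarith
      have hrec := ih k hkn hkL (41 * ℓ ^ 3) Q' hQ'p ?_ ?_ ?_
      · refine ⟨_, _, _, _, hrec, ?_, le_rfl, le_rfl, ?_, by positivity, ?_⟩
        · positivity
        · -- fatness
          have h1 : (k : ℝ) ^ 9 = (ℓ : ℝ) ^ 45 := by rw [hkR]; ring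
          have h2 : (ℓ : ℝ) ^ 60 ≤ (n : ℝ) ^ 2 := by
            have : ((ℓ : ℝ) ^ 30) ^ 2 ≤ (n : ℝ) ^ 2 := pow_le_pow_left₀ (by positivity) hℓ30 2
            calc (ℓ : ℝ) ^ 60 = ((ℓ : ℝ) ^ 30) ^ 2 := by ring
              _ ≤ _ := this
          have h3 : (131072 : ℝ) ≤ (ℓ : ℝ) ^ 15 := by
            calc (131072 : ℝ) ≤ (ℓ : ℝ) := by linarith
              _ = (ℓ : ℝ) ^ 1 := (pow_one _).symm
              _ ≤ (ℓ : ℝ) ^ 15 := pow_le_pow_right₀ hℓ1 (by norm_num)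
          calc 32 * (4096 * (k : ℝ) ^ 9) = 131072 * (ℓ : ℝ) ^ 45 := by rw [h1]; ring
            _ ≤ (ℓ : ℝ) ^ 15 * (ℓ : ℝ) ^ 45 := mul_le_mul_of_nonneg_right h3 (by positivity)
            _ = (ℓ : ℝ) ^ 60 := by ring
            _ ≤ _ := h2
        · -- density
          rw [← hℓ'def]
          have h1 : (ℓ' : ℝ) ^ 10 ≤ (5 * Real.log ℓ + 1) ^ 10 :=
            pow_le_pow_left₀ (Nat.cast_nonneg _) hℓ'le 10
          have h2 : 675840 * (ℓ' : ℝ) ^ 10 ≤ (ℓ : ℝ) := by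
            refine le_trans ?_ hE2
            gcongr
          calc 675840 * D₀ * (k : ℝ) * (ℓ' : ℝ) ^ 10
              = D₀ * (ℓ : ℝ) ^ 5 * (675840 * (ℓ' : ℝ) ^ 10) := by rw [hkR]; ring
            _ ≤ D₀ * (ℓ : ℝ) ^ 5 * (ℓ : ℝ) :=
                mul_le_mul_of_nonneg_left h2 (by positivity)
            _ = D₀ * (ℓ : ℝ) ^ 6 := by ring
      · -- the prime is large for the auxiliary dimension
        have h1 : k ^ 4 ≤ n ^ 4 := Nat.pow_le_pow_left hkn.le 4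
        omega
      · -- first condition
        have hQ0 : (0 : ℝ) < (Q' : ℝ) := by exact_mod_cast hQ'p.pos
        have h1 : Real.log ((Q' : ℝ) * k) ≤ 3 + 5 * (ℓ : ℝ) := by
          have hle : (Q' : ℝ) * k ≤ 16 * (n : ℝ) ^ 5 := by
            have hkn' : (k : ℝ) ≤ n := by linarith
            calc (Q' : ℝ) * k ≤ (16 * (n : ℝ) ^ 4) * n :=
                  mul_le_mul hQ'2R hkn' hkposR.le (by positivity)
              _ = 16 * (n : ℝ) ^ 5 := by ring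
          have h2 : Real.log (16 * (n : ℝ) ^ 5) = Real.log 16 + 5 * Real.log n := by
            rw [Real.log_mul (by norm_num) (by positivity), Real.log_pow]
            norm_num
          have h3 : Real.log 16 ≤ 3 := by
            have : Real.log 16 = 4 * Real.log 2 := by
              rw [show (16 : ℝ) = 2 ^ 4 by norm_num, Real.log_pow]; norm_num
            rw [this]
            have := Real.log_two_lt_d9
            linarith
          calc Real.log ((Q' : ℝ) * k) ≤ Real.log (16 * (n : ℝ) ^ 5) :=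
                Real.log_le_log (by positivity) hle
            _ ≤ 3 + 5 * (ℓ : ℝ) := by rw [h2]; linarith
        have h2 : 1 + Real.log ((Q' : ℝ) * k) ≤ 6 * (ℓ : ℝ) := by linarith
        have h3 : ((41 * ℓ ^ 3 : ℕ) : ℝ) + 1 ≤ 42 * (ℓ : ℝ) ^ 3 := by
          push_cast
          have : (1 : ℝ) ≤ (ℓ : ℝ) ^ 3 := one_le_pow₀ hℓ1
          linarith
        have h4 : 0 ≤ 1 + Real.log ((Q' : ℝ) * k) := by
          have : 0 ≤ Real.log ((Q' : ℝ) * k) := by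
            apply Real.log_nonneg
            have hQ1 : (1 : ℝ) ≤ Q' := by exact_mod_cast hQ'p.one_lt.le
            have hk1 : (1 : ℝ) ≤ k := by
              rw [hkR]; exact one_le_pow₀ hℓ1
            nlinarith only [hQ1, hk1]
          linarith
        calc (((41 * ℓ ^ 3 : ℕ) : ℝ) + 1) * (1 + Real.log ((Q' : ℝ) * k))
            ≤ (42 * (ℓ : ℝ) ^ 3) * (6 * (ℓ : ℝ)) :=
              mul_le_mul h3 h2 h4 (by positivity)
          _ = 252 * (ℓ : ℝ) ^ 4 := by ring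
          _ ≤ γ₀ * k / 16 := by
            rw [hkR]
            unfold γ₀
            have h5 : 252 * (ℓ : ℝ) ^ 4 = 252 * (ℓ : ℝ) ^ 4 * 1 := by ring
            have h6 : (1 / 30000000 : ℝ) * (ℓ : ℝ) ^ 5 / 16 =
                (ℓ : ℝ) ^ 4 * ((ℓ : ℝ) / 480000000) := by ring
            rw [h6]
            have h7 : (252 : ℝ) ≤ (ℓ : ℝ) / 480000000 := by
              rw [le_div_iff₀ (by norm_num)]
              linarith
            rw [mul_comm (252 : ℝ)]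
            exact mul_le_mul_of_nonneg_left h7 (by positivity)
      · -- second condition
        rw [← hℓ'def, le_div_iff₀ (by
          have : (0 : ℝ) < (ℓ' : ℝ) := by
            have : (1 : ℝ) ≤ (ℓ' : ℝ) := by
              rw [hℓ'def, hlogk]
              have h2 : (1 : ℝ) ≤ 5 * Real.log ℓ := by
                have : (1 : ℝ) ≤ Real.log ℓ := by
                  rw [Real.le_log_iff_exp_le hℓ0]
                  have he := Real.exp_one_lt_d9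
                  linarith
                linarith
              exact_mod_cast h2.trans (Nat.le_ceil _)
            linarith
          positivity)]
        rw [hkR]
        push_cast
        have h1 : 37 * (ℓ' : ℝ) ≤ (ℓ : ℝ) := by linarith
        have h2 : (37 * (ℓ' : ℝ)) ^ 2 ≤ (ℓ : ℝ) ^ 2 :=
          pow_le_pow_left₀ (by positivity) h1 2
        have h3 : 41 * 32 * (ℓ' : ℝ) ^ 2 ≤ (ℓ : ℝ) ^ 2 := by nlinarith only [h2, sq_nonneg (ℓ' : ℝ)]
        calc 41 * (ℓ : ℝ) ^ 3 * (32 * (ℓ' : ℝ) ^ 2) = (ℓ : ℝ) ^ 3 * (41 * 32 * (ℓ' : ℝ) ^ 2) := by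
              ring
          _ ≤ (ℓ : ℝ) ^ 3 * (ℓ : ℝ) ^ 2 := mul_le_mul_of_nonneg_left h3 (by positivity)
          _ = (ℓ : ℝ) ^ 5 := by ring
    · -- base case
      rw [not_le] at hkL
      have hk2' : 2 ≤ k := by
        have : (2 : ℝ) ≤ (k : ℝ) := by
          rw [hkR]
          calc (2 : ℝ) ≤ (ℓ : ℝ) := by linarith
            _ = (ℓ : ℝ) ^ 1 := (pow_one _).symm
            _ ≤ (ℓ : ℝ) ^ 5 := pow_le_pow_right₀ hℓ1 (by norm_num)
        exact_mod_cast this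
      have hrk : 41 * ℓ ^ 3 ≤ k := by
        have h1 : (41 : ℝ) * (ℓ : ℝ) ^ 3 ≤ k := by
          rw [hkR]
          have h2 : (41 : ℝ) ≤ (ℓ : ℝ) ^ 2 := by nlinarith only [hℓR]
          calc (41 : ℝ) * (ℓ : ℝ) ^ 3 ≤ (ℓ : ℝ) ^ 2 * (ℓ : ℝ) ^ 3 :=
                mul_le_mul_of_nonneg_right h2 (by positivity)
            _ = (ℓ : ℝ) ^ 5 := by ring
        exact_mod_cast h1
      have hbase := cov_base (ι := Fin k) (by simpa using hk2') (r := 41 * ℓ ^ 3)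
        (by simpa using hrk) Q'
      simp only [Fintype.card_fin] at hbase
      refine ⟨_, _, _, _, hbase, ?_, ?_, le_rfl, ?_, ?_, ?_⟩
      · positivity
      · have h1 : k ≤ n ^ 4 := by
          calc k ≤ n := hkn.le
            _ = n ^ 1 := (pow_one n).symm
            _ ≤ n ^ 4 := Nat.pow_le_pow_right hn1 (by norm_num)
        have h2 : 1 ≤ n ^ 4 := Nat.one_le_pow _ _ hn1
        omega
      · -- fatness
        unfold fatOf
        have h1 : (k : ℝ) ^ 5 * (k : ℝ) ^ 2 = (ℓ : ℝ) ^ 35 := by rw [hkR]; ring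
        have h2 : (ℓ : ℝ) ^ 60 ≤ (n : ℝ) ^ 2 := by
          have : ((ℓ : ℝ) ^ 30) ^ 2 ≤ (n : ℝ) ^ 2 := pow_le_pow_left₀ (by positivity) hℓ30 2
          calc (ℓ : ℝ) ^ 60 = ((ℓ : ℝ) ^ 30) ^ 2 := by ring
            _ ≤ _ := this
        have h3 : (131072 : ℝ) ≤ (ℓ : ℝ) ^ 25 := by
          calc (131072 : ℝ) ≤ (ℓ : ℝ) := by linarith
            _ = (ℓ : ℝ) ^ 1 := (pow_one _).symm
            _ ≤ (ℓ : ℝ) ^ 25 := pow_le_pow_right₀ hℓ1 (by norm_num)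
        calc 32 * (64 * (64 * (k : ℝ) ^ 2) * (k : ℝ) ^ 5)
            = 131072 * ((k : ℝ) ^ 5 * (k : ℝ) ^ 2) := by ring
          _ = 131072 * (ℓ : ℝ) ^ 35 := by rw [h1]
          _ ≤ (ℓ : ℝ) ^ 25 * (ℓ : ℝ) ^ 35 := mul_le_mul_of_nonneg_right h3 (by positivity)
          _ = (ℓ : ℝ) ^ 60 := by ring
          _ ≤ _ := h2
      · unfold fatOf; positivity
      · -- density
        have h1 := hD₀ k hkL
        have h2 : (1 : ℝ) ≤ (ℓ : ℝ) ^ 6 := one_le_pow₀ hℓ1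
        calc 3 * (4 * (64 * (k : ℝ) ^ 2)) ^ k ≤ D₀ := h1
          _ = D₀ * 1 := (mul_one _).symm
          _ ≤ D₀ * (ℓ : ℝ) ^ 6 := mul_le_mul_of_nonneg_left h2 hD₀0
  obtain ⟨f_k, D_k, Qk_min, Qk_max, hcov, hDk, hQk1, hQk2, hf, hf0, hDkle⟩ := hchild
  have hkey := level_step (n := n) (k := k) (m := m) (r := r) (r' := 41 * ℓ ^ 3) (ℓ := ℓ) (Q := Q')
    (Qmin := Q) (Qmax := Q) (Qk_min := Qk_min) (Qk_max := Qk_max) (f_k := f_k) (D_k := D_k)
    hm hkdef rfl (by omega) hlog_le hℓ30N hQ'p hQ'1 hQ'2N hcov hDk hQk1 hQk2 hf hf0 hQ8 ?_ ?_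
  · -- transport and monotonicity
    have hcong := covOn_congr finSumFinEquiv hkey
    rw [← hm] at hcong
    refine hcong.mono ?_ ?_
    · unfold fatOf
      have h1 : (0 : ℝ) ≤ (n : ℝ) ^ 9 := by positivity
      calc 64 * (n : ℝ) ^ 4 * (n : ℝ) ^ 5 = 64 * (n : ℝ) ^ 9 := by ring
        _ ≤ 4096 * (n : ℝ) ^ 9 := by linarith
    · -- density
      have hJ : ((levelJ k m : ℕ) : ℝ) + 1 ≤ 2 * (ℓ : ℝ) ^ 6 := by
        unfold levelJ
        push_cast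
        have h0 : (0 : ℝ) ≤ (k : ℝ) * Real.log m := by
          apply mul_nonneg (Nat.cast_nonneg _)
          exact Real.log_natCast_nonneg m
        have h1 := Nat.ceil_lt_add_one h0
        have h2 : Real.log (m : ℝ) ≤ (ℓ : ℝ) :=
          (Real.log_le_log hm0 hmle).trans hlog_le
        have h3 : (k : ℝ) * Real.log m ≤ (k : ℝ) * (ℓ : ℝ) :=
          mul_le_mul_of_nonneg_left h2 (Nat.cast_nonneg _)
        have h4 : (k : ℝ) * (ℓ : ℝ) = (ℓ : ℝ) ^ 6 := by rw [hkR]; ring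
        have h5 : (7 : ℝ) ≤ (ℓ : ℝ) ^ 6 := by
          calc (7 : ℝ) ≤ (ℓ : ℝ) := by linarith
            _ = (ℓ : ℝ) ^ 1 := (pow_one _).symm
            _ ≤ (ℓ : ℝ) ^ 6 := pow_le_pow_right₀ hℓ1 (by norm_num)
        linarith
      have hmℓ : (m : ℝ) / (ℓ : ℝ) ^ 2 ≤ (n : ℝ) / (ℓ : ℝ) ^ 2 := by gcongr
      have hJ0 : (0 : ℝ) ≤ ((levelJ k m : ℕ) : ℝ) + 1 := by positivity
      calc 3 * (112640 * (((levelJ k m : ℕ) : ℝ) + 1) * ((m : ℝ) / (ℓ : ℝ) ^ 2) * D_k)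
          ≤ 3 * (112640 * (2 * (ℓ : ℝ) ^ 6) * ((n : ℝ) / (ℓ : ℝ) ^ 2) * (D₀ * (ℓ : ℝ) ^ 6)) := by
            gcongr
        _ = 675840 * D₀ * n * (ℓ : ℝ) ^ 10 := by
            field_simp
            ring
  · -- first condition
    intro q _ hq1 hq2
    have hq : q = Q := le_antisymm hq2 hq1
    rw [hq]
    refine hr1.trans ?_
    have hγ := γ₀_pos
    have : γ₀ * (n : ℝ) ≤ γ₀ * (2 * m) := mul_le_mul_of_nonneg_left hm2 hγ.le
    linarith
  · -- second condition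
    refine hr2.trans ?_
    have hℓ2 : (0 : ℝ) < (ℓ : ℝ) ^ 2 := by positivity
    rw [div_div, div_le_div_iff₀ (by positivity) (by positivity)]
    nlinarith only [mul_le_mul_of_nonneg_right hm2 hℓ2.le, hℓ2]

/-- The final bound: every convex body in dimension `n ≥ 2` has a lattice covering of density
at most `C n (log n)^10`. -/
theorem main_bound : ∃ C : ℝ, ∀ n : ℕ, 2 ≤ n → ∀ K : Set (Fin n → ℝ), IsCompact K → Convex ℝ K →
    (interior K).Nonempty →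
    ∃ A : Matrix (Fin n) (Fin n) ℝ, A.det ≠ 0 ∧
      (∀ x : Fin n → ℝ, ∃ u : Fin n → ℤ, ∃ y ∈ K, x = y + A.mulVec (fun i => (u i : ℝ))) ∧
      (volume K).toReal ≤ C * (n : ℝ) * Real.log n ^ 10 * |A.det| := by
  obtain ⟨L₀, hbig, he1, he2⟩ := exists_threshold
  obtain ⟨D₀, hD₀def⟩ : ∃ D₀ : ℝ, D₀ = ∑ k ∈ Finset.range ⌈Real.exp L₀⌉₊,
      3 * (4 * (64 * (k : ℝ) ^ 2)) ^ k := ⟨_, rfl⟩
  have hD₀0 : 0 ≤ D₀ := by
    rw [hD₀def]
    exact Finset.sum_nonneg (fun k _ => by positivity)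
  have hD₀ : ∀ k : ℕ, (k : ℝ) < Real.exp L₀ → 3 * (4 * (64 * (k : ℝ) ^ 2)) ^ k ≤ D₀ := by
    intro k hk
    rw [hD₀def]
    have hmem : k ∈ Finset.range ⌈Real.exp L₀⌉₊ := by
      rw [Finset.mem_range]
      exact Nat.lt_ceil.2 hk
    exact Finset.single_le_sum (f := fun k : ℕ => 3 * (4 * (64 * (k : ℝ) ^ 2)) ^ k)
      (fun k _ => by positivity) hmem
  refine ⟨(4 * (675840 * 3 ^ 10) + 2048) * D₀, ?_⟩
  intro n hn K hKc hKconv hKi
  have hn2 : (2 : ℝ) ≤ (n : ℝ) := by exact_mod_cast hn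
  have hn0 : (0 : ℝ) < (n : ℝ) := by linarith
  have hn1 : 1 ≤ n := by omega
  have hlog2 : (1 / 2 : ℝ) ≤ Real.log n := by
    have h1 := Real.log_two_gt_d9
    have h2 : Real.log 2 ≤ Real.log n := Real.log_le_log (by norm_num) hn2
    linarith
  have hlog0 : 0 < Real.log n := by linarith
  by_cases hnL : Real.exp L₀ ≤ (n : ℝ)
  · -- large dimension: the recursion
    have h8n : 8 * n ^ 4 ≠ 0 := by positivity
    obtain ⟨Q, hQp, hQ1, hQ2⟩ := Nat.exists_prime_lt_and_le_two_mul (8 * n ^ 4) h8n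
    have hQ2R : (Q : ℝ) ≤ 16 * (n : ℝ) ^ 4 := by
      have : (Q : ℝ) ≤ 2 * (8 * (n : ℝ) ^ 4) := by exact_mod_cast hQ2
      linarith
    have hQ0 : (0 : ℝ) < (Q : ℝ) := by exact_mod_cast hQp.pos
    obtain ⟨ℓ, hℓdef⟩ : ∃ ℓ : ℕ, ℓ = ⌈Real.log n⌉₊ := ⟨_, rfl⟩
    have hlog_le : Real.log n ≤ ℓ := by rw [hℓdef]; exact Nat.le_ceil _
    have hlog_lt : (ℓ : ℝ) < Real.log n + 1 := by rw [hℓdef]; exact Nat.ceil_lt_add_one hlog0.le
    have hLlog : (L₀ : ℝ) ≤ Real.log n := by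
      rw [Real.le_log_iff_exp_le hn0]; exact hnL
    have hℓL : L₀ ≤ ℓ := by exact_mod_cast hLlog.trans hlog_le
    have hbigR : (200000000000 : ℝ) ≤ (L₀ : ℝ) := by exact_mod_cast hbig
    have hℓR : (200000000000 : ℝ) ≤ (ℓ : ℝ) := by
      have : (L₀ : ℝ) ≤ (ℓ : ℝ) := by exact_mod_cast hℓL
      linarith
    have hℓ1 : (1 : ℝ) ≤ (ℓ : ℝ) := by linarith
    have hexp : Real.exp ((ℓ : ℝ) - 1) ≤ n := by
      calc Real.exp ((ℓ : ℝ) - 1) ≤ Real.exp (Real.log n) := Real.exp_le_exp.2 (by linarith)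
        _ = n := Real.exp_log hn0
    have hℓ30 : (ℓ : ℝ) ^ 30 ≤ n := (he1 ℓ hℓL).trans hexp
    have hcond : (((0 : ℕ) : ℝ) + 1) * (1 + Real.log ((Q : ℝ) * n)) ≤ γ₀ * n / 16 := by
      have h1 : Real.log ((Q : ℝ) * n) ≤ 3 + 5 * (ℓ : ℝ) := by
        have hle : (Q : ℝ) * n ≤ 16 * (n : ℝ) ^ 5 := by
          calc (Q : ℝ) * n ≤ (16 * (n : ℝ) ^ 4) * n :=
                mul_le_mul_of_nonneg_right hQ2R hn0.le
            _ = 16 * (n : ℝ) ^ 5 := by ring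
        have h2 : Real.log (16 * (n : ℝ) ^ 5) = Real.log 16 + 5 * Real.log n := by
          rw [Real.log_mul (by norm_num) (by positivity), Real.log_pow]
          norm_num
        have h3 : Real.log 16 ≤ 3 := by
          have : Real.log 16 = 4 * Real.log 2 := by
            rw [show (16 : ℝ) = 2 ^ 4 by norm_num, Real.log_pow]; norm_num
          rw [this]
          have := Real.log_two_lt_d9
          linarith
        calc Real.log ((Q : ℝ) * n) ≤ Real.log (16 * (n : ℝ) ^ 5) :=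
              Real.log_le_log (by positivity) hle
          _ ≤ 3 + 5 * (ℓ : ℝ) := by rw [h2]; linarith
      have h2 : γ₀ * (ℓ : ℝ) ^ 30 / 16 ≤ γ₀ * n / 16 := by
        have := γ₀_pos
        gcongr
      refine le_trans ?_ h2
      unfold γ₀
      have h3 : (480000000 * 6 : ℝ) ≤ (ℓ : ℝ) ^ 29 := by
        calc (480000000 * 6 : ℝ) ≤ (ℓ : ℝ) := by linarith
          _ = (ℓ : ℝ) ^ 1 := (pow_one _).symm
          _ ≤ (ℓ : ℝ) ^ 29 := pow_le_pow_right₀ hℓ1 (by norm_num)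
      have h4 : (1 / 30000000 : ℝ) * (ℓ : ℝ) ^ 30 / 16 = (ℓ : ℝ) * ((ℓ : ℝ) ^ 29 / 480000000) := by
        ring
      rw [h4]
      have h5 : (6 : ℝ) ≤ (ℓ : ℝ) ^ 29 / 480000000 := by
        rw [le_div_iff₀ (by norm_num)]; linarith
      have h6 : 6 * (ℓ : ℝ) ≤ (ℓ : ℝ) * ((ℓ : ℝ) ^ 29 / 480000000) := by
        rw [mul_comm 6]
        exact mul_le_mul_of_nonneg_left h5 (by linarith)
      simp only [Nat.cast_zero, zero_add, one_mul]
      linarith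
    have hcov := cov_rec hbig he1 he2 hD₀ hD₀0 n hnL 0 Q hQp hQ1 hcond (by
      simp only [Nat.cast_zero]
      positivity)
    rw [← hℓdef] at hcov
    obtain ⟨A, hA1, hA2, hA3⟩ := covering_of_cov hn (f := 4096 * (n : ℝ) ^ 9) (by
        have h1 : (n : ℝ) ≤ (n : ℝ) ^ 9 := by
          calc (n : ℝ) = (n : ℝ) ^ 1 := (pow_one _).symm
            _ ≤ (n : ℝ) ^ 9 := pow_le_pow_right₀ (by linarith) (by norm_num)
        nlinarith only [h1, pow_pos hn0 9]) (by positivity) ⟨Q, hQp, le_rfl, le_rfl⟩ hcov hKc hKconv hKi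
    refine ⟨A, hA1, hA2, hA3.trans ?_⟩
    have hℓ3 : (ℓ : ℝ) ≤ 3 * Real.log n := by linarith
    have hℓ10 : (ℓ : ℝ) ^ 10 ≤ 3 ^ 10 * Real.log n ^ 10 := by
      calc (ℓ : ℝ) ^ 10 ≤ (3 * Real.log n) ^ 10 :=
            pow_le_pow_left₀ (by linarith) hℓ3 10
        _ = 3 ^ 10 * Real.log n ^ 10 := by ring
    have hdet : 0 ≤ |A.det| := abs_nonneg _
    have hX : 0 ≤ D₀ * (n : ℝ) * Real.log n ^ 10 * |A.det| := by positivity
    calc 4 * (675840 * D₀ * (n : ℝ) * (ℓ : ℝ) ^ 10) * |A.det|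
        ≤ 4 * (675840 * D₀ * (n : ℝ) * (3 ^ 10 * Real.log n ^ 10)) * |A.det| := by
          gcongr
      _ = (4 * (675840 * 3 ^ 10)) * (D₀ * (n : ℝ) * Real.log n ^ 10 * |A.det|) := by ring
      _ ≤ (4 * (675840 * 3 ^ 10) + 2048) * (D₀ * (n : ℝ) * Real.log n ^ 10 * |A.det|) := by
          nlinarith only [hX]
      _ = (4 * (675840 * 3 ^ 10) + 2048) * D₀ * (n : ℝ) * Real.log n ^ 10 * |A.det| := by ring
  · -- small dimension: the base case
    rw [not_le] at hnL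
    have hn0N : n + 2 ≠ 0 := by omega
    obtain ⟨q, hqp, hq1, hq2⟩ := Nat.exists_prime_lt_and_le_two_mul (n + 2) hn0N
    have hbase := cov_base (ι := Fin n) (by simpa using hn) (r := 0) (by simp) (2 * (n + 2))
    simp only [Fintype.card_fin] at hbase
    obtain ⟨A, hA1, hA2, hA3⟩ := covering_of_cov hn (by
        unfold fatOf
        have h1 : (n : ℝ) ≤ (n : ℝ) ^ 5 := by
          calc (n : ℝ) = (n : ℝ) ^ 1 := (pow_one _).symm
            _ ≤ (n : ℝ) ^ 5 := pow_le_pow_right₀ (by linarith) (by norm_num)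
        have h2 : (1 : ℝ) ≤ (n : ℝ) ^ 2 := one_le_pow₀ (by linarith)
        have h3 : (0 : ℝ) < (n : ℝ) ^ 5 := by positivity
        nlinarith only [h1, h2, h3, mul_pos h3 h3]) (by positivity) ⟨q, hqp, hq1.le, hq2⟩ hbase hKc hKconv hKi
    refine ⟨A, hA1, hA2, hA3.trans ?_⟩
    have h1 := hD₀ n hnL
    have hdet : 0 ≤ |A.det| := abs_nonneg _
    have h2 : (1 : ℝ) ≤ 2048 * ((n : ℝ) * Real.log n ^ 10) / 4 := by
      have h3 : (1 / 2 : ℝ) ^ 10 ≤ Real.log n ^ 10 := pow_le_pow_left₀ (by norm_num) hlog2 10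
      have h4 : (2 : ℝ) * (1 / 2 : ℝ) ^ 10 ≤ (n : ℝ) * Real.log n ^ 10 :=
        mul_le_mul hn2 h3 (by positivity) (by linarith)
      norm_num at h4 ⊢
      linarith
    have h5 : 0 ≤ (n : ℝ) * Real.log n ^ 10 := by positivity
    calc 4 * (3 * (4 * (64 * (n : ℝ) ^ 2)) ^ n) * |A.det| ≤ 4 * D₀ * |A.det| := by gcongr
      _ ≤ 2048 * D₀ * ((n : ℝ) * Real.log n ^ 10) * |A.det| := by
          apply mul_le_mul_of_nonneg_right _ hdet
          have : D₀ * 1 ≤ D₀ * (2048 * ((n : ℝ) * Real.log n ^ 10) / 4) :=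
            mul_le_mul_of_nonneg_left h2 hD₀0
          linarith
      _ ≤ (4 * (675840 * 3 ^ 10) + 2048) * D₀ * ((n : ℝ) * Real.log n ^ 10) * |A.det| := by
          apply mul_le_mul_of_nonneg_right _ hdet
          apply mul_le_mul_of_nonneg_right _ h5
          apply mul_le_mul_of_nonneg_right _ hD₀0
          norm_num
      _ = _ := by ring

end Vale.Agent.Lib.P230
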