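import Vale.Agent.Lib.P230.Level3
import Vale.Agent.Lib.P230.Final

/-!
# P230: the recursion over dimensions and the bound `C n (log n)^(3/2) (log log n)^2`.
-/

open MeasureTheory Filter
open scoped ENNReal

namespace Vale.Agent.Lib.P230

/-- Monotonicity of `CovOn` in the fatness and the density. -/
theorem CovOn.mono3 {ι : Type} [Fintype ι] {r : ℕ} {f f' D D' : ℝ} {Qmin Qmax : ℕ}
    (h : CovOn ι r f D Qmin Qmax) (hf : f ≤ f') (hD : D ≤ D') : CovOn ι r f' D' Qmin Qmax := by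
  intro B hconv hbdd hcube q hq hq1 hq2
  obtain ⟨c, hc⟩ := hcube
  obtain ⟨Λ, h1, h2, h3⟩ := h B hconv hbdd ⟨c, fun x hx => hc x (fun i => (hx i).trans hf)⟩
    q hq hq1 hq2
  refine ⟨Λ, h1, h2.trans (ENNReal.ofReal_le_ofReal ?_), h3⟩
  exact mul_le_mul_of_nonneg_right hD (Nat.cast_nonneg _)

/-- The constant `C₃`, a perfect square. -/
def C₃ : ℕ := 10000000000000000000000000000

/-- The eventual inequalities used by the recursion. -/
lemma exists_threshold3 : ∃ L₀ : ℕ, (C₃ : ℕ) ≤ L₀ ∧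
    (∀ ℓ : ℕ, L₀ ≤ ℓ → (ℓ : ℝ) ^ 30 ≤ Real.exp ((ℓ : ℝ) - 1)) ∧
    (∀ ℓ : ℕ, L₀ ≤ ℓ → ∀ x : ℕ, Real.log ℓ ≤ x →
      C₃ ≤ x ∧ 64 * (C₃ : ℝ) ^ 3 * (Real.log (4 * x) + 1) ^ 4 ≤ (x : ℝ)) := by
  have h1 : ∀ᶠ x : ℝ in atTop, x ^ 30 ≤ Real.exp (x - 1) := by
    have h := Real.tendsto_pow_mul_exp_neg_atTop_nhds_zero 30
    have h2 : ∀ᶠ x : ℝ in atTop, x ^ 30 * Real.exp (-x) < Real.exp (-1) :=
      h.eventually (gt_mem_nhds (Real.exp_pos _))
    filter_upwards [h2] with x hx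
    have h3 : x ^ 30 = x ^ 30 * Real.exp (-x) * Real.exp x := by
      rw [mul_assoc, ← Real.exp_add]; simp
    rw [h3, sub_eq_add_neg, Real.exp_add, mul_comm (Real.exp x)]
    exact mul_le_mul_of_nonneg_right hx.le (Real.exp_pos x).le
  have h2 : ∀ᶠ x : ℝ in atTop, 64 * (C₃ : ℝ) ^ 3 * (Real.log (4 * x) + 1) ^ 4 ≤ x := by
    have hC : (0 : ℝ) < 64 * (C₃ : ℝ) ^ 3 * 6 ^ 4 := by
      have : (0 : ℝ) < (C₃ : ℝ) := by unfold C₃; norm_num
      positivity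
    have h := (Real.isLittleO_pow_log_id_atTop (n := 4)).def (c := 1 / (64 * (C₃ : ℝ) ^ 3 * 6 ^ 4))
      (by positivity)
    have hlog : ∀ᶠ x : ℝ in atTop, 2 ≤ Real.log x :=
      Real.tendsto_log_atTop.eventually_ge_atTop 2
    filter_upwards [h, hlog, eventually_gt_atTop 0] with x hx hl hx0
    simp only [id, Real.norm_eq_abs] at hx
    rw [abs_of_pos hx0, abs_of_nonneg (by positivity)] at hx
    have hlog4 : Real.log (4 * x) = Real.log 4 + Real.log x := Real.log_mul (by norm_num) hx0.ne'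
    have hlog4' : Real.log 4 ≤ 2 := by
      have e : Real.log 4 = 2 * Real.log 2 := by
        rw [show (4 : ℝ) = 2 ^ 2 by norm_num, Real.log_pow]; norm_num
      have := Real.log_two_lt_d9
      linarith
    have hlog40 : 0 ≤ Real.log 4 := Real.log_nonneg (by norm_num)
    have h3 : (Real.log (4 * x) + 1) ^ 4 ≤ (6 * Real.log x) ^ 4 := by
      rw [hlog4]
      apply pow_le_pow_left₀ (by linarith) (by linarith)
    have h4 : (6 * Real.log x) ^ 4 = 6 ^ 4 * Real.log x ^ 4 := by ring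
    rw [h4] at h3
    have hC0 : (0 : ℝ) ≤ 64 * (C₃ : ℝ) ^ 3 := by
      have : (0 : ℝ) < (C₃ : ℝ) := by unfold C₃; norm_num
      positivity
    calc 64 * (C₃ : ℝ) ^ 3 * (Real.log (4 * x) + 1) ^ 4
        ≤ 64 * (C₃ : ℝ) ^ 3 * (6 ^ 4 * Real.log x ^ 4) := mul_le_mul_of_nonneg_left h3 hC0
      _ ≤ 64 * (C₃ : ℝ) ^ 3 * (6 ^ 4 * (1 / (64 * (C₃ : ℝ) ^ 3 * 6 ^ 4) * x)) := by gcongr
      _ = x := by
          have hC3 : (C₃ : ℝ) ≠ 0 := by unfold C₃; norm_num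
          field_simp
  obtain ⟨a, ha⟩ := (Filter.eventually_atTop.1 h1)
  obtain ⟨b, hb⟩ := (Filter.eventually_atTop.1 h2)
  obtain ⟨B, hB⟩ : ∃ B : ℕ, max b (C₃ : ℝ) ≤ B := exists_nat_ge _
  obtain ⟨E, hE⟩ : ∃ E : ℕ, Real.exp (B : ℝ) ≤ E := exists_nat_ge _
  obtain ⟨A, hA⟩ : ∃ A : ℕ, a ≤ A := exists_nat_ge _
  refine ⟨max (max A E) C₃, le_max_right _ _, ?_, ?_⟩
  · intro ℓ hℓ
    apply ha
    have h5 : A ≤ ℓ := le_trans (le_trans (le_max_left _ _) (le_max_left _ _)) hℓ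
    exact hA.trans (by exact_mod_cast h5)
  · intro ℓ hℓ x hx
    have h5 : E ≤ ℓ := le_trans (le_trans (le_max_right _ _) (le_max_left _ _)) hℓ
    have h6 : Real.exp (B : ℝ) ≤ (ℓ : ℝ) := hE.trans (by exact_mod_cast h5)
    have hℓ0 : (0 : ℝ) < (ℓ : ℝ) := lt_of_lt_of_le (Real.exp_pos _) h6
    have h7 : (B : ℝ) ≤ Real.log ℓ := (Real.le_log_iff_exp_le hℓ0).2 h6
    have h8 : (B : ℝ) ≤ (x : ℝ) := h7.trans hx
    constructor
    · have h9 : (C₃ : ℝ) ≤ (x : ℝ) := ((le_max_right _ _).trans hB).trans h8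
      exact_mod_cast h9
    · apply hb
      exact ((le_max_left _ _).trans hB).trans h8

lemma C₃_R : (C₃ : ℝ) = 10000000000000000000000000000 := by
  unfold C₃; norm_num

set_option maxHeartbeats 2000000 in
/-- The recursion over dimensions. -/
theorem cov_rec3 {L₀ : ℕ} {D₀ : ℝ} (hbig : C₃ ≤ L₀)
    (he1 : ∀ ℓ : ℕ, L₀ ≤ ℓ → (ℓ : ℝ) ^ 30 ≤ Real.exp ((ℓ : ℝ) - 1))
    (he2 : ∀ ℓ : ℕ, L₀ ≤ ℓ → ∀ x : ℕ, Real.log ℓ ≤ x →
      C₃ ≤ x ∧ 64 * (C₃ : ℝ) ^ 3 * (Real.log (4 * x) + 1) ^ 4 ≤ (x : ℝ))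
    (hD₀ : ∀ k : ℕ, (k : ℝ) < Real.exp L₀ → 3 * (4 * (64 * (k : ℝ) ^ 2)) ^ k ≤ D₀)
    (hD₀0 : 0 ≤ D₀) :
    ∀ n : ℕ, Real.exp L₀ ≤ (n : ℝ) → ∀ r Q : ℕ, Q.Prime → 8 * n ^ 4 < Q →
      (r : ℝ) ≤ (n : ℝ) / 3200000000000 →
      CovOn (Fin n) r (4096 * (n : ℝ) ^ 9)
        (D₀ * n * ((⌈Real.log n⌉₊ : ℕ) : ℝ) * Real.sqrt ((⌈Real.log n⌉₊ : ℕ) : ℝ) *
          ((⌈Real.log ((⌈Real.log n⌉₊ : ℕ) : ℝ)⌉₊ : ℕ) : ℝ) ^ 2) Q Q := by
  intro n
  induction n using Nat.strong_induction_on with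
  | _ n ih =>
  intro hn r Q hQ hQ8 hr2
  have hn0 : 0 < (n : ℝ) := lt_of_lt_of_le (Real.exp_pos _) hn
  have hn1 : 1 ≤ n := by exact_mod_cast hn0
  obtain ⟨ℓ, hℓdef⟩ : ∃ ℓ : ℕ, ℓ = ⌈Real.log n⌉₊ := ⟨_, rfl⟩
  rw [← hℓdef]
  obtain ⟨x, hxdef⟩ : ∃ x : ℕ, x = ⌈Real.log (ℓ : ℝ)⌉₊ := ⟨_, rfl⟩
  rw [← hxdef]
  have hlognn : 0 ≤ Real.log n := Real.log_natCast_nonneg n
  have hlog_le : Real.log n ≤ ℓ := by rw [hℓdef]; exact Nat.le_ceil _
  have hlog_lt : (ℓ : ℝ) < Real.log n + 1 := by rw [hℓdef]; exact Nat.ceil_lt_add_one hlognn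
  have hLlog : (L₀ : ℝ) ≤ Real.log n := by
    rw [Real.le_log_iff_exp_le hn0]; exact hn
  have hℓL : L₀ ≤ ℓ := by exact_mod_cast hLlog.trans hlog_le
  have hℓC : C₃ ≤ ℓ := hbig.trans hℓL
  have hℓR : (10000000000000000000000000000 : ℝ) ≤ (ℓ : ℝ) := by
    rw [← C₃_R]; exact_mod_cast hℓC
  have hℓ1 : (1 : ℝ) ≤ (ℓ : ℝ) := by linarith
  have hℓ0 : (0 : ℝ) < (ℓ : ℝ) := by linarith
  have hexp : Real.exp ((ℓ : ℝ) - 1) ≤ n := by
    calc Real.exp ((ℓ : ℝ) - 1) ≤ Real.exp (Real.log n) := Real.exp_le_exp.2 (by linarith)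
      _ = n := Real.exp_log hn0
  have hℓ30 : (ℓ : ℝ) ^ 30 ≤ n := (he1 ℓ hℓL).trans hexp
  have hℓ30N : ℓ ^ 30 ≤ n := by exact_mod_cast hℓ30
  have hlogℓ0 : 0 ≤ Real.log (ℓ : ℝ) := Real.log_natCast_nonneg ℓ
  have hlogℓ_le : Real.log (ℓ : ℝ) ≤ x := by rw [hxdef]; exact Nat.le_ceil _
  have hlogℓ_lt : (x : ℝ) < Real.log (ℓ : ℝ) + 1 := by
    rw [hxdef]; exact Nat.ceil_lt_add_one hlogℓ0
  obtain ⟨hxC, hxE⟩ := he2 ℓ hℓL x hlogℓ_le
  have hxR : (10000000000000000000000000000 : ℝ) ≤ (x : ℝ) := by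
    rw [← C₃_R]; exact_mod_cast hxC
  have hx0 : (0 : ℝ) < (x : ℝ) := by linarith
  have hxℓ : (x : ℝ) ≤ (ℓ : ℝ) := by
    have h1 := Real.log_le_sub_one_of_pos hℓ0
    linarith
  -- the auxiliary dimension
  obtain ⟨k, hkdef⟩ : ∃ k : ℕ, k = C₃ * ℓ := ⟨_, rfl⟩
  have hC3R := C₃_R
  have hkR : (k : ℝ) = (C₃ : ℝ) * (ℓ : ℝ) := by rw [hkdef]; push_cast; rfl
  have hC3ℓ : (C₃ : ℝ) ≤ (ℓ : ℝ) := by exact_mod_cast hℓC
  have hC30 : (0 : ℝ) < (C₃ : ℝ) := by rw [hC3R]; norm_num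
  have hkℓ : (k : ℝ) ≤ (ℓ : ℝ) ^ 4 := by
    rw [hkR]
    calc (C₃ : ℝ) * (ℓ : ℝ) ≤ (ℓ : ℝ) * (ℓ : ℝ) := by gcongr
      _ = (ℓ : ℝ) ^ 2 := by ring
      _ ≤ (ℓ : ℝ) ^ 4 := pow_le_pow_right₀ hℓ1 (by norm_num)
  have hkℓN : k ≤ ℓ ^ 4 := by exact_mod_cast hkℓ
  have hk1R : (10000000000000000000000000000 : ℝ) ≤ (k : ℝ) := by
    rw [hkR, hC3R]
    nlinarith only [hℓ1]
  have hk100 : 100 ≤ k := by
    have : (100 : ℝ) ≤ (k : ℝ) := by linarith
    exact_mod_cast this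
  have hk2 : 2 * (k : ℝ) ≤ n := by
    refine le_trans ?_ hℓ30
    have h25 : (2 : ℝ) ≤ (ℓ : ℝ) ^ 26 := by
      calc (2 : ℝ) ≤ (ℓ : ℝ) := by linarith
        _ = (ℓ : ℝ) ^ 1 := (pow_one _).symm
        _ ≤ (ℓ : ℝ) ^ 26 := pow_le_pow_right₀ hℓ1 (by norm_num)
    have h30 : (ℓ : ℝ) ^ 30 = (ℓ : ℝ) ^ 26 * (ℓ : ℝ) ^ 4 := by ring
    rw [h30]
    exact mul_le_mul h25 hkℓ (by linarith) (by positivity)
  have hkposR : (0 : ℝ) < (k : ℝ) := by linarith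
  have hkn : k < n := by
    have : (k : ℝ) < n := by linarith
    exact_mod_cast this
  obtain ⟨m, hm⟩ : ∃ m : ℕ, n = k + m := ⟨n - k, by omega⟩
  have hnR : (n : ℝ) = (k : ℝ) + m := by rw [hm]; push_cast; rfl
  have hm2 : (n : ℝ) ≤ 2 * m := by linarith
  have hmle : (m : ℝ) ≤ n := by linarith
  have hm0 : (0 : ℝ) < (m : ℝ) := by linarith
  -- the auxiliary prime
  have h16n : 16 * n ^ 5 ≠ 0 := by positivity
  obtain ⟨Q', hQ'p, hQ'1, hQ'2⟩ := Nat.exists_prime_lt_and_le_two_mul (16 * n ^ 5) h16n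
  have hQ'2N : Q' ≤ 32 * n ^ 5 := by omega
  -- square roots
  obtain ⟨s, hsdef⟩ : ∃ s : ℝ, s = Real.sqrt (ℓ : ℝ) := ⟨_, rfl⟩
  have hs0 : 0 ≤ s := by rw [hsdef]; exact Real.sqrt_nonneg _
  have hs2 : s ^ 2 = (ℓ : ℝ) := by
    rw [hsdef]; exact Real.sq_sqrt hℓ0.le
  have hsqrtk : Real.sqrt (k : ℝ) = 100000000000000 * s := by
    have h1 : (k : ℝ) = (100000000000000 * s) ^ 2 := by
      rw [hkR, mul_pow, hs2, hC3R]; norm_num
    rw [h1]
    exact Real.sqrt_sq (by positivity)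
  have hfk : 131072 * (ℓ : ℝ) ^ 45 ≤ (n : ℝ) ^ 2 := by
    have h2 : (ℓ : ℝ) ^ 60 ≤ (n : ℝ) ^ 2 := by
      have : ((ℓ : ℝ) ^ 30) ^ 2 ≤ (n : ℝ) ^ 2 := pow_le_pow_left₀ (by positivity) hℓ30 2
      calc (ℓ : ℝ) ^ 60 = ((ℓ : ℝ) ^ 30) ^ 2 := by ring
        _ ≤ _ := this
    have h3 : (131072 : ℝ) ≤ (ℓ : ℝ) ^ 15 := by
      calc (131072 : ℝ) ≤ (ℓ : ℝ) := by linarith
        _ = (ℓ : ℝ) ^ 1 := (pow_one _).symm
        _ ≤ (ℓ : ℝ) ^ 15 := pow_le_pow_right₀ hℓ1 (by norm_num)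
    calc 131072 * (ℓ : ℝ) ^ 45 ≤ (ℓ : ℝ) ^ 15 * (ℓ : ℝ) ^ 45 :=
          mul_le_mul_of_nonneg_right h3 (by positivity)
      _ = (ℓ : ℝ) ^ 60 := by ring
      _ ≤ _ := h2
  -- the covering statement in the auxiliary dimension
  have hchild : ∃ (f_k D_k : ℝ) (Qk_min Qk_max : ℕ),
      CovOn (Fin k) (10000000000000 * ℓ) f_k D_k Qk_min Qk_max ∧ 0 ≤ D_k ∧ Qk_min ≤ Q' ∧
        Q' ≤ Qk_max ∧ 32 * f_k ≤ (n : ℝ) ^ 2 ∧
        Real.sqrt (k : ℝ) * D_k ≤ D₀ * (ℓ : ℝ) * s * (x : ℝ) ^ 2 := by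
    by_cases hkL : Real.exp L₀ ≤ (k : ℝ)
    · -- recursion
      obtain ⟨ℓ', hℓ'def⟩ : ∃ ℓ' : ℕ, ℓ' = ⌈Real.log k⌉₊ := ⟨_, rfl⟩
      obtain ⟨x', hx'def⟩ : ∃ x' : ℕ, x' = ⌈Real.log (ℓ' : ℝ)⌉₊ := ⟨_, rfl⟩
      have hlogk0 : 0 ≤ Real.log k := Real.log_natCast_nonneg k
      have hlogk : Real.log k ≤ 80 + 3 * (x : ℝ) := by
        rw [hkR, Real.log_mul hC30.ne' hℓ0.ne']
        have h1 : Real.log (C₃ : ℝ) ≤ 80 := by
          rw [hC3R]
          have e : (10000000000000000000000000000 : ℝ) = 10 ^ 28 := by norm_num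
          rw [e, Real.log_pow]
          have h10 : Real.log 10 ≤ 2.78 := by
            have h2 : Real.log 10 ≤ Real.log 16 := Real.log_le_log (by norm_num) (by norm_num)
            have h3 : Real.log 16 = 4 * Real.log 2 := by
              rw [show (16 : ℝ) = 2 ^ 4 by norm_num, Real.log_pow]; norm_num
            have h4 := Real.log_two_lt_d9
            linarith
          push_cast
          linarith
        linarith
      have hℓ'le : (ℓ' : ℝ) ≤ 4 * (x : ℝ) := by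
        have h1 : (ℓ' : ℝ) < Real.log k + 1 := by
          rw [hℓ'def]; exact Nat.ceil_lt_add_one hlogk0
        linarith
      have hℓ'ge : (1 : ℝ) ≤ (ℓ' : ℝ) := by
        have h1 : (1 : ℝ) ≤ Real.log k := by
          rw [Real.le_log_iff_exp_le hkposR]
          have he := Real.exp_one_lt_d9
          linarith
        have h2 : Real.log k ≤ (ℓ' : ℝ) := by rw [hℓ'def]; exact Nat.le_ceil _
        linarith
      have hlogℓ'0 : 0 ≤ Real.log (ℓ' : ℝ) := Real.log_natCast_nonneg ℓ'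
      have hx'le : (x' : ℝ) ≤ Real.log (4 * (x : ℝ)) + 1 := by
        have h1 : (x' : ℝ) < Real.log (ℓ' : ℝ) + 1 := by
          rw [hx'def]; exact Nat.ceil_lt_add_one hlogℓ'0
        have h2 : Real.log (ℓ' : ℝ) ≤ Real.log (4 * (x : ℝ)) :=
          Real.log_le_log (by linarith) hℓ'le
        linarith
      -- the square root of the auxiliary level
      obtain ⟨s', hs'def⟩ : ∃ s' : ℝ, s' = Real.sqrt (ℓ' : ℝ) := ⟨_, rfl⟩
      have hs'0 : 0 ≤ s' := by rw [hs'def]; exact Real.sqrt_nonneg _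
      have hs'2 : s' ^ 2 = (ℓ' : ℝ) := by
        rw [hs'def]; exact Real.sq_sqrt (by linarith)
      obtain ⟨u, hudef⟩ : ∃ u : ℝ, u = Real.sqrt (x : ℝ) := ⟨_, rfl⟩
      have hu0 : 0 ≤ u := by rw [hudef]; exact Real.sqrt_nonneg _
      have hu2 : u ^ 2 = (x : ℝ) := by
        rw [hudef]; exact Real.sq_sqrt hx0.le
      have hs'u : s' ≤ 2 * u := by
        have h1 : s' ^ 2 ≤ (2 * u) ^ 2 := by
          rw [hs'2, mul_pow, hu2]
          linarith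
        exact (pow_le_pow_iff_left₀ hs'0 (by positivity) (by norm_num)).1 h1
      have hrec := ih k hkn hkL (10000000000000 * ℓ) Q' hQ'p ?_ ?_
      · rw [← hℓ'def, ← hx'def, ← hs'def] at hrec
        refine ⟨_, _, _, _, hrec, by positivity, le_rfl, le_rfl, ?_, ?_⟩
        · -- fatness
          have h1 : (k : ℝ) ^ 9 ≤ (ℓ : ℝ) ^ 36 := by
            calc (k : ℝ) ^ 9 ≤ ((ℓ : ℝ) ^ 4) ^ 9 := pow_le_pow_left₀ hkposR.le hkℓ 9
              _ = (ℓ : ℝ) ^ 36 := by ring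
          have h2 : (ℓ : ℝ) ^ 36 ≤ (ℓ : ℝ) ^ 45 := pow_le_pow_right₀ hℓ1 (by norm_num)
          calc 32 * (4096 * (k : ℝ) ^ 9) = 131072 * (k : ℝ) ^ 9 := by ring
            _ ≤ 131072 * (ℓ : ℝ) ^ 45 := by linarith
            _ ≤ _ := hfk
        · -- density
          rw [hsqrtk]
          have hx'0 : (0 : ℝ) ≤ (x' : ℝ) := Nat.cast_nonneg _
          have h1 : (x' : ℝ) ^ 4 ≤ (Real.log (4 * (x : ℝ)) + 1) ^ 4 :=
            pow_le_pow_left₀ hx'0 hx'le 4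
          have hC0 : (0 : ℝ) ≤ 64 * (C₃ : ℝ) ^ 3 := by positivity
          have h2 : 64 * (C₃ : ℝ) ^ 3 * (x' : ℝ) ^ 4 ≤ (x : ℝ) := by
            refine le_trans ?_ hxE
            exact mul_le_mul_of_nonneg_left h1 hC0
          have h3 : 8000000000000000000000000000000000000000000 * (x' : ℝ) ^ 2 ≤ u := by
            have h4 : (8000000000000000000000000000000000000000000 * (x' : ℝ) ^ 2) ^ 2 ≤ u ^ 2 := by
              rw [hu2]
              refine le_trans (le_of_eq ?_) h2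
              rw [hC3R]
              ring
            exact (pow_le_pow_iff_left₀ (by positivity) hu0 (by norm_num)).1 h4
          have hℓ'x : (ℓ' : ℝ) ≤ 4 * u ^ 2 := by rw [hu2]; exact hℓ'le
          have hD₀ℓ : 0 ≤ D₀ * (ℓ : ℝ) * s := by positivity
          have hprod : 100000000000000 * (C₃ : ℝ) * ((ℓ' : ℝ) * s' * (x' : ℝ) ^ 2) ≤ (x : ℝ) ^ 2 := by
            rw [hC3R, ← hu2]
            have h5 : (ℓ' : ℝ) * s' ≤ 4 * u ^ 2 * (2 * u) :=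
              mul_le_mul hℓ'x hs'u hs'0 (by positivity)
            calc 100000000000000 * 10000000000000000000000000000 * ((ℓ' : ℝ) * s' * (x' : ℝ) ^ 2)
                ≤ 100000000000000 * 10000000000000000000000000000 *
                    (4 * u ^ 2 * (2 * u) * (x' : ℝ) ^ 2) := by gcongr
              _ = u ^ 3 * (8000000000000000000000000000000000000000000 * (x' : ℝ) ^ 2) := by ring
              _ ≤ u ^ 3 * u := mul_le_mul_of_nonneg_left h3 (by positivity)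
              _ = _ := by ring
          calc 100000000000000 * s * (D₀ * (k : ℝ) * (ℓ' : ℝ) * s' * (x' : ℝ) ^ 2)
              = (D₀ * (ℓ : ℝ) * s) * (100000000000000 * (C₃ : ℝ) * ((ℓ' : ℝ) * s' * (x' : ℝ) ^ 2)) := by
                rw [hkR]; ring
            _ ≤ (D₀ * (ℓ : ℝ) * s) * (x : ℝ) ^ 2 := mul_le_mul_of_nonneg_left hprod hD₀ℓ
      · -- the prime is large for the auxiliary dimension
        have h1 : k ^ 4 ≤ n ^ 4 := Nat.pow_le_pow_left hkn.le 4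
        have h2 : n ^ 4 ≤ n ^ 5 := Nat.pow_le_pow_right hn1 (by norm_num)
        omega
      · -- second condition
        rw [le_div_iff₀ (by positivity)]
        push_cast
        rw [hkR, hC3R]
        nlinarith only [hℓ1]
    · -- base case
      rw [not_le] at hkL
      have hk2' : 2 ≤ k := by omega
      have hrk : 10000000000000 * ℓ ≤ k := by
        have h1 : (10000000000000 : ℝ) * (ℓ : ℝ) ≤ k := by
          rw [hkR, hC3R]
          nlinarith only [hℓ1]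
        exact_mod_cast h1
      have hbase := cov_base (ι := Fin k) (by simpa using hk2') (r := 10000000000000 * ℓ)
        (by simpa using hrk) Q'
      simp only [Fintype.card_fin] at hbase
      refine ⟨_, _, _, _, hbase, by positivity, ?_, le_rfl, ?_, ?_⟩
      · have h1 : k ≤ n ^ 4 := by
          calc k ≤ n := hkn.le
            _ = n ^ 1 := (pow_one n).symm
            _ ≤ n ^ 4 := Nat.pow_le_pow_right hn1 (by norm_num)
        have h2 : 1 ≤ n ^ 4 := Nat.one_le_pow _ _ hn1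
        have h3 : n ^ 4 ≤ n ^ 5 := Nat.pow_le_pow_right hn1 (by norm_num)
        omega
      · -- fatness
        unfold fatOf
        have h1 : (k : ℝ) ^ 7 ≤ (ℓ : ℝ) ^ 28 := by
          calc (k : ℝ) ^ 7 ≤ ((ℓ : ℝ) ^ 4) ^ 7 := pow_le_pow_left₀ hkposR.le hkℓ 7
            _ = (ℓ : ℝ) ^ 28 := by ring
        have h2 : (ℓ : ℝ) ^ 28 ≤ (ℓ : ℝ) ^ 45 := pow_le_pow_right₀ hℓ1 (by norm_num)
        calc 32 * (64 * (64 * (k : ℝ) ^ 2) * (k : ℝ) ^ 5) = 131072 * (k : ℝ) ^ 7 := by ring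
          _ ≤ 131072 * (ℓ : ℝ) ^ 45 := by linarith
          _ ≤ _ := hfk
      · -- density
        have h1 := hD₀ k hkL
        rw [hsqrtk]
        have hx1 : (1 : ℝ) ≤ (x : ℝ) ^ 2 := one_le_pow₀ (by linarith)
        have h2 : 100000000000000 * s ≤ (ℓ : ℝ) * s * (x : ℝ) ^ 2 := by
          have h3 : (100000000000000 : ℝ) ≤ (ℓ : ℝ) * (x : ℝ) ^ 2 := by
            nlinarith only [hℓR, hx1]
          calc 100000000000000 * s ≤ ((ℓ : ℝ) * (x : ℝ) ^ 2) * s :=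
                mul_le_mul_of_nonneg_right h3 hs0
            _ = _ := by ring
        calc 100000000000000 * s * (3 * (4 * (64 * (k : ℝ) ^ 2)) ^ k)
            ≤ 100000000000000 * s * D₀ := mul_le_mul_of_nonneg_left h1 (by positivity)
          _ ≤ (ℓ : ℝ) * s * (x : ℝ) ^ 2 * D₀ := mul_le_mul_of_nonneg_right h2 hD₀0
          _ = _ := by ring
  obtain ⟨f_k, D_k, Qk_min, Qk_max, hcov, hDk, hQk1, hQk2, hf, hDkle⟩ := hchild
  have hQ'1' : 16 * n ^ 5 < Q' := hQ'1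
  have hkey := level_step3 (n := n) (k := k) (m := m) (r := r) (r' := 10000000000000 * ℓ) (ℓ := ℓ)
    (Q := Q') (Qmin := Q) (Qmax := Q) (Qk_min := Qk_min) (Qk_max := Qk_max) (f_k := f_k) (D_k := D_k)
    hm hk100 hkℓN le_rfl (by
      have : (100000000000000 : ℝ) ≤ (ℓ : ℝ) := by linarith
      exact_mod_cast this) hlog_le hlog_lt.le hℓ30N hQ'p hQ'1' hQ'2N hcov hDk hQk1 hQk2 hf hQ8 ?_
  · -- transport and monotonicity
    have hcong := covOn_congr finSumFinEquiv hkey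
    rw [← hm] at hcong
    refine hcong.mono3 ?_ ?_
    · unfold fatOf
      have h1 : (0 : ℝ) ≤ (n : ℝ) ^ 9 := by positivity
      calc 64 * (n : ℝ) ^ 4 * (n : ℝ) ^ 5 = 64 * (n : ℝ) ^ 9 := by ring
        _ ≤ 4096 * (n : ℝ) ^ 9 := by linarith
    · -- density
      rw [← hsdef]
      have h1 : 3 * (1024000000 * Real.sqrt k * ((m : ℝ) / 100000000000) * D_k) =
          (3072 / 100000) * (m : ℝ) * (Real.sqrt k * D_k) := by
        ring
      rw [h1]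
      have h3 : 0 ≤ D₀ * (ℓ : ℝ) * s * (x : ℝ) ^ 2 := by positivity
      have h4 : 0 ≤ Real.sqrt k * D_k := by positivity
      calc (3072 / 100000) * (m : ℝ) * (Real.sqrt k * D_k)
          ≤ 1 * (n : ℝ) * (D₀ * (ℓ : ℝ) * s * (x : ℝ) ^ 2) := by
            gcongr
            norm_num
        _ = _ := by ring
  · -- second condition
    refine hr2.trans ?_
    rw [div_div, div_le_div_iff₀ (by positivity) (by positivity)]
    nlinarith only [hm2]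

/-- The final bound: every convex body in dimension `n ≥ 3` has a lattice covering of density
at most `C n (log n)^(3/2) (log log n)^2`. -/
theorem main_bound3 : ∃ C : ℝ, ∀ n : ℕ, 3 ≤ n → ∀ K : Set (Fin n → ℝ), IsCompact K → Convex ℝ K →
    (interior K).Nonempty →
    ∃ A : Matrix (Fin n) (Fin n) ℝ, A.det ≠ 0 ∧
      (∀ x : Fin n → ℝ, ∃ u : Fin n → ℤ, ∃ y ∈ K, x = y + A.mulVec (fun i => (u i : ℝ))) ∧
      (volume K).toReal ≤
        C * (n : ℝ) * Real.log n ^ ((3 : ℝ) / 2) * Real.log (Real.log n) ^ 2 * |A.det| := by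
  obtain ⟨L₀, hbig, he1, he2⟩ := exists_threshold3
  obtain ⟨D₀, hD₀def⟩ : ∃ D₀ : ℝ, D₀ = ∑ k ∈ Finset.range ⌈Real.exp L₀⌉₊,
      3 * (4 * (64 * (k : ℝ) ^ 2)) ^ k := ⟨_, rfl⟩
  have hD₀0 : 0 ≤ D₀ := by
    rw [hD₀def]
    exact Finset.sum_nonneg (fun k _ => by positivity)
  have hD₀ : ∀ k : ℕ, (k : ℝ) < Real.exp L₀ → 3 * (4 * (64 * (k : ℝ) ^ 2)) ^ k ≤ D₀ := by
    intro k hk
    rw [hD₀def]
    have hmem : k ∈ Finset.range ⌈Real.exp L₀⌉₊ := by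
      rw [Finset.mem_range]
      exact Nat.lt_ceil.2 hk
    exact Finset.single_le_sum (f := fun k : ℕ => 3 * (4 * (64 * (k : ℝ) ^ 2)) ^ k)
      (fun k _ => by positivity) hmem
  have hlog3 : 1 < Real.log 3 := by
    rw [Real.lt_log_iff_exp_lt (by norm_num)]
    have he := Real.exp_one_lt_d9
    linarith
  obtain ⟨c₀, hc₀def⟩ : ∃ c₀ : ℝ, c₀ = Real.log (Real.log 3) := ⟨_, rfl⟩
  have hc₀ : 0 < c₀ := by rw [hc₀def]; exact Real.log_pos hlog3
  refine ⟨(144 + 4 / c₀ ^ 2) * D₀, ?_⟩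
  intro n hn K hKc hKconv hKi
  have hn2' : 2 ≤ n := by omega
  have hn3 : (3 : ℝ) ≤ (n : ℝ) := by exact_mod_cast hn
  have hn0 : (0 : ℝ) < (n : ℝ) := by linarith
  have hn1 : 1 ≤ n := by omega
  have hlogn3 : Real.log 3 ≤ Real.log n := Real.log_le_log (by norm_num) hn3
  have hlog1 : 1 < Real.log n := by linarith
  have hlog0 : 0 < Real.log n := by linarith
  have hll : c₀ ≤ Real.log (Real.log n) := by
    rw [hc₀def]
    exact Real.log_le_log (by linarith) hlogn3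
  have hll0 : 0 < Real.log (Real.log n) := by linarith
  have hcnn : 0 ≤ 4 / c₀ ^ 2 := by positivity
  obtain ⟨y, hydef⟩ : ∃ y : ℝ, y = Real.log n ^ ((3 : ℝ) / 2) := ⟨_, rfl⟩
  rw [← hydef]
  have hy : y = Real.log n * Real.sqrt (Real.log n) := by
    rw [hydef, Real.sqrt_eq_rpow, ← Real.rpow_one_add' hlog0.le (by norm_num)]
    norm_num
  have hy1 : 1 ≤ y := by
    rw [hydef]
    exact Real.one_le_rpow hlog1.le (by norm_num)
  by_cases hnL : Real.exp L₀ ≤ (n : ℝ)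
  · -- large dimension: the recursion
    have h8n : 8 * n ^ 4 ≠ 0 := by positivity
    obtain ⟨Q, hQp, hQ1, hQ2⟩ := Nat.exists_prime_lt_and_le_two_mul (8 * n ^ 4) h8n
    have hcov := cov_rec3 hbig he1 he2 hD₀ hD₀0 n hnL 0 Q hQp hQ1 (by
      simp only [Nat.cast_zero]
      positivity)
    obtain ⟨ℓ, hℓdef⟩ : ∃ ℓ : ℕ, ℓ = ⌈Real.log n⌉₊ := ⟨_, rfl⟩
    rw [← hℓdef] at hcov
    obtain ⟨x, hxdef⟩ : ∃ x : ℕ, x = ⌈Real.log (ℓ : ℝ)⌉₊ := ⟨_, rfl⟩
    rw [← hxdef] at hcov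
    have hlog_le : Real.log n ≤ ℓ := by rw [hℓdef]; exact Nat.le_ceil _
    have hlog_lt : (ℓ : ℝ) < Real.log n + 1 := by rw [hℓdef]; exact Nat.ceil_lt_add_one hlog0.le
    have hLlog : (L₀ : ℝ) ≤ Real.log n := by
      rw [Real.le_log_iff_exp_le hn0]; exact hnL
    have hC3le : (10000000000000000000000000000 : ℝ) ≤ (L₀ : ℝ) := by
      rw [← C₃_R]; exact_mod_cast hbig
    have hℓ0 : (0 : ℝ) < (ℓ : ℝ) := by linarith
    have hlogℓ0 : 0 ≤ Real.log (ℓ : ℝ) := Real.log_natCast_nonneg ℓ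
    have hx_lt : (x : ℝ) < Real.log (ℓ : ℝ) + 1 := by
      rw [hxdef]; exact Nat.ceil_lt_add_one hlogℓ0
    have hℓ2 : (ℓ : ℝ) ≤ 2 * Real.log n := by linarith
    have hll1 : 2 ≤ Real.log (Real.log n) := by
      rw [Real.le_log_iff_exp_le hlog0]
      have h1 : Real.exp 2 ≤ 8 := by
        have he := Real.exp_one_lt_d9
        have e : Real.exp 2 = Real.exp 1 * Real.exp 1 := by
          rw [← Real.exp_add]; norm_num
        rw [e]
        nlinarith only [he, Real.exp_pos 1]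
      linarith
    have hx3 : (x : ℝ) ≤ 3 * Real.log (Real.log n) := by
      have h1 : Real.log (ℓ : ℝ) ≤ Real.log (2 * Real.log n) := Real.log_le_log hℓ0 hℓ2
      have h2 : Real.log (2 * Real.log n) = Real.log 2 + Real.log (Real.log n) :=
        Real.log_mul (by norm_num) hlog0.ne'
      have h3 := Real.log_two_lt_d9
      linarith
    obtain ⟨A, hA1, hA2, hA3⟩ := covering_of_cov hn2' (f := 4096 * (n : ℝ) ^ 9) (by
        have h1 : (n : ℝ) ≤ (n : ℝ) ^ 9 := by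
          calc (n : ℝ) = (n : ℝ) ^ 1 := (pow_one _).symm
            _ ≤ (n : ℝ) ^ 9 := pow_le_pow_right₀ (by linarith) (by norm_num)
        nlinarith only [h1, pow_pos hn0 9]) (by positivity) ⟨Q, hQp, le_rfl, le_rfl⟩ hcov hKc hKconv hKi
    refine ⟨A, hA1, hA2, hA3.trans ?_⟩
    have hdet : 0 ≤ |A.det| := abs_nonneg _
    have hsqrtℓ : Real.sqrt (ℓ : ℝ) ≤ 2 * Real.sqrt (Real.log n) := by
      have h1 : Real.sqrt (ℓ : ℝ) ≤ Real.sqrt (2 * Real.log n) := Real.sqrt_le_sqrt hℓ2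
      have h2 : Real.sqrt (2 * Real.log n) = Real.sqrt 2 * Real.sqrt (Real.log n) :=
        Real.sqrt_mul (by norm_num) _
      have h3 : Real.sqrt 2 ≤ 2 := by
        rw [Real.sqrt_le_left (by norm_num)]
        norm_num
      have h4 : 0 ≤ Real.sqrt (Real.log n) := Real.sqrt_nonneg _
      rw [h2] at h1
      nlinarith only [h1, h3, h4, mul_le_mul_of_nonneg_right h3 h4]
    have hℓy : (ℓ : ℝ) * Real.sqrt (ℓ : ℝ) ≤ 4 * y := by
      rw [hy]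
      calc (ℓ : ℝ) * Real.sqrt (ℓ : ℝ) ≤ (2 * Real.log n) * (2 * Real.sqrt (Real.log n)) :=
            mul_le_mul hℓ2 hsqrtℓ (Real.sqrt_nonneg _) (by positivity)
        _ = _ := by ring
    have hx2 : (x : ℝ) ^ 2 ≤ 9 * Real.log (Real.log n) ^ 2 := by
      calc (x : ℝ) ^ 2 ≤ (3 * Real.log (Real.log n)) ^ 2 :=
            pow_le_pow_left₀ (Nat.cast_nonneg _) hx3 2
        _ = _ := by ring
    have hX : 0 ≤ D₀ * (n : ℝ) * y * Real.log (Real.log n) ^ 2 * |A.det| := by positivity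
    calc 4 * (D₀ * (n : ℝ) * (ℓ : ℝ) * Real.sqrt (ℓ : ℝ) * (x : ℝ) ^ 2) * |A.det|
        = 4 * (D₀ * (n : ℝ) * ((ℓ : ℝ) * Real.sqrt (ℓ : ℝ)) * (x : ℝ) ^ 2) * |A.det| := by ring
      _ ≤ 4 * (D₀ * (n : ℝ) * (4 * y) * (9 * Real.log (Real.log n) ^ 2)) * |A.det| := by
          gcongr
      _ = 144 * (D₀ * (n : ℝ) * y * Real.log (Real.log n) ^ 2 * |A.det|) := by ring
      _ ≤ (144 + 4 / c₀ ^ 2) * (D₀ * (n : ℝ) * y * Real.log (Real.log n) ^ 2 * |A.det|) := by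
          apply mul_le_mul_of_nonneg_right _ hX
          linarith
      _ = _ := by ring
  · -- small dimension: the base case
    rw [not_le] at hnL
    have hn0N : n + 2 ≠ 0 := by omega
    obtain ⟨q, hqp, hq1, hq2⟩ := Nat.exists_prime_lt_and_le_two_mul (n + 2) hn0N
    have hbase := cov_base (ι := Fin n) (by simpa using hn2') (r := 0) (by simp) (2 * (n + 2))
    simp only [Fintype.card_fin] at hbase
    obtain ⟨A, hA1, hA2, hA3⟩ := covering_of_cov hn2' (by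
        unfold fatOf
        have h1 : (n : ℝ) ≤ (n : ℝ) ^ 5 := by
          calc (n : ℝ) = (n : ℝ) ^ 1 := (pow_one _).symm
            _ ≤ (n : ℝ) ^ 5 := pow_le_pow_right₀ (by linarith) (by norm_num)
        have h2 : (1 : ℝ) ≤ (n : ℝ) ^ 2 := one_le_pow₀ (by linarith)
        have h3 : (0 : ℝ) < (n : ℝ) ^ 5 := by positivity
        nlinarith only [h1, h2, h3, mul_pos h3 h3]) (by positivity) ⟨q, hqp, hq1.le, hq2⟩ hbase hKc hKconv hKi
    refine ⟨A, hA1, hA2, hA3.trans ?_⟩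
    have h1 := hD₀ n hnL
    have hdet : 0 ≤ |A.det| := abs_nonneg _
    have h2 : (1 : ℝ) ≤ (n : ℝ) * y * (Real.log (Real.log n) ^ 2 / c₀ ^ 2) := by
      have h3 : c₀ ^ 2 ≤ Real.log (Real.log n) ^ 2 := pow_le_pow_left₀ hc₀.le hll 2
      have h4 : 1 ≤ Real.log (Real.log n) ^ 2 / c₀ ^ 2 := by
        rw [le_div_iff₀ (by positivity)]
        linarith
      have h6 : (1 : ℝ) ≤ (n : ℝ) := by linarith
      have h7 : (1 : ℝ) ≤ (n : ℝ) * y := one_le_mul_of_one_le_of_one_le h6 hy1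
      exact one_le_mul_of_one_le_of_one_le h7 h4
    have h5 : 0 ≤ (n : ℝ) * y * Real.log (Real.log n) ^ 2 := by positivity
    have h8 : 0 ≤ D₀ * |A.det| := by positivity
    calc 4 * (3 * (4 * (64 * (n : ℝ) ^ 2)) ^ n) * |A.det| ≤ 4 * D₀ * |A.det| := by gcongr
      _ = 4 * (D₀ * |A.det|) * 1 := by ring
      _ ≤ 4 * (D₀ * |A.det|) * ((n : ℝ) * y * (Real.log (Real.log n) ^ 2 / c₀ ^ 2)) :=
          mul_le_mul_of_nonneg_left h2 (by positivity)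
      _ = (4 / c₀ ^ 2) * D₀ * (n : ℝ) * y * Real.log (Real.log n) ^ 2 * |A.det| := by
          field_simp
      _ ≤ (144 + 4 / c₀ ^ 2) * D₀ * (n : ℝ) * y * Real.log (Real.log n) ^ 2 * |A.det| := by
          have h9 : 0 ≤ D₀ * ((n : ℝ) * y * Real.log (Real.log n) ^ 2 * |A.det|) := by positivity
          nlinarith only [h9]

end Vale.Agent.Lib.P230
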