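import Vale.Agent.Lib.P230.PoissonCore

/-!
# P230 module P: the Poisson lemma for random linear fibres over `F_Q`.
-/

open scoped BigOperators
open Finset

namespace Vale.Agent.Lib.P230

variable {β : Type} [Fintype β] [DecidableEq β]

/-- The fibre of the map `v ↦ T v` over `y`, inside `S`. -/
noncomputable def fibre {Q c : ℕ} (S : Finset (β → ℤ)) (T : Matrix (Fin c) β (ZMod Q))
    (y : Fin c → ZMod Q) : Finset (β → ℤ) :=
  open Classical in S.filter (fun v => T.mulVec (fun i => ((v i : ℤ) : ZMod Q)) = y)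

/-- `Ω` contains `r+1` points affinely independent mod `q`. -/
def GoodFibre (q r : ℕ) (Ω : Finset (β → ℤ)) : Prop :=
  ∃ v : Fin (r + 1) → β → ℤ, (∀ i, v i ∈ Ω) ∧ AffIndMod q v

/-- The bound of the Poisson lemma. -/
noncomputable def plBound (Q q r t : ℕ) (θ ε : ℝ) : ℝ :=
  ε * (4 * t) * ((Q : ℝ) * θ) ^ (4 * t)
  + 2 ^ r * (Real.exp (-(θ / 2)) + (θ / 2) ^ (2 * t + 1) / ((2 * t + 1).factorial : ℝ)
      + 4 * Real.exp θ * ε * (4 * t) * 2 ^ (4 * t) * ((Q : ℝ) * θ) ^ (4 * t))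
  + ε * (r + 1) * ((q : ℝ) * θ) ^ (r + 1)

/-- The number of `(T,y)` for which the fibre is not good. -/
noncomputable def badCount (Q q c r : ℕ) [NeZero Q] (S : Finset (β → ℤ)) : ℕ :=
  open Classical in
  ((Finset.univ : Finset (Matrix (Fin c) β (ZMod Q) × (Fin c → ZMod Q))).filter
    (fun p => ¬ GoodFibre q r (fibre S p.1 p.2))).card

section Main

open Classical

set_option linter.unusedSectionVars false

variable {Q q c : ℕ} [Fact Q.Prime] [Fact q.Prime]

/-- The space of pairs `(T,y)`. -/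
abbrev Pr (β : Type) (Q c : ℕ) := Matrix (Fin c) β (ZMod Q) × (Fin c → ZMod Q)

/-- The number of pairs whose fibre contains `X`. -/
noncomputable def cnt (Q c : ℕ) [NeZero Q] (X : Finset (β → ℤ)) : ℕ :=
  ((Finset.univ : Finset (Pr β Q c)).filter
    (fun p => ∀ v ∈ X, p.1.mulVec (fun i => ((v i : ℤ) : ZMod Q)) = p.2)).card

lemma subset_fibre_iff {S X : Finset (β → ℤ)} (hX : X ⊆ S) (p : Pr β Q c) :
    X ⊆ fibre S p.1 p.2 ↔ ∀ v ∈ X, p.1.mulVec (fun i => ((v i : ℤ) : ZMod Q)) = p.2 := by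
  constructor
  · intro h v hv
    have := h hv
    simp only [fibre, mem_filter] at this
    exact this.2
  · intro h v hv
    simp only [fibre, mem_filter]
    exact ⟨hX hv, h v hv⟩

lemma fibre_subset (S : Finset (β → ℤ)) (p : Pr β Q c) : fibre S p.1 p.2 ⊆ S := filter_subset _ _

/-- The total number of pairs. -/
noncomputable def Tot (β : Type) [Fintype β] (Q c : ℕ) : ℝ := (Q : ℝ) ^ (c * Fintype.card β + c)

/-- The probability of one point. -/
noncomputable def pp (Q c : ℕ) : ℝ := 1 / (Q : ℝ) ^ c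

omit [Fact q.Prime] in
lemma Q_pos' : (0 : ℝ) < Q := by
  have := (Fact.out : Q.Prime).pos
  exact_mod_cast this

omit [Fact q.Prime] in
lemma pp_pos : 0 < pp Q c := by
  have := Q_pos' (Q := Q)
  unfold pp
  positivity

omit [Fact q.Prime] in
lemma pp_le_one : pp Q c ≤ 1 := by
  have h : (1 : ℝ) ≤ (Q : ℝ) := by
    have := (Fact.out : Q.Prime).one_lt
    exact_mod_cast this.le
  unfold pp
  rw [div_le_one (by positivity)]
  exact one_le_pow₀ h

omit [Fact q.Prime] in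
lemma Tot_pos : 0 < Tot β Q c := by
  have := Q_pos' (Q := Q)
  unfold Tot
  positivity

omit [Fact q.Prime] in
lemma cnt_eq_rank (X : Finset (β → ℤ)) :
    (cnt Q c X : ℝ) = Tot β Q c * pp Q c ^ Module.finrank (ZMod Q)
      (Submodule.span (ZMod Q) ((uvec Q) '' (X : Set (β → ℤ)))) := by
  have h := fibre_count (Q := Q) (β := β) c X
  have hQ := Q_pos' (Q := Q)
  unfold cnt Tot pp
  rw [← h]
  simp only [one_div, inv_pow]
  rw [pow_mul]
  field_simp

omit [Fact q.Prime] in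
/-- Independent sets: `cnt = Tot p^|X|`. -/
lemma cnt_indep {X : Finset (β → ℤ)}
    (h : LinearIndepOn (ZMod Q) (uvec Q) (X : Set (β → ℤ))) :
    (cnt Q c X : ℝ) = Tot β Q c * pp Q c ^ X.card := by
  rw [cnt_eq_rank]
  congr 2
  have h2 : LinearIndependent (ZMod Q) (fun x : X => uvec Q (x : β → ℤ)) := h
  have h3 := finrank_span_eq_card h2
  have h4 : Set.range (fun x : X => uvec Q (x : β → ℤ)) = (uvec Q) '' (X : Set (β → ℤ)) := by
    ext y
    simp
  rw [h4] at h3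
  rw [h3]
  simp

omit [Fact q.Prime] in
/-- Nullity one: `cnt = Tot p^(|X|-1)`. -/
lemma cnt_null {X : Finset (β → ℤ)}
    (h : Module.finrank (ZMod Q) (Submodule.span (ZMod Q) ((uvec Q) '' (X : Set (β → ℤ)))) + 1
      = X.card) :
    (cnt Q c X : ℝ) = Tot β Q c * pp Q c ^ (X.card - 1) := by
  rw [cnt_eq_rank]
  congr 2
  omega

/-- `(T,y)`-sum of the indicator that `X` lies in the fibre. -/
lemma sum_indicator_subset {S X : Finset (β → ℤ)} (hX : X ⊆ S) :
    ∑ p : Pr β Q c, (if X ⊆ fibre S p.1 p.2 then (1 : ℝ) else 0) = cnt Q c X := by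
  rw [Finset.sum_boole]
  congr 2
  ext p
  simp only [mem_filter, mem_univ, true_and]
  exact subset_fibre_iff hX p

/-- Relation-free up to size `2 t`. -/
def Rf (Q t : ℕ) [Fact Q.Prime] (Ω : Finset (β → ℤ)) : Prop :=
  ∀ R ⊆ Ω, IsRelSet (F := ZMod Q) (uvec Q) R → 2 * t < R.card

/-- The truncated binomial sum. -/
noncomputable def BB (t N : ℕ) : ℝ :=
  ∑ j ∈ range (2 * t + 1), (-(1 / 2 : ℝ)) ^ j * (N.choose j : ℝ)

lemma half_pow_le_BB (t N : ℕ) : (1 / 2 : ℝ) ^ N ≤ BB t N := by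
  have h := (bonferroni_even (x := 1 / 2) (by norm_num) (by norm_num) N t).1
  unfold BB
  convert h using 2
  norm_num

/-- Independent relation sets mod `q`. -/
noncomputable def Ddd (Q q r : ℕ) [Fact Q.Prime] [Fact q.Prime] (Ω : Finset (β → ℤ)) : Finset (Finset (β → ℤ)) :=
  Ω.powerset.filter (fun D => IsRelSet (F := ZMod q) (uvec q) D ∧ D.card ≤ r + 1 ∧
    LinearIndepOn (ZMod Q) (uvec Q) (D : Set (β → ℤ)))

/-- The pointwise inequality. -/
lemma pointwise {r t : ℕ} (hrt : r + 1 ≤ 2 * t) (Ω : Finset (β → ℤ)) :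
    (if GoodFibre q r Ω then (0 : ℝ) else 1) ≤ (if Rf Q t Ω then (0 : ℝ) else 1)
      + (if Rf Q t Ω then (2 : ℝ) ^ r * BB t Ω.card else 0) + ((Ddd Q q r Ω).card : ℝ) := by
  have hBB : 0 ≤ BB t Ω.card := le_trans (by positivity) (half_pow_le_BB t Ω.card)
  by_cases hG : GoodFibre q r Ω
  · simp only [hG, if_true]
    split_ifs <;> positivity
  simp only [hG, if_false]
  by_cases hR : Rf Q t Ω
  · simp only [hR, if_true, zero_add]
    by_cases hN : Ω.card ≤ r
    · have h1 := half_pow_le_BB t Ω.card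
      have h2 : (1 / 2 : ℝ) ^ r ≤ (1 / 2 : ℝ) ^ Ω.card :=
        pow_le_pow_of_le_one (by norm_num) (by norm_num) hN
      have h3 : (2 : ℝ) ^ r * (1 / 2) ^ r = 1 := by
        rw [← mul_pow]; norm_num
      have h4 : (2 : ℝ) ^ r * (1 / 2) ^ r ≤ 2 ^ r * BB t Ω.card :=
        mul_le_mul_of_nonneg_left (h2.trans h1) (by positivity)
      have h5 : (0 : ℝ) ≤ (Ddd Q q r Ω).card := Nat.cast_nonneg _
      linarith
    · have hN' : r + 1 ≤ Ω.card := by omega
      obtain ⟨T, hTΩ, hTc⟩ := Finset.exists_subset_card_eq hN'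
      have hTQ : LinearIndepOn (ZMod Q) (uvec Q) (T : Set (β → ℤ)) := by
        by_contra hn
        obtain ⟨R, hRT, hRrel⟩ := exists_relSet_of_not_indep (F := ZMod Q) (uvec Q) hn
        have h1 := hR R (hRT.trans hTΩ) hRrel
        have h2 := Finset.card_le_card hRT
        omega
      have hTq : ¬ LinearIndepOn (ZMod q) (uvec q) (T : Set (β → ℤ)) := by
        intro hli
        apply hG
        let e := T.equivFinOfCardEq hTc
        refine ⟨fun i => (e.symm i : β → ℤ), fun i => hTΩ (e.symm i).2, ?_⟩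
        have h2 : LinearIndependent (ZMod q) (fun x : T => uvec q (x : β → ℤ)) := hli
        exact h2.comp e.symm e.symm.injective
      obtain ⟨R, hRT, hRrel⟩ := exists_relSet_of_not_indep (F := ZMod q) (uvec q) hTq
      have hmem : R ∈ Ddd Q q r Ω := by
        simp only [Ddd, mem_filter, mem_powerset]
        refine ⟨hRT.trans hTΩ, hRrel, ?_, hTQ.mono (by exact_mod_cast hRT)⟩
        have := Finset.card_le_card hRT
        omega
      have h1 : (1 : ℝ) ≤ (Ddd Q q r Ω).card := by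
        exact_mod_cast Finset.card_pos.2 ⟨R, hmem⟩
      have h2 : (0 : ℝ) ≤ (2 : ℝ) ^ r * BB t Ω.card := by positivity
      linarith
  · simp only [hR, if_false, add_zero]
    have h5 : (0 : ℝ) ≤ (Ddd Q q r Ω).card := Nat.cast_nonneg _
    linarith

/-- Summing a function of the size over relation sets in `S`. -/
lemma sum_relsets_le {ℓ : ℕ} [Fact ℓ.Prime] {S : Finset (β → ℤ)} {D : ℕ}
    (hS : ∀ v ∈ S, ∀ i, |v i| ≤ (D : ℤ)) (hℓ : 4 * D < ℓ)
    {ε : ℝ} (hε : 0 ≤ ε) (hE : (energy S : ℝ) ≤ ε ^ 2 * (S.card : ℝ) ^ 3)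
    (𝓕 : Finset (Finset (β → ℤ))) (hF : ∀ R ∈ 𝓕, R ⊆ S ∧ IsRelSet (F := ZMod ℓ) (uvec ℓ) R)
    {M : ℕ} (hM : ∀ R ∈ 𝓕, R.card ≤ M) (g : ℕ → ℝ) (hg : ∀ h, 0 ≤ g h) :
    ∑ R ∈ 𝓕, g R.card ≤ ∑ h ∈ Icc 1 M, ((ℓ : ℝ) * (S.card : ℝ)) ^ (h - 1) * ε * g h := by
  have hmaps : ∀ R ∈ 𝓕, R.card ∈ Icc 1 M := by
    intro R hR
    have h1 := (hF R hR).2.1
    exact mem_Icc.2 ⟨Finset.card_pos.2 h1, hM R hR⟩
  rw [← Finset.sum_fiberwise_of_maps_to hmaps]
  apply Finset.sum_le_sum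
  intro h hh
  have hh1 : 1 ≤ h := (mem_Icc.1 hh).1
  have hcount := relSet_count (ℓ := ℓ) S D hS hℓ hε hE h hh1
  have hsub : 𝓕.filter (fun R => R.card = h) ⊆
      (S.powerset).filter (fun R => IsRelSet (F := ZMod ℓ) (uvec ℓ) R ∧ R.card = h) := by
    intro R hR
    simp only [mem_filter, mem_powerset] at hR ⊢
    exact ⟨(hF R hR.1).1, (hF R hR.1).2, hR.2⟩
  have hcard := Finset.card_le_card hsub
  have hsum : ∑ R ∈ 𝓕.filter (fun R => R.card = h), g R.card =
      ((𝓕.filter (fun R => R.card = h)).card : ℝ) * g h := by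
    rw [Finset.sum_congr rfl (g := fun _ => g h)]
    · simp
    · intro R hR
      rw [(mem_filter.1 hR).2]
  rw [hsum]
  apply mul_le_mul_of_nonneg_right _ (hg h)
  refine le_trans ?_ hcount
  convert (Nat.cast_le (α := ℝ)).2 hcard using 2

/-- Power comparison. -/
lemma pow_pred_le {x : ℝ} (hx : 1 ≤ x) {h M : ℕ} (hh : h ≤ M) : x ^ (h - 1) ≤ x ^ M :=
  pow_le_pow_right₀ hx (by omega)

/-- `Ddd` of a subset. -/
lemma Ddd_card_eq {S Ω : Finset (β → ℤ)} (hΩ : Ω ⊆ S) (r : ℕ) :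
    ((Ddd Q q r Ω).card : ℝ) =
      ∑ D ∈ Ddd Q q r S, (if D ⊆ Ω then (1 : ℝ) else 0) := by
  rw [Finset.sum_boole]
  congr 2
  ext D
  simp only [Ddd, mem_filter, mem_powerset]
  constructor
  · rintro ⟨h1, h2⟩
    exact ⟨⟨h1.trans hΩ, h2⟩, h1⟩
  · rintro ⟨⟨_, h2⟩, h1⟩
    exact ⟨h1, h2⟩

/-- Third term. -/
lemma sum_Ddd_le {S : Finset (β → ℤ)} {D : ℕ} (hS : ∀ v ∈ S, ∀ i, |v i| ≤ (D : ℤ))
    (hq : 4 * D < q) {ε : ℝ} (hε : 0 ≤ ε) (hE : (energy S : ℝ) ≤ ε ^ 2 * (S.card : ℝ) ^ 3)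
    (r : ℕ) (hqθ : 1 ≤ (q : ℝ) * ((S.card : ℝ) * pp Q c)) :
    ∑ p : Pr β Q c, ((Ddd Q q r (fibre S p.1 p.2)).card : ℝ) ≤
      Tot β Q c * (ε * (r + 1) * ((q : ℝ) * ((S.card : ℝ) * pp Q c)) ^ (r + 1)) := by
  have hp0 := pp_pos (Q := Q) (c := c)
  have hp1 := pp_le_one (Q := Q) (c := c)
  have hT0 := Tot_pos (β := β) (Q := Q) (c := c)
  have h1 : ∑ p : Pr β Q c, ((Ddd Q q r (fibre S p.1 p.2)).card : ℝ) =
      ∑ D' ∈ Ddd Q q r S, Tot β Q c * pp Q c ^ D'.card := by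
    calc ∑ p : Pr β Q c, ((Ddd Q q r (fibre S p.1 p.2)).card : ℝ)
        = ∑ p : Pr β Q c, ∑ D' ∈ Ddd Q q r S, (if D' ⊆ fibre S p.1 p.2 then (1 : ℝ) else 0) := by
          refine Finset.sum_congr rfl fun p _ => ?_
          exact Ddd_card_eq (fibre_subset S p) r
      _ = ∑ D' ∈ Ddd Q q r S, ∑ p : Pr β Q c, (if D' ⊆ fibre S p.1 p.2 then (1 : ℝ) else 0) :=
          Finset.sum_comm
      _ = _ := by
          refine Finset.sum_congr rfl fun D' hD' => ?_
          simp only [Ddd, mem_filter, mem_powerset] at hD'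
          rw [sum_indicator_subset hD'.1, cnt_indep hD'.2.2.2]
  rw [h1]
  have h2 := sum_relsets_le (ℓ := q) hS hq hε hE (Ddd Q q r S) (by
      intro R hR
      simp only [Ddd, mem_filter, mem_powerset] at hR
      exact ⟨hR.1, hR.2.1⟩) (M := r + 1) (by
      intro R hR
      simp only [Ddd, mem_filter, mem_powerset] at hR
      exact hR.2.2.1) (fun h => Tot β Q c * pp Q c ^ h) (fun h => by positivity)
  refine h2.trans ?_
  have h3 : ∀ h ∈ Icc 1 (r + 1), ((q : ℝ) * (S.card : ℝ)) ^ (h - 1) * ε * (Tot β Q c * pp Q c ^ h) ≤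
      Tot β Q c * (ε * ((q : ℝ) * ((S.card : ℝ) * pp Q c)) ^ (r + 1)) := by
    intro h hh
    have hh' := mem_Icc.1 hh
    have h4 : ((q : ℝ) * (S.card : ℝ)) ^ (h - 1) * pp Q c ^ h ≤
        ((q : ℝ) * ((S.card : ℝ) * pp Q c)) ^ (r + 1) := by
      have h5 : pp Q c ^ h = pp Q c ^ (h - 1) * pp Q c := by
        rw [← pow_succ]; congr 1; omega
      rw [h5]
      have h6 : ((q : ℝ) * (S.card : ℝ)) ^ (h - 1) * (pp Q c ^ (h - 1) * pp Q c) =
          ((q : ℝ) * ((S.card : ℝ) * pp Q c)) ^ (h - 1) * pp Q c := by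
        rw [← mul_assoc, ← mul_pow]; ring
      rw [h6]
      calc ((q : ℝ) * ((S.card : ℝ) * pp Q c)) ^ (h - 1) * pp Q c
          ≤ ((q : ℝ) * ((S.card : ℝ) * pp Q c)) ^ (h - 1) * 1 := by
            apply mul_le_mul_of_nonneg_left hp1 (by positivity)
        _ = ((q : ℝ) * ((S.card : ℝ) * pp Q c)) ^ (h - 1) := mul_one _
        _ ≤ _ := pow_pred_le hqθ hh'.2
    calc ((q : ℝ) * (S.card : ℝ)) ^ (h - 1) * ε * (Tot β Q c * pp Q c ^ h)
        = Tot β Q c * (ε * (((q : ℝ) * (S.card : ℝ)) ^ (h - 1) * pp Q c ^ h)) := by ring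
      _ ≤ _ := by gcongr
  refine (Finset.sum_le_sum h3).trans ?_
  simp only [Finset.sum_const, Nat.card_Icc, nsmul_eq_mul]
  have : ((r + 1 + 1 - 1 : ℕ) : ℝ) = (r : ℝ) + 1 := by
    push_cast [Nat.add_sub_cancel]; ring
  rw [this]
  apply le_of_eq
  ring

/-- First term. -/
lemma sum_notRf_le {S : Finset (β → ℤ)} {D : ℕ} (hS : ∀ v ∈ S, ∀ i, |v i| ≤ (D : ℤ))
    (hQ : 4 * D < Q) {ε : ℝ} (hε : 0 ≤ ε) (hE : (energy S : ℝ) ≤ ε ^ 2 * (S.card : ℝ) ^ 3)
    (t : ℕ) (hQθ : 1 ≤ (Q : ℝ) * ((S.card : ℝ) * pp Q c)) :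
    ∑ p : Pr β Q c, (if Rf Q t (fibre S p.1 p.2) then (0 : ℝ) else 1) ≤
      Tot β Q c * (ε * (4 * t) * ((Q : ℝ) * ((S.card : ℝ) * pp Q c)) ^ (4 * t)) := by
  have hp0 := pp_pos (Q := Q) (c := c)
  have hT0 := Tot_pos (β := β) (Q := Q) (c := c)
  let 𝓡 : Finset (Finset (β → ℤ)) := S.powerset.filter (fun R =>
    IsRelSet (F := ZMod Q) (uvec Q) R ∧ R.card ≤ 2 * t ∧
    Module.finrank (ZMod Q) (Submodule.span (ZMod Q) ((uvec Q) '' (R : Set (β → ℤ)))) + 1 = R.card)
  have h1 : ∀ p : Pr β Q c, (if Rf Q t (fibre S p.1 p.2) then (0 : ℝ) else 1) ≤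
      ∑ R ∈ 𝓡, (if R ⊆ fibre S p.1 p.2 then (1 : ℝ) else 0) := by
    intro p
    by_cases hR : Rf Q t (fibre S p.1 p.2)
    · simp only [hR, if_true]
      apply Finset.sum_nonneg
      intro R _
      split_ifs <;> norm_num
    · simp only [hR, if_false]
      unfold Rf at hR
      push Not at hR
      obtain ⟨R₀, hR₀, hrel, hL⟩ := hR
      obtain ⟨R, hRΩ, hRrel, hRc, hRrk⟩ := lemma_N (F := ZMod Q) (uvec Q) (Ω := fibre S p.1 p.2)
        (T := ∅) (R₀ := R₀) (by simp) (by simp [LinearIndepOn]) hR₀ hrel hL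
      have hemp : (∅ ∪ R : Finset (β → ℤ)) = R := Finset.empty_union R
      rw [hemp] at hRrk
      simp only [Finset.card_empty, add_zero] at hRc
      have hmem : R ∈ 𝓡 := by
        simp only [𝓡, mem_filter, mem_powerset]
        exact ⟨hRΩ.trans (fibre_subset S p), hRrel, hRc, hRrk⟩
      have h2 := Finset.single_le_sum (f := fun R' => (if R' ⊆ fibre S p.1 p.2 then (1 : ℝ) else 0))
        (s := 𝓡) (fun R' _ => by split_ifs <;> norm_num) hmem
      simpa [hRΩ] using h2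
  refine (Finset.sum_le_sum fun p _ => h1 p).trans ?_
  rw [Finset.sum_comm]
  have h2 : ∑ R ∈ 𝓡, ∑ p : Pr β Q c, (if R ⊆ fibre S p.1 p.2 then (1 : ℝ) else 0) =
      ∑ R ∈ 𝓡, Tot β Q c * pp Q c ^ (R.card - 1) := by
    refine Finset.sum_congr rfl fun R hR => ?_
    simp only [𝓡, mem_filter, mem_powerset] at hR
    rw [sum_indicator_subset hR.1, cnt_null hR.2.2.2]
  rw [h2]
  have h3 := sum_relsets_le (ℓ := Q) hS hQ hε hE 𝓡 (by
      intro R hR
      simp only [𝓡, mem_filter, mem_powerset] at hR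
      exact ⟨hR.1, hR.2.1⟩) (M := 2 * t) (by
      intro R hR
      simp only [𝓡, mem_filter, mem_powerset] at hR
      exact hR.2.2.1) (fun h => Tot β Q c * pp Q c ^ (h - 1)) (fun h => by positivity)
  refine h3.trans ?_
  have h4 : ∀ h ∈ Icc 1 (2 * t), ((Q : ℝ) * (S.card : ℝ)) ^ (h - 1) * ε * (Tot β Q c * pp Q c ^ (h - 1)) ≤
      Tot β Q c * (ε * ((Q : ℝ) * ((S.card : ℝ) * pp Q c)) ^ (4 * t)) := by
    intro h hh
    have hh' := mem_Icc.1 hh
    have h6 : ((Q : ℝ) * (S.card : ℝ)) ^ (h - 1) * pp Q c ^ (h - 1) =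
        ((Q : ℝ) * ((S.card : ℝ) * pp Q c)) ^ (h - 1) := by
      rw [← mul_pow]; ring
    calc ((Q : ℝ) * (S.card : ℝ)) ^ (h - 1) * ε * (Tot β Q c * pp Q c ^ (h - 1))
        = Tot β Q c * (ε * (((Q : ℝ) * (S.card : ℝ)) ^ (h - 1) * pp Q c ^ (h - 1))) := by ring
      _ = Tot β Q c * (ε * ((Q : ℝ) * ((S.card : ℝ) * pp Q c)) ^ (h - 1)) := by rw [h6]
      _ ≤ _ := mul_le_mul_of_nonneg_left (mul_le_mul_of_nonneg_left
          (pow_le_pow_right₀ hQθ (by omega)) hε) hT0.le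
  refine (Finset.sum_le_sum h4).trans ?_
  simp only [Finset.sum_const, Nat.card_Icc, nsmul_eq_mul]
  have h5 : ((2 * t + 1 - 1 : ℕ) : ℝ) = 2 * (t : ℝ) := by
    simp
  rw [h5]
  have h7 : 0 ≤ Tot β Q c * (ε * ((Q : ℝ) * ((S.card : ℝ) * pp Q c)) ^ (4 * t)) := by positivity
  have h8 : (0 : ℝ) ≤ t := Nat.cast_nonneg _
  nlinarith only [h7, h8, mul_nonneg h8 h7]

/-- Binomial coefficient of a subset size as a sum over subsets of `S`. -/
lemma choose_card_eq {S Ω : Finset (β → ℤ)} (hΩ : Ω ⊆ S) (j : ℕ) :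
    ((Ω.card.choose j : ℕ) : ℝ) = ∑ X ∈ powersetCard j S, (if X ⊆ Ω then (1 : ℝ) else 0) := by
  rw [Finset.sum_boole, ← Finset.card_powersetCard]
  congr 2
  ext X
  simp only [mem_powersetCard, mem_filter]
  constructor
  · rintro ⟨h1, h2⟩
    exact ⟨⟨h1.trans hΩ, h2⟩, h1⟩
  · rintro ⟨⟨_, h2⟩, h1⟩
    exact ⟨h1, h2⟩

/-- The relation-free count of pairs. -/
noncomputable def CR (Q c t : ℕ) [Fact Q.Prime] (S X : Finset (β → ℤ)) : ℝ :=
  ∑ p : Pr β Q c, (if X ⊆ fibre S p.1 p.2 ∧ Rf Q t (fibre S p.1 p.2) then (1 : ℝ) else 0)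

lemma CR_nonneg (S X : Finset (β → ℤ)) (t : ℕ) : 0 ≤ CR Q c t S X := by
  unfold CR
  apply Finset.sum_nonneg
  intro p _
  split_ifs <;> norm_num

/-- Upper bound for `CR`. -/
lemma CR_le {S X : Finset (β → ℤ)} {j t : ℕ} (hX : X ∈ powersetCard j S) (hj : j ≤ 2 * t) :
    CR Q c t S X ≤ Tot β Q c * pp Q c ^ j := by
  have hXS := (mem_powersetCard.1 hX).1
  have hXc := (mem_powersetCard.1 hX).2
  by_cases hind : LinearIndepOn (ZMod Q) (uvec Q) (X : Set (β → ℤ))
  · rw [← hXc, ← cnt_indep hind, ← sum_indicator_subset hXS]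
    unfold CR
    apply Finset.sum_le_sum
    intro p _
    by_cases h1 : X ⊆ fibre S p.1 p.2
    · simp only [h1, true_and, if_true]
      split_ifs <;> norm_num
    · simp [h1]
  · obtain ⟨R, hRX, hRrel⟩ := exists_relSet_of_not_indep (F := ZMod Q) (uvec Q) hind
    have : CR Q c t S X = 0 := by
      unfold CR
      apply Finset.sum_eq_zero
      intro p _
      rw [if_neg]
      rintro ⟨h1, h2⟩
      have h3 := h2 R (hRX.trans h1) hRrel
      have h4 := Finset.card_le_card hRX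
      omega
    rw [this]
    have := Tot_pos (β := β) (Q := Q) (c := c)
    have := pp_pos (Q := Q) (c := c)
    positivity

/-- Relation sets of size at most `4 t`. -/
noncomputable def RR (Q t : ℕ) [Fact Q.Prime] (S : Finset (β → ℤ)) : Finset (Finset (β → ℤ)) :=
  S.powerset.filter (fun R => IsRelSet (F := ZMod Q) (uvec Q) R ∧ R.card ≤ 4 * t)

/-- Lower bound for `CR`. -/
lemma CR_ge {S X : Finset (β → ℤ)} {j t : ℕ} (hX : X ∈ powersetCard j S) (hj : j ≤ 2 * t) :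
    Tot β Q c * pp Q c ^ j ≤
      CR Q c t S X + Tot β Q c * ∑ R ∈ RR Q t S, pp Q c ^ ((X ∪ R).card - 1) := by
  have hXS := (mem_powersetCard.1 hX).1
  have hXc := (mem_powersetCard.1 hX).2
  have hp0 := pp_pos (Q := Q) (c := c)
  have hp1 := pp_le_one (Q := Q) (c := c)
  have hT0 := Tot_pos (β := β) (Q := Q) (c := c)
  by_cases hind : LinearIndepOn (ZMod Q) (uvec Q) (X : Set (β → ℤ))
  · let 𝓡₂ : Finset (Finset (β → ℤ)) := (RR Q t S).filter (fun R =>
      Module.finrank (ZMod Q) (Submodule.span (ZMod Q) ((uvec Q) '' ((X ∪ R : Finset (β → ℤ)) : Set (β → ℤ))))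
        + 1 = (X ∪ R).card)
    have h1 : Tot β Q c * pp Q c ^ j = ∑ p : Pr β Q c, (if X ⊆ fibre S p.1 p.2 then (1 : ℝ) else 0) := by
      rw [sum_indicator_subset hXS, cnt_indep hind, hXc]
    rw [h1]
    have h2 : ∀ p : Pr β Q c, (if X ⊆ fibre S p.1 p.2 then (1 : ℝ) else 0) ≤
        (if X ⊆ fibre S p.1 p.2 ∧ Rf Q t (fibre S p.1 p.2) then (1 : ℝ) else 0) +
        ∑ R ∈ 𝓡₂, (if X ∪ R ⊆ fibre S p.1 p.2 then (1 : ℝ) else 0) := by
      intro p
      have hnn : 0 ≤ ∑ R ∈ 𝓡₂, (if X ∪ R ⊆ fibre S p.1 p.2 then (1 : ℝ) else 0) := by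
        apply Finset.sum_nonneg
        intro R _
        split_ifs <;> norm_num
      by_cases h3 : X ⊆ fibre S p.1 p.2
      · by_cases h4 : Rf Q t (fibre S p.1 p.2)
        · simp only [h3, h4, and_self, if_true]
          linarith
        · simp only [h3, h4, and_false, if_false, if_true, zero_add]
          unfold Rf at h4
          push Not at h4
          obtain ⟨R₀, hR₀, hrel, hL⟩ := h4
          obtain ⟨R, hRΩ, hRrel, hRc, hRrk⟩ := lemma_N (F := ZMod Q) (uvec Q)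
            (Ω := fibre S p.1 p.2) (T := X) (R₀ := R₀) h3 hind hR₀ hrel hL
          have hmem : R ∈ 𝓡₂ := by
            simp only [𝓡₂, RR, mem_filter, mem_powerset]
            refine ⟨⟨hRΩ.trans (fibre_subset S p), hRrel, ?_⟩, hRrk⟩
            omega
          have h5 := Finset.single_le_sum
            (f := fun R' => (if X ∪ R' ⊆ fibre S p.1 p.2 then (1 : ℝ) else 0))
            (s := 𝓡₂) (fun R' _ => by split_ifs <;> norm_num) hmem
          have h6 : X ∪ R ⊆ fibre S p.1 p.2 := Finset.union_subset h3 hRΩ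
          simpa [h6] using h5
      · simp only [h3, false_and, if_false, zero_add]
        exact hnn
    refine (Finset.sum_le_sum fun p _ => h2 p).trans ?_
    rw [Finset.sum_add_distrib]
    apply add_le_add le_rfl
    rw [Finset.sum_comm, Finset.mul_sum]
    have h7 : ∑ R ∈ 𝓡₂, ∑ p : Pr β Q c, (if X ∪ R ⊆ fibre S p.1 p.2 then (1 : ℝ) else 0) =
        ∑ R ∈ 𝓡₂, Tot β Q c * pp Q c ^ ((X ∪ R).card - 1) := by
      refine Finset.sum_congr rfl fun R hR => ?_
      simp only [𝓡₂, RR, mem_filter, mem_powerset] at hR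
      rw [sum_indicator_subset (Finset.union_subset hXS hR.1.1), cnt_null hR.2]
    rw [h7]
    exact Finset.sum_le_sum_of_subset_of_nonneg (Finset.filter_subset _ _)
      (fun R _ _ => by positivity)
  · obtain ⟨R, hRX, hRrel⟩ := exists_relSet_of_not_indep (F := ZMod Q) (uvec Q) hind
    have hmem : R ∈ RR Q t S := by
      simp only [RR, mem_filter, mem_powerset]
      have h4 := Finset.card_le_card hRX
      exact ⟨hRX.trans hXS, hRrel, by omega⟩
    have h5 := Finset.single_le_sum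
      (f := fun R' => pp Q c ^ ((X ∪ R').card - 1))
      (s := RR Q t S) (fun R' _ => by positivity) hmem
    have h6 : X ∪ R = X := Finset.union_eq_left.2 hRX
    simp only [h6] at h5
    have h7 : pp Q c ^ j ≤ pp Q c ^ (X.card - 1) := by
      rw [hXc]
      exact pow_le_pow_of_le_one hp0.le hp1 (by omega)
    have h8 := CR_nonneg (Q := Q) (c := c) S X t
    have h9 : Tot β Q c * pp Q c ^ j ≤ Tot β Q c * ∑ R ∈ RR Q t S, pp Q c ^ ((X ∪ R).card - 1) := by
      apply mul_le_mul_of_nonneg_left (h7.trans h5) hT0.le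
    linarith

/-- Sum over the `j`-subsets of `p^{|X ∪ R| - 1}`. -/
lemma sum_X_le {p : ℝ} (hp0 : 0 ≤ p) {S R : Finset (β → ℤ)} (hR : R ⊆ S) (hRne : R.Nonempty) (j : ℕ) :
    ∑ X ∈ powersetCard j S, p ^ ((X ∪ R).card - 1) ≤
      p ^ (R.card - 1) * 2 ^ R.card * Real.exp ((S.card : ℝ) * p) := by
  have h1 : ∀ X ∈ powersetCard j S, p ^ ((X ∪ R).card - 1) = p ^ (R.card - 1) * p ^ (X \ R).card := by
    intro X _
    have h2 : (X ∪ R).card = (X \ R).card + R.card := by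
      rw [← Finset.sdiff_union_self_eq_union]
      exact Finset.card_union_of_disjoint Finset.sdiff_disjoint
    have h3 := Finset.card_pos.2 hRne
    rw [← pow_add]
    congr 1
    omega
  rw [Finset.sum_congr rfl h1, ← Finset.mul_sum]
  have hmaps : ∀ X ∈ powersetCard j S, X ∩ R ∈ R.powerset := by
    intro X _
    exact mem_powerset.2 Finset.inter_subset_right
  rw [← Finset.sum_fiberwise_of_maps_to hmaps, mul_assoc]
  apply mul_le_mul_of_nonneg_left _ (by positivity)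
  have h4 : ∀ A ∈ R.powerset,
      ∑ X ∈ (powersetCard j S).filter (fun X => X ∩ R = A), p ^ (X \ R).card ≤
        Real.exp ((S.card : ℝ) * p) := by
    intro A _
    by_cases hA : A.card ≤ j
    · set l := j - A.card with hl
      have h5 : ∀ X ∈ (powersetCard j S).filter (fun X => X ∩ R = A), (X \ R).card = l := by
        intro X hX
        simp only [mem_filter, mem_powersetCard] at hX
        have h6 := Finset.card_sdiff_add_card_inter X R
        rw [hX.2, hX.1.2] at h6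
        omega
      rw [Finset.sum_congr rfl (fun X hX => by rw [h5 X hX])]
      simp only [Finset.sum_const, nsmul_eq_mul]
      have h7 : ((powersetCard j S).filter (fun X => X ∩ R = A)).card ≤ (powersetCard l S).card := by
        apply Finset.card_le_card_of_injOn (fun X => X \ R)
        · intro X hX
          have hm := Finset.mem_coe.1 hX
          have hl' := h5 X hm
          simp only [mem_filter, mem_powersetCard] at hm
          exact Finset.mem_coe.2 (mem_powersetCard.2 ⟨Finset.sdiff_subset.trans hm.1.1, hl'⟩)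
        · intro X hX Y hY hXY
          have hm1 := Finset.mem_coe.1 hX
          have hm2 := Finset.mem_coe.1 hY
          simp only [mem_filter, mem_powersetCard] at hm1 hm2
          have hXY' : X \ R = Y \ R := hXY
          rw [← Finset.sdiff_union_inter X R, ← Finset.sdiff_union_inter Y R, hXY', hm1.2, hm2.2]
      rw [Finset.card_powersetCard] at h7
      have h8 : ((S.card.choose l : ℕ) : ℝ) ≤ (S.card : ℝ) ^ l / (l.factorial : ℝ) :=
        Nat.choose_le_pow_div l S.card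
      have h9 : ((S.card : ℝ) * p) ^ l / (l.factorial : ℝ) ≤ Real.exp ((S.card : ℝ) * p) :=
        Real.pow_div_factorial_le_exp _ (by positivity) l
      calc (((powersetCard j S).filter (fun X => X ∩ R = A)).card : ℝ) * p ^ l
          ≤ ((S.card.choose l : ℕ) : ℝ) * p ^ l := by
            apply mul_le_mul_of_nonneg_right _ (by positivity)
            exact_mod_cast h7
        _ ≤ (S.card : ℝ) ^ l / (l.factorial : ℝ) * p ^ l := by
            apply mul_le_mul_of_nonneg_right h8 (by positivity)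
        _ = ((S.card : ℝ) * p) ^ l / (l.factorial : ℝ) := by
            rw [mul_pow]; ring
        _ ≤ _ := h9
    · have hempty : (powersetCard j S).filter (fun X => X ∩ R = A) = ∅ := by
        apply Finset.filter_eq_empty_iff.2
        intro X hX hXA
        have h5 := (mem_powersetCard.1 hX).2
        have h6 := Finset.card_le_card (Finset.inter_subset_left (s₁ := X) (s₂ := R))
        rw [hXA] at h6
        omega
      rw [hempty]
      simp only [Finset.sum_empty]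
      exact (Real.exp_pos _).le
  refine (Finset.sum_le_sum h4).trans ?_
  simp only [Finset.sum_const, Finset.card_powerset, nsmul_eq_mul]
  push_cast
  exact le_rfl

/-- The moments restricted to the relation-free event. -/
noncomputable def Aj (Q c t j : ℕ) [Fact Q.Prime] (S : Finset (β → ℤ)) : ℝ :=
  ∑ p : Pr β Q c, (if Rf Q t (fibre S p.1 p.2) then
    (((fibre S p.1 p.2).card.choose j : ℕ) : ℝ) else 0)

lemma Aj_eq (S : Finset (β → ℤ)) (t j : ℕ) :
    Aj Q c t j S = ∑ X ∈ powersetCard j S, CR Q c t S X := by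
  unfold Aj CR
  rw [Finset.sum_comm]
  refine Finset.sum_congr rfl fun p _ => ?_
  by_cases hR : Rf Q t (fibre S p.1 p.2)
  · simp only [hR, if_true, and_true]
    exact choose_card_eq (fibre_subset S p) j
  · simp [hR]

lemma Aj_le {S : Finset (β → ℤ)} {t j : ℕ} (hj : j ≤ 2 * t) :
    Aj Q c t j S ≤ ((S.card.choose j : ℕ) : ℝ) * (Tot β Q c * pp Q c ^ j) := by
  rw [Aj_eq]
  calc ∑ X ∈ powersetCard j S, CR Q c t S X
      ≤ ∑ X ∈ powersetCard j S, Tot β Q c * pp Q c ^ j :=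
        Finset.sum_le_sum fun X hX => CR_le hX hj
    _ = _ := by
        simp only [Finset.sum_const, Finset.card_powersetCard, nsmul_eq_mul]

/-- The error term. -/
noncomputable def Dstar (Q t : ℕ) (θ ε : ℝ) : ℝ :=
  Real.exp θ * (ε * (4 * t) * 2 ^ (4 * t) * ((Q : ℝ) * θ) ^ (4 * t))

lemma Aj_ge {S : Finset (β → ℤ)} {D : ℕ} (hS : ∀ v ∈ S, ∀ i, |v i| ≤ (D : ℤ))
    (hQ : 4 * D < Q) {ε : ℝ} (hε : 0 ≤ ε) (hE : (energy S : ℝ) ≤ ε ^ 2 * (S.card : ℝ) ^ 3)
    {t j : ℕ} (hj : j ≤ 2 * t) (hQθ : 1 ≤ (Q : ℝ) * ((S.card : ℝ) * pp Q c)) :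
    ((S.card.choose j : ℕ) : ℝ) * (Tot β Q c * pp Q c ^ j) ≤
      Aj Q c t j S + Tot β Q c * Dstar Q t ((S.card : ℝ) * pp Q c) ε := by
  have hp0 := pp_pos (Q := Q) (c := c)
  have hT0 := Tot_pos (β := β) (Q := Q) (c := c)
  rw [Aj_eq]
  have h1 : ((S.card.choose j : ℕ) : ℝ) * (Tot β Q c * pp Q c ^ j) =
      ∑ X ∈ powersetCard j S, Tot β Q c * pp Q c ^ j := by
    simp only [Finset.sum_const, Finset.card_powersetCard, nsmul_eq_mul]
  rw [h1]
  refine (Finset.sum_le_sum fun X hX => CR_ge (c := c) hX hj).trans ?_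
  rw [Finset.sum_add_distrib]
  apply add_le_add le_rfl
  rw [← Finset.mul_sum, Finset.sum_comm]
  apply mul_le_mul_of_nonneg_left _ hT0.le
  set θ := (S.card : ℝ) * pp Q c with hθ
  have h2 : ∀ R ∈ RR Q t S, ∑ X ∈ powersetCard j S, pp Q c ^ ((X ∪ R).card - 1) ≤
      pp Q c ^ (R.card - 1) * 2 ^ R.card * Real.exp θ := by
    intro R hR
    simp only [RR, mem_filter, mem_powerset] at hR
    exact sum_X_le hp0.le hR.1 hR.2.1.1 j
  refine (Finset.sum_le_sum h2).trans ?_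
  have h3 := sum_relsets_le (ℓ := Q) hS hQ hε hE (RR Q t S) (by
      intro R hR
      simp only [RR, mem_filter, mem_powerset] at hR
      exact ⟨hR.1, hR.2.1⟩) (M := 4 * t) (by
      intro R hR
      simp only [RR, mem_filter, mem_powerset] at hR
      exact hR.2.2) (fun h => pp Q c ^ (h - 1) * 2 ^ h * Real.exp θ) (fun h => by positivity)
  refine h3.trans ?_
  have h4 : ∀ h ∈ Icc 1 (4 * t), ((Q : ℝ) * (S.card : ℝ)) ^ (h - 1) * ε *
      (pp Q c ^ (h - 1) * 2 ^ h * Real.exp θ) ≤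
      Real.exp θ * (ε * 2 ^ (4 * t) * ((Q : ℝ) * θ) ^ (4 * t)) := by
    intro h hh
    have hh' := mem_Icc.1 hh
    have h6 : ((Q : ℝ) * (S.card : ℝ)) ^ (h - 1) * pp Q c ^ (h - 1) = ((Q : ℝ) * θ) ^ (h - 1) := by
      rw [← mul_pow, hθ]; ring
    have h7 : ((Q : ℝ) * θ) ^ (h - 1) ≤ ((Q : ℝ) * θ) ^ (4 * t) := pow_pred_le hQθ hh'.2
    have h8 : (2 : ℝ) ^ h ≤ 2 ^ (4 * t) := pow_le_pow_right₀ (by norm_num) hh'.2
    calc ((Q : ℝ) * (S.card : ℝ)) ^ (h - 1) * ε * (pp Q c ^ (h - 1) * 2 ^ h * Real.exp θ)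
        = Real.exp θ * (ε * 2 ^ h * (((Q : ℝ) * (S.card : ℝ)) ^ (h - 1) * pp Q c ^ (h - 1))) := by ring
      _ = Real.exp θ * (ε * 2 ^ h * ((Q : ℝ) * θ) ^ (h - 1)) := by rw [h6]
      _ ≤ Real.exp θ * (ε * 2 ^ (4 * t) * ((Q : ℝ) * θ) ^ (4 * t)) := by
        apply mul_le_mul_of_nonneg_left _ (Real.exp_pos _).le
        apply mul_le_mul (mul_le_mul_of_nonneg_left h8 hε) h7 (by positivity) (by positivity)
  refine (Finset.sum_le_sum h4).trans ?_
  simp only [Finset.sum_const, Nat.card_Icc, nsmul_eq_mul]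
  have h5 : ((4 * t + 1 - 1 : ℕ) : ℝ) = 4 * (t : ℝ) := by simp
  rw [h5]
  unfold Dstar
  apply le_of_eq
  ring

end Main

set_option maxHeartbeats 1000000 in
/-- The Poisson lemma. -/
theorem poisson_fibre {Q q : ℕ} [Fact Q.Prime] [Fact q.Prime] (S : Finset (β → ℤ)) (D : ℕ)
    (hS : ∀ v ∈ S, ∀ i, |v i| ≤ (D : ℤ)) (hQ : 4 * D < Q) (hq : 4 * D < q)
    (c r t : ℕ) (hrt : r + 1 ≤ 2 * t) (θ ε : ℝ) (hθ : θ = (S.card : ℝ) / (Q : ℝ) ^ c) (hθ1 : 1 ≤ θ)
    (hε : 0 ≤ ε) (hE : (energy S : ℝ) ≤ ε ^ 2 * (S.card : ℝ) ^ 3) :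
    (badCount Q q c r S : ℝ) ≤ (Q : ℝ) ^ (c * Fintype.card β + c) * plBound Q q r t θ ε := by
  classical
  have hθp : θ = (S.card : ℝ) * pp Q c := by
    rw [hθ, pp]; ring
  have hp0 := pp_pos (Q := Q) (c := c)
  have hp1 := pp_le_one (Q := Q) (c := c)
  have hT0 := Tot_pos (β := β) (Q := Q) (c := c)
  have hQ1 : (1 : ℝ) ≤ (Q : ℝ) := by
    have := (Fact.out : Q.Prime).one_lt
    exact_mod_cast this.le
  have hq1 : (1 : ℝ) ≤ (q : ℝ) := by
    have := (Fact.out : q.Prime).one_lt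
    exact_mod_cast this.le
  have hQθ : 1 ≤ (Q : ℝ) * ((S.card : ℝ) * pp Q c) := by
    rw [← hθp]; nlinarith only [hθ1, hQ1]
  have hqθ : 1 ≤ (q : ℝ) * ((S.card : ℝ) * pp Q c) := by
    rw [← hθp]; nlinarith only [hθ1, hq1]
  have hbad : (badCount Q q c r S : ℝ) =
      ∑ p : Pr β Q c, (if GoodFibre q r (fibre S p.1 p.2) then (0 : ℝ) else 1) := by
    unfold badCount
    rw [Finset.card_filter]
    push_cast
    refine Finset.sum_congr rfl fun p _ => ?_
    by_cases h : GoodFibre q r (fibre S p.1 p.2) <;> simp [h]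
  rw [hbad]
  have h1 := Finset.sum_le_sum (s := (Finset.univ : Finset (Pr β Q c)))
    (fun p _ => pointwise (Q := Q) (q := q) hrt (fibre S p.1 p.2))
  refine h1.trans ?_
  rw [Finset.sum_add_distrib, Finset.sum_add_distrib]
  have T1 := sum_notRf_le (c := c) hS hQ hε hE t hQθ
  have T3 := sum_Ddd_le (Q := Q) (q := q) (c := c) hS hq hε hE r hqθ
  rw [← hθp] at T1 T3
  -- the middle term
  have T2 : ∑ p : Pr β Q c, (if Rf Q t (fibre S p.1 p.2) then
        (2 : ℝ) ^ r * BB t (fibre S p.1 p.2).card else 0) ≤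
      Tot β Q c * (2 ^ r * (Real.exp (-(θ / 2)) + (θ / 2) ^ (2 * t + 1) / ((2 * t + 1).factorial : ℝ)
        + 2 * Dstar Q t θ ε)) := by
    have h2 : ∑ p : Pr β Q c, (if Rf Q t (fibre S p.1 p.2) then
        (2 : ℝ) ^ r * BB t (fibre S p.1 p.2).card else 0) =
        2 ^ r * ∑ j ∈ range (2 * t + 1), (-(1 / 2 : ℝ)) ^ j * Aj Q c t j S := by
      rw [Finset.mul_sum]
      unfold Aj BB
      simp_rw [Finset.mul_sum]
      rw [Finset.sum_comm]
      refine Finset.sum_congr rfl fun p _ => ?_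
      by_cases hR : Rf Q t (fibre S p.1 p.2)
      · simp only [hR, if_true]
      · simp [hR]
    rw [h2]
    have h3 : ∀ j ∈ range (2 * t + 1), (-(1 / 2 : ℝ)) ^ j * Aj Q c t j S ≤
        Tot β Q c * ((-(1 / 2 : ℝ)) ^ j * (((S.card.choose j : ℕ) : ℝ) * pp Q c ^ j)) +
        Tot β Q c * (Dstar Q t θ ε * (1 / 2 : ℝ) ^ j) := by
      intro j hj
      have hj' : j ≤ 2 * t := by
        have := mem_range.1 hj
        omega
      have hAle := Aj_le (Q := Q) (c := c) (S := S) (t := t) hj'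
      have hAge := Aj_ge (c := c) hS hQ hε hE (t := t) hj' hQθ
      rw [← hθp] at hAge
      have hDs : 0 ≤ Dstar Q t θ ε := by
        unfold Dstar
        have : 0 ≤ (Q : ℝ) * θ := by positivity
        positivity
      rcases Nat.even_or_odd j with he | ho
      · rw [he.neg_pow]
        have h5 : (0 : ℝ) ≤ (1 / 2 : ℝ) ^ j := by positivity
        have h6 : (1 / 2 : ℝ) ^ j * Aj Q c t j S ≤
            (1 / 2 : ℝ) ^ j * (((S.card.choose j : ℕ) : ℝ) * (Tot β Q c * pp Q c ^ j)) :=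
          mul_le_mul_of_nonneg_left hAle h5
        have h7 : 0 ≤ Tot β Q c * (Dstar Q t θ ε * (1 / 2 : ℝ) ^ j) := by positivity
        nlinarith only [h6, h7]
      · rw [ho.neg_pow]
        have h5 : (0 : ℝ) ≤ (1 / 2 : ℝ) ^ j := by positivity
        have h6 := mul_le_mul_of_nonneg_left hAge h5
        nlinarith only [h6, hDs]
    have h4 := Finset.sum_le_sum h3
    rw [Finset.sum_add_distrib, ← Finset.mul_sum, ← Finset.mul_sum, ← Finset.mul_sum] at h4
    have hmain := main_term_le hp0.le hp1 S.card t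
    rw [show (S.card : ℝ) * pp Q c / 2 = θ / 2 by rw [hθp]] at hmain
    have hgeo : ∑ j ∈ range (2 * t + 1), (1 / 2 : ℝ) ^ j ≤ 2 := sum_geometric_two_le _
    have hDs : 0 ≤ Dstar Q t θ ε := by
      unfold Dstar
      have : 0 ≤ (Q : ℝ) * θ := by positivity
      positivity
    have h5 : ∑ j ∈ range (2 * t + 1), (-(1 / 2 : ℝ)) ^ j * Aj Q c t j S ≤
        Tot β Q c * (Real.exp (-(θ / 2)) + (θ / 2) ^ (2 * t + 1) / ((2 * t + 1).factorial : ℝ)
          + 2 * Dstar Q t θ ε) := by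
      refine h4.trans ?_
      rw [mul_add (Tot β Q c)]
      apply add_le_add
      · exact mul_le_mul_of_nonneg_left hmain hT0.le
      · apply mul_le_mul_of_nonneg_left _ hT0.le
        nlinarith only [hgeo, hDs, mul_le_mul_of_nonneg_right hgeo hDs]
    calc 2 ^ r * ∑ j ∈ range (2 * t + 1), (-(1 / 2 : ℝ)) ^ j * Aj Q c t j S
        ≤ 2 ^ r * (Tot β Q c * (Real.exp (-(θ / 2)) + (θ / 2) ^ (2 * t + 1) / ((2 * t + 1).factorial : ℝ)
          + 2 * Dstar Q t θ ε)) := by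
          apply mul_le_mul_of_nonneg_left h5 (by positivity)
      _ = _ := by ring
  have hDs : 0 ≤ Dstar Q t θ ε := by
    unfold Dstar
    have : 0 ≤ (Q : ℝ) * θ := by positivity
    positivity
  have hTot : Tot β Q c = (Q : ℝ) ^ (c * Fintype.card β + c) := rfl
  rw [← hTot]
  unfold plBound
  have h2r : (0 : ℝ) < 2 ^ r := by positivity
  have hfinal : 2 * Dstar Q t θ ε ≤ 4 * Real.exp θ * ε * (4 * t) * 2 ^ (4 * t) * ((Q : ℝ) * θ) ^ (4 * t) := by
    unfold Dstar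
    have h0 : 0 ≤ Real.exp θ * (ε * (4 * t) * 2 ^ (4 * t) * ((Q : ℝ) * θ) ^ (4 * t)) := by
      have : 0 ≤ (Q : ℝ) * θ := by positivity
      positivity
    nlinarith only [h0]
  have h2r' : 2 ^ r * (2 * Dstar Q t θ ε) ≤
      2 ^ r * (4 * Real.exp θ * ε * (4 * t) * 2 ^ (4 * t) * ((Q : ℝ) * θ) ^ (4 * t)) :=
    mul_le_mul_of_nonneg_left hfinal h2r.le
  have h2r'' : Tot β Q c * (2 ^ r * (2 * Dstar Q t θ ε)) ≤
      Tot β Q c * (2 ^ r * (4 * Real.exp θ * ε * (4 * t) * 2 ^ (4 * t) * ((Q : ℝ) * θ) ^ (4 * t))) :=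
    mul_le_mul_of_nonneg_left h2r' hT0.le
  nlinarith only [T1, T2, T3, h2r'']

end Vale.Agent.Lib.P230
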