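import Vale.Agent.Lib.P230.PoissonCore

/-!
# P230: trivial count of relation sets modulo a large prime.

`card_uvec_mem_le`.  Let `U` be a subspace of `(β → F) × F`, `F = ZMod q`, `2 D < q`.  The first projection of `U` is a subspace `U₁ ≤ β → F` of dimension `≤ d = finrank U`.
A minimal coordinate set `J ⊆ β` with the restriction map `U₁ → (J → F)` injective has `|J| ≤ dim U₁`: if `|J| > dim U₁`, the image of `U₁` in `J → F` is proper, so
some nonzero functional `∑_{j∈J} c_j x_j` vanishes on it, and a coordinate `j₀` with `c_{j₀} ≠ 0` can be dropped, contradiction.  Points `v ∈ S` with `uvec q v ∈ U` are then determined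
by `(v j)_{j ∈ J}`, each `v j` in `[-D, D]`, reduction mod `q` is injective on `[-D, D]`.  So their number is at most `(2D+1)^|J| ≤ (2D+1)^d`.

`relSet_count_trivial`.  Every relation set `R` of size `h ≥ 1` has a point `v₀ ∈ R` with `uvec q v₀ ∈ span (uvec q '' (R \ {v₀}))` (coefficient nonzero), this span has dimension `≤ h-1`.
So `R ↦ (R.erase v₀, v₀)` injects the relation sets of size `h` into the pairs `(A, v)`, `A ⊆ S`, `|A| = h-1`, `v ∈ S`, `uvec q v ∈ span (uvec q '' A)`.
-/

open scoped BigOperators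

namespace Vale.Agent.Lib.P230

variable {β : Type} [Fintype β] [DecidableEq β] {q : ℕ} [Fact q.Prime]

omit [Fact q.Prime] in
/-- A small set of coordinates determines the points of a subspace. -/
lemma exists_coord_set {F : Type} [Field F] (U₁ : Submodule F (β → F)) :
    ∃ J : Finset β, J.card ≤ Module.finrank F U₁ ∧ ∀ x ∈ U₁, (∀ j ∈ J, x j = 0) → x = 0 := by
  classical
  let P : Finset β → Prop := fun J => ∀ x ∈ U₁, (∀ j ∈ J, x j = 0) → x = 0
  have hne : (Finset.univ.filter P).Nonempty :=
    ⟨Finset.univ, Finset.mem_filter.2 ⟨Finset.mem_univ _, fun x _ hx => funext fun j => hx j (Finset.mem_univ _)⟩⟩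
  obtain ⟨J, hJm, hJmin⟩ := Finset.exists_min_image _ Finset.card hne
  have hPJ : P J := (Finset.mem_filter.1 hJm).2
  refine ⟨J, ?_, hPJ⟩
  by_contra hcon
  push Not at hcon
  -- the restriction map
  let φ : U₁ →ₗ[F] (J → F) :=
    { toFun := fun x j => (x : β → F) j
      map_add' := fun x y => by ext j; simp
      map_smul' := fun c x => by ext j; simp }
  have hr : Module.finrank F (LinearMap.range φ) ≤ Module.finrank F U₁ :=
    LinearMap.finrank_range_le φ
  have hlt : LinearMap.range φ < ⊤ := by
    apply lt_top_iff_ne_top.2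
    intro htop
    have h1 : Module.finrank F (LinearMap.range φ) = J.card := by
      rw [htop, finrank_top, Module.finrank_fintype_fun_eq_card, Fintype.card_coe]
    omega
  obtain ⟨f, hf0, hf⟩ := Submodule.exists_le_ker_of_lt_top _ hlt
  obtain ⟨j₀, hj₀⟩ : ∃ j₀ : J, f (Pi.single j₀ 1) ≠ 0 := by
    by_contra hall
    push Not at hall
    apply hf0
    apply LinearMap.pi_ext'
    intro j
    ext
    simpa using hall j
  have hP' : P (J.erase j₀.1) := by
    intro x hx hx0
    apply hPJ x hx
    have hφ : φ ⟨x, hx⟩ = x j₀.1 • Pi.single j₀ (1 : F) := by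
      ext j
      by_cases hj : j = j₀
      · subst hj
        simp [φ]
      · have hj' : j.1 ≠ j₀.1 := fun h => hj (Subtype.ext h)
        have := hx0 j.1 (Finset.mem_erase.2 ⟨hj', j.2⟩)
        simp [φ, hj, this]
    have h1 : f (φ ⟨x, hx⟩) = 0 := hf ⟨_, rfl⟩
    rw [hφ, map_smul, smul_eq_mul] at h1
    have hx0' : x j₀.1 = 0 := by
      rcases mul_eq_zero.1 h1 with h | h
      · exact h
      · exact absurd h hj₀
    intro j hj
    by_cases hjj : j = j₀.1
    · rw [hjj, hx0']
    · exact hx0 j (Finset.mem_erase.2 ⟨hjj, hj⟩)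
  have h2 := hJmin _ (Finset.mem_filter.2 ⟨Finset.mem_univ _, hP'⟩)
  have h3 : (J.erase j₀.1).card < J.card := Finset.card_erase_lt_of_mem j₀.2
  omega

/-- The number of points of `S` whose reduction lies in a subspace. -/
theorem card_uvec_mem_le (S : Finset (β → ℤ)) (D : ℕ) (hS : ∀ v ∈ S, ∀ i, |v i| ≤ (D : ℤ))
    (hq : 2 * D < q) (U : Submodule (ZMod q) ((β → ZMod q) × ZMod q)) :
    open Classical in
    (S.filter (fun v => uvec q v ∈ U)).card ≤ (2 * D + 1) ^ Module.finrank (ZMod q) U := by
  classical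
  set U₁ : Submodule (ZMod q) (β → ZMod q) :=
    U.map (LinearMap.fst (ZMod q) (β → ZMod q) (ZMod q)) with hU₁
  obtain ⟨J, hJcard, hJ⟩ := exists_coord_set U₁
  have hJd : J.card ≤ Module.finrank (ZMod q) U :=
    hJcard.trans (Submodule.finrank_map_le _ _)
  -- the injection
  let T : Finset ((j : J) → ℤ) := Fintype.piFinset (fun _ => Finset.Icc (-(D : ℤ)) D)
  have hT : T.card = (2 * D + 1) ^ J.card := by
    simp only [T, Fintype.card_piFinset, Int.card_Icc, Finset.prod_const, Finset.card_univ,
      Fintype.card_coe]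
    congr 1
    omega
  have hinj : (S.filter (fun v => uvec q v ∈ U)).card ≤ T.card := by
    apply Finset.card_le_card_of_injOn (fun v (j : J) => v j.1)
    · intro v hv
      have hvS := (Finset.mem_filter.1 hv).1
      simp only [T, Finset.mem_coe, Fintype.mem_piFinset, Finset.mem_Icc]
      intro j
      exact abs_le.1 (hS v hvS j.1)
    · intro v hv w hw hvw
      have hv' := Finset.mem_filter.1 (Finset.mem_coe.1 hv)
      have hw' := Finset.mem_filter.1 (Finset.mem_coe.1 hw)
      have hmem : uvec q v - uvec q w ∈ U := U.sub_mem hv'.2 hw'.2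
      have hmem1 : (uvec q v - uvec q w).1 ∈ U₁ := ⟨_, hmem, rfl⟩
      have h0 := hJ _ hmem1 (fun j hj => by
        have := congrFun hvw ⟨j, hj⟩
        simp only at this
        simp [uvec, this])
      have h1 : redvPC q (v - w) = 0 := by
        rw [redvPC_sub]
        exact h0
      have h2 := int_vec_eq_of_redPC (ℓ := q) (v - w) (fun i => by
        have h1 := hS v hv'.1 i
        have h2 := hS w hw'.1 i
        have h3 : |(v - w) i| ≤ |v i| + |w i| := by
          simpa [Pi.sub_apply] using abs_sub (v i) (w i)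
        have h4 : (2 * (D : ℤ)) < q := by exact_mod_cast hq
        omega) h1
      exact sub_eq_zero.1 h2
  rw [hT] at hinj
  exact hinj.trans (Nat.pow_le_pow_right (by omega) hJd)

/-- The trivial count of relation sets. -/
theorem relSet_count_trivial (S : Finset (β → ℤ)) (D : ℕ) (hS : ∀ v ∈ S, ∀ i, |v i| ≤ (D : ℤ))
    (hq : 2 * D < q) (h : ℕ) (hh : 1 ≤ h) :
    open Classical in
    ((S.powerset.filter (fun R => IsRelSet (F := ZMod q) (uvec q) R ∧ R.card = h)).card : ℝ) ≤
      ((S.card.choose (h - 1) : ℕ) : ℝ) * ((2 * D + 1 : ℕ) : ℝ) ^ (h - 1) := by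
  classical
  set Rs := S.powerset.filter (fun R => IsRelSet (F := ZMod q) (uvec q) R ∧ R.card = h) with hRs
  let span' : Finset (β → ℤ) → Submodule (ZMod q) ((β → ZMod q) × ZMod q) := fun A =>
    Submodule.span (ZMod q) ((A.image (uvec q) : Finset _) : Set ((β → ZMod q) × ZMod q))
  let T : Finset (Σ _ : Finset (β → ℤ), β → ℤ) :=
    (S.powersetCard (h - 1)).sigma (fun A => S.filter (fun v => uvec q v ∈ span' A))
  have hpt : ∀ R ∈ Rs, ∃ v₀ ∈ R, v₀ ∈ S ∧ R.erase v₀ ⊆ S ∧ (R.erase v₀).card = h - 1 ∧
      uvec q v₀ ∈ span' (R.erase v₀) := by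
    intro R hR
    obtain ⟨hRS, ⟨⟨v₀, hv₀⟩, a, ha, hsum⟩, hcard⟩ := Finset.mem_filter.1 hR
    have hRS' := Finset.mem_powerset.1 hRS
    refine ⟨v₀, hv₀, hRS' hv₀, (Finset.erase_subset _ _).trans hRS', ?_, ?_⟩
    · rw [Finset.card_erase_of_mem hv₀, hcard]
    · rw [← Finset.add_sum_erase _ _ hv₀] at hsum
      have h1 : a v₀ • uvec q v₀ = - ∑ v ∈ R.erase v₀, a v • uvec q v := eq_neg_of_add_eq_zero_left hsum
      have h2 : uvec q v₀ = (a v₀)⁻¹ • (a v₀ • uvec q v₀) := by
        rw [smul_smul, inv_mul_cancel₀ (ha v₀ hv₀), one_smul]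
      rw [h2, h1]
      apply Submodule.smul_mem
      apply Submodule.neg_mem
      apply Submodule.sum_mem
      intro v hv
      apply Submodule.smul_mem
      apply Submodule.subset_span
      simp only [Finset.coe_image, Set.mem_image, Finset.mem_coe]
      exact ⟨v, hv, rfl⟩
  choose! v₀ hv₀mem hv₀S hv₀sub hv₀card hv₀span using hpt
  have hle : Rs.card ≤ T.card := by
    apply Finset.card_le_card_of_injOn (fun R => (⟨R.erase (v₀ R), v₀ R⟩ : Σ _ : Finset (β → ℤ), β → ℤ))
    · intro R hR
      have hR' := Finset.mem_coe.1 hR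
      simp only [T, Finset.coe_sigma, Set.mem_sigma_iff, Finset.mem_coe, Finset.mem_powersetCard,
        Finset.mem_filter]
      exact ⟨⟨hv₀sub R hR', hv₀card R hR'⟩, hv₀S R hR', hv₀span R hR'⟩
    · intro R hR R' hR' he
      simp only [Sigma.mk.injEq, heq_eq_eq] at he
      have h1 : R = insert (v₀ R) (R.erase (v₀ R)) := (Finset.insert_erase (hv₀mem R hR)).symm
      have h2 : R' = insert (v₀ R') (R'.erase (v₀ R')) := (Finset.insert_erase (hv₀mem R' hR')).symm
      rw [h1, h2, he.1, he.2]
  have hTcard : T.card ≤ S.card.choose (h - 1) * (2 * D + 1) ^ (h - 1) := by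
    rw [Finset.card_sigma]
    calc ∑ A ∈ S.powersetCard (h - 1), (S.filter (fun v => uvec q v ∈ span' A)).card
        ≤ ∑ _A ∈ S.powersetCard (h - 1), (2 * D + 1) ^ (h - 1) := by
          apply Finset.sum_le_sum
          intro A hA
          have hA' := Finset.mem_powersetCard.1 hA
          have h1 := card_uvec_mem_le (q := q) S D hS hq (span' A)
          have h2 : Module.finrank (ZMod q) (span' A) ≤ h - 1 := by
            calc Module.finrank (ZMod q) (span' A) ≤ (A.image (uvec q)).card :=
                  finrank_span_finset_le_card _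
              _ ≤ A.card := Finset.card_image_le
              _ = h - 1 := hA'.2
          have h3 : (S.filter (fun v => uvec q v ∈ span' A)).card ≤
              (2 * D + 1) ^ Module.finrank (ZMod q) (span' A) := by
            convert h1
          exact h3.trans (Nat.pow_le_pow_right (by omega) h2)
      _ = S.card.choose (h - 1) * (2 * D + 1) ^ (h - 1) := by
          rw [Finset.sum_const, Finset.card_powersetCard, smul_eq_mul]
  have h4 : Rs.card ≤ S.card.choose (h - 1) * (2 * D + 1) ^ (h - 1) := hle.trans hTcard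
  calc (Rs.card : ℝ) ≤ ((S.card.choose (h - 1) * (2 * D + 1) ^ (h - 1) : ℕ) : ℝ) := by
        exact_mod_cast h4
    _ = _ := by push_cast; ring

end Vale.Agent.Lib.P230
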