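import Vale.Agent.Lib.P230.Poisson
import Vale.Agent.Lib.P230.Relsets2

/-!
# P230 module P, second form: the independence modulo `q` needs no energy.
-/

open scoped BigOperators
open Finset

namespace Vale.Agent.Lib.P230

variable {β : Type} [Fintype β] [DecidableEq β]

/-- The main part of the bound of the Poisson lemma. -/
noncomputable def plMain (Q r t : ℕ) (θ ε : ℝ) : ℝ :=
  ε * (4 * t) * ((Q : ℝ) * θ) ^ (4 * t)
  + 2 ^ r * (Real.exp (-(θ / 2)) + (θ / 2) ^ (2 * t + 1) / ((2 * t + 1).factorial : ℝ)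
      + 4 * Real.exp θ * ε * (4 * t) * 2 ^ (4 * t) * ((Q : ℝ) * θ) ^ (4 * t))

/-- The third part of the bound. -/
noncomputable def plThird (D r : ℕ) (θ p : ℝ) : ℝ :=
  p * (((r : ℝ) + 1) * Real.exp θ * ((2 * D + 1 : ℕ) : ℝ) ^ r)

section Main

open Classical

variable {Q q c : ℕ} [Fact Q.Prime] [Fact q.Prime]

/-- Third term, with the trivial count of relation sets. -/
lemma sum_Ddd_le2 {S : Finset (β → ℤ)} {D : ℕ} (hS : ∀ v ∈ S, ∀ i, |v i| ≤ (D : ℤ))
    (hq : 2 * D < q) (r : ℕ) :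
    ∑ p : Pr β Q c, ((Ddd Q q r (fibre S p.1 p.2)).card : ℝ) ≤
      Tot β Q c * plThird D r ((S.card : ℝ) * pp Q c) (pp Q c) := by
  have hp0 := pp_pos (Q := Q) (c := c)
  have hp1 := pp_le_one (Q := Q) (c := c)
  have hT0 := Tot_pos (β := β) (Q := Q) (c := c)
  have h1 : ∑ p : Pr β Q c, ((Ddd Q q r (fibre S p.1 p.2)).card : ℝ) =
      ∑ D' ∈ Ddd Q q r S, Tot β Q c * pp Q c ^ D'.card := by
    calc ∑ p : Pr β Q c, ((Ddd Q q r (fibre S p.1 p.2)).card : ℝ)
        = ∑ p : Pr β Q c, ∑ D' ∈ Ddd Q q r S, (if D' ⊆ fibre S p.1 p.2 then (1 : ℝ) else 0) := by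
          refine Finset.sum_congr rfl fun p _ => ?_
          exact Ddd_card_eq (fibre_subset S p) r
      _ = ∑ D' ∈ Ddd Q q r S, ∑ p : Pr β Q c, (if D' ⊆ fibre S p.1 p.2 then (1 : ℝ) else 0) :=
          Finset.sum_comm
      _ = _ := by
          refine Finset.sum_congr rfl fun D' hD' => ?_
          simp only [Ddd, mem_filter, mem_powerset] at hD'
          rw [sum_indicator_subset hD'.1, cnt_indep hD'.2.2.2]
  rw [h1]
  have hmaps : ∀ R ∈ Ddd Q q r S, R.card ∈ Icc 1 (r + 1) := by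
    intro R hR
    simp only [Ddd, mem_filter, mem_powerset] at hR
    exact mem_Icc.2 ⟨Finset.card_pos.2 hR.2.1.1, hR.2.2.1⟩
  rw [← Finset.sum_fiberwise_of_maps_to hmaps]
  have h2 : ∀ h ∈ Icc 1 (r + 1), ∑ R ∈ (Ddd Q q r S).filter (fun R => R.card = h),
      Tot β Q c * pp Q c ^ R.card ≤
      Tot β Q c * (pp Q c * (Real.exp ((S.card : ℝ) * pp Q c) * ((2 * D + 1 : ℕ) : ℝ) ^ r)) := by
    intro h hh
    have hh' := mem_Icc.1 hh
    have hcount := relSet_count_trivial (q := q) S D hS hq h hh'.1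
    have hsub : (Ddd Q q r S).filter (fun R => R.card = h) ⊆
        (S.powerset).filter (fun R => IsRelSet (F := ZMod q) (uvec q) R ∧ R.card = h) := by
      intro R hR
      simp only [Ddd, mem_filter, mem_powerset] at hR ⊢
      exact ⟨hR.1.1, hR.1.2.1, hR.2⟩
    have hcard := Finset.card_le_card hsub
    have hsum : ∑ R ∈ (Ddd Q q r S).filter (fun R => R.card = h), Tot β Q c * pp Q c ^ R.card =
        (((Ddd Q q r S).filter (fun R => R.card = h)).card : ℝ) * (Tot β Q c * pp Q c ^ h) := by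
      rw [Finset.sum_congr rfl (g := fun _ => Tot β Q c * pp Q c ^ h)]
      · simp
      · intro R hR
        rw [(mem_filter.1 hR).2]
    rw [hsum]
    have h3 : (((Ddd Q q r S).filter (fun R => R.card = h)).card : ℝ) ≤
        ((S.card.choose (h - 1) : ℕ) : ℝ) * ((2 * D + 1 : ℕ) : ℝ) ^ (h - 1) := by
      refine le_trans ?_ hcount
      convert (Nat.cast_le (α := ℝ)).2 hcard using 2
    have h4 : ((S.card.choose (h - 1) : ℕ) : ℝ) ≤ (S.card : ℝ) ^ (h - 1) / ((h - 1).factorial : ℝ) :=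
      Nat.choose_le_pow_div (h - 1) S.card
    have h5 : ((S.card : ℝ) * pp Q c) ^ (h - 1) / ((h - 1).factorial : ℝ) ≤
        Real.exp ((S.card : ℝ) * pp Q c) :=
      Real.pow_div_factorial_le_exp _ (by positivity) (h - 1)
    have h6 : ((2 * D + 1 : ℕ) : ℝ) ^ (h - 1) ≤ ((2 * D + 1 : ℕ) : ℝ) ^ r := by
      apply pow_le_pow_right₀
      · push_cast
        have : (0 : ℝ) ≤ (D : ℝ) := Nat.cast_nonneg _
        linarith
      · omega
    have h7 : pp Q c ^ h = pp Q c ^ (h - 1) * pp Q c := by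
      rw [← pow_succ]; congr 1; omega
    have hfact : (0 : ℝ) < ((h - 1).factorial : ℝ) := by exact_mod_cast Nat.factorial_pos _
    calc (((Ddd Q q r S).filter (fun R => R.card = h)).card : ℝ) * (Tot β Q c * pp Q c ^ h)
        ≤ (((S.card.choose (h - 1) : ℕ) : ℝ) * ((2 * D + 1 : ℕ) : ℝ) ^ (h - 1)) *
            (Tot β Q c * pp Q c ^ h) := by gcongr
      _ ≤ ((S.card : ℝ) ^ (h - 1) / ((h - 1).factorial : ℝ) * ((2 * D + 1 : ℕ) : ℝ) ^ (h - 1)) *
            (Tot β Q c * pp Q c ^ h) := by gcongr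
      _ = Tot β Q c * (pp Q c * ((((S.card : ℝ) * pp Q c) ^ (h - 1) / ((h - 1).factorial : ℝ)) *
            ((2 * D + 1 : ℕ) : ℝ) ^ (h - 1))) := by
          rw [h7, mul_pow]
          field_simp
      _ ≤ _ := by gcongr
  refine (Finset.sum_le_sum h2).trans ?_
  simp only [Finset.sum_const, Nat.card_Icc, nsmul_eq_mul]
  have : ((r + 1 + 1 - 1 : ℕ) : ℝ) = (r : ℝ) + 1 := by
    push_cast [Nat.add_sub_cancel]; ring
  rw [this]
  unfold plThird
  apply le_of_eq
  ring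

end Main

set_option maxHeartbeats 1000000 in
/-- The Poisson lemma, second form. -/
theorem poisson_fibre2 {Q q : ℕ} [Fact Q.Prime] [Fact q.Prime] (S : Finset (β → ℤ)) (D : ℕ)
    (hS : ∀ v ∈ S, ∀ i, |v i| ≤ (D : ℤ)) (hQ : 4 * D < Q) (hq : 2 * D < q)
    (c r t : ℕ) (hrt : r + 1 ≤ 2 * t) (θ ε : ℝ) (hθ : θ = (S.card : ℝ) / (Q : ℝ) ^ c) (hθ1 : 1 ≤ θ)
    (hε : 0 ≤ ε) (hE : (energy S : ℝ) ≤ ε ^ 2 * (S.card : ℝ) ^ 3) :
    (badCount Q q c r S : ℝ) ≤ (Q : ℝ) ^ (c * Fintype.card β + c) *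
      (plMain Q r t θ ε + plThird D r θ (pp Q c)) := by
  classical
  have hθp : θ = (S.card : ℝ) * pp Q c := by
    rw [hθ, pp]; ring
  have hp0 := pp_pos (Q := Q) (c := c)
  have hp1 := pp_le_one (Q := Q) (c := c)
  have hT0 := Tot_pos (β := β) (Q := Q) (c := c)
  have hQ1 : (1 : ℝ) ≤ (Q : ℝ) := by
    have := (Fact.out : Q.Prime).one_lt
    exact_mod_cast this.le
  have hQθ : 1 ≤ (Q : ℝ) * ((S.card : ℝ) * pp Q c) := by
    rw [← hθp]; nlinarith only [hθ1, hQ1]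
  have hbad : (badCount Q q c r S : ℝ) =
      ∑ p : Pr β Q c, (if GoodFibre q r (fibre S p.1 p.2) then (0 : ℝ) else 1) := by
    unfold badCount
    rw [Finset.card_filter]
    push_cast
    refine Finset.sum_congr rfl fun p _ => ?_
    by_cases h : GoodFibre q r (fibre S p.1 p.2) <;> simp [h]
  rw [hbad]
  have h1 := Finset.sum_le_sum (s := (Finset.univ : Finset (Pr β Q c)))
    (fun p _ => pointwise (Q := Q) (q := q) hrt (fibre S p.1 p.2))
  refine h1.trans ?_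
  rw [Finset.sum_add_distrib, Finset.sum_add_distrib]
  have T1 := sum_notRf_le (c := c) hS hQ hε hE t hQθ
  have T3 := sum_Ddd_le2 (Q := Q) (q := q) (c := c) hS hq r
  rw [← hθp] at T1 T3
  -- the middle term
  have T2 : ∑ p : Pr β Q c, (if Rf Q t (fibre S p.1 p.2) then
        (2 : ℝ) ^ r * BB t (fibre S p.1 p.2).card else 0) ≤
      Tot β Q c * (2 ^ r * (Real.exp (-(θ / 2)) + (θ / 2) ^ (2 * t + 1) / ((2 * t + 1).factorial : ℝ)
        + 2 * Dstar Q t θ ε)) := by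
    have h2 : ∑ p : Pr β Q c, (if Rf Q t (fibre S p.1 p.2) then
        (2 : ℝ) ^ r * BB t (fibre S p.1 p.2).card else 0) =
        2 ^ r * ∑ j ∈ range (2 * t + 1), (-(1 / 2 : ℝ)) ^ j * Aj Q c t j S := by
      rw [Finset.mul_sum]
      unfold Aj BB
      simp_rw [Finset.mul_sum]
      rw [Finset.sum_comm]
      refine Finset.sum_congr rfl fun p _ => ?_
      by_cases hR : Rf Q t (fibre S p.1 p.2)
      · simp only [hR, if_true]
      · simp [hR]
    rw [h2]
    have h3 : ∀ j ∈ range (2 * t + 1), (-(1 / 2 : ℝ)) ^ j * Aj Q c t j S ≤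
        Tot β Q c * ((-(1 / 2 : ℝ)) ^ j * (((S.card.choose j : ℕ) : ℝ) * pp Q c ^ j)) +
        Tot β Q c * (Dstar Q t θ ε * (1 / 2 : ℝ) ^ j) := by
      intro j hj
      have hj' : j ≤ 2 * t := by
        have := mem_range.1 hj
        omega
      have hAle := Aj_le (Q := Q) (c := c) (S := S) (t := t) hj'
      have hAge := Aj_ge (c := c) hS hQ hε hE (t := t) hj' hQθ
      rw [← hθp] at hAge
      have hDs : 0 ≤ Dstar Q t θ ε := by
        unfold Dstar
        have : 0 ≤ (Q : ℝ) * θ := by positivity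
        positivity
      rcases Nat.even_or_odd j with he | ho
      · rw [he.neg_pow]
        have h5 : (0 : ℝ) ≤ (1 / 2 : ℝ) ^ j := by positivity
        have h6 : (1 / 2 : ℝ) ^ j * Aj Q c t j S ≤
            (1 / 2 : ℝ) ^ j * (((S.card.choose j : ℕ) : ℝ) * (Tot β Q c * pp Q c ^ j)) :=
          mul_le_mul_of_nonneg_left hAle h5
        have h7 : 0 ≤ Tot β Q c * (Dstar Q t θ ε * (1 / 2 : ℝ) ^ j) := by positivity
        nlinarith only [h6, h7]
      · rw [ho.neg_pow]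
        have h5 : (0 : ℝ) ≤ (1 / 2 : ℝ) ^ j := by positivity
        have h6 := mul_le_mul_of_nonneg_left hAge h5
        nlinarith only [h6, hDs]
    have h4 := Finset.sum_le_sum h3
    rw [Finset.sum_add_distrib, ← Finset.mul_sum, ← Finset.mul_sum, ← Finset.mul_sum] at h4
    have hmain := main_term_le hp0.le hp1 S.card t
    rw [show (S.card : ℝ) * pp Q c / 2 = θ / 2 by rw [hθp]] at hmain
    have hgeo : ∑ j ∈ range (2 * t + 1), (1 / 2 : ℝ) ^ j ≤ 2 := sum_geometric_two_le _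
    have hDs : 0 ≤ Dstar Q t θ ε := by
      unfold Dstar
      have : 0 ≤ (Q : ℝ) * θ := by positivity
      positivity
    have h5 : ∑ j ∈ range (2 * t + 1), (-(1 / 2 : ℝ)) ^ j * Aj Q c t j S ≤
        Tot β Q c * (Real.exp (-(θ / 2)) + (θ / 2) ^ (2 * t + 1) / ((2 * t + 1).factorial : ℝ)
          + 2 * Dstar Q t θ ε) := by
      refine h4.trans ?_
      rw [mul_add (Tot β Q c)]
      apply add_le_add
      · exact mul_le_mul_of_nonneg_left hmain hT0.le
      · apply mul_le_mul_of_nonneg_left _ hT0.le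
        nlinarith only [hgeo, hDs, mul_le_mul_of_nonneg_right hgeo hDs]
    calc 2 ^ r * ∑ j ∈ range (2 * t + 1), (-(1 / 2 : ℝ)) ^ j * Aj Q c t j S
        ≤ 2 ^ r * (Tot β Q c * (Real.exp (-(θ / 2)) + (θ / 2) ^ (2 * t + 1) / ((2 * t + 1).factorial : ℝ)
          + 2 * Dstar Q t θ ε)) := by
          apply mul_le_mul_of_nonneg_left h5 (by positivity)
      _ = _ := by ring
  have hDs : 0 ≤ Dstar Q t θ ε := by
    unfold Dstar
    have : 0 ≤ (Q : ℝ) * θ := by positivity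
    positivity
  have hTot : Tot β Q c = (Q : ℝ) ^ (c * Fintype.card β + c) := rfl
  rw [← hTot]
  unfold plMain
  have h2r : (0 : ℝ) < 2 ^ r := by positivity
  have hfinal : 2 * Dstar Q t θ ε ≤ 4 * Real.exp θ * ε * (4 * t) * 2 ^ (4 * t) * ((Q : ℝ) * θ) ^ (4 * t) := by
    unfold Dstar
    have h0 : 0 ≤ Real.exp θ * (ε * (4 * t) * 2 ^ (4 * t) * ((Q : ℝ) * θ) ^ (4 * t)) := by
      have : 0 ≤ (Q : ℝ) * θ := by positivity
      positivity
    nlinarith only [h0]
  have h2r' : 2 ^ r * (2 * Dstar Q t θ ε) ≤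
      2 ^ r * (4 * Real.exp θ * ε * (4 * t) * 2 ^ (4 * t) * ((Q : ℝ) * θ) ^ (4 * t)) :=
    mul_le_mul_of_nonneg_left hfinal h2r.le
  have h2r'' : Tot β Q c * (2 ^ r * (2 * Dstar Q t θ ε)) ≤
      Tot β Q c * (2 ^ r * (4 * Real.exp θ * ε * (4 * t) * 2 ^ (4 * t) * ((Q : ℝ) * θ) ^ (4 * t))) :=
    mul_le_mul_of_nonneg_left h2r' hT0.le
  nlinarith only [T1, T2, T3, h2r'']

end Vale.Agent.Lib.P230
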