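import Vale.Agent.Lib.P230.Poisson2

/-!
# P230 module P, third form: an abstract bound on the number of relation sets.

The hypothesis is `#{relation sets of size h} * p^(h-1) ≤ Ξ` for all `h ≤ 4 t`.
-/

open scoped BigOperators
open Finset

set_option linter.unusedSectionVars false

namespace Vale.Agent.Lib.P230

variable {β : Type} [Fintype β] [DecidableEq β]

/-- The main part of the bound of the Poisson lemma, third form. -/
noncomputable def plMain3 (r t : ℕ) (θ Ξ : ℝ) : ℝ :=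
  Ξ * (4 * t)
  + 2 ^ r * (Real.exp (-(θ / 2)) + (θ / 2) ^ (2 * t + 1) / ((2 * t + 1).factorial : ℝ)
      + 4 * Real.exp θ * Ξ * (4 * t) * 2 ^ (4 * t))

section Main

open Classical

variable {Q q c : ℕ} [Fact Q.Prime] [Fact q.Prime]

omit [Fact q.Prime] in
/-- Summing a function of the size over relation sets in `S`. -/
lemma sum_relsets_le3 {S : Finset (β → ℤ)} (𝓕 : Finset (Finset (β → ℤ)))
    (hF : ∀ R ∈ 𝓕, R ⊆ S ∧ IsRelSet (F := ZMod Q) (uvec Q) R)
    {M : ℕ} (hM : ∀ R ∈ 𝓕, R.card ≤ M) (g : ℕ → ℝ) (hg : ∀ h, 0 ≤ g h) :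
    ∑ R ∈ 𝓕, g R.card ≤ ∑ h ∈ Icc 1 M,
      (((S.powerset).filter (fun R => IsRelSet (F := ZMod Q) (uvec Q) R ∧ R.card = h)).card : ℝ) * g h := by
  have hmaps : ∀ R ∈ 𝓕, R.card ∈ Icc 1 M := by
    intro R hR
    have h1 := (hF R hR).2.1
    exact mem_Icc.2 ⟨Finset.card_pos.2 h1, hM R hR⟩
  rw [← Finset.sum_fiberwise_of_maps_to hmaps]
  apply Finset.sum_le_sum
  intro h hh
  have hsub : 𝓕.filter (fun R => R.card = h) ⊆
      (S.powerset).filter (fun R => IsRelSet (F := ZMod Q) (uvec Q) R ∧ R.card = h) := by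
    intro R hR
    simp only [mem_filter, mem_powerset] at hR ⊢
    exact ⟨(hF R hR.1).1, (hF R hR.1).2, hR.2⟩
  have hcard := Finset.card_le_card hsub
  have hsum : ∑ R ∈ 𝓕.filter (fun R => R.card = h), g R.card =
      ((𝓕.filter (fun R => R.card = h)).card : ℝ) * g h := by
    rw [Finset.sum_congr rfl (g := fun _ => g h)]
    · simp
    · intro R hR
      rw [(mem_filter.1 hR).2]
  rw [hsum]
  apply mul_le_mul_of_nonneg_right _ (hg h)
  exact_mod_cast hcard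

omit [Fact q.Prime] in
/-- First term. -/
lemma sum_notRf_le3 {S : Finset (β → ℤ)} {Ξ : ℝ} (hΞ0 : 0 ≤ Ξ) (t : ℕ)
    (hΞ : ∀ h, 1 ≤ h → h ≤ 4 * t →
      (((S.powerset).filter (fun R => IsRelSet (F := ZMod Q) (uvec Q) R ∧ R.card = h)).card : ℝ) *
        pp Q c ^ (h - 1) ≤ Ξ) :
    ∑ p : Pr β Q c, (if Rf Q t (fibre S p.1 p.2) then (0 : ℝ) else 1) ≤
      Tot β Q c * (Ξ * (4 * t)) := by
  have hp0 := pp_pos (Q := Q) (c := c)
  have hT0 := Tot_pos (β := β) (Q := Q) (c := c)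
  let 𝓡 : Finset (Finset (β → ℤ)) := S.powerset.filter (fun R =>
    IsRelSet (F := ZMod Q) (uvec Q) R ∧ R.card ≤ 2 * t ∧
    Module.finrank (ZMod Q) (Submodule.span (ZMod Q) ((uvec Q) '' (R : Set (β → ℤ)))) + 1 = R.card)
  have h1 : ∀ p : Pr β Q c, (if Rf Q t (fibre S p.1 p.2) then (0 : ℝ) else 1) ≤
      ∑ R ∈ 𝓡, (if R ⊆ fibre S p.1 p.2 then (1 : ℝ) else 0) := by
    intro p
    by_cases hR : Rf Q t (fibre S p.1 p.2)
    · simp only [hR, if_true]
      apply Finset.sum_nonneg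
      intro R _
      split_ifs <;> norm_num
    · simp only [hR, if_false]
      unfold Rf at hR
      push Not at hR
      obtain ⟨R₀, hR₀, hrel, hL⟩ := hR
      obtain ⟨R, hRΩ, hRrel, hRc, hRrk⟩ := lemma_N (F := ZMod Q) (uvec Q) (Ω := fibre S p.1 p.2)
        (T := ∅) (R₀ := R₀) (by simp) (by simp [LinearIndepOn]) hR₀ hrel hL
      have hemp : (∅ ∪ R : Finset (β → ℤ)) = R := Finset.empty_union R
      rw [hemp] at hRrk
      simp only [Finset.card_empty, add_zero] at hRc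
      have hmem : R ∈ 𝓡 := by
        simp only [𝓡, mem_filter, mem_powerset]
        exact ⟨hRΩ.trans (fibre_subset S p), hRrel, hRc, hRrk⟩
      have h2 := Finset.single_le_sum (f := fun R' => (if R' ⊆ fibre S p.1 p.2 then (1 : ℝ) else 0))
        (s := 𝓡) (fun R' _ => by split_ifs <;> norm_num) hmem
      simpa [hRΩ] using h2
  refine (Finset.sum_le_sum fun p _ => h1 p).trans ?_
  rw [Finset.sum_comm]
  have h2 : ∑ R ∈ 𝓡, ∑ p : Pr β Q c, (if R ⊆ fibre S p.1 p.2 then (1 : ℝ) else 0) =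
      ∑ R ∈ 𝓡, Tot β Q c * pp Q c ^ (R.card - 1) := by
    refine Finset.sum_congr rfl fun R hR => ?_
    simp only [𝓡, mem_filter, mem_powerset] at hR
    rw [sum_indicator_subset hR.1, cnt_null hR.2.2.2]
  rw [h2]
  have h3 := sum_relsets_le3 (Q := Q) (S := S) 𝓡 (by
      intro R hR
      simp only [𝓡, mem_filter, mem_powerset] at hR
      exact ⟨hR.1, hR.2.1⟩) (M := 2 * t) (by
      intro R hR
      simp only [𝓡, mem_filter, mem_powerset] at hR
      exact hR.2.2.1) (fun h => Tot β Q c * pp Q c ^ (h - 1)) (fun h => by positivity)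
  refine h3.trans ?_
  have h4 : ∀ h ∈ Icc 1 (2 * t),
      (((S.powerset).filter (fun R => IsRelSet (F := ZMod Q) (uvec Q) R ∧ R.card = h)).card : ℝ) *
        (Tot β Q c * pp Q c ^ (h - 1)) ≤ Tot β Q c * Ξ := by
    intro h hh
    have hh' := mem_Icc.1 hh
    have h5 := hΞ h hh'.1 (by omega)
    calc _ = Tot β Q c * (((S.powerset).filter (fun R => IsRelSet (F := ZMod Q) (uvec Q) R ∧ R.card = h)).card *
          pp Q c ^ (h - 1)) := by ring
      _ ≤ _ := mul_le_mul_of_nonneg_left h5 hT0.le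
  refine (Finset.sum_le_sum h4).trans ?_
  simp only [Finset.sum_const, Nat.card_Icc, nsmul_eq_mul]
  have h5 : ((2 * t + 1 - 1 : ℕ) : ℝ) = 2 * (t : ℝ) := by
    simp
  rw [h5]
  have h7 : 0 ≤ Tot β Q c * Ξ := by positivity
  have h8 : (0 : ℝ) ≤ t := Nat.cast_nonneg _
  nlinarith only [h7, h8, mul_nonneg h8 h7]

/-- The error term, third form. -/
noncomputable def Dstar3 (t : ℕ) (θ Ξ : ℝ) : ℝ :=
  Real.exp θ * (Ξ * (4 * t) * 2 ^ (4 * t))

omit [Fact q.Prime] in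
lemma Aj_ge3 {S : Finset (β → ℤ)} {Ξ : ℝ} (hΞ0 : 0 ≤ Ξ) {t j : ℕ}
    (hΞ : ∀ h, 1 ≤ h → h ≤ 4 * t →
      (((S.powerset).filter (fun R => IsRelSet (F := ZMod Q) (uvec Q) R ∧ R.card = h)).card : ℝ) *
        pp Q c ^ (h - 1) ≤ Ξ) (hj : j ≤ 2 * t) :
    ((S.card.choose j : ℕ) : ℝ) * (Tot β Q c * pp Q c ^ j) ≤
      Aj Q c t j S + Tot β Q c * Dstar3 t ((S.card : ℝ) * pp Q c) Ξ := by
  have hp0 := pp_pos (Q := Q) (c := c)
  have hT0 := Tot_pos (β := β) (Q := Q) (c := c)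
  rw [Aj_eq]
  have h1 : ((S.card.choose j : ℕ) : ℝ) * (Tot β Q c * pp Q c ^ j) =
      ∑ X ∈ powersetCard j S, Tot β Q c * pp Q c ^ j := by
    simp only [Finset.sum_const, Finset.card_powersetCard, nsmul_eq_mul]
  rw [h1]
  refine (Finset.sum_le_sum fun X hX => CR_ge (c := c) hX hj).trans ?_
  rw [Finset.sum_add_distrib]
  apply add_le_add le_rfl
  rw [← Finset.mul_sum, Finset.sum_comm]
  apply mul_le_mul_of_nonneg_left _ hT0.le
  set θ := (S.card : ℝ) * pp Q c with hθ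
  have h2 : ∀ R ∈ RR Q t S, ∑ X ∈ powersetCard j S, pp Q c ^ ((X ∪ R).card - 1) ≤
      pp Q c ^ (R.card - 1) * 2 ^ R.card * Real.exp θ := by
    intro R hR
    simp only [RR, mem_filter, mem_powerset] at hR
    exact sum_X_le hp0.le hR.1 hR.2.1.1 j
  refine (Finset.sum_le_sum h2).trans ?_
  have h3 := sum_relsets_le3 (Q := Q) (S := S) (RR Q t S) (by
      intro R hR
      simp only [RR, mem_filter, mem_powerset] at hR
      exact ⟨hR.1, hR.2.1⟩) (M := 4 * t) (by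
      intro R hR
      simp only [RR, mem_filter, mem_powerset] at hR
      exact hR.2.2) (fun h => pp Q c ^ (h - 1) * 2 ^ h * Real.exp θ) (fun h => by positivity)
  refine h3.trans ?_
  have h4 : ∀ h ∈ Icc 1 (4 * t),
      (((S.powerset).filter (fun R => IsRelSet (F := ZMod Q) (uvec Q) R ∧ R.card = h)).card : ℝ) *
      (pp Q c ^ (h - 1) * 2 ^ h * Real.exp θ) ≤
      Real.exp θ * (Ξ * 2 ^ (4 * t)) := by
    intro h hh
    have hh' := mem_Icc.1 hh
    have h5 := hΞ h hh'.1 hh'.2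
    have h8 : (2 : ℝ) ^ h ≤ 2 ^ (4 * t) := pow_le_pow_right₀ (by norm_num) hh'.2
    calc _ = Real.exp θ * ((((S.powerset).filter (fun R => IsRelSet (F := ZMod Q) (uvec Q) R ∧ R.card = h)).card *
          pp Q c ^ (h - 1)) * 2 ^ h) := by ring
      _ ≤ Real.exp θ * (Ξ * 2 ^ (4 * t)) := by
        apply mul_le_mul_of_nonneg_left _ (Real.exp_pos _).le
        exact mul_le_mul h5 h8 (by positivity) hΞ0
  refine (Finset.sum_le_sum h4).trans ?_
  simp only [Finset.sum_const, Nat.card_Icc, nsmul_eq_mul]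
  have h5 : ((4 * t + 1 - 1 : ℕ) : ℝ) = 4 * (t : ℝ) := by simp
  rw [h5]
  unfold Dstar3
  apply le_of_eq
  ring

end Main

open Classical in
/-- The Poisson lemma, third form. -/
theorem poisson_fibre3 {Q q : ℕ} [Fact Q.Prime] [Fact q.Prime] (S : Finset (β → ℤ)) (D : ℕ)
    (hS : ∀ v ∈ S, ∀ i, |v i| ≤ (D : ℤ)) (hq : 2 * D < q)
    (c r t : ℕ) (hrt : r + 1 ≤ 2 * t) (θ Ξ : ℝ) (hθ : θ = (S.card : ℝ) / (Q : ℝ) ^ c)
    (hΞ0 : 0 ≤ Ξ)
    (hΞ : ∀ h, 1 ≤ h → h ≤ 4 * t →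
      (((S.powerset).filter (fun R => IsRelSet (F := ZMod Q) (uvec Q) R ∧ R.card = h)).card : ℝ) *
        pp Q c ^ (h - 1) ≤ Ξ) :
    (badCount Q q c r S : ℝ) ≤ (Q : ℝ) ^ (c * Fintype.card β + c) *
      (plMain3 r t θ Ξ + plThird D r θ (pp Q c)) := by
  have hθp : θ = (S.card : ℝ) * pp Q c := by
    rw [hθ, pp]; ring
  have hp0 := pp_pos (Q := Q) (c := c)
  have hp1 := pp_le_one (Q := Q) (c := c)
  have hT0 := Tot_pos (β := β) (Q := Q) (c := c)
  have hbad : (badCount Q q c r S : ℝ) =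
      ∑ p : Pr β Q c, (if GoodFibre q r (fibre S p.1 p.2) then (0 : ℝ) else 1) := by
    unfold badCount
    rw [Finset.card_filter]
    push_cast
    refine Finset.sum_congr rfl fun p _ => ?_
    by_cases h : GoodFibre q r (fibre S p.1 p.2) <;> simp [h]
  rw [hbad]
  have h1 := Finset.sum_le_sum (s := (Finset.univ : Finset (Pr β Q c)))
    (fun p _ => pointwise (Q := Q) (q := q) hrt (fibre S p.1 p.2))
  refine h1.trans ?_
  rw [Finset.sum_add_distrib, Finset.sum_add_distrib]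
  have T1 := sum_notRf_le3 (c := c) (Q := Q) (S := S) hΞ0 t hΞ
  have T3 := sum_Ddd_le2 (Q := Q) (q := q) (c := c) hS hq r
  rw [← hθp] at T3
  have hDs : 0 ≤ Dstar3 t θ Ξ := by
    unfold Dstar3
    positivity
  -- the middle term
  have T2 : ∑ p : Pr β Q c, (if Rf Q t (fibre S p.1 p.2) then
        (2 : ℝ) ^ r * BB t (fibre S p.1 p.2).card else 0) ≤
      Tot β Q c * (2 ^ r * (Real.exp (-(θ / 2)) + (θ / 2) ^ (2 * t + 1) / ((2 * t + 1).factorial : ℝ)
        + 2 * Dstar3 t θ Ξ)) := by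
    have h2 : ∑ p : Pr β Q c, (if Rf Q t (fibre S p.1 p.2) then
        (2 : ℝ) ^ r * BB t (fibre S p.1 p.2).card else 0) =
        2 ^ r * ∑ j ∈ range (2 * t + 1), (-(1 / 2 : ℝ)) ^ j * Aj Q c t j S := by
      rw [Finset.mul_sum]
      unfold Aj BB
      simp_rw [Finset.mul_sum]
      rw [Finset.sum_comm]
      refine Finset.sum_congr rfl fun p _ => ?_
      by_cases hR : Rf Q t (fibre S p.1 p.2)
      · simp only [hR, if_true]
      · simp [hR]
    rw [h2]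
    have h3 : ∀ j ∈ range (2 * t + 1), (-(1 / 2 : ℝ)) ^ j * Aj Q c t j S ≤
        Tot β Q c * ((-(1 / 2 : ℝ)) ^ j * (((S.card.choose j : ℕ) : ℝ) * pp Q c ^ j)) +
        Tot β Q c * (Dstar3 t θ Ξ * (1 / 2 : ℝ) ^ j) := by
      intro j hj
      have hj' : j ≤ 2 * t := by
        have := mem_range.1 hj
        omega
      have hAle := Aj_le (Q := Q) (c := c) (S := S) (t := t) hj'
      have hAge := Aj_ge3 (c := c) (Q := Q) (S := S) hΞ0 hΞ hj'
      rw [← hθp] at hAge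
      rcases Nat.even_or_odd j with he | ho
      · rw [he.neg_pow]
        have h5 : (0 : ℝ) ≤ (1 / 2 : ℝ) ^ j := by positivity
        have h6 : (1 / 2 : ℝ) ^ j * Aj Q c t j S ≤
            (1 / 2 : ℝ) ^ j * (((S.card.choose j : ℕ) : ℝ) * (Tot β Q c * pp Q c ^ j)) :=
          mul_le_mul_of_nonneg_left hAle h5
        have h7 : 0 ≤ Tot β Q c * (Dstar3 t θ Ξ * (1 / 2 : ℝ) ^ j) := by positivity
        nlinarith only [h6, h7]
      · rw [ho.neg_pow]
        have h5 : (0 : ℝ) ≤ (1 / 2 : ℝ) ^ j := by positivity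
        have h6 := mul_le_mul_of_nonneg_left hAge h5
        nlinarith only [h6, hDs]
    have h4 := Finset.sum_le_sum h3
    rw [Finset.sum_add_distrib, ← Finset.mul_sum, ← Finset.mul_sum, ← Finset.mul_sum] at h4
    have hmain := main_term_le hp0.le hp1 S.card t
    rw [show (S.card : ℝ) * pp Q c / 2 = θ / 2 by rw [hθp]] at hmain
    have hgeo : ∑ j ∈ range (2 * t + 1), (1 / 2 : ℝ) ^ j ≤ 2 := sum_geometric_two_le _
    have h5 : ∑ j ∈ range (2 * t + 1), (-(1 / 2 : ℝ)) ^ j * Aj Q c t j S ≤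
        Tot β Q c * (Real.exp (-(θ / 2)) + (θ / 2) ^ (2 * t + 1) / ((2 * t + 1).factorial : ℝ)
          + 2 * Dstar3 t θ Ξ) := by
      refine h4.trans ?_
      rw [mul_add (Tot β Q c)]
      apply add_le_add
      · exact mul_le_mul_of_nonneg_left hmain hT0.le
      · apply mul_le_mul_of_nonneg_left _ hT0.le
        nlinarith only [hgeo, hDs, mul_le_mul_of_nonneg_right hgeo hDs]
    calc 2 ^ r * ∑ j ∈ range (2 * t + 1), (-(1 / 2 : ℝ)) ^ j * Aj Q c t j S
        ≤ 2 ^ r * (Tot β Q c * (Real.exp (-(θ / 2)) + (θ / 2) ^ (2 * t + 1) / ((2 * t + 1).factorial : ℝ)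
          + 2 * Dstar3 t θ Ξ)) := by
          apply mul_le_mul_of_nonneg_left h5 (by positivity)
      _ = _ := by ring
  have hTot : Tot β Q c = (Q : ℝ) ^ (c * Fintype.card β + c) := rfl
  rw [← hTot]
  unfold plMain3
  have h2r : (0 : ℝ) < 2 ^ r := by positivity
  have hfinal : 2 * Dstar3 t θ Ξ ≤ 4 * Real.exp θ * Ξ * (4 * t) * 2 ^ (4 * t) := by
    unfold Dstar3
    have h0 : 0 ≤ Real.exp θ * (Ξ * (4 * t) * 2 ^ (4 * t)) := by positivity
    nlinarith only [h0]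
  have h2r' : 2 ^ r * (2 * Dstar3 t θ Ξ) ≤
      2 ^ r * (4 * Real.exp θ * Ξ * (4 * t) * 2 ^ (4 * t)) :=
    mul_le_mul_of_nonneg_left hfinal h2r.le
  have h2r'' : Tot β Q c * (2 ^ r * (2 * Dstar3 t θ Ξ)) ≤
      Tot β Q c * (2 ^ r * (4 * Real.exp θ * Ξ * (4 * t) * 2 ^ (4 * t))) :=
    mul_le_mul_of_nonneg_left h2r' hT0.le
  nlinarith only [T1, T2, T3, h2r'']

end Vale.Agent.Lib.P230
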