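import Vale.Agent.Lib.P230.Defs

/-!
# P230 module P, pieces: definitions and stubs.

`uvec ℓ v = (v mod ℓ, 1)`.  A relation set is a nonempty finset with a linear relation among the `u`
all of whose coefficients are nonzero.
-/

open scoped BigOperators

namespace Vale.Agent.Lib.P230

/-- The vector `(v mod ℓ, 1)`. -/
def uvec (ℓ : ℕ) {β : Type*} (v : β → ℤ) : (β → ZMod ℓ) × ZMod ℓ :=
  (fun i => ((v i : ℤ) : ZMod ℓ), 1)

/-- A relation set: nonempty, with a vanishing combination with all coefficients nonzero. -/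
def IsRelSet {F P W : Type*} [Field F] [AddCommGroup W] [Module F W] (u : P → W)
    (R : Finset P) : Prop :=
  R.Nonempty ∧ ∃ a : P → F, (∀ v ∈ R, a v ≠ 0) ∧ ∑ v ∈ R, a v • u v = 0

open Classical in
/-- The support of a nonzero relation on a finset is a relation set. -/
lemma isRelSet_support {F P W : Type*} [Field F] [DecidableEq P] [AddCommGroup W] [Module F W]
    (u : P → W) {X : Finset P} (e : P → F) (h0 : ∑ v ∈ X, e v • u v = 0)
    {v₀ : P} (hv₀ : v₀ ∈ X) (hne : e v₀ ≠ 0) :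
    IsRelSet (F := F) u (X.filter (fun v => e v ≠ 0)) := by
  refine ⟨⟨v₀, Finset.mem_filter.2 ⟨hv₀, hne⟩⟩, e, fun v hv => (Finset.mem_filter.1 hv).2, ?_⟩
  rw [Finset.sum_filter_of_ne]
  · exact h0
  · intro v _ hv hev
    exact hv (by rw [hev, zero_smul])

/-- (P2) Lemma N.  Let `T ⊆ Ω` be independent and `Ω` contain a relation set of size `≤ L`.  Then `Ω` contains a relation set `R` with
`|R| ≤ L + |T|` and the rank of `T ∪ R` is `|T ∪ R| - 1`.  Proof: among relation sets of size `≤ L + |T|` in `Ω` minimize `|R \ T|` (so `|R \ T| ≤ L`).  `R \ T ≠ ∅`,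
pick `c ∈ R \ T`.  The relation space of `X = T ∪ R` (kernel of `a ↦ Σ_{v∈X} a v • u v`) has dimension `|X| - rank`.  If dim ≥ 2 there is a nonzero relation `e` on `X`
with `e c = 0`; its support is a relation set in `Ω` of size `≤ L + |T|` with smaller `|· \ T|` (it is not inside `T` by independence, but that is not even needed).
Contradiction.  Dim ≥ 1 because of `R`. -/
theorem lemma_N {F P W : Type*} [Field F] [DecidableEq P] [AddCommGroup W] [Module F W]
    [Module.Finite F W] (u : P → W) {Ω T R₀ : Finset P} (hT : T ⊆ Ω)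
    (hind : LinearIndepOn F u (T : Set P)) {L : ℕ} (hR₀ : R₀ ⊆ Ω) (hrel : IsRelSet (F := F) u R₀)
    (hL : R₀.card ≤ L) :
    ∃ R : Finset P, R ⊆ Ω ∧ IsRelSet (F := F) u R ∧ R.card ≤ L + T.card ∧
      Module.finrank F (Submodule.span F (u '' ((T ∪ R : Finset P) : Set P))) + 1 = (T ∪ R).card := by
  classical
  -- The family of candidates and the minimizer
  let Fam : Finset (Finset P) :=
    Ω.powerset.filter (fun R => IsRelSet (F := F) u R ∧ R.card ≤ L + T.card)
  have hFam : R₀ ∈ Fam := by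
    refine Finset.mem_filter.2 ⟨Finset.mem_powerset.2 hR₀, hrel, by omega⟩
  obtain ⟨R, hRF, hmin⟩ := Finset.exists_min_image Fam (fun R => (R \ T).card) ⟨R₀, hFam⟩
  obtain ⟨hRΩ, hRrel, hRcard⟩ : R ⊆ Ω ∧ IsRelSet (F := F) u R ∧ R.card ≤ L + T.card := by
    have := Finset.mem_filter.1 hRF
    exact ⟨Finset.mem_powerset.1 this.1, this.2.1, this.2.2⟩
  have hdiff : (R \ T).card ≤ L := by
    have h1 := hmin R₀ hFam
    have h2 : (R₀ \ T).card ≤ R₀.card := Finset.card_le_card Finset.sdiff_subset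
    omega
  have hXcard : (T ∪ R).card ≤ L + T.card := by
    have : T ∪ R = T ∪ (R \ T) := by
      ext v; simp only [Finset.mem_union, Finset.mem_sdiff]; tauto
    rw [this]
    have := Finset.card_union_le T (R \ T)
    omega
  have hXΩ : T ∪ R ⊆ Ω := Finset.union_subset hT hRΩ
  obtain ⟨⟨r₀, hr₀⟩, a, ha, hasum⟩ := hRrel
  -- a point of R outside T
  obtain ⟨c, hcR, hcT⟩ : ∃ c ∈ R, c ∉ T := by
    by_contra hcon
    push Not at hcon
    have hsub : R ⊆ T := hcon
    have h1 := (linearIndepOn_finset_iff).1 hind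
    have h2 := h1 (fun v => if v ∈ R then a v else 0) (by
      have : ∑ v ∈ T, (if v ∈ R then a v else 0) • u v = ∑ v ∈ R, a v • u v := by
        rw [← Finset.sum_subset hsub]
        · exact Finset.sum_congr rfl fun v hv => by rw [if_pos hv]
        · intro v _ hv
          rw [if_neg hv, zero_smul]
      rw [this, hasum]) r₀ (hsub hr₀)
    simp only [if_pos hr₀] at h2
    exact ha r₀ hr₀ h2
  have hcX : c ∈ T ∪ R := Finset.mem_union_right _ hcR
  -- key claim
  have key : ∀ e : P → F, ∑ v ∈ T ∪ R, e v • u v = 0 → e c = 0 → ∀ v ∈ T ∪ R, e v = 0 := by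
    intro e he hec v hv
    by_contra hne
    have hrel' := isRelSet_support u e he hv hne
    have hmem : (T ∪ R).filter (fun v => e v ≠ 0) ∈ Fam := by
      refine Finset.mem_filter.2 ⟨Finset.mem_powerset.2 ((Finset.filter_subset _ _).trans hXΩ),
        hrel', (Finset.card_le_card (Finset.filter_subset _ _)).trans hXcard⟩
    have h1 := hmin _ hmem
    have h2 : ((T ∪ R).filter (fun v => e v ≠ 0)) \ T ⊆ (R \ T).erase c := by
      intro x hx
      simp only [Finset.mem_sdiff, Finset.mem_filter, Finset.mem_union, Finset.mem_erase] at hx ⊢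
      obtain ⟨⟨hxX, hxe⟩, hxT⟩ := hx
      refine ⟨?_, ?_, hxT⟩
      · rintro rfl; exact hxe hec
      · tauto
    have h3 := Finset.card_le_card h2
    have h4 : ((R \ T).erase c).card < (R \ T).card :=
      Finset.card_erase_lt_of_mem (Finset.mem_sdiff.2 ⟨hcR, hcT⟩)
    omega
  -- the linear algebra
  let X := T ∪ R
  let φ : (↥X → F) →ₗ[F] W := Fintype.linearCombination F (fun v : ↥X => u v)
  have hφ : ∀ w : ↥X → F, φ w = ∑ v : ↥X, w v • u v := fun w => by
    simp [φ, Fintype.linearCombination_apply]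
  let a₀ : P → F := fun v => if v ∈ R then a v else 0
  have ha₀sum : ∑ v ∈ X, a₀ v • u v = 0 := by
    have : ∑ v ∈ X, a₀ v • u v = ∑ v ∈ R, a v • u v := by
      rw [← Finset.sum_subset (Finset.subset_union_right : R ⊆ T ∪ R)]
      · exact Finset.sum_congr rfl fun v hv => by simp only [a₀, if_pos hv]
      · intro v _ hv
        simp only [a₀, if_neg hv, zero_smul]
    rw [this, hasum]
  have ha₀c : a₀ c ≠ 0 := by
    simp only [a₀, if_pos hcR]
    exact ha c hcR
  let a₁ : ↥(LinearMap.ker φ) := ⟨fun v => a₀ v, by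
    rw [LinearMap.mem_ker, hφ]
    rw [← ha₀sum, ← Finset.sum_coe_sort X (fun v => a₀ v • u v)]⟩
  have ha₁ne : a₁ ≠ 0 := by
    intro h0
    have : (a₁ : ↥X → F) ⟨c, hcX⟩ = 0 := by rw [h0]; rfl
    exact ha₀c this
  have hspan : ∀ w : ↥(LinearMap.ker φ), ∃ t : F, t • a₁ = w := by
    rintro ⟨w, hw⟩
    rw [LinearMap.mem_ker, hφ] at hw
    let w' : P → F := fun v => if h : v ∈ X then w ⟨v, h⟩ else 0
    have hw' : ∀ v : ↥X, w' v = w v := fun v => by
      simp only [w', dif_pos v.2]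
    let t : F := w' c / a₀ c
    refine ⟨t, ?_⟩
    apply Subtype.ext
    funext v
    have hsum : ∑ v ∈ X, (w' v - t * a₀ v) • u v = 0 := by
      simp_rw [sub_smul, mul_smul]
      rw [Finset.sum_sub_distrib, ← Finset.smul_sum, ha₀sum, smul_zero, sub_zero,
        ← Finset.sum_coe_sort X (fun v => w' v • u v)]
      rw [← hw]
      exact Finset.sum_congr rfl fun v _ => by rw [hw']
    have := key (fun v => w' v - t * a₀ v) hsum (by
      simp only [t]
      field_simp
      ring) v v.2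
    have h2 : w' v = t * a₀ v := sub_eq_zero.1 this
    change t • a₀ (v : P) = w v
    rw [smul_eq_mul, ← hw' v, h2]
  have hker : Module.finrank F (LinearMap.ker φ) = 1 := finrank_eq_one a₁ ha₁ne hspan
  have hrn := LinearMap.finrank_range_add_finrank_ker φ
  rw [hker, Module.finrank_fintype_fun_eq_card, Fintype.card_coe] at hrn
  have hrange : LinearMap.range φ = Submodule.span F (u '' ((T ∪ R : Finset P) : Set P)) := by
    simp only [φ]
    rw [Fintype.range_linearCombination]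
    congr 1
    ext x
    simp only [Set.mem_range, Subtype.exists, Set.mem_image, Finset.mem_coe]
    constructor
    · rintro ⟨v, hv, rfl⟩
      exact ⟨v, hv, rfl⟩
    · rintro ⟨v, hv, rfl⟩
      exact ⟨v, hv, rfl⟩
  rw [hrange] at hrn
  exact ⟨R, hRΩ, ⟨⟨r₀, hr₀⟩, a, ha, hasum⟩, hRcard, hrn⟩


/-- A set with no small relation set has independent small subsets: if `X` is dependent, then it contains
a relation set (the support of a nontrivial relation). -/
theorem exists_relSet_of_not_indep {F P W : Type*} [Field F] [DecidableEq P] [AddCommGroup W] [Module F W]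
    (u : P → W) {X : Finset P} (h : ¬ LinearIndepOn F u (X : Set P)) :
    ∃ R ⊆ X, IsRelSet (F := F) u R := by
  classical
  rw [linearIndepOn_finset_iff] at h
  push Not at h
  obtain ⟨f, hf, v₀, hv₀, hne⟩ := h
  exact ⟨X.filter (fun v => f v ≠ 0), Finset.filter_subset _ _, isRelSet_support u f hf hv₀ hne⟩

section
variable {β : Type} [Fintype β] [DecidableEq β] {F : Type} [Field F] [Fintype F]

/-- The pairing `((t,y),(v,s)) ↦ t ⬝ v - y s`. -/
noncomputable def pairingD : ((β → F) × F) →ₗ[F] Module.Dual F ((β → F) × F) :=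
  LinearMap.mk₂ F (fun a b => dotProduct a.1 b.1 - a.2 * b.2)
    (by intro a b c; simp [add_dotProduct, add_mul]; ring)
    (by intro r a b; simp [smul_dotProduct, mul_sub, mul_assoc])
    (by intro a b c; simp [dotProduct_add, mul_add]; ring)
    (by intro r a b; simp [dotProduct_smul, mul_sub]; ring)

lemma pairingD_apply (a b : (β → F) × F) : pairingD a b = dotProduct a.1 b.1 - a.2 * b.2 := rfl

lemma pairingD_injective : Function.Injective (pairingD (β := β) (F := F)) := by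
  rw [← LinearMap.ker_eq_bot, LinearMap.ker_eq_bot']
  intro a ha
  have h1 : ∀ j, a.1 j = 0 := by
    intro j
    have := LinearMap.congr_fun ha (Pi.single j 1, 0)
    simpa [pairingD_apply, dotProduct_single] using this
  have h2 : a.2 = 0 := by
    have := LinearMap.congr_fun ha (0, 1)
    simpa [pairingD_apply] using this
  exact Prod.ext (funext h1) h2

/-- The annihilator of a subspace under the pairing. -/
noncomputable def annih (U : Submodule F ((β → F) × F)) : Submodule F ((β → F) × F) :=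
  U.dualAnnihilator.comap pairingD

lemma mem_annih {U : Submodule F ((β → F) × F)} {a : (β → F) × F} :
    a ∈ annih U ↔ ∀ u ∈ U, pairingD a u = 0 := by
  simp [annih, Submodule.mem_dualAnnihilator]

lemma finrank_annih (U : Submodule F ((β → F) × F)) :
    Module.finrank F (annih U) + Module.finrank F U = Fintype.card β + 1 := by
  classical
  have hW : Module.finrank F ((β → F) × F) = Fintype.card β + 1 := by
    simp [Module.finrank_prod, Module.finrank_fintype_fun_eq_card]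
  have hdual : Module.finrank F (Module.Dual F ((β → F) × F)) = Module.finrank F ((β → F) × F) :=
    Subspace.dual_finrank_eq
  let e : ((β → F) × F) ≃ₗ[F] Module.Dual F ((β → F) × F) :=
    LinearEquiv.ofInjectiveOfFinrankEq pairingD pairingD_injective hdual.symm
  have he : ∀ a, e a = pairingD a := fun a => rfl
  have h1 : Module.finrank F (annih U) = Module.finrank F U.dualAnnihilator := by
    have : annih U = U.dualAnnihilator.map (e.symm : _ →ₗ[F] _) := by
      ext a
      simp only [annih, Submodule.mem_comap, Submodule.mem_map]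
      constructor
      · intro h
        exact ⟨e a, h, by simp⟩
      · rintro ⟨b, hb, rfl⟩
        have : pairingD (e.symm b) = b := by
          rw [← he]; simp
        rw [LinearEquiv.coe_coe, this]
        exact hb
    rw [this]
    exact LinearEquiv.finrank_map_eq e.symm _
  have h2 := Subspace.finrank_add_finrank_dualAnnihilator_eq U
  omega

end

/-- (P1) The number of `(T,y)` with `T (v mod Q) = y` for all `v ∈ X`.  Each row `(t, y_i)` of `(T,y)` lies in the annihilator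
of the `(v, -1)`...: row constraints are independent, and each row has `Q^{|β|+1-ρ}` solutions where `ρ` is the rank of the `uvec`. -/
theorem fibre_count {β : Type} [Fintype β] [DecidableEq β] {Q : ℕ} [Fact Q.Prime] (c : ℕ)
    (X : Finset (β → ℤ)) :
    open Classical in
    (((Finset.univ : Finset (Matrix (Fin c) β (ZMod Q) × (Fin c → ZMod Q))).filter
      (fun p => ∀ v ∈ X, p.1.mulVec (fun i => ((v i : ℤ) : ZMod Q)) = p.2)).card : ℝ) *
      (Q : ℝ) ^ (c * Module.finrank (ZMod Q)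
          (Submodule.span (ZMod Q) ((uvec Q) '' (X : Set (β → ℤ))))) =
      (Q : ℝ) ^ (c * Fintype.card β + c) := by
  classical
  have hQ0 : Q ≠ 0 := (Fact.out : Q.Prime).ne_zero
  set F := ZMod Q
  set U : Submodule F ((β → F) × F) := Submodule.span F ((uvec Q) '' (X : Set (β → ℤ))) with hU
  -- membership of a row in the annihilator
  have hrow : ∀ a : (β → F) × F, a ∈ annih U ↔
      ∀ v ∈ X, dotProduct a.1 (fun i => ((v i : ℤ) : F)) = a.2 := by
    intro a
    rw [mem_annih]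
    constructor
    · intro h v hv
      have h1 := h (uvec Q v) (Submodule.subset_span ⟨v, hv, rfl⟩)
      rw [pairingD_apply] at h1
      simpa [uvec, sub_eq_zero] using h1
    · intro h u hu
      have hle : U ≤ LinearMap.ker (pairingD a) := by
        rw [hU, Submodule.span_le]
        rintro _ ⟨v, hv, rfl⟩
        have := h v hv
        simp only [SetLike.mem_coe, LinearMap.mem_ker, pairingD_apply]
        simp [uvec, this]
      exact hle hu
  -- the equivalence with row families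
  let E : (Matrix (Fin c) β F × (Fin c → F)) ≃ (Fin c → (β → F) × F) :=
    { toFun := fun p i => (p.1 i, p.2 i)
      invFun := fun f => (fun i => (f i).1, fun i => (f i).2)
      left_inv := fun p => by ext <;> rfl
      right_inv := fun f => by ext <;> rfl }
  let A' : Finset ((β → F) × F) := Finset.univ.filter (fun a => a ∈ annih U)
  have hcard : ((Finset.univ : Finset (Matrix (Fin c) β F × (Fin c → F))).filter
      (fun p => ∀ v ∈ X, p.1.mulVec (fun i => ((v i : ℤ) : F)) = p.2)).card =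
      (Fintype.piFinset (fun _ : Fin c => A')).card := by
    refine Finset.card_equiv E ?_
    intro p
    simp only [Finset.mem_filter, Finset.mem_univ, true_and, Fintype.mem_piFinset, A']
    constructor
    · intro h i
      rw [hrow]
      intro v hv
      have := congrFun (h v hv) i
      simpa [Matrix.mulVec, E] using this
    · intro h v hv
      funext i
      have := (hrow _).1 (h i) v hv
      simpa [Matrix.mulVec, E] using this
  have hA' : A'.card = Q ^ Module.finrank F (annih U) := by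
    have h1 : A'.card = Fintype.card (annih U) := by
      rw [Fintype.card_subtype]
    rw [h1, Module.card_eq_pow_finrank (K := F) (V := annih U), ZMod.card]
  have hfr := finrank_annih U
  rw [hcard, Fintype.card_piFinset]
  simp only [Finset.prod_const, Finset.card_univ, Fintype.card_fin]
  rw [hA']
  push_cast
  rw [← pow_mul, ← pow_add]
  congr 1
  calc Module.finrank F (annih U) * c + c * Module.finrank F U
      = c * (Module.finrank F (annih U) + Module.finrank F U) := by ring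
    _ = c * (Fintype.card β + 1) := by rw [hfr]
    _ = c * Fintype.card β + c := by ring

section TwoVar

variable {V : Type*} [AddCommGroup V] [Fintype V] [DecidableEq V]

/-- Fibres of two maps over a common target: double counting. -/
lemma sum_fiber_mul_fiber {X Y : Type*} [DecidableEq X] [DecidableEq Y] (s : Finset X) (t : Finset Y)
    (h₁ : X → V) (h₂ : Y → V) :
    ∑ d : V, ((s.filter (fun x => h₁ x = d)).card * (t.filter (fun y => h₂ y = d)).card) =
      ((s ×ˢ t).filter (fun p => h₁ p.1 = h₂ p.2)).card := by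
  rw [Finset.card_eq_sum_card_fiberwise (f := fun p : X × Y => h₁ p.1) (t := Finset.univ)
    (fun _ _ => Finset.mem_coe.2 (Finset.mem_univ _))]
  refine Finset.sum_congr rfl fun d _ => ?_
  rw [← Finset.card_product]
  congr 1
  ext ⟨x, y⟩
  simp only [Finset.mem_product, Finset.mem_filter]
  constructor
  · rintro ⟨⟨hx, hd⟩, ⟨hy, he⟩⟩
    exact ⟨⟨⟨hx, hy⟩, by rw [hd, he]⟩, hd⟩
  · rintro ⟨⟨⟨hx, hy⟩, he⟩, hd⟩
    exact ⟨⟨hx, hd⟩, ⟨hy, by rw [← he, hd]⟩⟩

/-- Number of representations as a difference. -/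
def repD (A : Finset V) (δ : V) : ℕ := ((A ×ˢ A).filter (fun p => p.1 - p.2 = δ)).card

/-- Number of representations `z - σ x`. -/
def repG (A : Finset V) (σ : V ≃+ V) (d : V) : ℕ :=
  ((A ×ˢ A).filter (fun p => p.1 - σ p.2 = d)).card

/-- Additive energy in triple form. -/
def engF (A : Finset V) : ℕ := ((A ×ˢ A ×ˢ A).filter (fun p => p.1 + p.2.1 - p.2.2 ∈ A)).card

lemma sum_repD_sq (A : Finset V) : ∑ δ : V, (repD A δ) * (repD A δ) = engF A := by
  unfold repD engF
  rw [sum_fiber_mul_fiber (A ×ˢ A) (A ×ˢ A) (fun p => p.1 - p.2) (fun p => p.1 - p.2)]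
  refine Finset.card_nbij' (fun p => (p.1.1, p.2.2, p.2.1))
    (fun p => ((p.1, p.1 + p.2.1 - p.2.2), (p.2.2, p.2.1))) ?_ ?_ ?_ ?_
  · rintro ⟨⟨a, b⟩, ⟨c, d⟩⟩ h
    simp only [Finset.coe_filter, Finset.mem_filter, Finset.mem_product, Set.mem_ofPred_eq] at h ⊢
    obtain ⟨⟨⟨ha, hb⟩, ⟨hc, hd⟩⟩, he⟩ := h
    refine ⟨⟨ha, hd, hc⟩, ?_⟩
    have : a + d - c = b := by
      have h1 : a = c - d + b := by rw [← he]; abel
      rw [h1]; abel
    rw [this]; exact hb
  · rintro ⟨a, b, c⟩ h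
    simp only [Finset.coe_filter, Finset.mem_filter, Finset.mem_product, Set.mem_ofPred_eq] at h ⊢
    obtain ⟨⟨ha, hb, hc⟩, he⟩ := h
    refine ⟨⟨⟨ha, he⟩, ⟨hc, hb⟩⟩, ?_⟩
    abel
  · rintro ⟨⟨a, b⟩, ⟨c, d⟩⟩ h
    simp only [Finset.coe_filter, Finset.mem_filter, Finset.mem_product, Set.mem_ofPred_eq] at h
    obtain ⟨_, he⟩ := h
    have : a + d - c = b := by
      have h1 : a = c - d + b := by rw [← he]; abel
      rw [h1]; abel
    simp [this]
  · rintro ⟨a, b, c⟩ _
    rfl

lemma sum_repG_sq_le (A : Finset V) (σ : V ≃+ V) :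
    ∑ d : V, ((repG A σ d : ℝ)) ^ 2 ≤ engF A := by
  have h1 : ∑ d : V, (repG A σ d) * (repG A σ d) =
      ∑ δ : V, (repD A (σ δ)) * (repD A δ) := by
    unfold repG repD
    rw [sum_fiber_mul_fiber (A ×ˢ A) (A ×ˢ A) (fun p => p.1 - σ p.2) (fun p => p.1 - σ p.2)]
    have h2 : ∀ δ : V, ((A ×ˢ A).filter (fun p => p.1 - p.2 = σ δ)).card =
        ((A ×ˢ A).filter (fun p => σ.symm (p.1 - p.2) = δ)).card := by
      intro δ
      congr 1
      ext p
      simp only [Finset.mem_filter, and_congr_right_iff]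
      intro _
      rw [AddEquiv.symm_apply_eq]
    simp_rw [h2]
    rw [sum_fiber_mul_fiber (A ×ˢ A) (A ×ˢ A) (fun p => σ.symm (p.1 - p.2)) (fun p => p.1 - p.2)]
    refine Finset.card_nbij' (fun p => ((p.1.1, p.2.1), (p.1.2, p.2.2)))
      (fun p => ((p.1.1, p.2.1), (p.1.2, p.2.2))) ?_ ?_ ?_ ?_
    · rintro ⟨⟨a, b⟩, ⟨c, d⟩⟩ h
      simp only [Finset.coe_filter, Finset.mem_filter, Finset.mem_product, Set.mem_ofPred_eq] at h ⊢
      obtain ⟨⟨⟨ha, hb⟩, ⟨hc, hd⟩⟩, he⟩ := h
      refine ⟨⟨⟨ha, hc⟩, ⟨hb, hd⟩⟩, ?_⟩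
      rw [AddEquiv.symm_apply_eq, map_sub]
      have h1 : a = c - σ d + σ b := by rw [← he]; abel
      rw [h1]; abel
    · rintro ⟨⟨a, b⟩, ⟨c, d⟩⟩ h
      simp only [Finset.coe_filter, Finset.mem_filter, Finset.mem_product, Set.mem_ofPred_eq] at h ⊢
      obtain ⟨⟨⟨ha, hb⟩, ⟨hc, hd⟩⟩, he⟩ := h
      refine ⟨⟨⟨ha, hc⟩, ⟨hb, hd⟩⟩, ?_⟩
      rw [AddEquiv.symm_apply_eq, map_sub] at he
      have h1 : a = b + σ c - σ d := by
        have : a - b + b = σ c - σ d + b := by rw [he]
        rw [sub_add_cancel] at this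
        rw [this]; abel
      rw [h1]; abel
    · rintro ⟨⟨a, b⟩, ⟨c, d⟩⟩ _
      rfl
    · rintro ⟨⟨a, b⟩, ⟨c, d⟩⟩ _
      rfl
  have h3 : ∑ d : V, ((repG A σ d : ℝ)) ^ 2 = ∑ δ : V, (repD A (σ δ) : ℝ) * (repD A δ : ℝ) := by
    have := congrArg (fun n : ℕ => (n : ℝ)) h1
    simp only [Nat.cast_sum, Nat.cast_mul] at this
    simpa [sq] using this
  have h4 : ∑ δ : V, (repD A (σ δ) : ℝ) * (repD A δ : ℝ) ≤
      ∑ δ : V, ((repD A (σ δ) : ℝ) ^ 2 + (repD A δ : ℝ) ^ 2) / 2 := by
    refine Finset.sum_le_sum fun δ _ => ?_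
    nlinarith [sq_nonneg ((repD A (σ δ) : ℝ) - (repD A δ : ℝ))]
  have h5 : ∑ δ : V, (repD A (σ δ) : ℝ) ^ 2 = ∑ δ : V, (repD A δ : ℝ) ^ 2 :=
    Equiv.sum_comp σ.toEquiv (fun δ => (repD A δ : ℝ) ^ 2)
  have h6 : ∑ δ : V, (repD A δ : ℝ) ^ 2 = engF A := by
    have := congrArg (fun n : ℕ => (n : ℝ)) (sum_repD_sq A)
    simp only [Nat.cast_sum, Nat.cast_mul] at this
    simpa [sq] using this
  rw [h3]
  refine h4.trans (le_of_eq ?_)
  rw [← Finset.sum_div, Finset.sum_add_distrib, h5, h6]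
  ring

/-- The two variable energy bound. -/
lemma two_var_bound (A : Finset V) (σ τ : V ≃+ V) (w : V) :
    (((A ×ˢ A).filter (fun p => σ p.1 + τ p.2 + w ∈ A)).card : ℝ) ^ 2 ≤
      (A.card : ℝ) * (engF A : ℝ) := by
  have h1 : ((A ×ˢ A).filter (fun p => σ p.1 + τ p.2 + w ∈ A)).card =
      ∑ y ∈ A, repG A σ (τ y + w) := by
    rw [Finset.card_eq_sum_card_fiberwise (f := fun p : V × V => p.2) (t := A)]
    · refine Finset.sum_congr rfl fun y hy => ?_
      unfold repG
      refine Finset.card_nbij' (fun p => (σ p.1 + τ p.2 + w, p.1))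
        (fun p => (p.2, y)) ?_ ?_ ?_ ?_
      · rintro ⟨a, b⟩ h
        simp only [Finset.coe_filter, Finset.mem_filter, Finset.mem_product, Set.mem_ofPred_eq] at h ⊢
        obtain ⟨⟨⟨ha, hb⟩, he⟩, rfl⟩ := h
        refine ⟨⟨he, ha⟩, ?_⟩
        abel
      · rintro ⟨a, b⟩ h
        simp only [Finset.coe_filter, Finset.mem_filter, Finset.mem_product, Set.mem_ofPred_eq] at h ⊢
        obtain ⟨⟨ha, hb⟩, he⟩ := h
        refine ⟨⟨⟨hb, hy⟩, ?_⟩, trivial⟩
        have : σ b + τ y + w = a := by rw [sub_eq_iff_eq_add] at he; rw [he]; abel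
        rw [this]; exact ha
      · rintro ⟨a, b⟩ h
        simp only [Finset.coe_filter, Finset.mem_filter, Finset.mem_product, Set.mem_ofPred_eq] at h
        obtain ⟨_, rfl⟩ := h
        rfl
      · rintro ⟨a, b⟩ h
        simp only [Finset.coe_filter, Finset.mem_filter, Finset.mem_product, Set.mem_ofPred_eq] at h
        obtain ⟨⟨ha, hb⟩, he⟩ := h
        have : σ b + τ y + w = a := by rw [sub_eq_iff_eq_add] at he; rw [he]; abel
        simp [this]
    · intro p hp
      have := Finset.mem_coe.1 hp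
      simp only [Finset.mem_filter, Finset.mem_product] at this
      exact Finset.mem_coe.2 this.1.2
  rw [h1]
  push_cast
  have h2 := sq_sum_le_card_mul_sum_sq (s := A) (f := fun y => (repG A σ (τ y + w) : ℝ))
  refine h2.trans ?_
  refine mul_le_mul_of_nonneg_left ?_ (Nat.cast_nonneg _)
  have h3 : ∑ y ∈ A, (repG A σ (τ y + w) : ℝ) ^ 2 ≤ ∑ y : V, (repG A σ (τ y + w) : ℝ) ^ 2 :=
    Finset.sum_le_sum_of_subset_of_nonneg (Finset.subset_univ _) (fun _ _ _ => sq_nonneg _)
  have h4 : ∑ y : V, (repG A σ (τ y + w) : ℝ) ^ 2 = ∑ d : V, (repG A σ d : ℝ) ^ 2 :=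
    Equiv.sum_comp (τ.toEquiv.trans (Equiv.addRight w)) (fun d => (repG A σ d : ℝ) ^ 2)
  rw [h4] at h3
  exact h3.trans (sum_repG_sq_le A σ)

end TwoVar


section Count

variable {β : Type} [Fintype β] [DecidableEq β] {ℓ : ℕ} [Fact ℓ.Prime]

/-- Reduction mod `ℓ` of an integer vector. -/
def redvPC (ℓ : ℕ) {β : Type*} (v : β → ℤ) : β → ZMod ℓ := fun i => ((v i : ℤ) : ZMod ℓ)

lemma uvecPC_fst (v : β → ℤ) : (uvec ℓ v).1 = redvPC ℓ v := rfl

lemma uvecPC_snd (v : β → ℤ) : (uvec ℓ v).2 = 1 := rfl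

lemma int_vec_eq_of_redPC (d : β → ℤ) (hd : ∀ i, |d i| < (ℓ : ℤ)) (h0 : redvPC ℓ d = 0) : d = 0 := by
  funext i
  have h1 : ((d i : ℤ) : ZMod ℓ) = 0 := congrFun h0 i
  have h2 : (ℓ : ℤ) ∣ d i := (ZMod.intCast_zmod_eq_zero_iff_dvd _ _).1 h1
  exact Int.eq_zero_of_abs_lt_dvd h2 (hd i)

lemma redvPC_sub (v w : β → ℤ) : redvPC ℓ (v - w) = redvPC ℓ v - redvPC ℓ w := by
  funext i; simp [redvPC]

lemma redvPC_add (v w : β → ℤ) : redvPC ℓ (v + w) = redvPC ℓ v + redvPC ℓ w := by
  funext i; simp [redvPC]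

lemma redvPC_injOn {S : Finset (β → ℤ)} {D : ℕ} (hS : ∀ v ∈ S, ∀ i, |v i| ≤ (D : ℤ))
    (hℓ : 4 * D < ℓ) : Set.InjOn (redvPC ℓ) (S : Set (β → ℤ)) := by
  intro v hv w hw hvw
  have h := int_vec_eq_of_redPC (ℓ := ℓ) (v - w) (fun i => by
    have h1 := hS v hv i
    have h2 := hS w hw i
    have h3 : |(v - w) i| ≤ |v i| + |w i| := by
      simpa [Pi.sub_apply] using abs_sub (v i) (w i)
    have h4 : (4 * (D : ℤ)) < ℓ := by exact_mod_cast hℓ
    have h5 : (0 : ℤ) ≤ D := Int.natCast_nonneg D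
    omega) (by rw [redvPC_sub, hvw, sub_self])
  exact sub_eq_zero.1 h

/-- The reduced energy is bounded by the energy. -/
lemma engF_image_le {S : Finset (β → ℤ)} {D : ℕ} (hS : ∀ v ∈ S, ∀ i, |v i| ≤ (D : ℤ))
    (hℓ : 4 * D < ℓ) : engF (S.image (redvPC ℓ)) ≤ energy S := by
  classical
  unfold engF energy
  refine Finset.card_le_card_of_surjOn (fun p => (redvPC ℓ p.1, redvPC ℓ p.2.1, redvPC ℓ p.2.2)) ?_
  rintro ⟨a, b, c⟩ h
  simp only [Finset.coe_filter, Finset.mem_product, Finset.mem_image, Set.mem_ofPred_eq] at h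
  obtain ⟨⟨⟨x, hx, rfl⟩, ⟨y, hy, rfl⟩, ⟨z, hz, rfl⟩⟩, ⟨t, ht, hte⟩⟩ := h
  have h0 : x + y - z - t = 0 := by
    refine int_vec_eq_of_redPC (ℓ := ℓ) _ (fun i => ?_) ?_
    · have h1 := hS x hx i
      have h2 := hS y hy i
      have h3 := hS z hz i
      have h4 := hS t ht i
      have h5 : (4 * (D : ℤ)) < ℓ := by exact_mod_cast hℓ
      simp only [Pi.sub_apply, Pi.add_apply]
      rw [abs_le] at h1 h2 h3 h4
      rw [abs_lt]
      constructor <;> omega
    · rw [redvPC_sub, redvPC_sub, redvPC_add, hte, sub_self]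
  refine ⟨(x, y, z), ?_, rfl⟩
  simp only [Finset.coe_filter, Finset.mem_product, Set.mem_ofPred_eq]
  refine ⟨⟨hx, hy, hz⟩, ?_⟩
  rw [sub_eq_zero.1 h0]
  exact ht

/-- The two variable count over `S`. -/
lemma pair_count_le (S : Finset (β → ℤ)) (D : ℕ) (hS : ∀ v ∈ S, ∀ i, |v i| ≤ (D : ℤ))
    (hℓ : 4 * D < ℓ) {ε : ℝ} (hε : 0 ≤ ε) (hE : (energy S : ℝ) ≤ ε ^ 2 * (S.card : ℝ) ^ 3)
    {a b : ZMod ℓ} (ha : a ≠ 0) (hb : b ≠ 0) (w : β → ZMod ℓ) :
    (((S ×ˢ S).filter (fun p => a • redvPC ℓ p.1 + b • redvPC ℓ p.2 + w ∈ S.image (redvPC ℓ))).card : ℝ) ≤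
      ε * (S.card : ℝ) ^ 2 := by
  classical
  set A := S.image (redvPC ℓ) with hA
  let σ : (β → ZMod ℓ) ≃+ (β → ZMod ℓ) := (LinearEquiv.smulOfNeZero (ZMod ℓ) (β → ZMod ℓ) a ha).toAddEquiv
  let τ : (β → ZMod ℓ) ≃+ (β → ZMod ℓ) := (LinearEquiv.smulOfNeZero (ZMod ℓ) (β → ZMod ℓ) b hb).toAddEquiv
  have hσ : ∀ x, σ x = a • x := fun _ => rfl
  have hτ : ∀ x, τ x = b • x := fun _ => rfl
  have hinj := redvPC_injOn (ℓ := ℓ) hS hℓ
  have h1 : ((S ×ˢ S).filter (fun p => a • redvPC ℓ p.1 + b • redvPC ℓ p.2 + w ∈ A)).card ≤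
      ((A ×ˢ A).filter (fun p => σ p.1 + τ p.2 + w ∈ A)).card := by
    refine Finset.card_le_card_of_injOn (fun p => (redvPC ℓ p.1, redvPC ℓ p.2)) ?_ ?_
    · rintro ⟨x, y⟩ h
      simp only [Finset.coe_filter, Finset.mem_product, Set.mem_ofPred_eq] at h ⊢
      exact ⟨⟨Finset.mem_image_of_mem _ h.1.1, Finset.mem_image_of_mem _ h.1.2⟩, by
        rw [hσ, hτ]; exact h.2⟩
    · rintro ⟨x, y⟩ h ⟨x', y'⟩ h' he
      simp only [Finset.coe_filter, Finset.mem_product, Set.mem_ofPred_eq] at h h'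
      simp only [Prod.mk.injEq] at he
      rw [Prod.mk.injEq]
      exact ⟨hinj (Finset.mem_coe.2 h.1.1) (Finset.mem_coe.2 h'.1.1) he.1,
        hinj (Finset.mem_coe.2 h.1.2) (Finset.mem_coe.2 h'.1.2) he.2⟩
  have h2 := two_var_bound A σ τ w
  have h3 : (A.card : ℝ) ≤ S.card := by exact_mod_cast Finset.card_image_le
  have h4 : (engF A : ℝ) ≤ energy S := by exact_mod_cast engF_image_le hS hℓ
  have h5 : (0 : ℝ) ≤ S.card := Nat.cast_nonneg _
  have h6 : (0 : ℝ) ≤ engF A := Nat.cast_nonneg _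
  have h7 : (((A ×ˢ A).filter (fun p => σ p.1 + τ p.2 + w ∈ A)).card : ℝ) ^ 2 ≤
      (ε * (S.card : ℝ) ^ 2) ^ 2 := by
    calc _ ≤ (A.card : ℝ) * (engF A : ℝ) := h2
      _ ≤ (S.card : ℝ) * (ε ^ 2 * (S.card : ℝ) ^ 3) :=
        mul_le_mul h3 (h4.trans hE) h6 h5
      _ = _ := by ring
  have h8 : (0 : ℝ) ≤ ε * (S.card : ℝ) ^ 2 := by positivity
  have h9 := abs_le_of_sq_le_sq h7 h8
  calc _ ≤ (((A ×ˢ A).filter (fun p => σ p.1 + τ p.2 + w ∈ A)).card : ℝ) := by exact_mod_cast h1
    _ ≤ _ := (le_abs_self _).trans h9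

/-- The tuples of coefficients and points appearing in a relation set. -/
noncomputable def tupleSet (S : Finset (β → ℤ)) (ℓ m : ℕ) [Fact ℓ.Prime] :
    Finset ((Fin (m + 2) → ZMod ℓ) × (Fin (m + 2) → (β → ℤ))) := by
  classical
  exact ((Finset.univ : Finset (Fin (m + 2) → ZMod ℓ)) ×ˢ Fintype.piFinset (fun _ => S)).filter
    (fun q => q.1 0 ≠ 0 ∧ q.1 1 ≠ 0 ∧ ∑ i, q.1 i • redvPC ℓ (q.2 i) ∈ S.image (redvPC ℓ))

lemma mem_tupleSet {S : Finset (β → ℤ)} {m : ℕ} {q : (Fin (m + 2) → ZMod ℓ) × (Fin (m + 2) → (β → ℤ))} :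
    q ∈ tupleSet S ℓ m ↔ (∀ i, q.2 i ∈ S) ∧ q.1 0 ≠ 0 ∧ q.1 1 ≠ 0 ∧
      ∃ t ∈ S, redvPC ℓ t = ∑ i, q.1 i • redvPC ℓ (q.2 i) := by
  classical
  unfold tupleSet
  simp only [Finset.mem_filter, Finset.mem_product, Finset.mem_univ, true_and, Fintype.mem_piFinset,
    Finset.mem_image]

lemma tupleSet_card_le (S : Finset (β → ℤ)) (D : ℕ) (hS : ∀ v ∈ S, ∀ i, |v i| ≤ (D : ℤ))
    (hℓ : 4 * D < ℓ) {ε : ℝ} (hε : 0 ≤ ε) (hE : (energy S : ℝ) ≤ ε ^ 2 * (S.card : ℝ) ^ 3) (m : ℕ) :
    ((tupleSet S ℓ m).card : ℝ) ≤ ((ℓ : ℝ) * (S.card : ℝ)) ^ (m + 2) * ε := by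
  classical
  let tgt : Finset ((Fin (m + 2) → ZMod ℓ) × (Fin m → (β → ℤ))) :=
    (Finset.univ : Finset (Fin (m + 2) → ZMod ℓ)) ×ˢ Fintype.piFinset (fun _ => S)
  let f : (Fin (m + 2) → ZMod ℓ) × (Fin (m + 2) → (β → ℤ)) →
      (Fin (m + 2) → ZMod ℓ) × (Fin m → (β → ℤ)) :=
    fun q => (q.1, fun i => q.2 i.succ.succ)
  have hmaps : Set.MapsTo f (tupleSet S ℓ m) tgt := by
    intro q hq
    have h1 := mem_tupleSet.1 (Finset.mem_coe.1 hq)
    simp only [Finset.mem_coe, tgt, f, Finset.mem_product, Finset.mem_univ, true_and,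
      Fintype.mem_piFinset]
    exact fun i => h1.1 _
  have hfib : ∀ k ∈ tgt, (((tupleSet S ℓ m).filter (fun q => f q = k)).card : ℝ) ≤
      ε * (S.card : ℝ) ^ 2 := by
    rintro ⟨b, ξ⟩ -
    by_cases hb : b 0 ≠ 0 ∧ b 1 ≠ 0
    · let w : β → ZMod ℓ := ∑ i : Fin m, b i.succ.succ • redvPC ℓ (ξ i)
      refine le_trans ?_ (pair_count_le S D hS hℓ hε hE hb.1 hb.2 w)
      have : ((tupleSet S ℓ m).filter (fun q => f q = (b, ξ))).card ≤
          ((S ×ˢ S).filter (fun p => b 0 • redvPC ℓ p.1 + b 1 • redvPC ℓ p.2 + w ∈ S.image (redvPC ℓ))).card := by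
        refine Finset.card_le_card_of_injOn (fun q => (q.2 0, q.2 1)) ?_ ?_
        · rintro ⟨b', x⟩ h
          have h0 := Finset.mem_filter.1 (Finset.mem_coe.1 h)
          have h1 := mem_tupleSet.1 h0.1
          have h2 : b' = b ∧ (fun i : Fin m => x i.succ.succ) = ξ := by
            simpa [f] using h0.2
          obtain ⟨rfl, rfl⟩ := h2
          obtain ⟨hx, _, _, t, ht, hte⟩ := h1
          simp only [Finset.coe_filter, Finset.mem_product, Set.mem_ofPred_eq]
          refine ⟨⟨hx 0, hx 1⟩, ?_⟩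
          refine Finset.mem_image.2 ⟨t, ht, ?_⟩
          rw [hte, Fin.sum_univ_succ, Fin.sum_univ_succ]
          simp only [w, add_assoc]
          rfl
        · rintro ⟨b₁, x₁⟩ h₁ ⟨b₂, x₂⟩ h₂ he
          have h01 := Finset.mem_filter.1 (Finset.mem_coe.1 h₁)
          have h02 := Finset.mem_filter.1 (Finset.mem_coe.1 h₂)
          have e1 : b₁ = b ∧ (fun i : Fin m => x₁ i.succ.succ) = ξ := by
            simpa [f] using h01.2
          have e2 : b₂ = b ∧ (fun i : Fin m => x₂ i.succ.succ) = ξ := by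
            simpa [f] using h02.2
          simp only [Prod.mk.injEq] at he
          have hx : x₁ = x₂ := by
            funext i
            refine Fin.cases he.1 (fun j => ?_) i
            refine Fin.cases he.2 (fun l => ?_) j
            have := congrFun (e1.2.trans e2.2.symm) l
            exact this
          rw [Prod.mk.injEq]
          exact ⟨e1.1.trans e2.1.symm, hx⟩
      exact_mod_cast this
    · have : (tupleSet S ℓ m).filter (fun q => f q = (b, ξ)) = ∅ := by
        refine Finset.filter_eq_empty_iff.2 ?_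
        rintro ⟨b', x⟩ h hf
        have h2 : b' = b := by
          have := congrArg Prod.fst hf
          simpa [f] using this
        subst h2
        have h1 := mem_tupleSet.1 h
        exact hb ⟨h1.2.1, h1.2.2.1⟩
      rw [this]
      simp only [Finset.card_empty, Nat.cast_zero]
      positivity
  have hcard := Finset.card_eq_sum_card_fiberwise hmaps
  have h1 : ((tupleSet S ℓ m).card : ℝ) ≤ (tgt.card : ℝ) * (ε * (S.card : ℝ) ^ 2) := by
    rw [hcard]
    push_cast
    calc _ ≤ ∑ _k ∈ tgt, (ε * (S.card : ℝ) ^ 2) := Finset.sum_le_sum hfib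
      _ = _ := by rw [Finset.sum_const, nsmul_eq_mul]
  have h2 : (tgt.card : ℝ) = (ℓ : ℝ) ^ (m + 2) * (S.card : ℝ) ^ m := by
    simp only [tgt, Finset.card_product, Finset.card_univ, Fintype.card_piFinset, Fintype.card_pi,
      ZMod.card, Finset.prod_const, Fintype.card_fin]
    push_cast
    rfl
  rw [h2] at h1
  refine h1.trans (le_of_eq ?_)
  ring

/-- A relation set of size `m + 3` comes from a tuple. -/
lemma relSet_surj (S : Finset (β → ℤ)) (D : ℕ) (hS : ∀ v ∈ S, ∀ i, |v i| ≤ (D : ℤ))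
    (hℓ : 4 * D < ℓ) (m : ℕ) {R : Finset (β → ℤ)} (hRS : R ⊆ S)
    (hrel : IsRelSet (F := ZMod ℓ) (uvec ℓ) R) (hcard : R.card = m + 3) :
    ∃ q ∈ tupleSet S ℓ m, R = Finset.univ.image q.2 ∪
      S.filter (fun t => redvPC ℓ t = ∑ i, q.1 i • redvPC ℓ (q.2 i)) := by
  classical
  obtain ⟨_, a, ha, hsum⟩ := hrel
  let e : R ≃ Fin (m + 3) := Finset.equivFinOfCardEq hcard
  let g : Fin (m + 3) → (β → ℤ) := fun i => (e.symm i : β → ℤ)
  have hgR : ∀ i, g i ∈ R := fun i => (e.symm i).2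
  have hsum2 : ∑ i : Fin (m + 3), a (g i) • redvPC ℓ (g i) = 0 := by
    have h1 : ∑ v ∈ R, a v • redvPC ℓ v = 0 := by
      have := congrArg Prod.fst hsum
      simpa [Prod.fst_sum, uvecPC_fst] using this
    rw [← h1, ← Finset.sum_coe_sort R (fun v => a v • redvPC ℓ v)]
    exact Equiv.sum_comp e.symm (fun v : R => a v • redvPC ℓ (v : β → ℤ))
  let t : β → ℤ := g (Fin.last (m + 2))
  let x : Fin (m + 2) → (β → ℤ) := fun i => g i.castSucc
  have htR : t ∈ R := hgR _
  have hat : a t ≠ 0 := ha t htR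
  let b : Fin (m + 2) → ZMod ℓ := fun i => -(a (x i)) / a t
  have hbne : ∀ i, b i ≠ 0 := fun i =>
    div_ne_zero (neg_ne_zero.2 (ha _ (hgR _))) hat
  have hsum3 : redvPC ℓ t = ∑ i, b i • redvPC ℓ (x i) := by
    rw [Fin.sum_univ_castSucc] at hsum2
    have h1 : ∑ i, b i • redvPC ℓ (x i) = (-(a t)⁻¹) • ∑ i : Fin (m + 2), a (x i) • redvPC ℓ (x i) := by
      rw [Finset.smul_sum]
      refine Finset.sum_congr rfl fun i _ => ?_
      rw [smul_smul]
      congr 1
      simp only [b]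
      field_simp
    have h2 : ∑ i : Fin (m + 2), a (x i) • redvPC ℓ (x i) = -(a t • redvPC ℓ t) :=
      eq_neg_of_add_eq_zero_left hsum2
    rw [h1, h2, smul_neg, neg_smul, neg_neg, smul_smul, inv_mul_cancel₀ hat, one_smul]
  refine ⟨(b, x), ?_, ?_⟩
  · refine mem_tupleSet.2 ⟨fun i => hRS (hgR _), hbne 0, hbne 1, t, hRS htR, hsum3⟩
  · ext v
    simp only [Finset.mem_union, Finset.mem_image, Finset.mem_univ, true_and, Finset.mem_filter]
    constructor
    · intro hv
      have hv' : g (e ⟨v, hv⟩) = v := by simp [g]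
      revert hv'
      refine Fin.lastCases ?_ (fun i => ?_) (e ⟨v, hv⟩)
      · intro hv'
        right
        have : t = v := hv'
        rw [← this]
        exact ⟨hRS htR, hsum3⟩
      · intro hv'
        left
        exact ⟨i, hv'⟩
    · rintro (⟨i, rfl⟩ | ⟨hvS, hv⟩)
      · exact hgR _
      · have : v = t := redvPC_injOn (ℓ := ℓ) hS hℓ (Finset.mem_coe.2 hvS) (Finset.mem_coe.2 (hRS htR))
          (hv.trans hsum3.symm)
        rw [this]
        exact htR

end Count

/-- (P3) Counting relation sets by additive energy.  Blueprint: (i) the two-variable bound: for `a,b ≠ 0` and any `u`, with `S̄ = S mod ℓ`: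
`#{(x,y) ∈ S̄²: a x + b y + u ∈ S̄}² ≤ |S̄| E(S̄)`: `N = Σ_{y} ρ(b y + u)`, `ρ(d) = #{(x,z): z - a x = d}`; Cauchy-Schwarz and injectivity of `y ↦ b y + u`,
`Σ_d ρ(d)² = Σ_δ r(δ) r(a δ) ≤ Σ_δ r(δ)²` where `r(δ) = #{(z,z'): z - z' = δ}`.  `E(S̄)` = `energy S` by the range condition `4D < ℓ`.
(ii) Fix an enumeration of `R`; scale the relation to have coefficient `-1` on the last point `v_h`, thus `v_h = Σ_{i<h} a_i v_i` mod `ℓ`, and comparing the last coordinate `Σ_{i<h} a_i = 1` (not even needed).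
All `a_i ≠ 0`, `h - 1 ≥ 2` (`h ≥ 3` as reduction is injective on `S` so no relation sets of size `≤ 2`).  `R` is determined by `(a, v_1..v_{h-1})`.  For fixed `a` (at most `ℓ^{h-1}`) and `v_3..v_{h-1}`,
the pair `(v_1,v_2)` has at most `ε |S|²` choices. -/
theorem relSet_count {β : Type} [Fintype β] [DecidableEq β] {ℓ : ℕ} [Fact ℓ.Prime]
    (S : Finset (β → ℤ)) (D : ℕ) (hS : ∀ v ∈ S, ∀ i, |v i| ≤ (D : ℤ)) (hℓ : 4 * D < ℓ)
    {ε : ℝ} (hε : 0 ≤ ε) (hE : (energy S : ℝ) ≤ ε ^ 2 * (S.card : ℝ) ^ 3) (h : ℕ) (hh : 1 ≤ h) :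
    open Classical in
    (((S.powerset).filter (fun R => IsRelSet (F := ZMod ℓ) (uvec ℓ) R ∧ R.card = h)).card : ℝ) ≤
      ((ℓ : ℝ) * (S.card : ℝ)) ^ (h - 1) * ε := by
  classical
  have hinj := redvPC_injOn (ℓ := ℓ) hS hℓ
  have hpos : (0 : ℝ) ≤ ((ℓ : ℝ) * (S.card : ℝ)) ^ (h - 1) * ε := by positivity
  by_cases h3 : 3 ≤ h
  · obtain ⟨m, rfl⟩ : ∃ m, h = m + 3 := ⟨h - 3, by omega⟩
    have h1 : ((S.powerset).filter (fun R => IsRelSet (F := ZMod ℓ) (uvec ℓ) R ∧ R.card = m + 3)).card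
        ≤ (tupleSet S ℓ m).card := by
      refine Finset.card_le_card_of_surjOn (fun q => Finset.univ.image q.2 ∪
        S.filter (fun t => redvPC ℓ t = ∑ i, q.1 i • redvPC ℓ (q.2 i))) ?_
      intro R hR
      have hR' := Finset.mem_filter.1 (Finset.mem_coe.1 hR)
      obtain ⟨q, hq, he⟩ := relSet_surj S D hS hℓ m (Finset.mem_powerset.1 hR'.1) hR'.2.1 hR'.2.2
      exact ⟨q, Finset.mem_coe.2 hq, he.symm⟩
    have h2 := tupleSet_card_le S D hS hℓ hε hE m
    calc _ ≤ ((tupleSet S ℓ m).card : ℝ) := by exact_mod_cast h1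
      _ ≤ _ := h2
  · have hempty : (S.powerset).filter (fun R => IsRelSet (F := ZMod ℓ) (uvec ℓ) R ∧ R.card = h) = ∅ := by
      refine Finset.filter_eq_empty_iff.2 ?_
      rintro R hR ⟨⟨_, a, ha, hsum⟩, hc⟩
      have hRS := Finset.mem_powerset.1 hR
      have h12 : h = 1 ∨ h = 2 := by omega
      rcases h12 with rfl | rfl
      · obtain ⟨v, rfl⟩ := Finset.card_eq_one.1 hc
        rw [Finset.sum_singleton] at hsum
        have h1 := congrArg Prod.snd hsum
        simp only [Prod.smul_snd, uvecPC_snd, smul_eq_mul, mul_one, Prod.snd_zero] at h1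
        exact ha v (Finset.mem_singleton_self v) h1
      · obtain ⟨v, w, hvw, rfl⟩ := Finset.card_eq_two.1 hc
        rw [Finset.sum_pair hvw] at hsum
        have h1 := congrArg Prod.snd hsum
        have h2 := congrArg Prod.fst hsum
        simp only [Prod.snd_add, Prod.smul_snd, uvecPC_snd, smul_eq_mul, mul_one, Prod.snd_zero] at h1
        simp only [Prod.fst_add, Prod.smul_fst, uvecPC_fst, Prod.fst_zero] at h2
        have hav : a v ≠ 0 := ha v (by simp)
        have haw : a w = - a v := by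
          have := eq_neg_of_add_eq_zero_right h1
          exact this
        rw [haw, neg_smul, ← sub_eq_add_neg, ← smul_sub] at h2
        have h3 : redvPC ℓ v - redvPC ℓ w = 0 := (smul_eq_zero.1 h2).resolve_left hav
        exact hvw (hinj (Finset.mem_coe.2 (hRS (by simp))) (Finset.mem_coe.2 (hRS (by simp)))
          (sub_eq_zero.1 h3))
    rw [hempty]
    simpa using hpos

/-- (P4) Bonferroni, sign and size of the truncation error of the binomial theorem.
Induction on `N`: `R(N+1,m) = R(N,m) - x R(N,m-1)`, where `R(N,m) = (1-x)^N - Σ_{j≤m} (-x)^j C(N,j)`. -/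
theorem bonferroni_even {x : ℝ} (hx0 : 0 ≤ x) (hx1 : x ≤ 1) (N t : ℕ) :
    (1 - x) ^ N ≤ ∑ j ∈ Finset.range (2 * t + 1), (-x) ^ j * (N.choose j : ℝ) ∧
    ∑ j ∈ Finset.range (2 * t + 1), (-x) ^ j * (N.choose j : ℝ) ≤
      (1 - x) ^ N + (N.choose (2 * t + 1) : ℝ) * x ^ (2 * t + 1) := by
  -- truncated sums
  set S : ℕ → ℕ → ℝ := fun N m => ∑ j ∈ Finset.range m, (-x) ^ j * (N.choose j : ℝ) with hS
  -- Pascal recursion
  have hrec : ∀ N m, S (N + 1) (m + 1) = S N (m + 1) + (-x) * S N m := by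
    intro N m
    simp only [hS]
    rw [Finset.sum_range_succ' _ m]
    have h1 : ∀ k, (-x) ^ (k + 1) * ((N + 1).choose (k + 1) : ℝ) =
        (-x) ^ (k + 1) * (N.choose k : ℝ) + (-x) ^ (k + 1) * (N.choose (k + 1) : ℝ) := by
      intro k
      rw [Nat.choose_succ_succ]
      push_cast
      ring
    simp_rw [h1]
    rw [Finset.sum_add_distrib, Finset.sum_range_succ' (fun j => (-x) ^ j * (N.choose j : ℝ)) m,
      Finset.mul_sum]
    simp only [Nat.choose_zero_right, pow_zero, Nat.cast_one, mul_one]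
    have h2 : ∑ i ∈ Finset.range m, (-x) ^ (i + 1) * (N.choose i : ℝ) =
        ∑ i ∈ Finset.range m, -x * ((-x) ^ i * (N.choose i : ℝ)) :=
      Finset.sum_congr rfl fun i _ => by ring
    rw [h2]
    ring
  -- the error term
  have hsign : ∀ N m, 0 ≤ (-1 : ℝ) ^ m * ((1 - x) ^ N - S N m) ∧
      (-1 : ℝ) ^ m * ((1 - x) ^ N - S N m) ≤ (N.choose m : ℝ) * x ^ m := by
    intro N
    induction N with
    | zero =>
      intro m
      cases m with
      | zero =>
        simp [hS]
      | succ m =>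
        have : S 0 (m + 1) = 1 := by
          simp only [hS]
          rw [Finset.sum_range_succ']
          simp
        rw [this]
        simp
    | succ N ih =>
      intro m
      cases m with
      | zero =>
        have h0 : S (N + 1) 0 = 0 := by simp [hS]
        rw [h0]
        have hp : 0 ≤ (1 - x) ^ (N + 1) := pow_nonneg (by linarith) _
        have hq : (1 - x) ^ (N + 1) ≤ 1 := pow_le_one₀ (by linarith) (by linarith)
        simp only [pow_zero, one_mul, sub_zero, Nat.choose_zero_right, Nat.cast_one, mul_one]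
        exact ⟨hp, hq⟩
      | succ m =>
        obtain ⟨h1, h2⟩ := ih (m + 1)
        obtain ⟨h3, h4⟩ := ih m
        have hE : (-1 : ℝ) ^ (m + 1) * ((1 - x) ^ (N + 1) - S (N + 1) (m + 1)) =
            (-1 : ℝ) ^ (m + 1) * ((1 - x) ^ N - S N (m + 1)) +
              x * ((-1 : ℝ) ^ m * ((1 - x) ^ N - S N m)) := by
          rw [hrec, pow_succ (-1 : ℝ) m, pow_succ (1 - x) N]
          ring
        rw [hE]
        constructor
        · have := mul_nonneg hx0 h3
          linarith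
        · have h5 := mul_le_mul_of_nonneg_left h4 hx0
          have h6 : ((N + 1).choose (m + 1) : ℝ) * x ^ (m + 1) =
              (N.choose (m + 1) : ℝ) * x ^ (m + 1) + x * ((N.choose m : ℝ) * x ^ m) := by
            rw [Nat.choose_succ_succ]
            push_cast
            ring
          rw [h6]
          linarith
  obtain ⟨h1, h2⟩ := hsign N (2 * t + 1)
  have hodd : (-1 : ℝ) ^ (2 * t + 1) = -1 := by
    rw [pow_succ, pow_mul]
    simp
  rw [hodd] at h1 h2
  constructor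
  · show (1 - x) ^ N ≤ S N (2 * t + 1)
    linarith
  · show S N (2 * t + 1) ≤ _
    linarith

/-- (P4') Consequence for the main term. -/
theorem main_term_le {p : ℝ} (hp0 : 0 ≤ p) (hp1 : p ≤ 1) (w t : ℕ) :
    ∑ j ∈ Finset.range (2 * t + 1), (-(1 / 2 : ℝ)) ^ j * ((w.choose j : ℝ) * p ^ j) ≤
      Real.exp (-((w : ℝ) * p / 2)) +
        ((w : ℝ) * p / 2) ^ (2 * t + 1) / ((2 * t + 1).factorial : ℝ) := by
  have hx0 : 0 ≤ p / 2 := by linarith
  have hx1 : p / 2 ≤ 1 := by linarith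
  obtain ⟨-, h⟩ := bonferroni_even hx0 hx1 w t
  have h1 : ∑ j ∈ Finset.range (2 * t + 1), (-(1 / 2 : ℝ)) ^ j * ((w.choose j : ℝ) * p ^ j) =
      ∑ j ∈ Finset.range (2 * t + 1), (-(p / 2)) ^ j * (w.choose j : ℝ) := by
    refine Finset.sum_congr rfl fun j _ => ?_
    have : -(p / 2) = (-(1 / 2 : ℝ)) * p := by ring
    rw [this, mul_pow]
    ring
  rw [h1]
  refine h.trans (add_le_add ?_ ?_)
  · -- (1 - x)^w ≤ exp (-x w)
    have h2 : 1 - p / 2 ≤ Real.exp (-(p / 2)) := by
      have := Real.add_one_le_exp (-(p / 2))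
      linarith
    calc (1 - p / 2) ^ w ≤ (Real.exp (-(p / 2))) ^ w :=
          pow_le_pow_left₀ (by linarith) h2 _
      _ = Real.exp (-((w : ℝ) * p / 2)) := by
          rw [← Real.exp_nat_mul]
          congr 1
          ring
  · -- choose bound
    have h3 : (w.choose (2 * t + 1) : ℝ) ≤ (w : ℝ) ^ (2 * t + 1) / ((2 * t + 1).factorial : ℝ) :=
      Nat.choose_le_pow_div _ _
    have h4 : 0 ≤ (p / 2) ^ (2 * t + 1) := pow_nonneg hx0 _
    calc (w.choose (2 * t + 1) : ℝ) * (p / 2) ^ (2 * t + 1)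
        ≤ (w : ℝ) ^ (2 * t + 1) / ((2 * t + 1).factorial : ℝ) * (p / 2) ^ (2 * t + 1) :=
          mul_le_mul_of_nonneg_right h3 h4
      _ = ((w : ℝ) * p / 2) ^ (2 * t + 1) / ((2 * t + 1).factorial : ℝ) := by
          have : (w : ℝ) * p / 2 = (w : ℝ) * (p / 2) := by ring
          rw [this, mul_pow]
          ring

end Vale.Agent.Lib.P230
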