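import Vale.Agent.Lib.P230.PositionB

/-!
# P230 module O: position, rounding, reduction to normalized bodies, base case.

Reduction: let `B` be bounded convex with a cube of half side `f` about `c`.
1. On `closure B` (compact) maximize `|det (p_i - p₀)|`, `A` the matrix with columns `p_i - p₀`; the max is
   positive. By Cramer each `x ∈ closure B` has `A⁻¹(x - p₀) ∈ [-1,1]^ι`.  The simplex `p₀ + A Δ` is in `closure B`,
   so `E = {w | p₀ + A w ∈ closure B}` is `Normalized`.  Also `|A⁻¹ e_i|_∞ ≤ 1/f`.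
2. Given `τ ∈ [τ₀,2τ₀]`: `M = round(A/τ) + s 1` for `s ∈ {0..n}`, with `det M ≠ 0` in `ZMod q`
   (charpoly of `-round(A/τ)` has at most `n` roots in `ZMod q`, `q > n`).  `Err = M - A/τ` has entries `≤ n+2`.
3. For `u ∈ τ hom(λ³)E + [0,1)^ι`: `A⁻¹(M u) = u/τ + A⁻¹ Err u`, which lies in `hom(λ)E ⊆ interior E` (margins
   `1/(4n²)`, using `f ≥ fatOf n τ₀`), so `p₀ + M u ∈ interior (closure B) = interior B ⊆ B`.
4. Conversely for `x ∈ closure B`, `u = M⁻¹(x - p₀)` has `u/τ ∈ E + [-η,η]^ι ⊆ hom(1+1/n)E` (self-bounding `|u|_∞ ≤ 2τ`).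
   So `closure B ⊆ p₀ + M(τ hom(1+1/n)E)`, hence `vol B ≤ |det M| τ^n (1+1/n)^n vol E ≤ 3 |det M| τ^n vol E`.
5. Given `Λ_y` for `E,τ,q`.  `Λ = M Λ_y`; index `= |det M| index Λ_y`.  For `x ∈ ℤ^ι` write `x = p₀ + M ξ`, `ξ ∈ ℝ^ι`; choose
   `v_i` in the coset of `⌊ξ⌋` mod `Λ_y`, with `v_i ∈ τ hom(λ³)E`.  `x_i = x + M (v_i - ⌊ξ⌋) = p₀ + M (v_i + {ξ}) ∈ B`, integer, and
   affinely independent mod `q` since `M` is invertible mod `q`.
Base case: `Λ_y = ⊤`, the hits `u, u + e_i` in the cube inside `τ hom(λ³) E`.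
-/

open MeasureTheory Matrix
open scoped ENNReal

namespace Vale.Agent.Lib.P230

/-- The fatness required for the reduction. -/
noncomputable def fatOf (n : ℕ) (τ₀ : ℝ) : ℝ := 64 * τ₀ * (n : ℝ) ^ 5

variable {ι : Type} [Fintype ι] [DecidableEq ι]

/-- The numerical bound for the error term. -/
lemma num_err {N τ₀ τ : ℝ} (hN : 2 ≤ N) (hτ₀ : 0 < τ₀) (hτ0 : 0 ≤ τ) (hτ : τ ≤ 2 * τ₀) :
    N * (N + 1) * (2 * τ) / (64 * τ₀ * N ^ 5) ≤ 1 / (8 * N ^ 3) := by
  have hN0 : 0 < N := by linarith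
  rw [div_le_div_iff₀ (by positivity) (by positivity)]
  have h1 : (N + 1) * τ ≤ 2 * N * (2 * τ₀) := by
    apply mul_le_mul (by linarith) hτ hτ0 (by positivity)
  have h2 : 0 ≤ 16 * N ^ 4 := by positivity
  have h3 := mul_le_mul_of_nonneg_left h1 h2
  calc N * (N + 1) * (2 * τ) * (8 * N ^ 3) = 16 * N ^ 4 * ((N + 1) * τ) := by ring
    _ ≤ 16 * N ^ 4 * (2 * N * (2 * τ₀)) := h3
    _ = 1 * (64 * τ₀ * N ^ 5) := by ring

/-- Forward inclusion: points of `τ hom(λ³) E + [0,1)^ι` are mapped into the body. -/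
lemma forward_mem (hn : 2 ≤ Fintype.card ι) {B : Set (ι → ℝ)} (hconv : Convex ℝ B)
    {p₀ : ι → ℝ} {A Mr : Matrix ι ι ℝ} (hdet : A.det ≠ 0) {c : ι → ℝ} {τ₀ τ : ℝ}
    (hτ₀ : 64 * (Fintype.card ι : ℝ) ^ 2 ≤ τ₀) (hτ1 : τ₀ ≤ τ) (hτ2 : τ ≤ 2 * τ₀)
    (hcube : ∀ x : ι → ℝ, (∀ i, |x i - c i| ≤ fatOf (Fintype.card ι) τ₀) → x ∈ B)
    (hE : Normalized (Eset p₀ A B))
    (hI : ∀ (y : ι → ℝ) (S : ℝ), 0 ≤ S → (∀ i, |y i| ≤ S) → ∀ j,
      |(A⁻¹ *ᵥ y) j| ≤ S / fatOf (Fintype.card ι) τ₀)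
    (hM : ∀ j i, |Mr j i - A j i / τ| ≤ (Fintype.card ι : ℝ) + 1)
    {e ξ : ι → ℝ} (he : e ∈ hom (lam1 ι ^ 3) (Eset p₀ A B)) (hξ : ∀ i, 0 ≤ ξ i ∧ ξ i < 1) :
    p₀ + Mr *ᵥ (τ • e + ξ) ∈ B := by
  have hN : (2 : ℝ) ≤ (Fintype.card ι : ℝ) := by exact_mod_cast hn
  set N : ℝ := (Fintype.card ι : ℝ) with hNdef
  have hN0 : 0 < N := by linarith
  have hτ₀pos : 64 * N ^ 2 ≤ τ₀ := hτ₀
  have hτ₀0 : 0 < τ₀ := lt_of_lt_of_le (by positivity) hτ₀pos
  have hτ0 : 0 < τ := lt_of_lt_of_le hτ₀0 hτ1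
  have hτ1' : 1 ≤ τ := by nlinarith
  have hf : 0 < fatOf (Fintype.card ι) τ₀ := by
    simp only [fatOf]
    positivity
  have hlam : lam1 ι = 1 - 1 / N := rfl
  have hinv : 1 / N ≤ 1 / 2 := one_div_le_one_div_of_le (by norm_num) hN
  have hinv0 : 0 < 1 / N := by positivity
  have hl0 : 0 ≤ lam1 ι := by rw [hlam]; linarith
  have hl1 : lam1 ι ≤ 1 := by rw [hlam]; linarith
  have hebd : ∀ i, |e i| ≤ 1 := abs_le_one_of_mem_hom hn hE (pow_nonneg hl0 3)
    (pow_le_one₀ hl0 hl1) he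
  set u : ι → ℝ := τ • e + ξ with hu
  have hub : ∀ i, |u i| ≤ 2 * τ := by
    intro i
    simp only [hu, Pi.add_apply, Pi.smul_apply, smul_eq_mul]
    calc |τ * e i + ξ i| ≤ |τ * e i| + |ξ i| := abs_add_le _ _
      _ ≤ τ * 1 + 1 := by
          refine add_le_add ?_ ?_
          · rw [abs_mul, abs_of_pos hτ0]
            gcongr
            exact hebd i
          · rw [abs_of_nonneg (hξ i).1]
            exact (hξ i).2.le
      _ ≤ 2 * τ := by linarith
  have herr := abs_inv_mulVec_sub_le hdet hτ0.ne' hI hM (S := 2 * τ) (by positivity) hub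
  have hfnum : fatOf (Fintype.card ι) τ₀ = 64 * τ₀ * N ^ 5 := rfl
  set w : ι → ℝ := A⁻¹ *ᵥ (Mr *ᵥ u) with hw
  have hdelta : ∀ j, |(w - e) j| ≤ 3 / (8 * N ^ 2) := by
    intro j
    have h1 : (w - e) j = (w j - u j / τ) + ξ j / τ := by
      simp only [Pi.sub_apply, hu, Pi.add_apply, Pi.smul_apply, smul_eq_mul]
      field_simp
      ring
    rw [h1]
    have h2 : |w j - u j / τ| ≤ 1 / (8 * N ^ 3) := by
      refine (herr j).trans ?_
      rw [hfnum]
      exact num_err hN hτ₀0 hτ0.le hτ2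
    have h3 : |ξ j / τ| ≤ 1 / τ := by
      rw [abs_div, abs_of_pos hτ0, abs_of_nonneg (hξ j).1]
      gcongr
      exact (hξ j).2.le
    have h4 : 1 / τ ≤ 1 / (64 * N ^ 2) :=
      one_div_le_one_div_of_le (by positivity) (hτ₀pos.trans hτ1)
    have h5 : 1 / (8 * N ^ 3) ≤ 1 / (16 * N ^ 2) := by
      apply one_div_le_one_div_of_le (by positivity)
      have : 0 ≤ N ^ 2 := by positivity
      nlinarith
    have h6 : 1 / (64 * N ^ 2) + 1 / (16 * N ^ 2) ≤ 3 / (8 * N ^ 2) := by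
      have h7 : 1 / (64 * N ^ 2) = (1 / 64) * (1 / N ^ 2) := by field_simp
      have h8 : 1 / (16 * N ^ 2) = (1 / 16) * (1 / N ^ 2) := by field_simp
      have h9 : 3 / (8 * N ^ 2) = (3 / 8) * (1 / N ^ 2) := by field_simp
      have h10 : 0 < 1 / N ^ 2 := by positivity
      rw [h7, h8, h9]
      nlinarith
    calc _ ≤ |w j - u j / τ| + |ξ j / τ| := abs_add_le _ _
      _ ≤ 3 / (8 * N ^ 2) := by linarith
  have hmem : e + (w - e) ∈ hom (lam1 ι) (Eset p₀ A B) := hom_perturb hn hE he hdelta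
  rw [add_sub_cancel] at hmem
  have hres := mem_of_mem_hom hn hconv hdet hf hcube hE hmem
  rwa [hw, mulVec_inv_mulVec hdet] at hres

/-- Backward inclusion: every point of the closure of the body comes from `hom(1+1/n) E`. -/
lemma backward_mem (hn : 2 ≤ Fintype.card ι) {B : Set (ι → ℝ)}
    {p₀ : ι → ℝ} {A Mr : Matrix ι ι ℝ} (hdet : A.det ≠ 0) (hMr : Mr.det ≠ 0) {τ₀ τ : ℝ}
    (hτ₀ : 64 * (Fintype.card ι : ℝ) ^ 2 ≤ τ₀) (hτ1 : τ₀ ≤ τ) (hτ2 : τ ≤ 2 * τ₀)
    (hE : Normalized (Eset p₀ A B))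
    (hI : ∀ (y : ι → ℝ) (S : ℝ), 0 ≤ S → (∀ i, |y i| ≤ S) → ∀ j,
      |(A⁻¹ *ᵥ y) j| ≤ S / fatOf (Fintype.card ι) τ₀)
    (hM : ∀ j i, |Mr j i - A j i / τ| ≤ (Fintype.card ι : ℝ) + 1)
    {x : ι → ℝ} (hx : x ∈ closure B) :
    ∃ y ∈ Eset p₀ A B, x = p₀ + Mr *ᵥ (τ • (cen ι + (1 + 1 / (Fintype.card ι : ℝ)) • (y - cen ι))) := by
  have hN : (2 : ℝ) ≤ (Fintype.card ι : ℝ) := by exact_mod_cast hn
  set N : ℝ := (Fintype.card ι : ℝ) with hNdef
  have hN0 : 0 < N := by linarith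
  have hτ₀pos : 64 * N ^ 2 ≤ τ₀ := hτ₀
  have hτ₀0 : 0 < τ₀ := lt_of_lt_of_le (by positivity) hτ₀pos
  have hτ0 : 0 < τ := lt_of_lt_of_le hτ₀0 hτ1
  have hfnum : fatOf (Fintype.card ι) τ₀ = 64 * τ₀ * N ^ 5 := rfl
  have hne : Nonempty ι := by
    apply Fintype.card_pos_iff.1
    omega
  set u : ι → ℝ := Mr⁻¹ *ᵥ (x - p₀) with hu
  have hMu : Mr *ᵥ u = x - p₀ := mulVec_inv_mulVec hMr _
  set w : ι → ℝ := A⁻¹ *ᵥ (x - p₀) with hw
  have hwE : w ∈ Eset p₀ A B := by
    show p₀ + A *ᵥ (A⁻¹ *ᵥ (x - p₀)) ∈ closure B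
    rw [mulVec_inv_mulVec hdet]
    simpa using hx
  have hwb : ∀ j, |w j| ≤ 1 := hE.bound w hwE
  have hwu : w = A⁻¹ *ᵥ (Mr *ᵥ u) := by rw [hMu]
  -- self-bounding
  obtain ⟨i₀, -, hi₀⟩ := Finset.exists_max_image Finset.univ (fun i => |u i|) Finset.univ_nonempty
  set S : ℝ := |u i₀| with hS
  have hS0 : 0 ≤ S := abs_nonneg _
  have hub : ∀ i, |u i| ≤ S := fun i => hi₀ i (Finset.mem_univ i)
  have h1 := abs_inv_mulVec_sub_le hdet hτ0.ne' hI hM hS0 hub i₀
  rw [← hwu, hfnum] at h1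
  have h2 : S / τ ≤ 1 + N * (N + 1) * S / (64 * τ₀ * N ^ 5) := by
    have h3 : |u i₀ / τ| ≤ |w i₀| + |w i₀ - u i₀ / τ| := by
      have := abs_sub_abs_le_abs_sub (u i₀ / τ) (w i₀)
      rw [abs_sub_comm (u i₀ / τ) (w i₀)] at this
      linarith
    rw [abs_div, abs_of_pos hτ0] at h3
    linarith [hwb i₀]
  have hS2 : S ≤ 2 * τ := by
    have h3 : N * (N + 1) * S / (64 * τ₀ * N ^ 5) * τ ≤ S / 2 := by
      have h4 : N * (N + 1) * S / (64 * τ₀ * N ^ 5) * τ = (N * (N + 1) * τ / (64 * τ₀ * N ^ 5)) * S := by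
        ring
      rw [h4]
      have h5 : N * (N + 1) * τ / (64 * τ₀ * N ^ 5) ≤ 1 / 2 := by
        rw [div_le_div_iff₀ (by positivity) (by norm_num)]
        have h6 : (N + 1) * τ ≤ 2 * N * (2 * τ₀) := by
          apply mul_le_mul (by linarith) hτ2 hτ0.le (by positivity)
        have h7 : 0 ≤ N := hN0.le
        have h8 : 1 ≤ N ^ 4 := one_le_pow₀ (by linarith)
        have h9 : 0 < τ₀ * N ^ 5 := by positivity
        calc N * (N + 1) * τ * 2 = 2 * N * ((N + 1) * τ) := by ring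
          _ ≤ 2 * N * (2 * N * (2 * τ₀)) := by gcongr
          _ = 8 * τ₀ * N ^ 2 := by ring
          _ ≤ 64 * τ₀ * N ^ 5 := by
              have h10 : N ^ 2 ≤ N ^ 5 := pow_le_pow_right₀ (by linarith) (by norm_num)
              have h11 : 0 ≤ τ₀ := hτ₀0.le
              nlinarith [mul_le_mul_of_nonneg_left h10 h11]
          _ = 1 * (64 * τ₀ * N ^ 5) := by ring
      nlinarith
    have h4 : S ≤ τ + S / 2 := by
      have h5 : S / τ * τ = S := by field_simp
      have h6 := mul_le_mul_of_nonneg_right h2 hτ0.le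
      rw [h5, add_mul, one_mul] at h6
      linarith
    linarith
  -- the error term
  have h3 := abs_inv_mulVec_sub_le hdet hτ0.ne' hI hM (S := 2 * τ) (by positivity)
    (fun i => (hub i).trans hS2)
  rw [← hwu, hfnum] at h3
  have h4 : ∀ j, |w j - u j / τ| ≤ 1 / (8 * N ^ 3) := fun j =>
    (h3 j).trans (num_err hN hτ₀0 hτ0.le hτ2)
  -- the point of the body
  set μ : ℝ := 1 + 1 / N with hμ
  have hμ1 : 1 < μ := by
    have : 0 < 1 / N := by positivity
    rw [hμ]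
    linarith
  have hμ0 : 0 < μ := by linarith
  set δ : ι → ℝ := fun j => u j / τ - w j with hδ
  have hδb : ∀ j, |δ j| ≤ 1 / (8 * N ^ 3) := fun j => by
    simp only [hδ]
    rw [abs_sub_comm]
    exact h4 j
  have hc : cen ι + N • δ ∈ Eset p₀ A B := by
    refine hE.cube _ fun i => ?_
    simp only [Pi.add_apply, Pi.smul_apply, smul_eq_mul, add_sub_cancel_left, abs_mul,
      abs_of_pos hN0]
    calc N * |δ i| ≤ N * (1 / (8 * N ^ 3)) := by gcongr; exact hδb i
      _ ≤ 1 / (2 * N) := by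
          have h5 : N * (1 / (8 * N ^ 3)) = 1 / (8 * N ^ 2) := by field_simp
          rw [h5]
          apply one_div_le_one_div_of_le (by positivity)
          nlinarith
  have hweights : (1 / μ) + (1 - 1 / μ) = 1 := by ring
  have hy := hE.convex hwE hc (by positivity)
    (by
      have : 1 / μ < 1 := by
        rw [div_lt_one hμ0]
        exact hμ1
      linarith) hweights
  refine ⟨_, hy, ?_⟩
  have hkey : τ • (cen ι + μ • ((1 / μ) • w + (1 - 1 / μ) • (cen ι + N • δ) - cen ι)) = u := by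
    ext j
    simp only [Pi.add_apply, Pi.smul_apply, Pi.sub_apply, smul_eq_mul, hδ]
    have hμN : (μ - 1) * N = 1 := by
      rw [hμ]
      field_simp
      ring
    have h5 : μ * (1 / μ * w j + (1 - 1 / μ) * (cen ι j + N * (u j / τ - w j)) - cen ι j) =
        w j + (μ - 1) * (cen ι j + N * (u j / τ - w j)) - μ * cen ι j := by
      field_simp
    rw [h5]
    have h6 : (μ - 1) * (cen ι j + N * (u j / τ - w j)) =
        (μ - 1) * cen ι j + ((μ - 1) * N) * (u j / τ - w j) := by ring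
    rw [h6, hμN]
    field_simp
    ring
  rw [hkey, hMu]
  simp

/-- The volume of an affine image. -/
lemma volume_affine_image (L : Matrix ι ι ℝ) (b : ι → ℝ) (E : Set (ι → ℝ)) :
    volume ((fun y => b + L *ᵥ y) '' E) = ENNReal.ofReal |L.det| * volume E := by
  have h1 : (fun y => b + L *ᵥ y) '' E = (fun z => b + z) '' (Matrix.toLin' L '' E) := by
    rw [Set.image_image]
    rfl
  rw [h1, Set.image_add_left, measure_preimage_add, Measure.addHaar_image_linearMap,
    LinearMap.det_toLin']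

/-- `(1+1/n)^n ≤ 3`. -/
lemma one_add_inv_pow_le {n : ℕ} (hn : 0 < n) : (1 + 1 / (n : ℝ)) ^ n ≤ 3 := by
  have hn0 : (0 : ℝ) < n := by exact_mod_cast hn
  have h1 : 1 + 1 / (n : ℝ) ≤ Real.exp (1 / n) := by
    have := Real.add_one_le_exp (1 / (n : ℝ))
    linarith
  have h2 : (1 + 1 / (n : ℝ)) ^ n ≤ Real.exp (1 / n) ^ n :=
    pow_le_pow_left₀ (by positivity) h1 n
  have h3 : Real.exp (1 / n) ^ n = Real.exp 1 := by
    rw [← Real.exp_nat_mul]
    congr 1
    field_simp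
  have h4 := Real.exp_one_lt_d9
  rw [h3] at h2
  linarith

/-- The range of an integer matrix has index `|det M|`. -/
lemma index_range_mulVec (M : Matrix ι ι ℤ) (hdet : M.det ≠ 0) :
    (M.mulVecLin.toAddMonoidHom).range.index = M.det.natAbs := by
  have hinj : Function.Injective M.mulVecLin := by
    intro a b hab
    have h1 : M *ᵥ (a - b) = 0 := by
      rw [Matrix.mulVec_sub]
      exact sub_eq_zero.2 hab
    exact sub_eq_zero.1 (Matrix.eq_zero_of_mulVec_eq_zero hdet h1)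
  set N : Submodule ℤ (ι → ℤ) := LinearMap.range M.mulVecLin with hN
  let e : (ι → ℤ) ≃ₗ[ℤ] N := LinearEquiv.ofInjective M.mulVecLin hinj
  have h1 := Submodule.natAbs_det_equiv N e
  have h2 : N.subtype ∘ₗ AddMonoidHom.toIntLinearMap (e : (ι → ℤ) →+ N) =
      Matrix.toLin' M := by
    ext i j
    rfl
  have h3 : N.toAddSubgroup = (M.mulVecLin.toAddMonoidHom).range := by
    ext z
    simp [hN, AddMonoidHom.mem_range]
  rw [← h3]
  have h4 : N.toAddSubgroup.index = Nat.card ((ι → ℤ) ⧸ N) := rfl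
  have h5 : LinearMap.det (N.subtype ∘ₗ
      AddMonoidHom.toIntLinearMap (e : (ι → ℤ) →+ N)) = M.det := by
    rw [h2, LinearMap.det_toLin']
  rw [h4, ← h1, h5]

/-- Affine independence modulo `q` is preserved by integer affine maps invertible modulo `q`. -/
lemma affInd_map {q : ℕ} (hq : q.Prime) (M : Matrix ι ι ℤ) (hdet : ((M.det : ℤ) : ZMod q) ≠ 0)
    {κ : Type*} {v : κ → ι → ℤ} (hv : AffIndMod q v) (x y : ι → ℤ) :
    AffIndMod q (fun k => x + M *ᵥ (v k - y)) := by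
  have : Fact q.Prime := ⟨hq⟩
  set Mb : Matrix ι ι (ZMod q) := M.map (Int.castRingHom (ZMod q)) with hMb
  have hdetb : Mb.det ≠ 0 := by
    have h2 := RingHom.map_det (Int.castRingHom (ZMod q)) M
    simp only [eq_intCast] at h2
    rw [h2] at hdet
    exact hdet
  have hcast : ∀ (z : ι → ℤ) (i : ι), (((M *ᵥ z) i : ℤ) : ZMod q) =
      (Mb *ᵥ fun j => ((z j : ℤ) : ZMod q)) i := by
    intro z i
    simp [Matrix.mulVec, dotProduct, hMb]
  set xb : ι → ZMod q := fun j => ((x j : ℤ) : ZMod q) with hxb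
  set yb : ι → ZMod q := fun j => ((y j : ℤ) : ZMod q) with hyb
  let T : ((ι → ZMod q) × ZMod q) →ₗ[ZMod q] ((ι → ZMod q) × ZMod q) :=
    LinearMap.prod
      (Mb.mulVecLin.comp (LinearMap.fst (ZMod q) _ _) +
        (LinearMap.toSpanSingleton (ZMod q) _ (xb - Mb *ᵥ yb)).comp (LinearMap.snd (ZMod q) _ _))
      (LinearMap.snd (ZMod q) _ _)
  have hT : ∀ z t, T (z, t) = (Mb *ᵥ z + t • (xb - Mb *ᵥ yb), t) := fun z t => rfl
  have hker : LinearMap.ker T = ⊥ := by
    rw [LinearMap.ker_eq_bot']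
    rintro ⟨z, t⟩ h
    rw [hT, Prod.mk_eq_zero] at h
    obtain ⟨h1, rfl⟩ := h
    simp only [zero_smul, add_zero] at h1
    have := Matrix.eq_zero_of_mulVec_eq_zero hdetb h1
    rw [this]
    rfl
  have h := hv.map' T hker
  have hfam : (fun k => ((fun i => (((x + M *ᵥ (v k - y)) i : ℤ) : ZMod q)), (1 : ZMod q))) =
      T ∘ fun j => ((fun i => ((v j i : ℤ) : ZMod q)), (1 : ZMod q)) := by
    funext k
    simp only [Function.comp_apply, hT, one_smul]
    refine Prod.ext ?_ rfl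
    ext i
    have e1 : (x + M *ᵥ (v k - y)) i = x i + ((M *ᵥ v k) i - (M *ᵥ y) i) := by
      rw [Matrix.mulVec_sub]
      rfl
    show (((x + M *ᵥ (v k - y)) i : ℤ) : ZMod q) =
      (Mb *ᵥ (fun i => ((v k i : ℤ) : ZMod q))) i + (xb i - (Mb *ᵥ yb) i)
    rw [e1, Int.cast_add, Int.cast_sub, hcast, hcast]
    simp only [hxb, hyb]
    ring
  unfold AffIndMod
  rw [hfam]
  exact h

/-- The reduction to normalized bodies. -/
theorem reduce_to_normalized (hn : 2 ≤ Fintype.card ι) (r : ℕ) {τ₀ D : ℝ} {Qmin Qmax : ℕ}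
    (hτ₀ : 64 * (Fintype.card ι : ℝ) ^ 2 ≤ τ₀) (hD : 0 ≤ D) (hQ : Fintype.card ι + 2 ≤ Qmin)
    (h : ∀ E : Set (ι → ℝ), Normalized E → ∀ q : ℕ, q.Prime → Qmin ≤ q → q ≤ Qmax →
      ∃ τ : ℝ, τ₀ ≤ τ ∧ τ ≤ 2 * τ₀ ∧ ∃ Λ : AddSubgroup (ι → ℤ), Λ.index ≠ 0 ∧
        ENNReal.ofReal (τ ^ Fintype.card ι) * volume E ≤ ENNReal.ofReal (D * (Λ.index : ℝ)) ∧
        ∀ x : ι → ℤ, ∃ v : Fin (r + 1) → ι → ℤ, (∀ i, v i - x ∈ Λ) ∧
          (∀ i, ∃ e ∈ hom (lam1 ι ^ 3) E, toR (v i) = τ • e) ∧ AffIndMod q v) :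
    CovOn ι r (fatOf (Fintype.card ι) τ₀) (3 * D) Qmin Qmax := by
  intro B hconv hbd ⟨c, hcube⟩ q hq hq1 hq2
  have hN : (2 : ℝ) ≤ (Fintype.card ι : ℝ) := by exact_mod_cast hn
  have hN0 : (0 : ℝ) < (Fintype.card ι : ℝ) := by linarith
  have hτ₀0 : 0 < τ₀ := lt_of_lt_of_le (by positivity) hτ₀
  have hf : 0 < fatOf (Fintype.card ι) τ₀ := by
    simp only [fatOf]
    positivity
  obtain ⟨p₀, p, hp₀, hp, hdet, hcr⟩ := exists_position hbd hf hcube
  set A := pMat p₀ p with hA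
  have hE : Normalized (Eset p₀ A B) := normalized_Eset hn hconv hbd hp₀ hp hdet hcr
  have hI : ∀ (y : ι → ℝ) (S : ℝ), 0 ≤ S → (∀ i, |y i| ≤ S) → ∀ j,
      |(A⁻¹ *ᵥ y) j| ≤ S / fatOf (Fintype.card ι) τ₀ := fun y S hS hy j =>
    abs_inv_mulVec_le hf hcube hcr hS hy j
  obtain ⟨τ, hτ1, hτ2, Λy, hΛ0, hvol, hcoset⟩ := h _ hE q hq (by omega) hq2
  have hτ0 : 0 < τ := lt_of_lt_of_le hτ₀0 hτ1
  obtain ⟨M, hMq, hMb⟩ := exists_round A τ hq (by omega : Fintype.card ι < q)
  have hMdet : M.det ≠ 0 := fun h0 => hMq (by rw [h0]; simp)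
  set Mr := realM M with hMr
  have hMrdet : Mr.det ≠ 0 := by
    rw [hMr, det_realM]
    exact_mod_cast hMdet
  have hMe : ∀ j i, |Mr j i - A j i / τ| ≤ (Fintype.card ι : ℝ) + 1 := fun j i => by
    simpa [hMr, realM] using hMb j i
  set φ : (ι → ℤ) →+ (ι → ℤ) := M.mulVecLin.toAddMonoidHom with hφ
  have hφapp : ∀ z, φ z = M *ᵥ z := fun z => rfl
  have hφinj : Function.Injective φ := by
    intro a b hab
    have h1 : M *ᵥ (a - b) = 0 := by
      rw [Matrix.mulVec_sub]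
      exact sub_eq_zero.2 hab
    exact sub_eq_zero.1 (Matrix.eq_zero_of_mulVec_eq_zero hMdet h1)
  have hindex : (Λy.map φ).index = Λy.index * M.det.natAbs := by
    have h1 := AddSubgroup.index_map_of_injective (H := Λy) hφinj
    have h2 := index_range_mulVec M hMdet
    exact h1.trans (by rw [← h2])
  refine ⟨Λy.map φ, ?_, ?_, ?_⟩
  · rw [hindex]
    exact Nat.mul_ne_zero hΛ0 (Int.natAbs_ne_zero.2 hMdet)
  · -- volume
    set μ : ℝ := 1 + 1 / (Fintype.card ι : ℝ) with hμ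
    have hμ0 : 0 < μ := by positivity
    set b : ι → ℝ := p₀ + Mr *ᵥ (τ • (cen ι - μ • cen ι)) with hb
    have hsub : B ⊆ (fun y => b + ((τ * μ) • Mr) *ᵥ y) '' Eset p₀ A B := by
      intro x hx
      obtain ⟨y, hy, hxy⟩ := backward_mem hn hdet hMrdet hτ₀ hτ1 hτ2 hE hI hMe
        (subset_closure hx)
      refine ⟨y, hy, ?_⟩
      show b + ((τ * μ) • Mr) *ᵥ y = x
      rw [hxy, hb, Matrix.smul_mulVec, add_assoc, ← Matrix.mulVec_smul, ← Matrix.mulVec_add]
      congr 2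
      ext j
      simp only [Pi.add_apply, Pi.smul_apply, Pi.sub_apply, smul_eq_mul]
      ring
    have h1 := measure_mono (μ := volume) hsub
    rw [volume_affine_image, Matrix.det_smul, abs_mul, abs_pow, abs_mul, abs_of_pos hτ0,
      abs_of_pos hμ0, Fintype.card_congr (Equiv.refl ι)] at h1
    have hdetabs : |Mr.det| = (M.det.natAbs : ℝ) := by
      rw [hMr, det_realM]
      simp
    rw [hdetabs, mul_pow] at h1
    have hμn : μ ^ Fintype.card ι ≤ 3 := one_add_inv_pow_le (by omega)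
    have hidx : ((Λy.map φ).index : ℝ) = (Λy.index : ℝ) * (M.det.natAbs : ℝ) := by
      rw [hindex]
      push_cast
      rfl
    calc volume B
        ≤ ENNReal.ofReal (τ ^ Fintype.card ι * μ ^ Fintype.card ι * (M.det.natAbs : ℝ)) *
            volume (Eset p₀ A B) := h1
      _ = ENNReal.ofReal (μ ^ Fintype.card ι * (M.det.natAbs : ℝ)) *
            (ENNReal.ofReal (τ ^ Fintype.card ι) * volume (Eset p₀ A B)) := by
          rw [← mul_assoc, ← ENNReal.ofReal_mul (by positivity)]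
          congr 2
          ring
      _ ≤ ENNReal.ofReal (3 * (M.det.natAbs : ℝ)) * ENNReal.ofReal (D * (Λy.index : ℝ)) := by
          gcongr
      _ = ENNReal.ofReal (3 * D * ((Λy.map φ).index : ℝ)) := by
          rw [← ENNReal.ofReal_mul (by positivity), hidx]
          congr 1
          ring
  · -- the points
    intro x
    set ξ : ι → ℝ := Mr⁻¹ *ᵥ (toR x - p₀) with hξ
    set y : ι → ℤ := fun i => ⌊ξ i⌋ with hy
    set fr : ι → ℝ := ξ - toR y with hfr
    have hfr01 : ∀ i, 0 ≤ fr i ∧ fr i < 1 := fun i => by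
      simp only [hfr, Pi.sub_apply, toR, hy]
      exact ⟨sub_nonneg.2 (Int.floor_le _), by linarith [Int.lt_floor_add_one (ξ i)]⟩
    obtain ⟨v, hv1, hv2, hv3⟩ := hcoset y
    refine ⟨fun k => x + M *ᵥ (v k - y), fun k => ?_, fun k => ?_, affInd_map hq M hMq hv3 x y⟩
    · simp only [add_sub_cancel_left]
      exact AddSubgroup.mem_map.2 ⟨_, hv1 k, rfl⟩
    · obtain ⟨e, he, hev⟩ := hv2 k
      have hmem := forward_mem hn hconv hdet hτ₀ hτ1 hτ2 hcube hE hI hMe (e := e) (ξ := fr) he hfr01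
      convert hmem using 1
      have hx' : toR x = p₀ + Mr *ᵥ ξ := by
        rw [hξ, mulVec_inv_mulVec hMrdet]
        simp
      have h3 : toR (x + M *ᵥ (v k - y)) = toR x + Mr *ᵥ (toR (v k) - toR y) := by
        have h4 : toR (v k - y) = toR (v k) - toR y := by
          ext i
          simp [toR]
        have h5 : toR (x + M *ᵥ (v k - y)) = toR x + toR (M *ᵥ (v k - y)) := by
          ext i
          simp [toR]
        rw [h5, toR_mulVec, h4]
      rw [h3, hx', hev, add_assoc, ← Matrix.mulVec_add]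
      congr 2
      rw [hfr]
      abel

/-- Integer points close to the scaled centre are in the scaled shrunk body. -/
lemma exists_hom_of_near (hn : 2 ≤ Fintype.card ι) {E : Set (ι → ℝ)} (hE : Normalized E)
    {τ : ℝ} (hτ : τ = 64 * (Fintype.card ι : ℝ) ^ 2) {z : ι → ℤ}
    (hz : ∀ i, |(z i : ℝ) - τ * cen ι i| ≤ 2) :
    ∃ e ∈ hom (lam1 ι ^ 3) E, toR z = τ • e := by
  have hN : (2 : ℝ) ≤ (Fintype.card ι : ℝ) := by exact_mod_cast hn
  set N : ℝ := (Fintype.card ι : ℝ) with hNdef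
  have hN0 : 0 < N := by linarith
  have hτ0 : 0 < τ := by rw [hτ]; positivity
  have hlam : lam1 ι = 1 - 1 / N := rfl
  have hinv : 1 / N ≤ 1 / 2 := one_div_le_one_div_of_le (by norm_num) hN
  have hl0 : 1 / 2 ≤ lam1 ι := by rw [hlam]; linarith
  set l : ℝ := lam1 ι ^ 3 with hl
  have hl1 : 1 / 8 ≤ l := by
    rw [hl]
    calc (1 : ℝ) / 8 = (1 / 2) ^ 3 := by norm_num
      _ ≤ lam1 ι ^ 3 := pow_le_pow_left₀ (by norm_num) hl0 3
  have hl2 : 0 < l := by linarith
  set e : ι → ℝ := (1 / τ) • toR z with he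
  have hy : cen ι + (1 / l) • (e - cen ι) ∈ E := by
    refine hE.cube _ fun i => ?_
    simp only [Pi.add_apply, Pi.smul_apply, Pi.sub_apply, smul_eq_mul, add_sub_cancel_left, abs_mul]
    have h1 : e i - cen ι i = ((z i : ℝ) - τ * cen ι i) / τ := by
      simp only [he, Pi.smul_apply, smul_eq_mul, toR]
      field_simp
    rw [h1, abs_of_pos (by positivity : 0 < 1 / l), abs_div, abs_of_pos hτ0]
    have h2 : 1 / l ≤ 8 := by
      rw [div_le_iff₀ hl2]
      linarith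
    calc 1 / l * (|(z i : ℝ) - τ * cen ι i| / τ) ≤ 8 * (2 / τ) := by
          gcongr
          exact hz i
      _ = 1 / (4 * N ^ 2) := by rw [hτ]; field_simp; norm_num
      _ ≤ 1 / (2 * N) := by
          apply one_div_le_one_div_of_le (by positivity)
          nlinarith
  refine ⟨e, ⟨_, hy, ?_⟩, ?_⟩
  · ext i
    simp only [Pi.add_apply, Pi.smul_apply, Pi.sub_apply, smul_eq_mul, add_sub_cancel_left]
    field_simp
    ring
  · rw [he, smul_smul, mul_one_div_cancel hτ0.ne', one_smul]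

/-- The standard simplex of integer points is affinely independent modulo `q`. -/
lemma linearIndependent_simplex (q : ℕ) (z₀ : ι → ℤ) :
    LinearIndependent (ZMod q) (fun o : Option ι =>
      ((fun i => (((Option.elim o z₀ (fun k => z₀ + Pi.single k 1)) i : ℤ) : ZMod q)),
        (1 : ZMod q))) := by
  rw [Fintype.linearIndependent_iff]
  intro g hg
  rw [Fintype.sum_option] at hg
  have h2 : g none + ∑ k, g (some k) = 0 := by
    have := congrArg Prod.snd hg
    simpa [Prod.snd_sum] using this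
  have h1 : ∀ j, g (some j) = 0 := by
    intro j
    have h3 := congrFun (congrArg Prod.fst hg) j
    simp only [Prod.smul_mk, Prod.fst_add, Prod.fst_sum, Pi.add_apply, Pi.smul_apply,
      Finset.sum_apply, Prod.fst_zero, Pi.zero_apply, smul_eq_mul, Option.elim_none,
      Option.elim_some, Int.cast_add] at h3
    have h4 : ∀ k, g (some k) * (((z₀ j : ℤ) : ZMod q) + (((Pi.single k (1 : ℤ) : ι → ℤ) j : ℤ) : ZMod q)) =
        g (some k) * ((z₀ j : ℤ) : ZMod q) + if k = j then g (some j) else 0 := by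
      intro k
      by_cases h : k = j
      · subst h
        simp [mul_add]
      · have : j ≠ k := fun h' => h h'.symm
        simp [mul_add, Pi.single_apply, h, this]
    simp only [h4, Finset.sum_add_distrib, Finset.sum_ite_eq', Finset.mem_univ, if_true,
      ← Finset.sum_mul] at h3
    have h5 : (g none + ∑ k, g (some k)) * ((z₀ j : ℤ) : ZMod q) + g (some j) = 0 := by
      rw [← h3]
      ring
    rw [h2, zero_mul, zero_add] at h5
    exact h5
  intro o
  cases o with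
  | none =>
    simp only [h1, Finset.sum_const_zero, add_zero] at h2
    exact h2
  | some j => exact h1 j

/-- Base case: any bounded convex body with a large cube has a lattice with
density `(8 * 64 n²)^n`-ish, with each coset hitting `r + 1` independent points, `r ≤ n`. -/
theorem cov_base (hn : 2 ≤ Fintype.card ι) {r : ℕ} (hr : r ≤ Fintype.card ι) (Qmax : ℕ) :
    CovOn ι r (fatOf (Fintype.card ι) (64 * (Fintype.card ι : ℝ) ^ 2))
      (3 * (4 * (64 * (Fintype.card ι : ℝ) ^ 2)) ^ Fintype.card ι) (Fintype.card ι + 2) Qmax := by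
  have hN : (2 : ℝ) ≤ (Fintype.card ι : ℝ) := by exact_mod_cast hn
  refine reduce_to_normalized hn r le_rfl (by positivity) le_rfl ?_
  intro E hE q hq _ _
  set τ : ℝ := 64 * (Fintype.card ι : ℝ) ^ 2 with hτ
  have hτ0 : 0 < τ := by rw [hτ]; positivity
  refine ⟨τ, le_rfl, by linarith, ⊤, by simp, ?_, ?_⟩
  · have hsub : E ⊆ Set.Icc (fun _ => -1) (fun _ => 1) := fun x hx =>
      ⟨fun i => (abs_le.1 (hE.bound x hx i)).1, fun i => (abs_le.1 (hE.bound x hx i)).2⟩
    have hvol : volume E ≤ ENNReal.ofReal (2 ^ Fintype.card ι) := by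
      refine (measure_mono hsub).trans ?_
      rw [Real.volume_Icc_pi]
      simp only [Finset.prod_const, Finset.card_univ]
      rw [ENNReal.ofReal_pow (by norm_num)]
      norm_num
    calc ENNReal.ofReal (τ ^ Fintype.card ι) * volume E
        ≤ ENNReal.ofReal (τ ^ Fintype.card ι) * ENNReal.ofReal (2 ^ Fintype.card ι) := by gcongr
      _ = ENNReal.ofReal (τ ^ Fintype.card ι * 2 ^ Fintype.card ι) :=
          (ENNReal.ofReal_mul (by positivity)).symm
      _ ≤ ENNReal.ofReal ((4 * τ) ^ Fintype.card ι * ((⊤ : AddSubgroup (ι → ℤ)).index : ℝ)) := by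
          refine ENNReal.ofReal_le_ofReal ?_
          simp only [AddSubgroup.index_top, Nat.cast_one, mul_one]
          rw [← mul_pow]
          exact pow_le_pow_left₀ (by positivity) (by linarith) _
  · intro x
    set z₀ : ι → ℤ := fun i => ⌈τ * cen ι i⌉ with hz₀
    set Z : Option ι → ι → ℤ := fun o => Option.elim o z₀ (fun k => z₀ + Pi.single k 1) with hZ
    have hc : Fintype.card (Fin (r + 1)) ≤ Fintype.card (Option ι) := by
      simp only [Fintype.card_fin, Fintype.card_option]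
      omega
    obtain ⟨g⟩ := Function.Embedding.nonempty_of_card_le hc
    have hnear0 : ∀ i, |((z₀ i : ℤ) : ℝ) - τ * cen ι i| ≤ 1 := fun i => by
      have h1 := Int.le_ceil (τ * cen ι i)
      have h2 := Int.ceil_lt_add_one (τ * cen ι i)
      rw [abs_le]
      constructor <;> simp only [hz₀] <;> linarith
    have hnear : ∀ o i, |((Z o i : ℤ) : ℝ) - τ * cen ι i| ≤ 2 := by
      intro o i
      cases o with
      | none =>
        have := hnear0 i
        simp only [hZ, Option.elim_none]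
        linarith
      | some k =>
        simp only [hZ, Option.elim_some, Pi.add_apply, Int.cast_add]
        have h3 : |(((Pi.single k (1 : ℤ) : ι → ℤ) i : ℤ) : ℝ)| ≤ 1 := by
          by_cases h : i = k
          · subst h
            simp
          · simp [Pi.single_apply, h]
        have h4 := hnear0 i
        calc _ = |(((z₀ i : ℤ) : ℝ) - τ * cen ι i) + (((Pi.single k (1 : ℤ) : ι → ℤ) i : ℤ) : ℝ)| := by
              congr 1
              ring
          _ ≤ _ := abs_add_le _ _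
          _ ≤ 2 := by linarith
    refine ⟨fun k => Z (g k), fun _ => AddSubgroup.mem_top _, fun k => ?_, ?_⟩
    · exact exists_hom_of_near hn hE hτ (hnear _)
    · exact (linearIndependent_simplex q z₀).comp g g.injective

end Vale.Agent.Lib.P230
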