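import Vale.Agent.Lib.P230.Defs

/-!
# P230 module O, part A: maximal simplex position of a convex body.
-/

open MeasureTheory Matrix
open scoped ENNReal

namespace Vale.Agent.Lib.P230

variable {ι : Type} [Fintype ι] [DecidableEq ι]

/-- The matrix with columns `p i - p₀`. -/
def pMat (p₀ : ι → ℝ) (p : ι → ι → ℝ) : Matrix ι ι ℝ := Matrix.of fun j i => p i j - p₀ j

lemma continuous_pMat_det :
    Continuous fun q : (ι → ℝ) × (ι → ι → ℝ) => |(pMat q.1 q.2).det| := by
  refine Continuous.abs (Continuous.matrix_det ?_)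
  refine continuous_matrix fun j i => ?_
  simp only [pMat, Matrix.of_apply]
  fun_prop

lemma pMat_updateCol (p₀ : ι → ℝ) (p : ι → ι → ℝ) (i : ι) (x : ι → ℝ) :
    (pMat p₀ p).updateCol i (x - p₀) = pMat p₀ (Function.update p i x) := by
  ext j k
  simp only [pMat, Matrix.of_apply, Matrix.updateCol_apply, Function.update_apply, Pi.sub_apply]
  split_ifs <;> rfl

lemma pMat_mulVec (p₀ : ι → ℝ) (p : ι → ι → ℝ) (w : ι → ℝ) :
    pMat p₀ p *ᵥ w = ∑ i, w i • (p i - p₀) := by
  ext j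
  simp only [Matrix.mulVec, dotProduct, pMat, Matrix.of_apply, Finset.sum_apply, Pi.smul_apply,
    Pi.sub_apply, smul_eq_mul]
  exact Finset.sum_congr rfl fun i _ => mul_comm _ _

lemma inv_mulVec_apply (A : Matrix ι ι ℝ) (hA : A.det ≠ 0) (b : ι → ℝ) (i : ι) :
    (A⁻¹ *ᵥ b) i = (A.updateCol i b).det / A.det := by
  rw [Matrix.inv_def, Matrix.smul_mulVec, ← Matrix.cramer_eq_adjugate_mulVec]
  simp only [Pi.smul_apply, smul_eq_mul, Matrix.cramer_apply]
  rw [Ring.inverse_eq_inv', inv_mul_eq_div]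

/-- A body with a cube has a maximal simplex. -/
theorem exists_position {B : Set (ι → ℝ)} (hbd : Bornology.IsBounded B) {c : ι → ℝ} {f : ℝ}
    (hf : 0 < f) (hcube : ∀ x : ι → ℝ, (∀ i, |x i - c i| ≤ f) → x ∈ B) :
    ∃ (p₀ : ι → ℝ) (p : ι → ι → ℝ), p₀ ∈ closure B ∧ (∀ i, p i ∈ closure B) ∧
      (pMat p₀ p).det ≠ 0 ∧
      ∀ x ∈ closure B, ∀ i, |((pMat p₀ p)⁻¹ *ᵥ (x - p₀)) i| ≤ 1 := by
  have hK : IsCompact (closure B) := hbd.isCompact_closure
  have hK' : IsCompact (closure B ×ˢ Set.pi Set.univ fun _ : ι => closure B) :=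
    hK.prod (isCompact_univ_pi fun _ => hK)
  have hcmem : c ∈ closure B := subset_closure (hcube c fun i => by simpa using hf.le)
  have htest : ∀ i, c + f • Pi.single i (1 : ℝ) ∈ closure B := by
    intro i
    refine subset_closure (hcube _ fun j => ?_)
    simp only [Pi.add_apply, Pi.smul_apply, smul_eq_mul, add_sub_cancel_left, abs_mul,
      abs_of_pos hf]
    by_cases h : j = i
    · subst h
      simp
    · simp [Pi.single_apply, h, hf.le]
  have hne : (closure B ×ˢ Set.pi Set.univ fun _ : ι => closure B).Nonempty :=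
    ⟨(c, fun i => c + f • Pi.single i (1 : ℝ)), hcmem, fun i _ => htest i⟩
  obtain ⟨⟨p₀, p⟩, ⟨hp₀, hp⟩, hmax⟩ := hK'.exists_isMaxOn hne continuous_pMat_det.continuousOn
  have hp' : ∀ i, p i ∈ closure B := fun i => hp i (Set.mem_univ i)
  have hmax' : ∀ (q₀ : ι → ℝ) (q : ι → ι → ℝ), q₀ ∈ closure B → (∀ i, q i ∈ closure B) →
      |(pMat q₀ q).det| ≤ |(pMat p₀ p).det| := fun q₀ q h₀ h => by
    exact hmax (show (q₀, q) ∈ _ from ⟨h₀, fun i _ => h i⟩)
  have hdet : (pMat p₀ p).det ≠ 0 := by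
    have h1 := hmax' c (fun i => c + f • Pi.single i (1 : ℝ)) hcmem htest
    have h2 : pMat c (fun i => c + f • Pi.single i (1 : ℝ)) = f • (1 : Matrix ι ι ℝ) := by
      ext j i
      simp only [pMat, Matrix.of_apply, Pi.add_apply, Pi.smul_apply, smul_eq_mul,
        add_sub_cancel_left, Matrix.smul_apply, Matrix.one_apply]
      by_cases h : j = i
      · subst h
        simp
      · simp [Pi.single_apply, h]
    rw [h2, Matrix.det_smul, Matrix.det_one, mul_one] at h1
    have h3 : 0 < |f ^ Fintype.card ι| := abs_pos.2 (pow_ne_zero _ hf.ne')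
    intro h0
    rw [h0, abs_zero] at h1
    linarith
  refine ⟨p₀, p, hp₀, hp', hdet, fun x hx i => ?_⟩
  rw [inv_mulVec_apply _ hdet, pMat_updateCol, abs_div, div_le_one (abs_pos.2 hdet)]
  refine hmax' _ _ hp₀ fun k => ?_
  by_cases h : k = i
  · subst h
    simpa using hx
  · simpa [Function.update_apply, h] using hp' k

lemma inv_mulVec_mulVec {A : Matrix ι ι ℝ} (hA : A.det ≠ 0) (w : ι → ℝ) : A⁻¹ *ᵥ (A *ᵥ w) = w := by
  rw [Matrix.mulVec_mulVec, Matrix.nonsing_inv_mul A (isUnit_iff_ne_zero.2 hA), Matrix.one_mulVec]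

lemma mulVec_inv_mulVec {A : Matrix ι ι ℝ} (hA : A.det ≠ 0) (w : ι → ℝ) : A *ᵥ (A⁻¹ *ᵥ w) = w := by
  rw [Matrix.mulVec_mulVec, Matrix.mul_nonsing_inv A (isUnit_iff_ne_zero.2 hA), Matrix.one_mulVec]

/-- The body in normalized coordinates. -/
def Eset (p₀ : ι → ℝ) (A : Matrix ι ι ℝ) (B : Set (ι → ℝ)) : Set (ι → ℝ) :=
  {w | p₀ + A *ᵥ w ∈ closure B}

lemma continuous_inv_map (p₀ : ι → ℝ) (A : Matrix ι ι ℝ) :
    Continuous fun x : ι → ℝ => A⁻¹ *ᵥ (x - p₀) :=
  Continuous.matrix_mulVec continuous_const (continuous_id.sub continuous_const)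

lemma normalized_Eset (hn : 2 ≤ Fintype.card ι) {B : Set (ι → ℝ)} (hconv : Convex ℝ B)
    (hbd : Bornology.IsBounded B) {p₀ : ι → ℝ} {p : ι → ι → ℝ}
    (hp₀ : p₀ ∈ closure B) (hp : ∀ i, p i ∈ closure B) (hdet : (pMat p₀ p).det ≠ 0)
    (hcr : ∀ x ∈ closure B, ∀ i, |((pMat p₀ p)⁻¹ *ᵥ (x - p₀)) i| ≤ 1) :
    Normalized (Eset p₀ (pMat p₀ p) B) := by
  set A := pMat p₀ p with hA
  have hK : IsCompact (closure B) := hbd.isCompact_closure
  have hKc : Convex ℝ (closure B) := hconv.closure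
  have hn0 : (0 : ℝ) < Fintype.card ι := by
    have : 0 < Fintype.card ι := by omega
    exact_mod_cast this
  refine ⟨?_, ?_, ?_, ?_⟩
  · have h1 : Eset p₀ A B = (fun x : ι → ℝ => A⁻¹ *ᵥ (x - p₀)) '' closure B := by
      ext w
      constructor
      · intro hw
        refine ⟨p₀ + A *ᵥ w, hw, ?_⟩
        simp only [add_sub_cancel_left]
        exact inv_mulVec_mulVec hdet w
      · rintro ⟨x, hx, rfl⟩
        show p₀ + A *ᵥ (A⁻¹ *ᵥ (x - p₀)) ∈ closure B
        rw [mulVec_inv_mulVec hdet]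
        simpa using hx
    rw [h1]
    exact hK.image (continuous_inv_map p₀ A)
  · intro x hx y hy a b ha hb hab
    show p₀ + A *ᵥ (a • x + b • y) ∈ closure B
    have : p₀ + A *ᵥ (a • x + b • y) = a • (p₀ + A *ᵥ x) + b • (p₀ + A *ᵥ y) := by
      rw [Matrix.mulVec_add, Matrix.mulVec_smul, Matrix.mulVec_smul, smul_add, smul_add]
      have : p₀ = a • p₀ + b • p₀ := by rw [← add_smul, hab, one_smul]
      nth_rw 1 [this]
      abel
    rw [this]
    exact hKc hx hy ha hb hab
  · intro x hx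
    have hx0 : ∀ i, 0 ≤ x i := fun i => by
      have := (abs_le.1 (hx i)).1
      simp only [cen] at this
      linarith
    have hx1 : ∀ i, x i ≤ 1 / (Fintype.card ι : ℝ) := fun i => by
      have := (abs_le.1 (hx i)).2
      simp only [cen] at this
      have h2 : 1 / (Fintype.card ι : ℝ) = 2 * (1 / (2 * (Fintype.card ι : ℝ))) := by
        field_simp
      linarith
    have hsum : ∑ i, x i ≤ 1 := by
      calc ∑ i, x i ≤ ∑ _i : ι, 1 / (Fintype.card ι : ℝ) := Finset.sum_le_sum fun i _ => hx1 i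
        _ = 1 := by
          simp only [Finset.sum_const, Finset.card_univ, nsmul_eq_mul]
          field_simp
    show p₀ + A *ᵥ x ∈ closure B
    have hcomb : p₀ + A *ᵥ x =
        ∑ o : Option ι, (Option.elim o (1 - ∑ i, x i) x) • (Option.elim o p₀ p) := by
      rw [Fintype.sum_option, hA, pMat_mulVec]
      simp only [Option.elim_none, Option.elim_some, sub_smul, one_smul, smul_sub]
      rw [Finset.sum_sub_distrib, Finset.sum_smul]
      abel
    rw [hcomb]
    refine hKc.sum_mem (fun o _ => ?_) ?_ (fun o _ => ?_)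
    · cases o with
      | none => simpa using hsum
      | some i => simpa using hx0 i
    · rw [Fintype.sum_option]
      simp
    · cases o with
      | none => simpa using hp₀
      | some i => simpa using hp i
  · intro w hw i
    have h := hcr _ hw i
    simp only [add_sub_cancel_left] at h
    rwa [inv_mulVec_mulVec hdet] at h

/-- The inverse matrix is small when the body contains a large cube. -/
lemma abs_inv_mulVec_le {B : Set (ι → ℝ)} {p₀ : ι → ℝ} {A : Matrix ι ι ℝ} {c : ι → ℝ} {f : ℝ}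
    (hf : 0 < f) (hcube : ∀ x : ι → ℝ, (∀ i, |x i - c i| ≤ f) → x ∈ B)
    (hcr : ∀ x ∈ closure B, ∀ i, |(A⁻¹ *ᵥ (x - p₀)) i| ≤ 1)
    {y : ι → ℝ} {S : ℝ} (hS : 0 ≤ S) (hy : ∀ i, |y i| ≤ S) (j : ι) :
    |(A⁻¹ *ᵥ y) j| ≤ S / f := by
  rcases hS.eq_or_lt with h0 | hpos
  · have hy0 : y = 0 := by
      ext i
      have := hy i
      rw [← h0] at this
      simpa using abs_nonpos_iff.1 this
    rw [hy0, ← h0]
    simp
  · have hr : 0 < f / S := div_pos hf hpos
    set z : ι → ℝ := (f / S) • y with hz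
    have hzb : ∀ i, |z i| ≤ f := fun i => by
      simp only [hz, Pi.smul_apply, smul_eq_mul, abs_mul, abs_of_pos hr]
      calc f / S * |y i| ≤ f / S * S := by gcongr; exact hy i
        _ = f := by field_simp
    have h1 : c + z ∈ B := hcube _ fun i => by simpa using hzb i
    have h2 : c - z ∈ B := hcube _ fun i => by simpa using hzb i
    have h3 := hcr _ (subset_closure h1) j
    have h4 := hcr _ (subset_closure h2) j
    have h5 : (A⁻¹ *ᵥ (c + z - p₀)) j - (A⁻¹ *ᵥ (c - z - p₀)) j = 2 * (f / S) * (A⁻¹ *ᵥ y) j := by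
      have : c + z - p₀ = (c - z - p₀) + (2 * (f / S)) • y := by
        ext i
        simp only [hz, Pi.add_apply, Pi.sub_apply, Pi.smul_apply, smul_eq_mul]
        ring
      rw [this, Matrix.mulVec_add, Matrix.mulVec_smul]
      simp
    have h6 : |2 * (f / S) * (A⁻¹ *ᵥ y) j| ≤ 2 := by
      rw [← h5]
      calc _ ≤ |(A⁻¹ *ᵥ (c + z - p₀)) j| + |(A⁻¹ *ᵥ (c - z - p₀)) j| := abs_sub _ _
        _ ≤ 2 := by linarith
    rw [abs_mul, abs_of_pos (by positivity : 0 < 2 * (f / S))] at h6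
    rw [le_div_iff₀ hf]
    have h7 : f / S * |(A⁻¹ *ᵥ y) j| ≤ 1 := by linarith
    rw [div_mul_eq_mul_div, div_le_iff₀ hpos] at h7
    linarith

/-- Points of the shrunk normalized body are mapped into the body itself. -/
lemma mem_of_mem_hom (hn : 2 ≤ Fintype.card ι) {B : Set (ι → ℝ)} (hconv : Convex ℝ B)
    {p₀ : ι → ℝ} {A : Matrix ι ι ℝ} (hdet : A.det ≠ 0) {c : ι → ℝ} {f : ℝ}
    (hf : 0 < f) (hcube : ∀ x : ι → ℝ, (∀ i, |x i - c i| ≤ f) → x ∈ B)
    (hE : Normalized (Eset p₀ A B)) {w : ι → ℝ} (hw : w ∈ hom (lam1 ι) (Eset p₀ A B)) :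
    p₀ + A *ᵥ w ∈ B := by
  have hn0 : (0 : ℝ) < Fintype.card ι := by
    have : 0 < Fintype.card ι := by omega
    exact_mod_cast this
  have hn2 : (2 : ℝ) ≤ Fintype.card ι := by exact_mod_cast hn
  obtain ⟨y, hy, rfl⟩ := hw
  -- the interior of the body
  have hintB : c ∈ interior B := by
    refine mem_interior.2 ⟨{x | ∀ i, |x i - c i| < f}, fun x hx => hcube x fun i => (hx i).le, ?_,
      fun i => by simpa using hf⟩
    have : {x : ι → ℝ | ∀ i, |x i - c i| < f} = ⋂ i, {x : ι → ℝ | |x i - c i| < f} := by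
      ext x
      simp
    rw [this]
    exact isOpen_iInter_of_finite fun i =>
      isOpen_lt (((continuous_apply i).sub continuous_const).abs) continuous_const
  have hinteq := hconv.interior_closure_eq_interior_of_nonempty_interior ⟨c, hintB⟩
  have ha : p₀ + A *ᵥ cen ι ∈ interior B := by
    rw [← hinteq]
    refine mem_interior.2 ⟨(fun x : ι → ℝ => A⁻¹ *ᵥ (x - p₀)) ⁻¹'
      {w | ∀ i, |w i - cen ι i| < 1 / (2 * (Fintype.card ι : ℝ))}, ?_, ?_, ?_⟩
    · intro x hx
      have h1 : A⁻¹ *ᵥ (x - p₀) ∈ Eset p₀ A B := hE.cube _ fun i => (hx i).le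
      have h2 : p₀ + A *ᵥ (A⁻¹ *ᵥ (x - p₀)) ∈ closure B := h1
      rw [mulVec_inv_mulVec hdet] at h2
      simpa using h2
    · refine IsOpen.preimage (continuous_inv_map p₀ A) ?_
      have : {w : ι → ℝ | ∀ i, |w i - cen ι i| < 1 / (2 * (Fintype.card ι : ℝ))} =
          ⋂ i, {w : ι → ℝ | |w i - cen ι i| < 1 / (2 * (Fintype.card ι : ℝ))} := by
        ext x
        simp
      rw [this]
      exact isOpen_iInter_of_finite fun i =>
        isOpen_lt (((continuous_apply i).sub continuous_const).abs) continuous_const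
    · intro i
      simp only [Set.mem_preimage, Set.mem_ofPred_eq, add_sub_cancel_left]
      rw [inv_mulVec_mulVec hdet]
      simp only [sub_self, abs_zero]
      positivity
  have hb : p₀ + A *ᵥ y ∈ closure B := hy
  have hlam : lam1 ι = 1 - 1 / (Fintype.card ι : ℝ) := rfl
  have hlam0 : 0 ≤ lam1 ι := by
    rw [hlam, sub_nonneg, div_le_one hn0]
    linarith
  have hpos : 0 < 1 - lam1 ι := by
    rw [hlam]
    have : 0 < 1 / (Fintype.card ι : ℝ) := by positivity
    linarith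
  have hcomb := hconv.combo_interior_closure_subset_interior hpos hlam0 (by ring)
    (Set.add_mem_add (Set.smul_mem_smul_set ha) (Set.smul_mem_smul_set hb))
  refine interior_subset ?_
  convert hcomb using 1
  rw [Matrix.mulVec_add, Matrix.mulVec_smul, Matrix.mulVec_sub]
  ext i
  simp only [Pi.add_apply, Pi.smul_apply, Pi.sub_apply, smul_eq_mul]
  ring

end Vale.Agent.Lib.P230
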