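import Vale.Agent.Lib.P230.PositionA

/-!
# P230 module O, part B: rounding, perturbation and volume estimates.
-/

open MeasureTheory Matrix
open scoped ENNReal

namespace Vale.Agent.Lib.P230

variable {ι : Type} [Fintype ι] [DecidableEq ι]

/-- Rounding a real matrix to an integer matrix that is invertible modulo `q`. -/
theorem exists_round (A : Matrix ι ι ℝ) (τ : ℝ) {q : ℕ} (hq : q.Prime)
    (hnq : Fintype.card ι < q) :
    ∃ M : Matrix ι ι ℤ, ((M.det : ℤ) : ZMod q) ≠ 0 ∧
      ∀ j i, |(M j i : ℝ) - A j i / τ| ≤ (Fintype.card ι : ℝ) + 1 := by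
  have : Fact q.Prime := ⟨hq⟩
  set R : Matrix ι ι ℤ := Matrix.of fun j i => round (A j i / τ) with hR
  set Rb : Matrix ι ι (ZMod q) := R.map (Int.castRingHom (ZMod q)) with hRb
  set P : Polynomial (ZMod q) := (-Rb).charpoly with hP
  have hPm : P.Monic := Matrix.charpoly_monic _
  have hPd : P.natDegree = Fintype.card ι := Matrix.charpoly_natDegree_eq_dim _
  have hP0 : P ≠ 0 := hPm.ne_zero
  have hs : ∃ s ∈ Finset.range (Fintype.card ι + 1), P.eval ((s : ℕ) : ZMod q) ≠ 0 := by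
    by_contra hcon
    push Not at hcon
    have hsub : (Finset.range (Fintype.card ι + 1)).image (fun s : ℕ => (s : ZMod q)) ⊆
        P.roots.toFinset := by
      intro a ha
      obtain ⟨s, hs, rfl⟩ := Finset.mem_image.1 ha
      rw [Multiset.mem_toFinset, Polynomial.mem_roots hP0]
      exact hcon s hs
    have hinj : Set.InjOn (fun s : ℕ => (s : ZMod q))
        (Finset.range (Fintype.card ι + 1) : Set ℕ) := by
      intro a ha b hb hab
      have ha' : a < q := by
        have := Finset.mem_range.1 ha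
        omega
      have hb' : b < q := by
        have := Finset.mem_range.1 hb
        omega
      have := (ZMod.natCast_eq_natCast_iff' a b q).1 hab
      rwa [Nat.mod_eq_of_lt ha', Nat.mod_eq_of_lt hb'] at this
    have h1 := Finset.card_le_card hsub
    rw [Finset.card_image_of_injOn hinj, Finset.card_range] at h1
    have h2 : P.roots.toFinset.card ≤ Multiset.card P.roots := Multiset.toFinset_card_le _
    have h3 : Multiset.card P.roots ≤ P.natDegree := Polynomial.card_roots' P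
    omega
  obtain ⟨s, hsm, hsne⟩ := hs
  refine ⟨R + (s : ℤ) • 1, ?_, ?_⟩
  · rw [Matrix.eval_charpoly] at hsne
    have h1 : ((((R + (s : ℤ) • 1 : Matrix ι ι ℤ).det : ℤ)) : ZMod q) =
        (Matrix.scalar ι ((s : ℕ) : ZMod q) - -Rb).det := by
      have h2 := RingHom.map_det (Int.castRingHom (ZMod q)) (R + (s : ℤ) • 1)
      simp only [eq_intCast] at h2
      rw [h2]
      congr 1
      ext j i
      simp only [RingHom.mapMatrix_apply, Matrix.map_apply, Matrix.add_apply, Matrix.smul_apply,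
        Matrix.sub_apply, Matrix.neg_apply, hRb, Matrix.scalar_apply, Matrix.one_apply,
        Matrix.diagonal_apply, eq_intCast, smul_eq_mul]
      by_cases h : j = i
      · subst h
        simp [add_comm]
      · simp [h]
    rw [h1]
    exact hsne
  · intro j i
    have hs' : (s : ℝ) ≤ Fintype.card ι := by
      have := Finset.mem_range.1 hsm
      exact_mod_cast Nat.lt_succ_iff.1 this
    have hround : |((round (A j i / τ) : ℤ) : ℝ) - A j i / τ| ≤ 1 / 2 := by
      rw [abs_sub_comm]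
      exact abs_sub_round _
    have hone : |(((1 : Matrix ι ι ℤ) j i : ℤ) : ℝ)| ≤ 1 := by
      by_cases h : j = i
      · subst h
        simp
      · simp [Matrix.one_apply, h]
    simp only [Matrix.add_apply, Matrix.smul_apply, hR, Matrix.of_apply, smul_eq_mul]
    push_cast
    have : ((round (A j i / τ) : ℤ) : ℝ) + (s : ℝ) * (((1 : Matrix ι ι ℤ) j i : ℤ) : ℝ) - A j i / τ =
        (((round (A j i / τ) : ℤ) : ℝ) - A j i / τ) + (s : ℝ) * (((1 : Matrix ι ι ℤ) j i : ℤ) : ℝ) := by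
      ring
    rw [this]
    calc _ ≤ |((round (A j i / τ) : ℤ) : ℝ) - A j i / τ| +
          |(s : ℝ) * (((1 : Matrix ι ι ℤ) j i : ℤ) : ℝ)| := abs_add_le _ _
      _ ≤ 1 / 2 + (s : ℝ) * 1 := by
          refine add_le_add hround ?_
          rw [abs_mul, abs_of_nonneg (Nat.cast_nonneg s)]
          gcongr
      _ ≤ (Fintype.card ι : ℝ) + 1 := by linarith

/-- The real matrix of an integer matrix. -/
def realM (M : Matrix ι ι ℤ) : Matrix ι ι ℝ := M.map (Int.castRingHom ℝ)

lemma det_realM (M : Matrix ι ι ℤ) : (realM M).det = (M.det : ℝ) := by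
  have h2 := RingHom.map_det (Int.castRingHom ℝ) M
  simp only [eq_intCast] at h2
  rw [h2]
  rfl

lemma toR_mulVec (M : Matrix ι ι ℤ) (z : ι → ℤ) : toR (M *ᵥ z) = realM M *ᵥ toR z := by
  ext i
  simp [toR, realM, Matrix.mulVec, dotProduct]

/-- Perturbations of points in the doubly shrunk body stay in the shrunk body. -/
lemma hom_perturb (hn : 2 ≤ Fintype.card ι) {E : Set (ι → ℝ)} (hE : Normalized E)
    {e δ : ι → ℝ} (he : e ∈ hom (lam1 ι ^ 3) E)
    (hδ : ∀ i, |δ i| ≤ 3 / (8 * (Fintype.card ι : ℝ) ^ 2)) :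
    e + δ ∈ hom (lam1 ι) E := by
  obtain ⟨y, hy, rfl⟩ := he
  have hn2 : (2 : ℝ) ≤ Fintype.card ι := by exact_mod_cast hn
  have hn0 : (0 : ℝ) < Fintype.card ι := by linarith
  set N : ℝ := (Fintype.card ι : ℝ) with hN
  set l : ℝ := lam1 ι with hl
  have hl' : l = 1 - 1 / N := rfl
  have hinv : 1 / N ≤ 1 / 2 := one_div_le_one_div_of_le (by norm_num) hn2
  have hinv0 : 0 < 1 / N := by positivity
  have hl0 : 1 / 2 ≤ l := by rw [hl']; linarith
  have hl1 : l < 1 := by rw [hl']; linarith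
  have hd : 0 < 1 - l ^ 2 := by nlinarith
  have hl0' : 0 < l := by linarith
  set κ : ℝ := 1 / (l * (1 - l ^ 2)) with hκ
  have hκ0 : 0 < κ := by positivity
  -- the small perturbation of the centre is in the body
  have hc : cen ι + κ • δ ∈ E := by
    refine hE.cube _ fun i => ?_
    simp only [Pi.add_apply, Pi.smul_apply, smul_eq_mul, add_sub_cancel_left, abs_mul,
      abs_of_pos hκ0]
    have h1 : l * (1 - l ^ 2) = l * (1 + l) * (1 / N) := by
      have : 1 - l = 1 / N := by rw [hl']; ring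
      calc l * (1 - l ^ 2) = l * (1 + l) * (1 - l) := by ring
        _ = l * (1 + l) * (1 / N) := by rw [this]
    have h2 : 3 / 4 ≤ l * (1 + l) := by nlinarith
    have h3 : 3 / (4 * N) ≤ l * (1 - l ^ 2) := by
      rw [h1]
      have : 3 / (4 * N) = (3 / 4) * (1 / N) := by field_simp
      rw [this]
      gcongr
    have h4 : κ ≤ 4 * N / 3 := by
      rw [hκ, div_le_div_iff₀ (by positivity) (by norm_num)]
      have : 3 / (4 * N) * (4 * N) = 3 := by field_simp
      nlinarith [mul_le_mul_of_nonneg_right h3 (by positivity : (0 : ℝ) ≤ 4 * N)]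
    calc κ * |δ i| ≤ (4 * N / 3) * (3 / (8 * N ^ 2)) := by
          gcongr
          exact hδ i
      _ = 1 / (2 * N) := by field_simp; ring
  have hy' : l ^ 2 • y + (1 - l ^ 2) • (cen ι + κ • δ) ∈ E :=
    hE.convex hy hc (by positivity) hd.le (by ring)
  refine ⟨_, hy', ?_⟩
  ext i
  simp only [Pi.add_apply, Pi.smul_apply, Pi.sub_apply, smul_eq_mul]
  have : l * ((1 - l ^ 2) * (κ * δ i)) = δ i := by
    rw [hκ]
    field_simp
  have h5 : l * (l ^ 2 * y i + (1 - l ^ 2) * (cen ι i + κ * δ i) - cen ι i) =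
      l ^ 3 * (y i - cen ι i) + l * ((1 - l ^ 2) * (κ * δ i)) := by ring
  rw [h5, this]
  ring

/-- Bounds on points of the shrunk body. -/
lemma abs_le_one_of_mem_hom (hn : 2 ≤ Fintype.card ι) {E : Set (ι → ℝ)} (hE : Normalized E)
    {e : ι → ℝ} {c : ℝ} (hc0 : 0 ≤ c) (hc1 : c ≤ 1) (he : e ∈ hom c E) (i : ι) : |e i| ≤ 1 := by
  obtain ⟨y, hy, rfl⟩ := he
  have hn2 : (2 : ℝ) ≤ Fintype.card ι := by exact_mod_cast hn
  have hy1 := hE.bound y hy i
  have hcen0 : 0 ≤ cen ι i := by
    simp only [cen]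
    positivity
  have hcen1 : cen ι i ≤ 1 := by
    simp only [cen]
    rw [div_le_one (by linarith)]
    linarith
  simp only [Pi.add_apply, Pi.smul_apply, Pi.sub_apply, smul_eq_mul]
  have h1 := abs_le.1 hy1
  rw [abs_le]
  constructor <;> nlinarith

/-- The matrix equation giving the error term. -/
lemma abs_inv_mulVec_sub_le {A : Matrix ι ι ℝ} (hdet : A.det ≠ 0) {Mr : Matrix ι ι ℝ} {τ f : ℝ}
    (hτ : τ ≠ 0)
    (hI : ∀ (y : ι → ℝ) (S : ℝ), 0 ≤ S → (∀ i, |y i| ≤ S) → ∀ j, |(A⁻¹ *ᵥ y) j| ≤ S / f)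
    (hM : ∀ j i, |Mr j i - A j i / τ| ≤ (Fintype.card ι : ℝ) + 1)
    {u : ι → ℝ} {S : ℝ} (hS : 0 ≤ S) (hu : ∀ i, |u i| ≤ S) (j : ι) :
    |(A⁻¹ *ᵥ (Mr *ᵥ u)) j - u j / τ| ≤
      (Fintype.card ι : ℝ) * ((Fintype.card ι : ℝ) + 1) * S / f := by
  set N : ℝ := (Fintype.card ι : ℝ) with hN
  have hN0 : 0 ≤ N := Nat.cast_nonneg _
  set Err : Matrix ι ι ℝ := Mr - (1 / τ) • A with hErr
  have hE1 : Mr *ᵥ u = (1 / τ) • (A *ᵥ u) + Err *ᵥ u := by
    rw [hErr, Matrix.sub_mulVec, Matrix.smul_mulVec]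
    abel
  have hE2 : A⁻¹ *ᵥ (Mr *ᵥ u) = (1 / τ) • u + A⁻¹ *ᵥ (Err *ᵥ u) := by
    rw [hE1, Matrix.mulVec_add, Matrix.mulVec_smul, inv_mulVec_mulVec hdet]
  have hEb : ∀ i, |(Err *ᵥ u) i| ≤ N * (N + 1) * S := by
    intro i
    simp only [Matrix.mulVec, dotProduct]
    calc |∑ k, Err i k * u k| ≤ ∑ k, |Err i k * u k| := Finset.abs_sum_le_sum_abs _ _
      _ ≤ ∑ _k : ι, (N + 1) * S := by
          refine Finset.sum_le_sum fun k _ => ?_
          rw [abs_mul]
          have h1 : |Err i k| ≤ N + 1 := by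
            have := hM i k
            simpa [hErr, div_eq_inv_mul] using this
          gcongr
          exact hu k
      _ = N * (N + 1) * S := by
          simp only [Finset.sum_const, Finset.card_univ, nsmul_eq_mul, hN]
          ring
  have h3 := hI _ _ (by positivity) hEb j
  rw [hE2]
  simp only [Pi.add_apply, Pi.smul_apply, smul_eq_mul]
  have : 1 / τ * u j + (A⁻¹ *ᵥ (Err *ᵥ u)) j - u j / τ = (A⁻¹ *ᵥ (Err *ᵥ u)) j := by
    field_simp
    ring
  rw [this]
  exact h3

end Vale.Agent.Lib.P230
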