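import Vale.Agent.Lib.P230.SlicingBasic

/-!
# P230 module S: level sets of slice volumes; lattice points in fat convex sets.

Slicing blueprint.  `n = k + m`, `m ≥ 2`, `k ≥ 1`, `λ = lam1`.  `C0 = hom (λ^3) E`, `C1 = hom (λ^4) E`, where `E` is Normalized in
`ℝ^{Fin k ⊕ Fin m}`.  `v z = vol (slice C0 z)`; `V` the sup, `z₀` with `v z₀ ≥ V/2`.  `P = proj C1`.
 * `C0_{(1-s) z + s z'} ⊇ (1-s) C0_z + s C0_z'`, so with Brunn-Minkowski (P074.Part1 `brunn_minkowski`, transported to `Fin m`)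
   each `G_j = {z ∈ P | e^{-j} V ≤ v z}` is convex, and measurable.
 * With `z₀' = z_c + λ (z₀ - z_c) ∈ P`: `v z₀' ≥ λ^m v z₀ ≥ V/8`; `Q'' = z₀' + (1/m)(P - z₀') ⊆ P` has `v ≥ (1-1/m)^m V/8 ≥ V/32 ≥ e^{-4} V`.
   So `G_j ⊇ Q''` for `j ≥ 4` and it contains a cube of half side `1/(32 n m)` (since `P` contains a cube of half side `λ^4/(2n) ≥ 1/(32 n)`).
 * Pointwise on `P`: `v z ≤ Σ_{j=4}^{J} e^{4-j} V 1_{G_j} z + e^{-J} V`.  Integrate: `vol C1 ≤ ∫_P v ≤ Σ_j e^{4-j} V vol G_j + e^{-J} V vol P`.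
 * Tail: on `Q₀ = z₀ + (1/m)(proj C0 - z₀)` we have `v ≥ V/8`, so `V vol(proj C0) m^{-k}/8 ≤ vol C0 ≤ 4 vol C1`, so `e^{-J} V vol P ≤ vol C1 / 2` for `J ≥ k ln m + 5`.
 * Pigeonhole on `j`: `vol C1 ≤ 2 e^4 (J+1) e^{-j} V vol G_j`.

The lattice point statements `fat_count`, `fat_energy` are in `SlicingFat.lean`, the slice fatness
`slice_fat` is in `SlicingBasic.lean`.
-/

open MeasureTheory Set Filter
open scoped ENNReal

namespace Vale.Agent.Lib.P230

section Core

variable {k m : ℕ} {C0 C1 : Set (Fin k ⊕ Fin m → ℝ)}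

/-- The level sets. -/
def levelSet (C0 C1 : Set (Fin k ⊕ Fin m → ℝ)) (t : ℝ) : Set (Fin k → ℝ) :=
  proj C1 ∩ {z | ENNReal.ofReal t ≤ volume (slice C0 z)}

lemma convex_levelSet (hC0c : IsCompact C0) (hC0v : Convex ℝ C0) (hC1v : Convex ℝ C1) {t : ℝ}
    (ht : 0 < t) : Convex ℝ (levelSet C0 C1 t) := by
  rw [convex_iff_forall_pos]
  intro z hz z' hz' a b ha hb hab
  refine ⟨convex_proj hC1v hz.1 hz'.1 ha.le hb.le hab, ?_⟩
  have hb1 : b < 1 := by linarith
  obtain rfl : a = 1 - b := by linarith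
  have hm := hC0c.measurableSet
  have hBM := Vale.Agent.Lib.P074.brunn_minkowski m (convex_slice hC0v z) (convex_slice hC0v z')
    (isBounded_slice hC0c z) (isBounded_slice hC0c z') (measurableSet_slice hm z)
    (measurableSet_slice hm z') (measurableSet_slice hm ((1 - b) • z + b • z')) hb hb1
    (fun x hx x' hx' => combo_mem_slice hC0v hx hx' ha.le hb.le hab)
  refine le_trans ?_ hBM
  have h1 : (ENNReal.ofReal t) ^ (1 - b) * (ENNReal.ofReal t) ^ b = ENNReal.ofReal t := by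
    rw [← ENNReal.rpow_add _ _ (by simpa using ht) ENNReal.ofReal_ne_top]
    simp
  rw [← h1]
  exact mul_le_mul' (ENNReal.rpow_le_rpow hz.2 (by linarith))
    (ENNReal.rpow_le_rpow hz'.2 hb.le)

lemma measurableSet_levelSet (hC0c : IsCompact C0) (hC1c : IsCompact C1) (t : ℝ) :
    MeasurableSet (levelSet C0 C1 t) :=
  (isCompact_proj hC1c).measurableSet.inter
    (measurableSet_le measurable_const (measurable_volume_slice hC0c.measurableSet))

/-- The decomposition into levels. -/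
lemma level_decomp {a : ℝ≥0∞} {V : ℝ} (ha : a ≤ ENNReal.ofReal V) {J : ℕ} (hJ : 4 ≤ J) :
    a ≤ ∑ j ∈ Finset.Icc 4 J, (if ENNReal.ofReal (Real.exp (-(j : ℝ)) * V) ≤ a then
        ENNReal.ofReal (Real.exp (4 - (j : ℝ)) * V) else 0) +
      ENNReal.ofReal (Real.exp (-(J : ℝ)) * V) := by
  classical
  by_cases h : a < ENNReal.ofReal (Real.exp (-(J : ℝ)) * V)
  · exact h.le.trans le_add_self
  push Not at h
  let p : ℕ → Prop := fun j => 4 ≤ j ∧ ENNReal.ofReal (Real.exp (-(j : ℝ)) * V) ≤ a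
  have hex : ∃ j, p j := ⟨J, hJ, h⟩
  have hp := Nat.find_spec hex
  set j := Nat.find hex with hj
  have hjJ : j ≤ J := Nat.find_min' hex (⟨hJ, h⟩ : p J)
  have hjm : j ∈ Finset.Icc 4 J := Finset.mem_Icc.2 ⟨hp.1, hjJ⟩
  have hbound : a ≤ ENNReal.ofReal (Real.exp (4 - (j : ℝ)) * V) := by
    by_cases hj4 : j = 4
    · rw [hj4]
      simpa using ha
    · have hj5 : 5 ≤ j := by
        have := hp.1
        omega
      have hnot : ¬ p (j - 1) := Nat.find_min hex (by omega)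
      have hlt : ENNReal.ofReal (Real.exp (-((j - 1 : ℕ) : ℝ)) * V) > a := by
        by_contra hcon
        exact hnot ⟨by omega, not_lt.1 hcon⟩
      refine hlt.le.trans ?_
      by_cases hV : 0 ≤ V
      · apply ENNReal.ofReal_le_ofReal
        apply mul_le_mul_of_nonneg_right _ hV
        apply Real.exp_le_exp.2
        have : ((j - 1 : ℕ) : ℝ) = (j : ℝ) - 1 := by
          rw [Nat.cast_sub (by omega)]; simp
        rw [this]
        linarith
      · push Not at hV
        have h0 : ENNReal.ofReal (Real.exp (-((j - 1 : ℕ) : ℝ)) * V) = 0 := by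
          apply ENNReal.ofReal_of_nonpos
          exact mul_nonpos_of_nonneg_of_nonpos (Real.exp_pos _).le hV.le
        rw [h0]
        exact bot_le
  refine le_trans ?_ le_self_add
  have h1 := Finset.single_le_sum (f := fun j : ℕ => if ENNReal.ofReal (Real.exp (-(j : ℝ)) * V) ≤ a then
        ENNReal.ofReal (Real.exp (4 - (j : ℝ)) * V) else 0) (fun _ _ => bot_le) hjm
  refine le_trans ?_ h1
  simp only [if_pos hp.2]
  exact hbound

/-- Integrated form. -/
lemma integrated_bound (hC0c : IsCompact C0) (hC1c : IsCompact C1) (h10 : C1 ⊆ C0) {V : ℝ}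
    (hV : ∀ z, volume (slice C0 z) ≤ ENNReal.ofReal V) {J : ℕ} (hJ : 4 ≤ J) :
    volume C1 ≤ ∑ j ∈ Finset.Icc 4 J, ENNReal.ofReal (Real.exp (4 - (j : ℝ)) * V) *
        volume (levelSet C0 C1 (Real.exp (-(j : ℝ)) * V)) +
      ENNReal.ofReal (Real.exp (-(J : ℝ)) * V) * volume (proj C1) := by
  classical
  have hP := (isCompact_proj hC1c).measurableSet
  have hG : ∀ j : ℕ, MeasurableSet (levelSet C0 C1 (Real.exp (-(j : ℝ)) * V)) :=
    fun j => measurableSet_levelSet hC0c hC1c _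
  have hpt : ∀ z, volume (slice C1 z) ≤
      ∑ j ∈ Finset.Icc 4 J, (levelSet C0 C1 (Real.exp (-(j : ℝ)) * V)).indicator
          (fun _ => ENNReal.ofReal (Real.exp (4 - (j : ℝ)) * V)) z +
        (proj C1).indicator (fun _ => ENNReal.ofReal (Real.exp (-(J : ℝ)) * V)) z := by
    intro z
    by_cases hz : z ∈ proj C1
    · have h1 : volume (slice C1 z) ≤ volume (slice C0 z) :=
        measure_mono (fun x hx => h10 hx)
      refine h1.trans ((level_decomp (hV z) hJ).trans ?_)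
      rw [indicator_of_mem hz]
      gcongr with j hj
      by_cases hc : ENNReal.ofReal (Real.exp (-(j : ℝ)) * V) ≤ volume (slice C0 z)
      · have hmemG : z ∈ levelSet C0 C1 (Real.exp (-(j : ℝ)) * V) := ⟨hz, hc⟩
        rw [if_pos hc, indicator_of_mem hmemG]
      · rw [if_neg hc]
        exact bot_le
    · have h1 : slice C1 z = ∅ := by
        by_contra hne
        exact hz (nonempty_iff_ne_empty.2 hne)
      rw [h1, measure_empty]
      exact bot_le
  rw [volume_eq_lintegral_slice hC1c.measurableSet]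
  refine (lintegral_mono hpt).trans (le_of_eq ?_)
  have hm1 : Measurable (fun z => ∑ j ∈ Finset.Icc 4 J, (levelSet C0 C1 (Real.exp (-(j : ℝ)) * V)).indicator
          (fun _ => ENNReal.ofReal (Real.exp (4 - (j : ℝ)) * V)) z) :=
    Finset.measurable_fun_sum _ (fun j _ => measurable_const.indicator (hG j))
  rw [lintegral_add_left hm1, lintegral_finsetSum _ (fun j _ => measurable_const.indicator (hG j)),
    lintegral_indicator_const hP]
  congr 1
  apply Finset.sum_congr rfl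
  intro j _
  rw [lintegral_indicator_const (hG j)]

/-- The pigeonhole on the levels. -/
lemma exists_good_level {V : ℝ} {J : ℕ} (hJ : 4 ≤ J) {a : ℝ≥0∞} (ha0 : 0 < a) (hat : a ≠ ⊤)
    {g : ℕ → ℝ≥0∞} {tail : ℝ≥0∞} (htail : tail ≤ ENNReal.ofReal (1 / 4) * a)
    (hV : 0 < V)
    (hsum : a ≤ ∑ j ∈ Finset.Icc 4 J, ENNReal.ofReal (Real.exp (4 - (j : ℝ)) * V) * g j + tail) :
    ∃ j ∈ Finset.Icc 4 J,
      a ≤ ENNReal.ofReal (110 * ((J : ℝ) + 1) * Real.exp (-(j : ℝ)) * V) * g j := by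
  by_contra hcon
  push Not at hcon
  have hJ1 : (0 : ℝ) < (J : ℝ) + 1 := by positivity
  set c : ℝ := Real.exp 4 / (110 * ((J : ℝ) + 1)) with hc
  have hc0 : 0 ≤ c := by positivity
  have hterm : ∀ j ∈ Finset.Icc 4 J, ENNReal.ofReal (Real.exp (4 - (j : ℝ)) * V) * g j ≤
      ENNReal.ofReal c * a := by
    intro j hj
    have h1 := hcon j hj
    have e : Real.exp (4 - (j : ℝ)) * V = c * (110 * ((J : ℝ) + 1) * Real.exp (-(j : ℝ)) * V) := by
      rw [hc, sub_eq_add_neg, Real.exp_add]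
      field_simp
    rw [e, ENNReal.ofReal_mul hc0, mul_assoc]
    gcongr
  have hsum2 : ∑ j ∈ Finset.Icc 4 J, ENNReal.ofReal (Real.exp (4 - (j : ℝ)) * V) * g j ≤
      ENNReal.ofReal (1 / 2) * a := by
    calc _ ≤ ∑ j ∈ Finset.Icc 4 J, (ENNReal.ofReal c * a) := Finset.sum_le_sum hterm
      _ = (Finset.Icc 4 J).card • (ENNReal.ofReal c * a) := by rw [Finset.sum_const]
      _ ≤ ENNReal.ofReal (1 / 2) * a := by
        rw [nsmul_eq_mul, ← mul_assoc]
        gcongr
        have hcard : (((Finset.Icc 4 J).card : ℕ) : ℝ) ≤ (J : ℝ) + 1 := by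
          rw [Nat.card_Icc]
          have : J + 1 - 4 ≤ J + 1 := Nat.sub_le _ _
          exact_mod_cast this
        have h2 : (((Finset.Icc 4 J).card : ℕ) : ℝ≥0∞) = ENNReal.ofReal ((Finset.Icc 4 J).card : ℝ) :=
          (ENNReal.ofReal_natCast _).symm
        rw [h2, ← ENNReal.ofReal_mul (by positivity)]
        apply ENNReal.ofReal_le_ofReal
        have h3 : ((Finset.Icc 4 J).card : ℝ) * c ≤ ((J : ℝ) + 1) * c :=
          mul_le_mul_of_nonneg_right hcard hc0
        refine h3.trans ?_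
        have h4 := sl_exp_four_le
        rw [hc]
        have e : ((J : ℝ) + 1) * (Real.exp 4 / (110 * ((J : ℝ) + 1))) = Real.exp 4 / 110 := by
          field_simp
        rw [e]
        linarith
  have hall : a ≤ ENNReal.ofReal (3 / 4) * a := by
    calc a ≤ _ := hsum
      _ ≤ ENNReal.ofReal (1 / 2) * a + ENNReal.ofReal (1 / 4) * a := add_le_add hsum2 htail
      _ = ENNReal.ofReal (3 / 4) * a := by
        rw [← add_mul, ← ENNReal.ofReal_add (by norm_num) (by norm_num)]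
        norm_num
  have hr : a = ENNReal.ofReal a.toReal := (ENNReal.ofReal_toReal hat).symm
  have hr0 : 0 < a.toReal := ENNReal.toReal_pos ha0.ne' hat
  rw [hr, ← ENNReal.ofReal_mul (by norm_num)] at hall
  have h5 := (ENNReal.ofReal_le_ofReal_iff (by positivity)).1 hall
  linarith

/-- The tail estimate. -/
lemma sl_tail_bound (hC0c : IsCompact C0) (hC0v : Convex ℝ C0) (hC1c : IsCompact C1) (h10 : C1 ⊆ C0)
    (hm : 2 ≤ m) (hvol : volume C0 ≤ 4 * volume C1) {V : ℝ} {z₀ : Fin k → ℝ}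
    (hz₀ : ENNReal.ofReal (V / 2) ≤ volume (slice C0 z₀)) :
    ENNReal.ofReal (V / 8) * (ENNReal.ofReal ((1 / (m : ℝ)) ^ k) * volume (proj C1)) ≤
      4 * volume C1 := by
  have hm0 : (0 : ℝ) < m := by positivity
  have hm2 : (2 : ℝ) ≤ m := by exact_mod_cast hm
  have h1m : 1 / (m : ℝ) ≤ 1 := by rw [div_le_one hm0]; linarith
  set t : ℝ := 1 - 1 / (m : ℝ) with ht
  have ht0 : 0 < t := by
    have : 1 / (m : ℝ) ≤ 1 / 2 := by rw [div_le_div_iff₀ hm0 (by norm_num)]; linarith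
    rw [ht]; linarith
  have ht1 : t ≤ 1 := by
    have : 0 ≤ 1 / (m : ℝ) := by positivity
    rw [ht]; linarith
  have htm : (1 / 4 : ℝ) ≤ t ^ m := sl_pow_ge_quarter m hm
  set Q := AffineMap.homothety z₀ (1 / (m : ℝ)) '' proj C1 with hQ
  have hQm : MeasurableSet Q := by
    have : IsCompact Q := (isCompact_proj hC1c).image (AffineMap.homothety_continuous z₀ (1 / (m : ℝ)))
    exact this.measurableSet
  have hvQ : ∀ z ∈ Q, ENNReal.ofReal (V / 8) ≤ volume (slice C0 z) := by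
    rintro _ ⟨p, ⟨x₁, hx₁⟩, rfl⟩
    have hx₁' : x₁ ∈ slice C0 p := h10 hx₁
    have h1 := volume_slice_shrink (z := z₀) hC0v hx₁' ht0 ht1
    have e : AffineMap.homothety z₀ (1 / (m : ℝ)) p = t • z₀ + (1 - t) • p := by
      rw [AffineMap.homothety_apply, ht]
      ext i
      simp only [vsub_eq_sub, vadd_eq_add, Pi.add_apply, Pi.smul_apply, smul_eq_mul, Pi.sub_apply]
      ring
    rw [e]
    refine le_trans ?_ h1
    calc ENNReal.ofReal (V / 8) = ENNReal.ofReal (1 / 4) * ENNReal.ofReal (V / 2) := by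
          rw [← ENNReal.ofReal_mul (by norm_num)]
          congr 1
          ring
      _ ≤ ENNReal.ofReal (t ^ m) * volume (slice C0 z₀) := by
          gcongr
  have hvolQ : volume Q = ENNReal.ofReal ((1 / (m : ℝ)) ^ k) * volume (proj C1) := by
    rw [hQ, Measure.addHaar_image_homothety, Module.finrank_fin_fun, abs_of_pos (by positivity)]
  rw [← hvolQ]
  calc ENNReal.ofReal (V / 8) * volume Q = ∫⁻ _ in Q, ENNReal.ofReal (V / 8) := by
        rw [setLIntegral_const]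
    _ ≤ ∫⁻ z in Q, volume (slice C0 z) := setLIntegral_mono' hQm hvQ
    _ ≤ ∫⁻ z, volume (slice C0 z) := setLIntegral_le_lintegral _ _
    _ = volume C0 := (volume_eq_lintegral_slice hC0c.measurableSet).symm
    _ ≤ 4 * volume C1 := hvol

lemma exp_levelJ_le (hm : 2 ≤ m) :
    Real.exp (-(levelJ k m : ℝ)) ≤ (1 / 128) * (1 / (m : ℝ)) ^ k := by
  have hm0 : (0 : ℝ) < m := by positivity
  have hJ : (k : ℝ) * Real.log m + 5 ≤ (levelJ k m : ℝ) := by
    unfold levelJ
    push_cast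
    have := Nat.le_ceil ((k : ℝ) * Real.log m)
    linarith
  have h1 : Real.exp ((k : ℝ) * Real.log m + 5) ≤ Real.exp (levelJ k m) := Real.exp_le_exp.2 hJ
  have h2 : Real.exp ((k : ℝ) * Real.log m + 5) = (m : ℝ) ^ k * Real.exp 5 := by
    rw [Real.exp_add, Real.exp_nat_mul, Real.exp_log hm0]
  rw [h2] at h1
  have h3 := sl_exp_five_ge
  have h4 : (m : ℝ) ^ k * 128 ≤ Real.exp (levelJ k m) :=
    le_trans (mul_le_mul_of_nonneg_left h3 (by positivity)) h1
  rw [Real.exp_neg]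
  have e : (1 / 128) * (1 / (m : ℝ)) ^ k = ((m : ℝ) ^ k * 128)⁻¹ := by
    rw [one_div_pow]
    field_simp
  rw [e]
  exact inv_anti₀ (by positivity) h4

/-- The abstract version of the slicing theorem. -/
theorem slicing_core (hm : 2 ≤ m)
    (hC0c : IsCompact C0) (hC0v : Convex ℝ C0) (hC1c : IsCompact C1) (hC1v : Convex ℝ C1)
    (h10 : C1 ⊆ C0) (hvol : volume C0 ≤ 4 * volume C1) (hpos : 0 < volume C1)
    {zc : Fin k → ℝ} {xc : Fin m → ℝ} {lam : ℝ} (hlam0 : 0 < lam) (hlamm : 1 / 4 ≤ lam ^ m)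
    (hscale : ∀ z x, Sum.elim z x ∈ C0 →
      Sum.elim (zc + lam • (z - zc)) (xc + lam • (x - xc)) ∈ C1)
    {r : ℝ} (hcubeP : ∀ z : Fin k → ℝ, (∀ i, |z i - zc i| ≤ r) → z ∈ proj C1) :
    ∃ (V : ℝ) (j : ℕ) (G : Set (Fin k → ℝ)), 0 < V ∧ j ≤ levelJ k m ∧ Convex ℝ G ∧
      G ⊆ proj C1 ∧
      (∀ z, volume (slice C0 z) ≤ ENNReal.ofReal V) ∧
      (∀ z ∈ G, ENNReal.ofReal (Real.exp (-(j : ℝ)) * V) ≤ volume (slice C0 z)) ∧
      volume C1 ≤ ENNReal.ofReal (110 * ((levelJ k m : ℝ) + 1) * Real.exp (-(j : ℝ)) * V) *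
        volume G ∧
      (∃ c : Fin k → ℝ, ∀ z : Fin k → ℝ, (∀ i, |z i - c i| ≤ r / m) → z ∈ G) := by
  classical
  set v : (Fin k → ℝ) → ℝ≥0∞ := fun z => volume (slice C0 z) with hv
  have hC0m := hC0c.measurableSet
  set S := ⨆ z, v z with hS
  have hSfin : S ≠ ⊤ := by
    have hK := isCompact_image_inr hC0c
    have h1 : S ≤ volume ((fun w : Fin k ⊕ Fin m → ℝ => fun i : Fin m => w (Sum.inr i)) '' C0) :=
      iSup_le (fun z => measure_mono (slice_subset_image_inr z))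
    exact ne_top_of_le_ne_top hK.measure_lt_top.ne h1
  have hSpos : 0 < S := by
    by_contra hcon
    have h0 : S = 0 := le_antisymm (not_lt.1 hcon) bot_le
    have hv0 : ∀ z, v z = 0 := fun z => le_antisymm (h0 ▸ le_iSup v z) bot_le
    have h1 : volume C0 = 0 := by
      rw [volume_eq_lintegral_slice hC0m]
      have : ∀ z, volume (slice C0 z) = 0 := hv0
      simp [this]
    exact hpos.ne' (measure_mono_null h10 h1)
  set V := S.toReal with hVdef
  have hVpos : 0 < V := ENNReal.toReal_pos hSpos.ne' hSfin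
  have hVS : ENNReal.ofReal V = S := ENNReal.ofReal_toReal hSfin
  have hvle : ∀ z, v z ≤ ENNReal.ofReal V := fun z => hVS ▸ le_iSup v z
  obtain ⟨z₀, hz₀⟩ : ∃ z₀, ENNReal.ofReal (V / 2) < v z₀ := by
    have h1 : ENNReal.ofReal (V / 2) < S := by
      rw [← hVS]
      exact (ENNReal.ofReal_lt_ofReal_iff hVpos).2 (by linarith)
    exact lt_iSup_iff.1 h1
  obtain ⟨x₀, hx₀⟩ : (slice C0 z₀).Nonempty := by
    apply nonempty_of_measure_ne_zero
    exact (lt_of_le_of_lt bot_le hz₀).ne'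
  set z₁ : Fin k → ℝ := zc + lam • (z₀ - zc) with hz₁
  have hz₁P : z₁ ∈ proj C1 := ⟨xc + lam • (x₀ - xc), hscale _ _ hx₀⟩
  have hvz₁ : ENNReal.ofReal (V / 8) ≤ v z₁ := by
    have hsub : AffineMap.homothety xc lam '' slice C0 z₀ ⊆ slice C0 z₁ := by
      rintro _ ⟨x, hx, rfl⟩
      have e : AffineMap.homothety xc lam x = xc + lam • (x - xc) := by
        rw [AffineMap.homothety_apply]
        simp [add_comm]
      rw [e]
      exact h10 (hscale _ _ hx)
    have h2 := measure_mono (μ := volume) hsub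
    rw [Measure.addHaar_image_homothety, Module.finrank_fin_fun, abs_of_pos (by positivity)] at h2
    refine le_trans ?_ h2
    calc ENNReal.ofReal (V / 8) = ENNReal.ofReal (1 / 4) * ENNReal.ofReal (V / 2) := by
          rw [← ENNReal.ofReal_mul (by norm_num)]
          congr 1
          ring
      _ ≤ ENNReal.ofReal (lam ^ m) * volume (slice C0 z₀) := by
          exact mul_le_mul' (ENNReal.ofReal_le_ofReal hlamm) hz₀.le
  have hm0 : (0 : ℝ) < m := by positivity
  have hm2 : (2 : ℝ) ≤ m := by exact_mod_cast hm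
  set t : ℝ := 1 - 1 / (m : ℝ) with ht
  have ht0 : 0 < t := by
    have : 1 / (m : ℝ) ≤ 1 / 2 := by rw [div_le_div_iff₀ hm0 (by norm_num)]; linarith
    rw [ht]; linarith
  have ht1 : t ≤ 1 := by
    have : 0 ≤ 1 / (m : ℝ) := by positivity
    rw [ht]; linarith
  have htm : (1 / 4 : ℝ) ≤ t ^ m := sl_pow_ge_quarter m hm
  have hQ2 : ∀ p ∈ proj C1, ENNReal.ofReal (V / 32) ≤ v (t • z₁ + (1 - t) • p) := by
    rintro p ⟨x₁, hx₁⟩
    have hx₁' : x₁ ∈ slice C0 p := h10 hx₁
    have h1 := volume_slice_shrink (z := z₁) hC0v hx₁' ht0 ht1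
    refine le_trans ?_ h1
    calc ENNReal.ofReal (V / 32) = ENNReal.ofReal (1 / 4) * ENNReal.ofReal (V / 8) := by
          rw [← ENNReal.ofReal_mul (by norm_num)]
          congr 1
          ring
      _ ≤ ENNReal.ofReal (t ^ m) * volume (slice C0 z₁) :=
          mul_le_mul' (ENNReal.ofReal_le_ofReal htm) hvz₁
  -- the pigeonhole
  set J := levelJ k m with hJdef
  have hJ4 : 4 ≤ J := by
    rw [hJdef]; unfold levelJ; omega
  have hint := integrated_bound hC0c hC1c h10 hvle hJ4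
  have htail : ENNReal.ofReal (Real.exp (-(J : ℝ)) * V) * volume (proj C1) ≤
      ENNReal.ofReal (1 / 4) * volume C1 := by
    have h1 := sl_tail_bound hC0c hC0v hC1c h10 hm hvol hz₀.le
    have h2 := exp_levelJ_le (k := k) hm
    have h3 : ENNReal.ofReal (Real.exp (-(J : ℝ)) * V) ≤
        ENNReal.ofReal (1 / 16) * (ENNReal.ofReal (V / 8) * ENNReal.ofReal ((1 / (m : ℝ)) ^ k)) := by
      rw [← ENNReal.ofReal_mul (by positivity), ← ENNReal.ofReal_mul (by norm_num)]
      apply ENNReal.ofReal_le_ofReal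
      have h4 := mul_le_mul_of_nonneg_right h2 hVpos.le
      calc Real.exp (-(J : ℝ)) * V ≤ (1 / 128) * (1 / (m : ℝ)) ^ k * V := h4
        _ = _ := by ring
    calc ENNReal.ofReal (Real.exp (-(J : ℝ)) * V) * volume (proj C1)
        ≤ (ENNReal.ofReal (1 / 16) * (ENNReal.ofReal (V / 8) * ENNReal.ofReal ((1 / (m : ℝ)) ^ k))) *
            volume (proj C1) := by gcongr
      _ = ENNReal.ofReal (1 / 16) * (ENNReal.ofReal (V / 8) *
            (ENNReal.ofReal ((1 / (m : ℝ)) ^ k) * volume (proj C1))) := by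
          simp only [mul_assoc]
      _ ≤ ENNReal.ofReal (1 / 16) * (4 * volume C1) := by gcongr
      _ = ENNReal.ofReal (1 / 4) * volume C1 := by
          rw [← mul_assoc]
          congr 1
          have e4 : (4 : ℝ≥0∞) = ENNReal.ofReal 4 := by simp
          rw [e4, ← ENNReal.ofReal_mul (by norm_num)]
          norm_num
  obtain ⟨j, hjm, hjb⟩ := exists_good_level (g := fun j : ℕ => volume (levelSet C0 C1 (Real.exp (-(j : ℝ)) * V)))
    hJ4 hpos hC1c.measure_lt_top.ne htail hVpos hint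
  have hj := Finset.mem_Icc.1 hjm
  refine ⟨V, j, levelSet C0 C1 (Real.exp (-(j : ℝ)) * V), hVpos, hj.2, ?_, inter_subset_left,
    hvle, fun z hz => hz.2, hjb, ?_⟩
  · exact convex_levelSet hC0c hC0v hC1v (by positivity)
  · refine ⟨t • z₁ + (1 - t) • zc, fun z hz => ?_⟩
    set c := t • z₁ + (1 - t) • zc with hc
    set p : Fin k → ℝ := zc + (m : ℝ) • (z - c) with hp
    have hpP : p ∈ proj C1 := by
      apply hcubeP
      intro i
      simp only [hp, Pi.add_apply, Pi.smul_apply, smul_eq_mul, add_sub_cancel_left]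
      rw [abs_mul, abs_of_pos hm0]
      calc (m : ℝ) * |z i - c i| ≤ (m : ℝ) * (r / m) :=
            mul_le_mul_of_nonneg_left (hz i) hm0.le
        _ = r := by field_simp
    have hzeq : z = t • z₁ + (1 - t) • p := by
      ext i
      simp only [hp, hc, Pi.add_apply, Pi.smul_apply, smul_eq_mul, Pi.sub_apply, ht]
      field_simp
      ring
    have h1m : 0 ≤ 1 - t := by linarith
    refine ⟨?_, ?_⟩
    · rw [hzeq]
      exact convex_proj hC1v hz₁P hpP ht0.le h1m (by ring)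
    · have h2 := hQ2 p hpP
      rw [← hzeq] at h2
      refine le_trans ?_ h2
      apply ENNReal.ofReal_le_ofReal
      have h3 : Real.exp (-(j : ℝ)) ≤ 1 / 32 := by
        rw [Real.exp_neg]
        have h4 := sl_exp_four_ge
        have h5 : Real.exp 4 ≤ Real.exp (j : ℝ) := Real.exp_le_exp.2 (by
          have : (4 : ℝ) ≤ j := by exact_mod_cast hj.1
          exact this)
        rw [one_div]
        exact inv_anti₀ (by norm_num) (h4.trans h5)
      calc Real.exp (-(j : ℝ)) * V ≤ (1 / 32) * V := mul_le_mul_of_nonneg_right h3 hVpos.le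
        _ = V / 32 := by ring

end Core

theorem slicing {k m : ℕ} (hk : 1 ≤ k) (hm : 2 ≤ m) {E : Set (Fin k ⊕ Fin m → ℝ)}
    (hE : Normalized E) :
    ∃ (V : ℝ) (j : ℕ) (G : Set (Fin k → ℝ)), 0 < V ∧ j ≤ levelJ k m ∧ Convex ℝ G ∧
      G ⊆ proj (hom (lam1 (Fin k ⊕ Fin m) ^ 4) E) ∧
      (∀ z, volume (slice (hom (lam1 (Fin k ⊕ Fin m) ^ 3) E) z) ≤ ENNReal.ofReal V) ∧
      (∀ z ∈ G, ENNReal.ofReal (Real.exp (-(j : ℝ)) * V) ≤
        volume (slice (hom (lam1 (Fin k ⊕ Fin m) ^ 3) E) z)) ∧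
      volume (hom (lam1 (Fin k ⊕ Fin m) ^ 4) E) ≤
        ENNReal.ofReal (110 * ((levelJ k m : ℝ) + 1) * Real.exp (-(j : ℝ)) * V) * volume G ∧
      (∃ c : Fin k → ℝ, ∀ z : Fin k → ℝ,
        (∀ i, |z i - c i| ≤ 1 / (32 * ((k : ℝ) + m) * m)) → z ∈ G) := by
  classical
  have hcard : Fintype.card (Fin k ⊕ Fin m) = k + m := by simp
  have hcardR : (Fintype.card (Fin k ⊕ Fin m) : ℝ) = (k : ℝ) + m := by
    rw [hcard]; push_cast; ring
  have hn2 : 2 ≤ Fintype.card (Fin k ⊕ Fin m) := by rw [hcard]; omega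
  have hn0 : 0 < Fintype.card (Fin k ⊕ Fin m) := by omega
  have hNR : (2 : ℝ) ≤ Fintype.card (Fin k ⊕ Fin m) := by exact_mod_cast hn2
  set N : ℝ := (Fintype.card (Fin k ⊕ Fin m) : ℝ) with hNdef
  have hN0 : 0 < N := by linarith
  have hlh := lam1_ge_half hn2
  set l : ℝ := lam1 (Fin k ⊕ Fin m) with hl
  have hl0 : 0 < l := by linarith
  have hl1 : l ≤ 1 := by
    have : l = 1 - 1 / N := rfl
    have h2 : 0 ≤ 1 / N := by positivity
    linarith
  have hlN : (1 / 4 : ℝ) ≤ l ^ (Fintype.card (Fin k ⊕ Fin m)) :=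
    sl_pow_ge_quarter _ hn2
  have hC1C0 : hom (l ^ 4) E = hom l (hom (l ^ 3) E) := by
    rw [hom_hom]
    congr 1
    ring
  have hvolC : volume (hom (l ^ 3) E) ≤ 4 * volume (hom (l ^ 4) E) := by
    rw [hC1C0, volume_hom hl0]
    calc volume (hom (l ^ 3) E) = ENNReal.ofReal 4 * (ENNReal.ofReal (1 / 4) * volume (hom (l ^ 3) E)) := by
          rw [← mul_assoc, ← ENNReal.ofReal_mul (by norm_num)]
          norm_num
      _ ≤ ENNReal.ofReal 4 * (ENNReal.ofReal (l ^ Fintype.card (Fin k ⊕ Fin m)) * volume (hom (l ^ 3) E)) := by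
          gcongr
      _ = 4 * (ENNReal.ofReal (l ^ Fintype.card (Fin k ⊕ Fin m)) * volume (hom (l ^ 3) E)) := by
          congr 1
          simp
  have hl4 : (1 / 16 : ℝ) ≤ l ^ 4 := by
    calc (1 / 16 : ℝ) = (1 / 2) ^ 4 := by norm_num
      _ ≤ l ^ 4 := pow_le_pow_left₀ (by norm_num) hlh 4
  have hpos : 0 < volume (hom (l ^ 4) E) := by
    have hρ : 0 < l ^ 4 / (2 * N) := by positivity
    have h1 : Metric.ball (cen (Fin k ⊕ Fin m)) (l ^ 4 / (2 * N)) ⊆ hom (l ^ 4) E := by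
      intro x hx
      apply hom_cube hE hn0 (by positivity)
      intro i
      have h2 := dist_le_pi_dist x (cen (Fin k ⊕ Fin m)) i
      rw [Real.dist_eq] at h2
      have h3 := Metric.mem_ball.1 hx
      linarith
    exact lt_of_lt_of_le (Metric.measure_ball_pos volume _ hρ) (measure_mono h1)
  have hlm : (1 / 4 : ℝ) ≤ l ^ m := by
    refine hlN.trans ?_
    apply pow_le_pow_of_le_one hl0.le hl1
    rw [hcard]; omega
  have h10 : hom (l ^ 4) E ⊆ hom (l ^ 3) E :=
    hom_mono hE hn0 (by positivity) (by positivity) (pow_le_pow_of_le_one hl0.le hl1 (by norm_num))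
  let zc : Fin k → ℝ := fun i => cen (Fin k ⊕ Fin m) (Sum.inl i)
  let xc : Fin m → ℝ := fun i => cen (Fin k ⊕ Fin m) (Sum.inr i)
  have hcen : Sum.elim zc xc = cen (Fin k ⊕ Fin m) := by
    ext i
    rcases i with i | i <;> simp [zc, xc]
  have hscale : ∀ z x, Sum.elim z x ∈ hom (l ^ 3) E →
      Sum.elim (zc + l • (z - zc)) (xc + l • (x - xc)) ∈ hom (l ^ 4) E := by
    intro z x hzx
    rw [hC1C0]
    refine ⟨_, hzx, ?_⟩
    rw [← hcen]
    ext i
    rcases i with i | i <;> simp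
  have hcubeP : ∀ z : Fin k → ℝ, (∀ i, |z i - zc i| ≤ 1 / (32 * N)) →
      z ∈ proj (hom (l ^ 4) E) := by
    intro z hz
    refine ⟨xc, ?_⟩
    show Sum.elim z xc ∈ hom (l ^ 4) E
    apply hom_cube hE hn0 (by positivity)
    have hr : 1 / (32 * N) ≤ l ^ 4 / (2 * N) := by
      rw [div_le_div_iff₀ (by positivity) (by positivity)]
      nlinarith
    intro i
    rcases i with i | i
    · show |z i - cen (Fin k ⊕ Fin m) (Sum.inl i)| ≤ l ^ 4 / (2 * N)
      exact (hz i).trans hr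
    · show |cen (Fin k ⊕ Fin m) (Sum.inr i) - cen (Fin k ⊕ Fin m) (Sum.inr i)| ≤ l ^ 4 / (2 * N)
      rw [sub_self, abs_zero]
      positivity
  obtain ⟨V, j, G, h1, h2, h3, h4, h5, h6, h7, c, hc⟩ := slicing_core hm (isCompact_hom hE.compact _)
    (convex_hom hE.convex _) (isCompact_hom hE.compact _) (convex_hom hE.convex _) h10 hvolC hpos
    hl0 hlm hscale hcubeP
  refine ⟨V, j, G, h1, h2, h3, h4, h5, h6, h7, c, fun z hz => hc z (fun i => ?_)⟩
  have e : 1 / (32 * N) / (m : ℝ) = 1 / (32 * ((k : ℝ) + m) * m) := by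
    rw [hcardR, div_div]
  rw [e]
  exact hz i

end Vale.Agent.Lib.P230
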