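import Mathlib

/-!
# P230: a numerical lemma on concave sequences (the sum of `exp(-i) ψ_i^k` is at most `C √k` times its largest term).
-/

open Finset

namespace Vale.Agent.Lib.P230

/-- Tangent bound: `x ≤ exp((x-1)/w + (w-1)²/w)`. -/
lemma sl2_tangent {x w : ℝ} (hw : 0 < w) :
    x ≤ Real.exp ((x - 1) / w + (w - 1) ^ 2 / w) := by
  have h1 : x / w ≤ Real.exp (x / w - 1) := by
    have := Real.add_one_le_exp (x / w - 1)
    linarith
  have h2 : w ≤ Real.exp (w - 1) := by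
    have := Real.add_one_le_exp (w - 1)
    linarith
  have h3 : x = x / w * w := by field_simp
  have h4 : (x - 1) / w + (w - 1) ^ 2 / w = (x / w - 1) + (w - 1) := by
    field_simp
    ring
  rw [h4, Real.exp_add]
  have h5 : x = x / w * w := h3
  calc x = x / w * w := h5
    _ ≤ Real.exp (x / w - 1) * w := mul_le_mul_of_nonneg_right h1 hw.le
    _ ≤ _ := mul_le_mul_of_nonneg_left h2 (Real.exp_pos _).le

/-- Power form of the tangent bound. -/
lemma sl2_tangent_pow {x w : ℝ} (hx : 0 ≤ x) (hw : 0 < w) (k : ℕ) :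
    x ^ k ≤ Real.exp ((k : ℝ) * ((x - 1) / w + (w - 1) ^ 2 / w)) := by
  rw [Real.exp_nat_mul]
  exact pow_le_pow_left₀ hx (sl2_tangent hw) k

/-- The geometric sum. -/
lemma sl2_geom {s : ℝ} (hs : 0 < s) (N : ℕ) :
    ∑ d ∈ Finset.range N, Real.exp (-(d : ℝ) / (2 * s)) ≤ 2 * s + 1 := by
  set r := Real.exp (-1 / (2 * s)) with hr
  have hr0 : 0 < r := Real.exp_pos _
  have hr1 : r * (1 + 1 / (2 * s)) ≤ 1 := by
    have h1 := Real.add_one_le_exp (1 / (2 * s))
    have h2 : r * Real.exp (1 / (2 * s)) = 1 := by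
      rw [hr, ← Real.exp_add]
      have : -1 / (2 * s) + 1 / (2 * s) = 0 := by ring
      rw [this, Real.exp_zero]
    calc r * (1 + 1 / (2 * s)) ≤ r * Real.exp (1 / (2 * s)) :=
          mul_le_mul_of_nonneg_left (by linarith) hr0.le
      _ = 1 := h2
  have hr2 : (2 * s + 1) * (1 - r) ≥ 1 := by
    have e : r * (1 + 1 / (2 * s)) = r * (2 * s + 1) / (2 * s) := by field_simp
    rw [e, div_le_one (by positivity)] at hr1
    nlinarith
  have e : ∀ d : ℕ, Real.exp (-(d : ℝ) / (2 * s)) = r ^ d := by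
    intro d
    rw [hr, ← Real.exp_nat_mul]
    congr 1
    ring
  simp_rw [e]
  have h1 := geom_sum_mul_neg r N
  have hrN : 0 ≤ r ^ N := by positivity
  have h1r : 0 < 1 - r := by
    by_contra hcon
    push Not at hcon
    nlinarith
  have h2 : (∑ d ∈ Finset.range N, r ^ d) * (1 - r) ≤ (2 * s + 1) * (1 - r) := by
    rw [h1]
    linarith
  exact le_of_mul_le_mul_right h2 h1r

/-- Extracting a `k`-th root. -/
lemma sl2_root {k : ℕ} (hk : k ≠ 0) {A B c : ℝ} (hB : 0 < B) (hA : A ^ k ≤ Real.exp c * B ^ k) :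
    A ≤ Real.exp (c / k) * B := by
  by_contra hcon
  push Not at hcon
  have h2 : (Real.exp (c / (k : ℝ)) * B) ^ k < A ^ k := pow_lt_pow_left₀ hcon (by positivity) hk
  rw [mul_pow, ← Real.exp_nat_mul] at h2
  have e : (k : ℝ) * (c / k) = c := by
    have : (k : ℝ) ≠ 0 := by exact_mod_cast hk
    field_simp
  rw [e] at h2
  linarith

section Up

variable {k : ℕ} {s : ℝ}

/-- `k (exp(1/k) - 1) ≤ 1 + 2/k`. -/
lemma sl2_eta_up (hk : 100 ≤ k) :
    (k : ℝ) * (Real.exp (1 / (k : ℝ)) - 1) ≤ 1 + 2 / (k : ℝ) := by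
  have hkR : (100 : ℝ) ≤ k := by exact_mod_cast hk
  have hk0 : (0 : ℝ) < k := by linarith
  have h1 : Real.exp (-(1 / (k : ℝ))) * Real.exp (1 / (k : ℝ)) = 1 := by
    rw [← Real.exp_add]; simp
  have h2 := Real.add_one_le_exp (-(1 / (k : ℝ)))
  have h3 : (1 - 1 / (k : ℝ)) * Real.exp (1 / (k : ℝ)) ≤ 1 := by
    calc (1 - 1 / (k : ℝ)) * Real.exp (1 / (k : ℝ))
        ≤ Real.exp (-(1 / (k : ℝ))) * Real.exp (1 / (k : ℝ)) :=
          mul_le_mul_of_nonneg_right (by linarith) (Real.exp_pos _).le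
      _ = 1 := h1
  set y := Real.exp (1 / (k : ℝ)) with hy
  have hy1 : 1 ≤ y := Real.one_le_exp (by positivity)
  have h4 : ((k : ℝ) - 1) * y ≤ k := by
    have e2 : ((k : ℝ) - 1) * y = (k : ℝ) * ((1 - 1 / (k : ℝ)) * y) := by
      field_simp
    rw [e2]
    exact (mul_le_mul_of_nonneg_left h3 hk0.le).trans (by rw [mul_one])
  have h7 : ((k : ℝ) - 1) * (y - 1) ≤ 1 := by linarith
  have h8 : (k : ℝ) ^ 2 * (y - 1) ≤ k + 2 := by
    nlinarith [mul_nonneg (by linarith : (0 : ℝ) ≤ (k : ℝ) - 2) (by linarith : (0 : ℝ) ≤ y - 1),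
      mul_le_mul_of_nonneg_left h7 (by linarith : (0 : ℝ) ≤ (k : ℝ) + 2)]
  have e3 : (k : ℝ) * (y - 1) = ((k : ℝ) ^ 2 * (y - 1)) / k := by
    field_simp
  have e4 : 1 + 2 / (k : ℝ) = ((k : ℝ) + 2) / k := by
    field_simp
  rw [e3, e4]
  exact div_le_div_of_nonneg_right h8 hk0.le

/-- The upper side bound. -/
lemma sl2_up_bound (hk : 100 ≤ k) {G y : ℝ} {d : ℕ} (hG0 : 0 < G) (hy0 : 0 < y)
    (hy : y ≤ G + (d : ℝ) * (Real.exp (1 / (k : ℝ)) * G - G)) :
    Real.exp (-(d : ℝ)) * (y / G) ^ k ≤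
      Real.exp 4 * Real.exp (-(d : ℝ) / (2 * Real.sqrt k)) := by
  have hkR : (100 : ℝ) ≤ k := by exact_mod_cast hk
  have hk0 : (0 : ℝ) < k := by linarith
  set s : ℝ := Real.sqrt k with hs
  have hs2 : s ^ 2 = k := Real.sq_sqrt hk0.le
  have hs10 : 10 ≤ s := by
    apply Real.le_sqrt_of_sq_le
    norm_num
    linarith
  have hs0 : 0 < s := by linarith
  set η := Real.exp (1 / (k : ℝ)) - 1 with hη
  have hkη : (k : ℝ) * η ≤ 1 + 2 / k := sl2_eta_up hk
  set x := y / G with hx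
  have hx0 : 0 ≤ x := by positivity
  have hxle : x - 1 ≤ (d : ℝ) * η := by
    have h1 : y ≤ G * (1 + (d : ℝ) * η) := by
      have e : G + (d : ℝ) * (Real.exp (1 / (k : ℝ)) * G - G) = G * (1 + (d : ℝ) * η) := by
        rw [hη]; ring
      rw [← e]; exact hy
    have h3 : x ≤ 1 + (d : ℝ) * η := by
      rw [hx, div_le_iff₀ hG0]
      linarith
    linarith
  set t := 1 / s with ht
  have ht0 : 0 < t := by positivity
  have ht1 : t ≤ 1 / 10 := by
    rw [ht, div_le_div_iff₀ hs0 (by norm_num)]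
    linarith
  have hkt : (k : ℝ) * t ^ 2 = 1 := by
    rw [ht, ← hs2]
    field_simp
  have hk2t : 2 / (k : ℝ) = 2 * t ^ 2 := by
    rw [ht, ← hs2]
    field_simp
  set w := 1 + 2 * t with hw
  have hw0 : 1 ≤ w := by rw [hw]; linarith
  have hw0' : 0 < w := by linarith
  have hkηw : (k : ℝ) * η / w ≤ 1 - t / 2 := by
    rw [div_le_iff₀ hw0']
    rw [hk2t] at hkη
    rw [hw]
    nlinarith
  have hpow := sl2_tangent_pow hx0 hw0' k
  have hexp : (k : ℝ) * ((x - 1) / w + (w - 1) ^ 2 / w) ≤ (d : ℝ) * (1 - t / 2) + 4 := by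
    have h1 : (k : ℝ) * ((x - 1) / w) ≤ (d : ℝ) * (1 - t / 2) := by
      calc (k : ℝ) * ((x - 1) / w) ≤ (k : ℝ) * (((d : ℝ) * η) / w) :=
            mul_le_mul_of_nonneg_left (div_le_div_of_nonneg_right hxle hw0'.le) hk0.le
        _ = (d : ℝ) * ((k : ℝ) * η / w) := by ring
        _ ≤ _ := mul_le_mul_of_nonneg_left hkηw (Nat.cast_nonneg _)
    have h2 : (k : ℝ) * ((w - 1) ^ 2 / w) ≤ 4 := by
      have e : (k : ℝ) * ((w - 1) ^ 2 / w) = 4 * ((k : ℝ) * t ^ 2) / w := by
        rw [hw]; ring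
      rw [e, hkt, div_le_iff₀ hw0']
      linarith
    rw [mul_add]
    linarith
  have hpow2 : x ^ k ≤ Real.exp ((d : ℝ) * (1 - t / 2) + 4) :=
    hpow.trans (Real.exp_le_exp.2 hexp)
  calc Real.exp (-(d : ℝ)) * x ^ k
      ≤ Real.exp (-(d : ℝ)) * Real.exp ((d : ℝ) * (1 - t / 2) + 4) :=
        mul_le_mul_of_nonneg_left hpow2 (Real.exp_pos _).le
    _ = Real.exp 4 * Real.exp (-(d : ℝ) / (2 * s)) := by
        rw [← Real.exp_add, ← Real.exp_add]
        congr 1
        rw [ht]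
        field_simp
        ring

/-- `k/(k+1) ≤ k (1 - exp(-1/k))`. -/
lemma sl2_eta_down (hk : 100 ≤ k) :
    (k : ℝ) / (k + 1) ≤ (k : ℝ) * (1 - Real.exp (-1 / (k : ℝ))) := by
  have hkR : (100 : ℝ) ≤ k := by exact_mod_cast hk
  have hk0 : (0 : ℝ) < k := by linarith
  have h1 := Real.add_one_le_exp (1 / (k : ℝ))
  have h2 : Real.exp (-1 / (k : ℝ)) * Real.exp (1 / (k : ℝ)) = 1 := by
    rw [← Real.exp_add]
    have : -1 / (k : ℝ) + 1 / k = 0 := by ring
    rw [this, Real.exp_zero]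
  have h3 : Real.exp (-1 / (k : ℝ)) * (1 / (k : ℝ) + 1) ≤ 1 :=
    (mul_le_mul_of_nonneg_left h1 (Real.exp_pos _).le).trans h2.le
  have h4 : Real.exp (-1 / (k : ℝ)) ≤ k / (k + 1) := by
    rw [le_div_iff₀ (by positivity)]
    have e : Real.exp (-1 / (k : ℝ)) * ((k : ℝ) + 1) =
        (k : ℝ) * (Real.exp (-1 / (k : ℝ)) * (1 / (k : ℝ) + 1)) := by
      field_simp
      ring
    rw [e]
    exact (mul_le_mul_of_nonneg_left h3 hk0.le).trans (by rw [mul_one])
  have h5 : (1 : ℝ) / (k + 1) ≤ 1 - Real.exp (-1 / (k : ℝ)) := by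
    have e : (1 : ℝ) / (k + 1) = 1 - (k : ℝ) / (k + 1) := by
      field_simp
      ring
    rw [e]
    linarith
  have e2 : (k : ℝ) / (k + 1) = (k : ℝ) * (1 / (k + 1)) := by ring
  rw [e2]
  exact mul_le_mul_of_nonneg_left h5 hk0.le

/-- The lower side bound. -/
lemma sl2_down_bound (hk : 100 ≤ k) {G y : ℝ} {d : ℕ} (hG0 : 0 < G) (hy0 : 0 < y)
    (hy : y ≤ G - (d : ℝ) * (G - Real.exp (-1 / (k : ℝ)) * G)) :
    Real.exp (d : ℝ) * (y / G) ^ k ≤
      Real.exp 5 * Real.exp (-(d : ℝ) / (2 * Real.sqrt k)) := by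
  have hkR : (100 : ℝ) ≤ k := by exact_mod_cast hk
  have hk0 : (0 : ℝ) < k := by linarith
  set s : ℝ := Real.sqrt k with hs
  have hs2 : s ^ 2 = k := Real.sq_sqrt hk0.le
  have hs10 : 10 ≤ s := by
    apply Real.le_sqrt_of_sq_le
    norm_num
    linarith
  have hs0 : 0 < s := by linarith
  set η := 1 - Real.exp (-1 / (k : ℝ)) with hη
  have hkη : (k : ℝ) / (k + 1) ≤ (k : ℝ) * η := sl2_eta_down hk
  set x := y / G with hx
  have hx0 : 0 ≤ x := by positivity
  have hxle : x - 1 ≤ -((d : ℝ) * η) := by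
    have h1 : y ≤ G * (1 - (d : ℝ) * η) := by
      have e : G - (d : ℝ) * (G - Real.exp (-1 / (k : ℝ)) * G) = G * (1 - (d : ℝ) * η) := by
        rw [hη]; ring
      rw [← e]; exact hy
    have h3 : x ≤ 1 - (d : ℝ) * η := by
      rw [hx, div_le_iff₀ hG0]
      linarith
    linarith
  set t := 1 / s with ht
  have ht0 : 0 < t := by positivity
  have ht1 : t ≤ 1 / 10 := by
    rw [ht, div_le_div_iff₀ hs0 (by norm_num)]
    linarith
  have hkt : (k : ℝ) * t ^ 2 = 1 := by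
    rw [ht, ← hs2]
    field_simp
  set w := 1 - 2 * t with hw
  have hw0' : 0 < w := by rw [hw]; linarith
  have hw08 : 4 / 5 ≤ w := by rw [hw]; linarith
  have hw1 : w ≤ 1 := by rw [hw]; linarith
  have hkηw : 1 + t / 2 ≤ (k : ℝ) * η / w := by
    rw [le_div_iff₀ hw0']
    have h1 : 1 - t ^ 2 ≤ (k : ℝ) / (k + 1) := by
      rw [le_div_iff₀ (by positivity)]
      have h0 : t ^ 2 * (k : ℝ) = 1 := by linarith
      have h00 : 0 ≤ t ^ 2 := by positivity
      nlinarith
    have h2 : (1 + t / 2) * w ≤ 1 - t ^ 2 := by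
      rw [hw]
      nlinarith
    linarith
  have hpow := sl2_tangent_pow hx0 hw0' k
  have hexp : (k : ℝ) * ((x - 1) / w + (w - 1) ^ 2 / w) ≤ -((d : ℝ) * (1 + t / 2)) + 5 := by
    have h1 : (k : ℝ) * ((x - 1) / w) ≤ -((d : ℝ) * (1 + t / 2)) := by
      calc (k : ℝ) * ((x - 1) / w) ≤ (k : ℝ) * ((-((d : ℝ) * η)) / w) :=
            mul_le_mul_of_nonneg_left (div_le_div_of_nonneg_right hxle hw0'.le) hk0.le
        _ = -((d : ℝ) * ((k : ℝ) * η / w)) := by ring
        _ ≤ _ := neg_le_neg (mul_le_mul_of_nonneg_left hkηw (Nat.cast_nonneg _))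
    have h2 : (k : ℝ) * ((w - 1) ^ 2 / w) ≤ 5 := by
      have e : (k : ℝ) * ((w - 1) ^ 2 / w) = 4 * ((k : ℝ) * t ^ 2) / w := by
        rw [hw]; ring
      rw [e, hkt, div_le_iff₀ hw0']
      linarith
    rw [mul_add]
    linarith
  have hpow2 : x ^ k ≤ Real.exp (-((d : ℝ) * (1 + t / 2)) + 5) :=
    hpow.trans (Real.exp_le_exp.2 hexp)
  calc Real.exp (d : ℝ) * x ^ k
      ≤ Real.exp (d : ℝ) * Real.exp (-((d : ℝ) * (1 + t / 2)) + 5) :=
        mul_le_mul_of_nonneg_left hpow2 (Real.exp_pos _).le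
    _ = Real.exp 5 * Real.exp (-(d : ℝ) / (2 * s)) := by
        rw [← Real.exp_add, ← Real.exp_add]
        congr 1
        rw [ht]
        field_simp
        ring

end Up

/-- Splitting the sum at an interior point. -/
lemma sl2_sum_split {F : ℕ → ℝ} {a c j : ℕ} (hj1 : a ≤ j) (hj2 : j ≤ c)
    (hFnn : ∀ i ∈ Finset.Icc a c, 0 ≤ F i) :
    ∑ i ∈ Finset.Icc a c, F i ≤
      ∑ d ∈ Finset.range (j + 1 - a), F (j - d) + ∑ d ∈ Finset.range (c + 1 - j), F (j + d) := by
  have h1 : ∑ d ∈ Finset.range (c + 1 - j), F (j + d) = ∑ i ∈ Finset.Ico j (c + 1), F i :=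
    (Finset.sum_Ico_eq_sum_range F j (c + 1)).symm
  have h2 : ∑ d ∈ Finset.range (j + 1 - a), F (j - d) = ∑ i ∈ Finset.Ico a (j + 1), F i := by
    refine Finset.sum_nbij' (fun d => j - d) (fun i => j - i) ?_ ?_ ?_ ?_ ?_
    · intro d hd
      have := Finset.mem_range.1 hd
      exact Finset.mem_Ico.2 ⟨by omega, by omega⟩
    · intro i hi
      have := Finset.mem_Ico.1 hi
      exact Finset.mem_range.2 (by omega)
    · intro d hd
      have := Finset.mem_range.1 hd
      show j - (j - d) = d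
      omega
    · intro i hi
      have := Finset.mem_Ico.1 hi
      show j - (j - i) = i
      omega
    · intro d _
      rfl
  rw [h1, h2]
  have h3 : Finset.Icc a c ⊆ Finset.Ico a (j + 1) ∪ Finset.Ico j (c + 1) := by
    intro i hi
    have := Finset.mem_Icc.1 hi
    rcases Nat.lt_or_ge i (j + 1) with h | h
    · exact Finset.mem_union_left _ (Finset.mem_Ico.2 ⟨this.1, h⟩)
    · exact Finset.mem_union_right _ (Finset.mem_Ico.2 ⟨by omega, by omega⟩)
  have hnn2 : ∀ i ∈ Finset.Ico a (j + 1) ∪ Finset.Ico j (c + 1), 0 ≤ F i := by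
    intro i hi
    apply hFnn
    rcases Finset.mem_union.1 hi with h | h
    · have := Finset.mem_Ico.1 h
      exact Finset.mem_Icc.2 ⟨this.1, by omega⟩
    · have := Finset.mem_Ico.1 h
      exact Finset.mem_Icc.2 ⟨by omega, by omega⟩
  calc ∑ i ∈ Finset.Icc a c, F i
      ≤ ∑ i ∈ Finset.Ico a (j + 1) ∪ Finset.Ico j (c + 1), F i :=
        Finset.sum_le_sum_of_subset_of_nonneg h3 (fun i hi _ => hnn2 i hi)
    _ ≤ _ := by
        rw [← Finset.sum_union_inter]
        have : 0 ≤ ∑ i ∈ Finset.Ico a (j + 1) ∩ Finset.Ico j (c + 1), F i := by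
          apply Finset.sum_nonneg
          intro i hi
          apply hnn2
          exact Finset.mem_union_left _ (Finset.mem_inter.1 hi).1
        linarith

/-- The numerical lemma on concave sequences. -/
lemma sum_level_le {k : ℕ} (hk : 100 ≤ k) {a c : ℕ} (hac : a ≤ c) (ψ : ℕ → ℝ)
    (hψ : ∀ j, a ≤ j → j ≤ c → 0 < ψ j)
    (hconc : ∀ i j l : ℕ, a ≤ i → i < j → j < l → l ≤ c →
      ((l : ℝ) - j) * ψ i + ((j : ℝ) - i) * ψ l ≤ ((l : ℝ) - i) * ψ j) :
    ∃ j, a ≤ j ∧ j ≤ c ∧ ∑ i ∈ Finset.Icc a c, Real.exp (-(i : ℝ)) * ψ i ^ k ≤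
      430 * Real.sqrt k * (Real.exp (-(j : ℝ)) * ψ j ^ k) := by
  set F : ℕ → ℝ := fun i => Real.exp (-(i : ℝ)) * ψ i ^ k with hF
  have hne : (Finset.Icc a c).Nonempty := ⟨a, Finset.mem_Icc.2 ⟨le_rfl, hac⟩⟩
  obtain ⟨j, hjm, hjmax⟩ := Finset.exists_max_image (Finset.Icc a c) F hne
  have hj := Finset.mem_Icc.1 hjm
  refine ⟨j, hj.1, hj.2, ?_⟩
  have hkR : (100 : ℝ) ≤ k := by exact_mod_cast hk
  have hk0 : (0 : ℝ) < k := by linarith
  set s : ℝ := Real.sqrt k with hs
  have hs10 : 10 ≤ s := by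
    apply Real.le_sqrt_of_sq_le
    norm_num
    linarith
  have hs0 : 0 < s := by linarith
  set G := ψ j with hG
  have hG0 : 0 < G := hψ j hj.1 hj.2
  have hFj : 0 < F j := by
    simp only [hF]
    positivity
  have hk1 : k ≠ 0 := by omega
  -- the upper side
  have hup : ∀ d : ℕ, j + d ≤ c → F (j + d) ≤ F j * (Real.exp 4 * Real.exp (-(d : ℝ) / (2 * s))) := by
    intro d hd
    rcases Nat.eq_zero_or_pos d with rfl | hd1
    · simp only [Nat.add_zero, Nat.cast_zero, neg_zero, zero_div, Real.exp_zero, mul_one]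
      have h4 : 1 ≤ Real.exp 4 := Real.one_le_exp (by norm_num)
      exact le_mul_of_one_le_right hFj.le h4
    have hj1c : j + 1 ≤ c := by omega
    set ψ₁ := ψ (j + 1) with hψ₁
    have hψ₁0 : 0 < ψ₁ := hψ _ (by omega) hj1c
    -- from the maximality
    have hmax1 : ψ₁ ≤ Real.exp (1 / (k : ℝ)) * G := by
      apply sl2_root hk1 hG0
      have h1 := hjmax (j + 1) (Finset.mem_Icc.2 ⟨by omega, hj1c⟩)
      simp only [hF] at h1
      have h3 : Real.exp (-((j + 1 : ℕ) : ℝ)) = Real.exp (-(j : ℝ)) * Real.exp (-1) := by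
        rw [← Real.exp_add]
        congr 1
        push_cast
        ring
      rw [h3] at h1
      have h4 : Real.exp 1 * Real.exp (-1) = 1 := by
        rw [← Real.exp_add]; simp
      have h5 : Real.exp (-(j : ℝ)) * (Real.exp (-1) * ψ₁ ^ k) ≤ Real.exp (-(j : ℝ)) * G ^ k := by
        rw [← mul_assoc]; exact h1
      have h6 := le_of_mul_le_mul_left h5 (Real.exp_pos _)
      calc ψ₁ ^ k = Real.exp 1 * (Real.exp (-1) * ψ₁ ^ k) := by
            rw [← mul_assoc, h4, one_mul]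
        _ ≤ Real.exp 1 * G ^ k := mul_le_mul_of_nonneg_left h6 (Real.exp_pos _).le
    -- from the concavity
    have hconc1 : ψ (j + d) ≤ G + (d : ℝ) * (ψ₁ - G) := by
      rcases Nat.lt_or_ge 1 d with hd2 | hd2
      · have h1 := hconc j (j + 1) (j + d) hj.1 (by omega) (by omega) hd
        push_cast at h1
        have e1 : (j : ℝ) + d - (j + 1) = (d : ℝ) - 1 := by ring
        have e2 : (j : ℝ) + 1 - j = 1 := by ring
        have e3 : (j : ℝ) + d - j = d := by ring
        rw [e1, e2, e3] at h1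
        linarith
      · have hd1' : d = 1 := by omega
        subst hd1'
        simp only [Nat.cast_one, one_mul]
        have : ψ (j + 1) = ψ₁ := rfl
        rw [this]
        linarith
    have hy : ψ (j + d) ≤ G + (d : ℝ) * (Real.exp (1 / (k : ℝ)) * G - G) := by
      have h2 : (d : ℝ) * (ψ₁ - G) ≤ (d : ℝ) * (Real.exp (1 / (k : ℝ)) * G - G) :=
        mul_le_mul_of_nonneg_left (by linarith) (Nat.cast_nonneg _)
      linarith
    have hb := sl2_up_bound hk hG0 (hψ _ (by omega) hd) hy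
    have hFeq : F (j + d) = F j * (Real.exp (-(d : ℝ)) * (ψ (j + d) / G) ^ k) := by
      simp only [hF]
      have e1 : ψ (j + d) = (ψ (j + d) / G) * G := by
        field_simp
      conv_lhs => rw [e1, mul_pow]
      have e2 : Real.exp (-((j + d : ℕ) : ℝ)) = Real.exp (-(j : ℝ)) * Real.exp (-(d : ℝ)) := by
        rw [← Real.exp_add]
        congr 1
        push_cast
        ring
      rw [e2]
      ring
    rw [hFeq]
    exact mul_le_mul_of_nonneg_left hb hFj.le
  -- the lower side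
  have hdown : ∀ d : ℕ, a + d ≤ j → F (j - d) ≤ F j * (Real.exp 5 * Real.exp (-(d : ℝ) / (2 * s))) := by
    intro d hd
    rcases Nat.eq_zero_or_pos d with rfl | hd1
    · simp only [Nat.sub_zero, Nat.cast_zero, neg_zero, zero_div, Real.exp_zero, mul_one]
      have h4 : 1 ≤ Real.exp 5 := Real.one_le_exp (by norm_num)
      exact le_mul_of_one_le_right hFj.le h4
    have hj1a : a + 1 ≤ j := by omega
    set ψ₁ := ψ (j - 1) with hψ₁
    have hψ₁0 : 0 < ψ₁ := hψ _ (by omega) (by omega)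
    have hmax1 : ψ₁ ≤ Real.exp (-1 / (k : ℝ)) * G := by
      apply sl2_root hk1 hG0
      have h1 := hjmax (j - 1) (Finset.mem_Icc.2 ⟨by omega, by omega⟩)
      simp only [hF] at h1
      have h3 : Real.exp (-((j - 1 : ℕ) : ℝ)) = Real.exp (-(j : ℝ)) * Real.exp 1 := by
        rw [← Real.exp_add]
        congr 1
        rw [Nat.cast_sub (by omega)]
        push_cast
        ring
      rw [h3] at h1
      have h4 : Real.exp (-1) * Real.exp 1 = 1 := by
        rw [← Real.exp_add]; simp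
      have h5 : Real.exp (-(j : ℝ)) * (Real.exp 1 * ψ₁ ^ k) ≤ Real.exp (-(j : ℝ)) * G ^ k := by
        rw [← mul_assoc]; exact h1
      have h6 := le_of_mul_le_mul_left h5 (Real.exp_pos _)
      calc ψ₁ ^ k = Real.exp (-1) * (Real.exp 1 * ψ₁ ^ k) := by
            rw [← mul_assoc, h4, one_mul]
        _ ≤ Real.exp (-1) * G ^ k := mul_le_mul_of_nonneg_left h6 (Real.exp_pos _).le
    have hconc1 : ψ (j - d) ≤ G - (d : ℝ) * (G - ψ₁) := by
      rcases Nat.lt_or_ge 1 d with hd2 | hd2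
      · have h1 := hconc (j - d) (j - 1) j (by omega) (by omega) (by omega) hj.2
        have e0 : ((j - 1 : ℕ) : ℝ) = (j : ℝ) - 1 := by
          rw [Nat.cast_sub (by omega)]; simp
        have e0' : ((j - d : ℕ) : ℝ) = (j : ℝ) - d := by
          rw [Nat.cast_sub (by omega)]
        rw [e0, e0'] at h1
        have e1 : (j : ℝ) - (j - 1) = 1 := by ring
        have e2 : (j : ℝ) - 1 - (j - d) = (d : ℝ) - 1 := by ring
        have e3 : (j : ℝ) - (j - d) = d := by ring
        rw [e1, e2, e3] at h1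
        linarith
      · have hd1' : d = 1 := by omega
        subst hd1'
        simp only [Nat.cast_one, one_mul]
        linarith
    have hy : ψ (j - d) ≤ G - (d : ℝ) * (G - Real.exp (-1 / (k : ℝ)) * G) := by
      have h2 : (d : ℝ) * (G - Real.exp (-1 / (k : ℝ)) * G) ≤ (d : ℝ) * (G - ψ₁) :=
        mul_le_mul_of_nonneg_left (by linarith) (Nat.cast_nonneg _)
      linarith
    have hb := sl2_down_bound hk hG0 (hψ _ (by omega) (by omega)) hy
    have hFeq : F (j - d) = F j * (Real.exp (d : ℝ) * (ψ (j - d) / G) ^ k) := by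
      simp only [hF]
      have e1 : ψ (j - d) = (ψ (j - d) / G) * G := by
        field_simp
      conv_lhs => rw [e1, mul_pow]
      have e2 : Real.exp (-((j - d : ℕ) : ℝ)) = Real.exp (-(j : ℝ)) * Real.exp (d : ℝ) := by
        rw [← Real.exp_add]
        congr 1
        rw [Nat.cast_sub (by omega)]
        ring
      rw [e2]
      ring
    rw [hFeq]
    exact mul_le_mul_of_nonneg_left hb hFj.le
  -- the sums
  have hFnn : ∀ i ∈ Finset.Icc a c, 0 ≤ F i := by
    intro i hi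
    have hi' := Finset.mem_Icc.1 hi
    have := hψ i hi'.1 hi'.2
    simp only [hF]
    positivity
  have hsplit := sl2_sum_split hj.1 hj.2 hFnn
  have hD : ∑ d ∈ Finset.range (j + 1 - a), F (j - d) ≤ F j * (Real.exp 5 * (2 * s + 1)) := by
    calc ∑ d ∈ Finset.range (j + 1 - a), F (j - d)
        ≤ ∑ d ∈ Finset.range (j + 1 - a), F j * (Real.exp 5 * Real.exp (-(d : ℝ) / (2 * s))) := by
          apply Finset.sum_le_sum
          intro d hd
          have := Finset.mem_range.1 hd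
          exact hdown d (by omega)
      _ = F j * (Real.exp 5 * ∑ d ∈ Finset.range (j + 1 - a), Real.exp (-(d : ℝ) / (2 * s))) := by
          rw [Finset.mul_sum, Finset.mul_sum]
      _ ≤ _ := by
          have := sl2_geom hs0 (j + 1 - a)
          gcongr
  have hU : ∑ d ∈ Finset.range (c + 1 - j), F (j + d) ≤ F j * (Real.exp 4 * (2 * s + 1)) := by
    calc ∑ d ∈ Finset.range (c + 1 - j), F (j + d)
        ≤ ∑ d ∈ Finset.range (c + 1 - j), F j * (Real.exp 4 * Real.exp (-(d : ℝ) / (2 * s))) := by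
          apply Finset.sum_le_sum
          intro d hd
          have := Finset.mem_range.1 hd
          exact hup d (by omega)
      _ = F j * (Real.exp 4 * ∑ d ∈ Finset.range (c + 1 - j), Real.exp (-(d : ℝ) / (2 * s))) := by
          rw [Finset.mul_sum, Finset.mul_sum]
      _ ≤ _ := by
          have := sl2_geom hs0 (c + 1 - j)
          gcongr
  have he1 := Real.exp_one_lt_d9
  have he4 : Real.exp 4 ≤ 55 := by
    have e : Real.exp 4 = Real.exp 1 ^ 4 := by
      rw [← Real.exp_nat_mul]; norm_num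
    rw [e]
    calc Real.exp 1 ^ 4 ≤ (2.7182818286 : ℝ) ^ 4 :=
          pow_le_pow_left₀ (Real.exp_pos _).le he1.le 4
      _ ≤ 55 := by norm_num
  have he5 : Real.exp 5 ≤ 149 := by
    have e : Real.exp 5 = Real.exp 1 ^ 5 := by
      rw [← Real.exp_nat_mul]; norm_num
    rw [e]
    calc Real.exp 1 ^ 5 ≤ (2.7182818286 : ℝ) ^ 5 :=
          pow_le_pow_left₀ (Real.exp_pos _).le he1.le 5
      _ ≤ 149 := by norm_num
  have hfinal : (Real.exp 5 * (2 * s + 1)) + (Real.exp 4 * (2 * s + 1)) ≤ 430 * s := by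
    have h1 : 0 ≤ 2 * s + 1 := by linarith
    have h2 : Real.exp 5 * (2 * s + 1) ≤ 149 * (2 * s + 1) := mul_le_mul_of_nonneg_right he5 h1
    have h3 : Real.exp 4 * (2 * s + 1) ≤ 55 * (2 * s + 1) := mul_le_mul_of_nonneg_right he4 h1
    linarith
  calc ∑ i ∈ Finset.Icc a c, F i ≤ _ := hsplit
    _ ≤ F j * (Real.exp 5 * (2 * s + 1)) + F j * (Real.exp 4 * (2 * s + 1)) := add_le_add hD hU
    _ = F j * ((Real.exp 5 * (2 * s + 1)) + (Real.exp 4 * (2 * s + 1))) := by ring
    _ ≤ F j * (430 * s) := mul_le_mul_of_nonneg_left hfinal hFj.le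
    _ = 430 * s * F j := by ring

end Vale.Agent.Lib.P230
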