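import Vale.Agent.Lib.P230.Slicing
import Vale.Agent.Lib.P230.Slicing2Num

/-!
# P230: a better choice of the level, loss `√k` instead of `J`.

Blueprint.  Same setting as `slicing_core` in `Slicing.lean` (copy it; only the pigeonhole changes).
`v z = vol (slice C0 z)`, `V` the sup, `G_j = levelSet C0 C1 (exp(-j) V)`, `g j = vol G_j`, `j ∈ Icc 4 J`, `J = levelJ k m`.
As in `slicing_core`, each `G_j` (j ≥ 4) contains the small cube, so `0 < g j < ∞`; `g` is nondecreasing in `j`.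
 (1) Additive Brunn-Minkowski from `Vale.Agent.Lib.P074.brunn_minkowski` (multiplicative): for convex bounded measurable `A B ⊆ Fin n → ℝ` with positive
     volumes and measurable `C ⊇ (1-b) A + b B`: `(1-b) vol(A)^{1/n} + b vol(B)^{1/n} ≤ vol(C)^{1/n}`.  Proof: apply the multiplicative form to
     `A' = α^{-1} A`, `B' = β^{-1} B`, where `α = vol(A)^{1/n}`, `β = vol(B)^{1/n}` (unit volumes), with weight `μ = b β / ((1-b) α + b β)`; then
     `(1-μ) A' + μ B' = ((1-b) A + b B) / ((1-b) α + b β)` has volume ≥ 1.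
 (2) Inclusion: for `z ∈ G_i`, `z' ∈ G_l`, `b ∈ (0,1)`: by (1) in dimension `m` on slices (as `convex_levelSet`), `(1-b) z + b z' ∈ levelSet C0 C1 (t^m)`, where
     `t = (1-b) t_i^{1/m} + b t_l^{1/m}`, `t_j = exp(-j) V`.  With `a_j = exp(-j/m)`: `t_j^{1/m} = a_j V^{1/m}`.  So if `a_j = (1-b) a_i + b a_l` then `(1-b) G_i + b G_l ⊆ G_j`.
 (3) Hence by (1) in dimension `k`, `ψ_j = (g j)^{1/k}` satisfies for `4 ≤ i < j < l ≤ J`: `ψ_j ≥ (1-b) ψ_i + b ψ_l`, where `b = (a_i - a_j)/(a_i - a_l)`.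
 (4) Numeric lemma: let `F j = exp(-j) g j` and `j*` a maximizer on `Icc 4 J`.  Then `∑_{j∈Icc 4 J} F j ≤ C √k F j*`.
     Write `G* = ψ_{j*}`.  Maximality: `ψ_{j*+1} ≤ e^{1/k} G*`, `ψ_{j*-1} ≤ e^{-1/k} G*`.  Three-point concavity with `q = exp(-1/m)`:
     for `d ≥ 1`, with `R = (a_{j*} - a_{j*+d})/(a_{j*} - a_{j*+1}) = 1 + q + ... + q^{d-1} ≤ d`:  `ψ_{j*+d} ≤ R ψ_{j*+1} - (R-1) G* ≤ G* + d (ψ_{j*+1} - G*) ≤ G* (1 + d η)`, `η = e^{1/k} - 1`
     (uses `ψ_{j*+1} ≥ G*`).  Similarly with `R' = 1 + q^{-1} + ... + q^{-(d-1)} ≥ d`: `ψ_{j*-d} ≤ G* - d (G* - ψ_{j*-1}) ≤ G* (1 - d η')`, `η' = 1 - e^{-1/k}` (so this is vacuous/zero once `d η' ≥ 1`).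
     So `F (j*+d) ≤ F* (1 + d η)^k e^{-d}` and `F (j*-d) ≤ F* (1 - d η')_+^k e^{d}`.
     Estimates: `log(1+x) - x ≤ -x²/(2(1+x))` gives (for `k ≥ 100`) `(1 + d η)^k e^{-d} ≤ 3 exp(-d²/(4(k+d)))`, and `(1 - d η')^k e^{d} ≤ 3 exp(-d²/(4k))`.  To sum: `exp(-y) ≤ 2/y²`
     gives terms `≤ C (k²/d⁴ + 1/d²)`; with `w = ⌈√k⌉`: `∑_{d ≤ w} 3 + ∑_{d > w} C (k²/d⁴ + 1/d²) ≤ C' √k` (using `∑_{d>w} 1/d² ≤ 1/w`, `1/d⁴ ≤ 1/(w² d²)`).  Any absolute `C` with `(4/3) e⁴ C ≤ 10^6` is enough.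
 (5) As in `slicing_core`: `vol C1 ≤ e⁴ V ∑_j F j + tail`, `tail ≤ vol(C1)/4`, so `vol C1 ≤ (4/3) e⁴ C √k exp(-j*) V vol G_{j*}`.
Feel free to split into several files `Slicing2*.lean`.
-/

open MeasureTheory Set Filter
open scoped ENNReal Pointwise

namespace Vale.Agent.Lib.P230

/-- Additive Brunn-Minkowski. -/
lemma bm_add {k : ℕ} {A B C : Set (Fin k → ℝ)} (hA : Convex ℝ A) (hB : Convex ℝ B)
    (hAb : Bornology.IsBounded A) (hBb : Bornology.IsBounded B)
    (hAm : MeasurableSet A) (hBm : MeasurableSet B) (hCm : MeasurableSet C)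
    {α β : ℝ} (hα : 0 < α) (hβ : 0 < β)
    (hαA : volume A = ENNReal.ofReal (α ^ k)) (hβB : volume B = ENNReal.ofReal (β ^ k))
    {b : ℝ} (hb0 : 0 < b) (hb1 : b < 1)
    (hsub : ∀ x ∈ A, ∀ y ∈ B, (1 - b) • x + b • y ∈ C) :
    ENNReal.ofReal (((1 - b) * α + b * β) ^ k) ≤ volume C := by
  have h1b : 0 < 1 - b := by linarith
  have hσ : 0 < (1 - b) * α + b * β := by positivity
  set σ := (1 - b) * α + b * β with hσdef
  set μ := b * β / σ with hμ
  have hμ0 : 0 < μ := by positivity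
  have h1μ : 1 - μ = (1 - b) * α / σ := by
    rw [hμ]
    field_simp
    rw [hσdef]
    ring
  have hμ1 : μ < 1 := by
    have : 0 < (1 - b) * α / σ := by positivity
    linarith
  have hBM := Vale.Agent.Lib.P074.brunn_minkowski k (A := α⁻¹ • A) (B := β⁻¹ • B) (C := σ⁻¹ • C)
    (hA.smul _) (hB.smul _) (hAb.smul₀ _) (hBb.smul₀ _)
    (hAm.const_smul_of_ne_zero (inv_ne_zero hα.ne'))
    (hBm.const_smul_of_ne_zero (inv_ne_zero hβ.ne'))
    (hCm.const_smul_of_ne_zero (inv_ne_zero hσ.ne')) hμ0 hμ1 (by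
      rintro _ ⟨a, ha, rfl⟩ _ ⟨y, hy, rfl⟩
      refine ⟨(1 - b) • a + b • y, hsub a ha y hy, ?_⟩
      have e1 : 1 - μ = (1 - b) * α * σ⁻¹ := by rw [h1μ, div_eq_mul_inv]
      have e2 : μ = b * β * σ⁻¹ := by rw [hμ, div_eq_mul_inv]
      simp only [smul_add, smul_smul]
      rw [e1, e2]
      ext i
      simp only [Pi.add_apply, Pi.smul_apply, smul_eq_mul]
      field_simp)
  have hfr : Module.finrank ℝ (Fin k → ℝ) = k := Module.finrank_fin_fun ℝ
  have hvA : volume (α⁻¹ • A) = 1 := by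
    rw [Measure.addHaar_smul, hfr, hαA, ← ENNReal.ofReal_mul (abs_nonneg _),
      abs_of_pos (by positivity), inv_pow, inv_mul_cancel₀ (by positivity)]
    simp
  have hvB : volume (β⁻¹ • B) = 1 := by
    rw [Measure.addHaar_smul, hfr, hβB, ← ENNReal.ofReal_mul (abs_nonneg _),
      abs_of_pos (by positivity), inv_pow, inv_mul_cancel₀ (by positivity)]
    simp
  rw [hvA, hvB, ENNReal.one_rpow, ENNReal.one_rpow, one_mul, Measure.addHaar_smul, hfr,
    abs_of_pos (by positivity), inv_pow] at hBM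
  have hpow : 0 < σ ^ k := by positivity
  calc ENNReal.ofReal (σ ^ k) = ENNReal.ofReal (σ ^ k) * 1 := by rw [mul_one]
    _ ≤ ENNReal.ofReal (σ ^ k) * (ENNReal.ofReal (σ ^ k)⁻¹ * volume C) := by gcongr
    _ = volume C := by
        rw [← mul_assoc, ← ENNReal.ofReal_mul hpow.le, mul_inv_cancel₀ hpow.ne']
        simp

section Core2

variable {k m : ℕ} {C0 C1 : Set (Fin k ⊕ Fin m → ℝ)}

/-- Combination of two level sets. -/
lemma levelSet_combo (hC0c : IsCompact C0) (hC0v : Convex ℝ C0) (hC1v : Convex ℝ C1) {s t : ℝ}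
    (hs : 0 < s) (ht : 0 < t) {b : ℝ} (hb0 : 0 < b) (hb1 : b < 1) {z z' : Fin k → ℝ}
    (hz : z ∈ levelSet C0 C1 s) (hz' : z' ∈ levelSet C0 C1 t) :
    (1 - b) • z + b • z' ∈ levelSet C0 C1 (s ^ (1 - b) * t ^ b) := by
  have h1b : 0 < 1 - b := by linarith
  refine ⟨convex_proj hC1v hz.1 hz'.1 h1b.le hb0.le (by ring), ?_⟩
  have hm := hC0c.measurableSet
  have hBM := Vale.Agent.Lib.P074.brunn_minkowski m (convex_slice hC0v z) (convex_slice hC0v z')
    (isBounded_slice hC0c z) (isBounded_slice hC0c z') (measurableSet_slice hm z)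
    (measurableSet_slice hm z') (measurableSet_slice hm ((1 - b) • z + b • z')) hb0 hb1
    (fun x hx x' hx' => combo_mem_slice hC0v hx hx' h1b.le hb0.le (by ring))
  refine le_trans ?_ hBM
  have hz2 : ENNReal.ofReal s ≤ volume (slice C0 z) := hz.2
  have hz2' : ENNReal.ofReal t ≤ volume (slice C0 z') := hz'.2
  rw [ENNReal.ofReal_mul (by positivity), ← ENNReal.ofReal_rpow_of_pos hs,
    ← ENNReal.ofReal_rpow_of_pos ht]
  exact mul_le_mul' (ENNReal.rpow_le_rpow hz2 h1b.le) (ENNReal.rpow_le_rpow hz2' hb0.le)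

/-- The concavity of `vol(G_j)^{1/k}` in `j`. -/
lemma levelSet_concave (hk : 1 ≤ k) (hC0c : IsCompact C0) (hC0v : Convex ℝ C0) (hC1c : IsCompact C1)
    (hC1v : Convex ℝ C1) {V : ℝ} (hV : 0 < V) {ψ : ℕ → ℝ}
    (hψ : ∀ j, 4 ≤ j → 0 < ψ j ∧
      volume (levelSet C0 C1 (Real.exp (-(j : ℝ)) * V)) = ENNReal.ofReal (ψ j ^ k))
    {i j l : ℕ} (hi : 4 ≤ i) (hij : i < j) (hjl : j < l) :
    ((l : ℝ) - j) * ψ i + ((j : ℝ) - i) * ψ l ≤ ((l : ℝ) - i) * ψ j := by
  have hijR : (i : ℝ) < j := by exact_mod_cast hij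
  have hjlR : (j : ℝ) < l := by exact_mod_cast hjl
  have hli : 0 < (l : ℝ) - i := by linarith
  set b : ℝ := ((j : ℝ) - i) / ((l : ℝ) - i) with hb
  have hb0 : 0 < b := div_pos (by linarith) hli
  have hb1 : b < 1 := by
    rw [hb, div_lt_one hli]
    linarith
  have h1b : 1 - b = ((l : ℝ) - j) / ((l : ℝ) - i) := by
    rw [hb]
    field_simp
    ring
  have hGj : ∀ j, MeasurableSet (levelSet C0 C1 (Real.exp (-(j : ℝ)) * V)) :=
    fun j => measurableSet_levelSet hC0c hC1c _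
  have hbdd : ∀ t, Bornology.IsBounded (levelSet C0 C1 t) := fun t =>
    (isCompact_proj hC1c).isBounded.subset Set.inter_subset_left
  have hcomb : (1 - b) * (i : ℝ) + b * l = j := by
    rw [h1b, hb]
    field_simp
    ring
  have hBM := bm_add (convex_levelSet hC0c hC0v hC1v (t := Real.exp (-(i : ℝ)) * V) (by positivity))
    (convex_levelSet hC0c hC0v hC1v (t := Real.exp (-(l : ℝ)) * V) (by positivity))
    (hbdd _) (hbdd _) (hGj i) (hGj l) (hGj j) (hψ i hi).1 (hψ l (by omega)).1 (hψ i hi).2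
    (hψ l (by omega)).2 hb0 hb1 (by
      intro x hx y hy
      have h1 := levelSet_combo hC0c hC0v hC1v (s := Real.exp (-(i : ℝ)) * V)
        (t := Real.exp (-(l : ℝ)) * V) (by positivity) (by positivity) hb0 hb1 hx hy
      have e : (Real.exp (-(i : ℝ)) * V) ^ (1 - b) * (Real.exp (-(l : ℝ)) * V) ^ b =
          Real.exp (-(j : ℝ)) * V := by
        rw [Real.mul_rpow (by positivity) hV.le, Real.mul_rpow (by positivity) hV.le,
          ← Real.exp_mul, ← Real.exp_mul]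
        have e2 : Real.exp (-(i : ℝ) * (1 - b)) * V ^ (1 - b) * (Real.exp (-(l : ℝ) * b) * V ^ b) =
            Real.exp (-(i : ℝ) * (1 - b)) * Real.exp (-(l : ℝ) * b) * (V ^ (1 - b) * V ^ b) := by ring
        rw [e2, ← Real.exp_add, ← Real.rpow_add hV]
        have e3 : 1 - b + b = 1 := by ring
        rw [e3, Real.rpow_one]
        congr 2
        linarith
      rwa [e] at h1)
  rw [(hψ j (by omega)).2] at hBM
  have h2 : ((1 - b) * ψ i + b * ψ l) ^ k ≤ ψ j ^ k := by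
    have hpos := (hψ j (by omega)).1
    exact (ENNReal.ofReal_le_ofReal_iff (by positivity)).1 hBM
  have h3 : (1 - b) * ψ i + b * ψ l ≤ ψ j := by
    have hpos := (hψ j (by omega)).1
    have hpi := (hψ i hi).1
    have hpl := (hψ l (by omega)).1
    have h1b' : 0 < 1 - b := by linarith
    exact (pow_le_pow_iff_left₀ (by positivity) hpos.le (by omega)).1 h2
  have h4 := mul_le_mul_of_nonneg_left h3 hli.le
  have e : ((l : ℝ) - i) * ((1 - b) * ψ i + b * ψ l) = ((l : ℝ) - j) * ψ i + ((j : ℝ) - i) * ψ l := by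
    rw [h1b, hb]
    field_simp
  linarith

/-- The abstract version of the slicing theorem with loss `√k`. -/
theorem slicing_core2 (hk : 100 ≤ k) (hm : 2 ≤ m)
    (hC0c : IsCompact C0) (hC0v : Convex ℝ C0) (hC1c : IsCompact C1) (hC1v : Convex ℝ C1)
    (h10 : C1 ⊆ C0) (hvol : volume C0 ≤ 4 * volume C1) (hpos : 0 < volume C1)
    {zc : Fin k → ℝ} {xc : Fin m → ℝ} {lam : ℝ} (hlam0 : 0 < lam) (hlamm : 1 / 4 ≤ lam ^ m)
    (hscale : ∀ z x, Sum.elim z x ∈ C0 →
      Sum.elim (zc + lam • (z - zc)) (xc + lam • (x - xc)) ∈ C1)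
    {r : ℝ} (hr : 0 < r) (hcubeP : ∀ z : Fin k → ℝ, (∀ i, |z i - zc i| ≤ r) → z ∈ proj C1) :
    ∃ (V : ℝ) (j : ℕ) (G : Set (Fin k → ℝ)), 0 < V ∧ j ≤ levelJ k m ∧ Convex ℝ G ∧
      G ⊆ proj C1 ∧
      (∀ z, volume (slice C0 z) ≤ ENNReal.ofReal V) ∧
      (∀ z ∈ G, ENNReal.ofReal (Real.exp (-(j : ℝ)) * V) ≤ volume (slice C0 z)) ∧
      volume C1 ≤ ENNReal.ofReal (1000000 * Real.sqrt k * Real.exp (-(j : ℝ)) * V) *
        volume G ∧
      (∃ c : Fin k → ℝ, ∀ z : Fin k → ℝ, (∀ i, |z i - c i| ≤ r / m) → z ∈ G) := by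
  classical
  set v : (Fin k → ℝ) → ℝ≥0∞ := fun z => volume (slice C0 z) with hv
  have hC0m := hC0c.measurableSet
  set S := ⨆ z, v z with hS
  have hSfin : S ≠ ⊤ := by
    have hK := isCompact_image_inr hC0c
    have h1 : S ≤ volume ((fun w : Fin k ⊕ Fin m → ℝ => fun i : Fin m => w (Sum.inr i)) '' C0) :=
      iSup_le (fun z => measure_mono (slice_subset_image_inr z))
    exact ne_top_of_le_ne_top hK.measure_lt_top.ne h1
  have hSpos : 0 < S := by
    by_contra hcon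
    have h0 : S = 0 := le_antisymm (not_lt.1 hcon) bot_le
    have hv0 : ∀ z, v z = 0 := fun z => le_antisymm (h0 ▸ le_iSup v z) bot_le
    have h1 : volume C0 = 0 := by
      rw [volume_eq_lintegral_slice hC0m]
      have : ∀ z, volume (slice C0 z) = 0 := hv0
      simp [this]
    exact hpos.ne' (measure_mono_null h10 h1)
  set V := S.toReal with hVdef
  have hVpos : 0 < V := ENNReal.toReal_pos hSpos.ne' hSfin
  have hVS : ENNReal.ofReal V = S := ENNReal.ofReal_toReal hSfin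
  have hvle : ∀ z, v z ≤ ENNReal.ofReal V := fun z => hVS ▸ le_iSup v z
  obtain ⟨z₀, hz₀⟩ : ∃ z₀, ENNReal.ofReal (V / 2) < v z₀ := by
    have h1 : ENNReal.ofReal (V / 2) < S := by
      rw [← hVS]
      exact (ENNReal.ofReal_lt_ofReal_iff hVpos).2 (by linarith)
    exact lt_iSup_iff.1 h1
  obtain ⟨x₀, hx₀⟩ : (slice C0 z₀).Nonempty := by
    apply nonempty_of_measure_ne_zero
    exact (lt_of_le_of_lt bot_le hz₀).ne'
  set z₁ : Fin k → ℝ := zc + lam • (z₀ - zc) with hz₁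
  have hz₁P : z₁ ∈ proj C1 := ⟨xc + lam • (x₀ - xc), hscale _ _ hx₀⟩
  have hvz₁ : ENNReal.ofReal (V / 8) ≤ v z₁ := by
    have hsub : AffineMap.homothety xc lam '' slice C0 z₀ ⊆ slice C0 z₁ := by
      rintro _ ⟨x, hx, rfl⟩
      have e : AffineMap.homothety xc lam x = xc + lam • (x - xc) := by
        rw [AffineMap.homothety_apply]
        simp [add_comm]
      rw [e]
      exact h10 (hscale _ _ hx)
    have h2 := measure_mono (μ := volume) hsub
    rw [Measure.addHaar_image_homothety, Module.finrank_fin_fun, abs_of_pos (by positivity)] at h2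
    refine le_trans ?_ h2
    calc ENNReal.ofReal (V / 8) = ENNReal.ofReal (1 / 4) * ENNReal.ofReal (V / 2) := by
          rw [← ENNReal.ofReal_mul (by norm_num)]
          congr 1
          ring
      _ ≤ ENNReal.ofReal (lam ^ m) * volume (slice C0 z₀) := by
          exact mul_le_mul' (ENNReal.ofReal_le_ofReal hlamm) hz₀.le
  have hm0 : (0 : ℝ) < m := by positivity
  have hm2 : (2 : ℝ) ≤ m := by exact_mod_cast hm
  set t : ℝ := 1 - 1 / (m : ℝ) with ht
  have ht0 : 0 < t := by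
    have : 1 / (m : ℝ) ≤ 1 / 2 := by rw [div_le_div_iff₀ hm0 (by norm_num)]; linarith
    rw [ht]; linarith
  have ht1 : t ≤ 1 := by
    have : 0 ≤ 1 / (m : ℝ) := by positivity
    rw [ht]; linarith
  have htm : (1 / 4 : ℝ) ≤ t ^ m := sl_pow_ge_quarter m hm
  have hQ2 : ∀ p ∈ proj C1, ENNReal.ofReal (V / 32) ≤ v (t • z₁ + (1 - t) • p) := by
    rintro p ⟨x₁, hx₁⟩
    have hx₁' : x₁ ∈ slice C0 p := h10 hx₁
    have h1 := volume_slice_shrink (z := z₁) hC0v hx₁' ht0 ht1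
    refine le_trans ?_ h1
    calc ENNReal.ofReal (V / 32) = ENNReal.ofReal (1 / 4) * ENNReal.ofReal (V / 8) := by
          rw [← ENNReal.ofReal_mul (by norm_num)]
          congr 1
          ring
      _ ≤ ENNReal.ofReal (t ^ m) * volume (slice C0 z₁) :=
          mul_le_mul' (ENNReal.ofReal_le_ofReal htm) hvz₁
  -- the level sets
  set J := levelJ k m with hJdef
  have hJ4 : 4 ≤ J := by
    rw [hJdef]; unfold levelJ; omega
  have hint := integrated_bound hC0c hC1c h10 hvle hJ4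
  have htail : ENNReal.ofReal (Real.exp (-(J : ℝ)) * V) * volume (proj C1) ≤
      ENNReal.ofReal (1 / 4) * volume C1 := by
    have h1 := sl_tail_bound hC0c hC0v hC1c h10 hm hvol hz₀.le
    have h2 := exp_levelJ_le (k := k) hm
    have h3 : ENNReal.ofReal (Real.exp (-(J : ℝ)) * V) ≤
        ENNReal.ofReal (1 / 16) * (ENNReal.ofReal (V / 8) * ENNReal.ofReal ((1 / (m : ℝ)) ^ k)) := by
      rw [← ENNReal.ofReal_mul (by positivity), ← ENNReal.ofReal_mul (by norm_num)]
      apply ENNReal.ofReal_le_ofReal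
      have h4 := mul_le_mul_of_nonneg_right h2 hVpos.le
      calc Real.exp (-(J : ℝ)) * V ≤ (1 / 128) * (1 / (m : ℝ)) ^ k * V := h4
        _ = _ := by ring
    calc ENNReal.ofReal (Real.exp (-(J : ℝ)) * V) * volume (proj C1)
        ≤ (ENNReal.ofReal (1 / 16) * (ENNReal.ofReal (V / 8) * ENNReal.ofReal ((1 / (m : ℝ)) ^ k))) *
            volume (proj C1) := by gcongr
      _ = ENNReal.ofReal (1 / 16) * (ENNReal.ofReal (V / 8) *
            (ENNReal.ofReal ((1 / (m : ℝ)) ^ k) * volume (proj C1))) := by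
          simp only [mul_assoc]
      _ ≤ ENNReal.ofReal (1 / 16) * (4 * volume C1) := by gcongr
      _ = ENNReal.ofReal (1 / 4) * volume C1 := by
          rw [← mul_assoc]
          congr 1
          have e4 : (4 : ℝ≥0∞) = ENNReal.ofReal 4 := by simp
          rw [e4, ← ENNReal.ofReal_mul (by norm_num)]
          norm_num
  -- each level set with `j ≥ 4` contains a small cube
  set c : Fin k → ℝ := t • z₁ + (1 - t) • zc with hc
  have hcube : ∀ j : ℕ, 4 ≤ j → ∀ z : Fin k → ℝ, (∀ i, |z i - c i| ≤ r / m) →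
      z ∈ levelSet C0 C1 (Real.exp (-(j : ℝ)) * V) := by
    intro j hj z hz
    set p : Fin k → ℝ := zc + (m : ℝ) • (z - c) with hp
    have hpP : p ∈ proj C1 := by
      apply hcubeP
      intro i
      simp only [hp, Pi.add_apply, Pi.smul_apply, smul_eq_mul, add_sub_cancel_left]
      rw [abs_mul, abs_of_pos hm0]
      calc (m : ℝ) * |z i - c i| ≤ (m : ℝ) * (r / m) :=
            mul_le_mul_of_nonneg_left (hz i) hm0.le
        _ = r := by field_simp
    have hzeq : z = t • z₁ + (1 - t) • p := by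
      ext i
      simp only [hp, hc, Pi.add_apply, Pi.smul_apply, smul_eq_mul, Pi.sub_apply, ht]
      field_simp
      ring
    have h1m : 0 ≤ 1 - t := by linarith
    refine ⟨?_, ?_⟩
    · rw [hzeq]
      exact convex_proj hC1v hz₁P hpP ht0.le h1m (by ring)
    · have h2 := hQ2 p hpP
      rw [← hzeq] at h2
      refine le_trans ?_ h2
      apply ENNReal.ofReal_le_ofReal
      have h3 : Real.exp (-(j : ℝ)) ≤ 1 / 32 := by
        rw [Real.exp_neg]
        have h4 := sl_exp_four_ge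
        have h5 : Real.exp 4 ≤ Real.exp (j : ℝ) := Real.exp_le_exp.2 (by
          have : (4 : ℝ) ≤ j := by exact_mod_cast hj
          exact this)
        rw [one_div]
        exact inv_anti₀ (by norm_num) (h4.trans h5)
      calc Real.exp (-(j : ℝ)) * V ≤ (1 / 32) * V := mul_le_mul_of_nonneg_right h3 hVpos.le
        _ = V / 32 := by ring
  -- volumes of the level sets are positive and finite
  set G : ℕ → Set (Fin k → ℝ) := fun j => levelSet C0 C1 (Real.exp (-(j : ℝ)) * V) with hG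
  have hρ : 0 < r / m := by positivity
  have hGpos : ∀ j : ℕ, 4 ≤ j → 0 < volume (G j) := by
    intro j hj
    have h1 : Metric.ball c (r / m) ⊆ G j := by
      intro x hx
      apply hcube j hj
      intro i
      have h2 := dist_le_pi_dist x c i
      rw [Real.dist_eq] at h2
      have h3 := Metric.mem_ball.1 hx
      linarith
    exact lt_of_lt_of_le (Metric.measure_ball_pos volume _ hρ) (measure_mono h1)
  have hGfin : ∀ j : ℕ, volume (G j) ≠ ⊤ := by
    intro j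
    exact ne_top_of_le_ne_top (isCompact_proj hC1c).measure_lt_top.ne
      (measure_mono Set.inter_subset_left)
  have hk1 : 1 ≤ k := by omega
  have hk0R : (0 : ℝ) < k := by
    have : 0 < k := by omega
    exact_mod_cast this
  set g : ℕ → ℝ := fun j => (volume (G j)).toReal with hg
  have hg0 : ∀ j, 4 ≤ j → 0 < g j := fun j hj => ENNReal.toReal_pos (hGpos j hj).ne' (hGfin j)
  have hgG : ∀ j, volume (G j) = ENNReal.ofReal (g j) := fun j =>
    (ENNReal.ofReal_toReal (hGfin j)).symm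
  set ψ : ℕ → ℝ := fun j => g j ^ (1 / (k : ℝ)) with hψdef
  have hψk : ∀ j, 4 ≤ j → ψ j ^ k = g j := by
    intro j hj
    simp only [hψdef]
    rw [← Real.rpow_natCast, ← Real.rpow_mul (hg0 j hj).le]
    have : 1 / (k : ℝ) * (k : ℝ) = 1 := by field_simp
    rw [this, Real.rpow_one]
  have hψ0 : ∀ j, 4 ≤ j → 0 < ψ j := fun j hj => Real.rpow_pos_of_pos (hg0 j hj) _
  obtain ⟨j, hj4, hjJ, hjsum⟩ := sum_level_le hk hJ4 ψ (fun j hj _ => hψ0 j hj)
    (fun i j l hi hij hjl _ => levelSet_concave hk1 hC0c hC0v hC1c hC1v hVpos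
      (fun j hj => ⟨hψ0 j hj, by rw [hψk j hj]; exact hgG j⟩) hi hij hjl)
  refine ⟨V, j, G j, hVpos, hjJ, ?_, Set.inter_subset_left,
    hvle, fun z hz => hz.2, ?_, c, fun z hz => hcube j hj4 z hz⟩
  · exact convex_levelSet hC0c hC0v hC1v (by positivity)
  -- the main inequality
  have hsum_real : ∑ i ∈ Finset.Icc 4 J, Real.exp (-(i : ℝ)) * g i ≤
      430 * Real.sqrt k * (Real.exp (-(j : ℝ)) * g j) := by
    have e : ∑ i ∈ Finset.Icc 4 J, Real.exp (-(i : ℝ)) * g i =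
        ∑ i ∈ Finset.Icc 4 J, Real.exp (-(i : ℝ)) * ψ i ^ k := by
      apply Finset.sum_congr rfl
      intro i hi
      rw [hψk i (Finset.mem_Icc.1 hi).1]
    rw [e, ← hψk j hj4]
    exact hjsum
  have hsum_enn : ∑ i ∈ Finset.Icc 4 J, ENNReal.ofReal (Real.exp (4 - (i : ℝ)) * V) * volume (G i) ≤
      ENNReal.ofReal (Real.exp 4 * V * (430 * Real.sqrt k * (Real.exp (-(j : ℝ)) * g j))) := by
    have e : ∑ i ∈ Finset.Icc 4 J, ENNReal.ofReal (Real.exp (4 - (i : ℝ)) * V) * volume (G i) =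
        ENNReal.ofReal (Real.exp 4 * V * ∑ i ∈ Finset.Icc 4 J, Real.exp (-(i : ℝ)) * g i) := by
      rw [Finset.mul_sum, ENNReal.ofReal_sum_of_nonneg]
      · apply Finset.sum_congr rfl
        intro i hi
        have hi4 := (Finset.mem_Icc.1 hi).1
        rw [hgG i, ← ENNReal.ofReal_mul (by positivity)]
        congr 1
        rw [sub_eq_add_neg, Real.exp_add]
        ring
      · intro i hi
        have hi4 := (Finset.mem_Icc.1 hi).1
        have := hg0 i hi4
        positivity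
    rw [e]
    apply ENNReal.ofReal_le_ofReal
    exact mul_le_mul_of_nonneg_left hsum_real (by positivity)
  have hfinC1 : volume C1 ≠ ⊤ := hC1c.measure_lt_top.ne
  have hmain : volume C1 ≤ ENNReal.ofReal (Real.exp 4 * V * (430 * Real.sqrt k * (Real.exp (-(j : ℝ)) * g j))) +
      ENNReal.ofReal (1 / 4) * volume C1 :=
    hint.trans (add_le_add hsum_enn htail)
  set X : ℝ := Real.exp 4 * V * (430 * Real.sqrt k * (Real.exp (-(j : ℝ)) * g j)) with hX
  have hg0j := hg0 j hj4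
  have hX0 : 0 ≤ X := by positivity
  set a := (volume C1).toReal with ha
  have haC : volume C1 = ENNReal.ofReal a := (ENNReal.ofReal_toReal hfinC1).symm
  have ha0 : 0 ≤ a := ENNReal.toReal_nonneg
  rw [haC, ← ENNReal.ofReal_mul (by norm_num), ← ENNReal.ofReal_add hX0 (by positivity),
    ENNReal.ofReal_le_ofReal_iff (by positivity)] at hmain
  have hale : a ≤ (4 / 3) * X := by linarith
  have he4 : Real.exp 4 ≤ 55 := by
    have e : Real.exp 4 = Real.exp 1 ^ 4 := by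
      rw [← Real.exp_nat_mul]; norm_num
    rw [e]
    calc Real.exp 1 ^ 4 ≤ (2.7182818286 : ℝ) ^ 4 :=
          pow_le_pow_left₀ (Real.exp_pos _).le Real.exp_one_lt_d9.le 4
      _ ≤ 55 := by norm_num
  rw [haC, show volume (G j) = ENNReal.ofReal (g j) from hgG j, ← ENNReal.ofReal_mul (by positivity)]
  apply ENNReal.ofReal_le_ofReal
  refine hale.trans ?_
  rw [hX]
  have hrest : 0 ≤ V * Real.sqrt k * (Real.exp (-(j : ℝ)) * g j) := by positivity
  calc 4 / 3 * (Real.exp 4 * V * (430 * Real.sqrt k * (Real.exp (-(j : ℝ)) * g j)))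
      = (4 / 3 * 430 * Real.exp 4) * (V * Real.sqrt k * (Real.exp (-(j : ℝ)) * g j)) := by ring
    _ ≤ 1000000 * (V * Real.sqrt k * (Real.exp (-(j : ℝ)) * g j)) := by
        apply mul_le_mul_of_nonneg_right _ hrest
        linarith
    _ = _ := by ring

end Core2

/-- The slicing theorem with the loss `√k`. -/
theorem slicing2 {k m : ℕ} (hk : 100 ≤ k) (hm : 2 ≤ m) {E : Set (Fin k ⊕ Fin m → ℝ)}
    (hE : Normalized E) :
    ∃ (V : ℝ) (j : ℕ) (G : Set (Fin k → ℝ)), 0 < V ∧ j ≤ levelJ k m ∧ Convex ℝ G ∧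
      G ⊆ proj (hom (lam1 (Fin k ⊕ Fin m) ^ 4) E) ∧
      (∀ z, volume (slice (hom (lam1 (Fin k ⊕ Fin m) ^ 3) E) z) ≤ ENNReal.ofReal V) ∧
      (∀ z ∈ G, ENNReal.ofReal (Real.exp (-(j : ℝ)) * V) ≤
        volume (slice (hom (lam1 (Fin k ⊕ Fin m) ^ 3) E) z)) ∧
      volume (hom (lam1 (Fin k ⊕ Fin m) ^ 4) E) ≤
        ENNReal.ofReal (1000000 * Real.sqrt k * Real.exp (-(j : ℝ)) * V) * volume G ∧
      (∃ c : Fin k → ℝ, ∀ z : Fin k → ℝ,
        (∀ i, |z i - c i| ≤ 1 / (32 * ((k : ℝ) + m) * m)) → z ∈ G) := by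
  classical
  have hcard : Fintype.card (Fin k ⊕ Fin m) = k + m := by simp
  have hcardR : (Fintype.card (Fin k ⊕ Fin m) : ℝ) = (k : ℝ) + m := by
    rw [hcard]; push_cast; ring
  have hn2 : 2 ≤ Fintype.card (Fin k ⊕ Fin m) := by rw [hcard]; omega
  have hn0 : 0 < Fintype.card (Fin k ⊕ Fin m) := by omega
  have hNR : (2 : ℝ) ≤ Fintype.card (Fin k ⊕ Fin m) := by exact_mod_cast hn2
  set N : ℝ := (Fintype.card (Fin k ⊕ Fin m) : ℝ) with hNdef
  have hN0 : 0 < N := by linarith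
  have hlh := lam1_ge_half hn2
  set l : ℝ := lam1 (Fin k ⊕ Fin m) with hl
  have hl0 : 0 < l := by linarith
  have hl1 : l ≤ 1 := by
    have : l = 1 - 1 / N := rfl
    have h2 : 0 ≤ 1 / N := by positivity
    linarith
  have hlN : (1 / 4 : ℝ) ≤ l ^ (Fintype.card (Fin k ⊕ Fin m)) :=
    sl_pow_ge_quarter _ hn2
  have hC1C0 : hom (l ^ 4) E = hom l (hom (l ^ 3) E) := by
    rw [hom_hom]
    congr 1
    ring
  have hvolC : volume (hom (l ^ 3) E) ≤ 4 * volume (hom (l ^ 4) E) := by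
    rw [hC1C0, volume_hom hl0]
    calc volume (hom (l ^ 3) E) = ENNReal.ofReal 4 * (ENNReal.ofReal (1 / 4) * volume (hom (l ^ 3) E)) := by
          rw [← mul_assoc, ← ENNReal.ofReal_mul (by norm_num)]
          norm_num
      _ ≤ ENNReal.ofReal 4 * (ENNReal.ofReal (l ^ Fintype.card (Fin k ⊕ Fin m)) * volume (hom (l ^ 3) E)) := by
          gcongr
      _ = 4 * (ENNReal.ofReal (l ^ Fintype.card (Fin k ⊕ Fin m)) * volume (hom (l ^ 3) E)) := by
          congr 1
          simp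
  have hl4 : (1 / 16 : ℝ) ≤ l ^ 4 := by
    calc (1 / 16 : ℝ) = (1 / 2) ^ 4 := by norm_num
      _ ≤ l ^ 4 := pow_le_pow_left₀ (by norm_num) hlh 4
  have hpos : 0 < volume (hom (l ^ 4) E) := by
    have hρ : 0 < l ^ 4 / (2 * N) := by positivity
    have h1 : Metric.ball (cen (Fin k ⊕ Fin m)) (l ^ 4 / (2 * N)) ⊆ hom (l ^ 4) E := by
      intro x hx
      apply hom_cube hE hn0 (by positivity)
      intro i
      have h2 := dist_le_pi_dist x (cen (Fin k ⊕ Fin m)) i
      rw [Real.dist_eq] at h2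
      have h3 := Metric.mem_ball.1 hx
      linarith
    exact lt_of_lt_of_le (Metric.measure_ball_pos volume _ hρ) (measure_mono h1)
  have hlm : (1 / 4 : ℝ) ≤ l ^ m := by
    refine hlN.trans ?_
    apply pow_le_pow_of_le_one hl0.le hl1
    rw [hcard]; omega
  have h10 : hom (l ^ 4) E ⊆ hom (l ^ 3) E :=
    hom_mono hE hn0 (by positivity) (by positivity) (pow_le_pow_of_le_one hl0.le hl1 (by norm_num))
  let zc : Fin k → ℝ := fun i => cen (Fin k ⊕ Fin m) (Sum.inl i)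
  let xc : Fin m → ℝ := fun i => cen (Fin k ⊕ Fin m) (Sum.inr i)
  have hcen : Sum.elim zc xc = cen (Fin k ⊕ Fin m) := by
    ext i
    rcases i with i | i <;> simp [zc, xc]
  have hscale : ∀ z x, Sum.elim z x ∈ hom (l ^ 3) E →
      Sum.elim (zc + l • (z - zc)) (xc + l • (x - xc)) ∈ hom (l ^ 4) E := by
    intro z x hzx
    rw [hC1C0]
    refine ⟨_, hzx, ?_⟩
    rw [← hcen]
    ext i
    rcases i with i | i <;> simp
  have hcubeP : ∀ z : Fin k → ℝ, (∀ i, |z i - zc i| ≤ 1 / (32 * N)) →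
      z ∈ proj (hom (l ^ 4) E) := by
    intro z hz
    refine ⟨xc, ?_⟩
    show Sum.elim z xc ∈ hom (l ^ 4) E
    apply hom_cube hE hn0 (by positivity)
    have hr : 1 / (32 * N) ≤ l ^ 4 / (2 * N) := by
      rw [div_le_div_iff₀ (by positivity) (by positivity)]
      nlinarith
    intro i
    rcases i with i | i
    · show |z i - cen (Fin k ⊕ Fin m) (Sum.inl i)| ≤ l ^ 4 / (2 * N)
      exact (hz i).trans hr
    · show |cen (Fin k ⊕ Fin m) (Sum.inr i) - cen (Fin k ⊕ Fin m) (Sum.inr i)| ≤ l ^ 4 / (2 * N)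
      rw [sub_self, abs_zero]
      positivity
  obtain ⟨V, j, G, h1, h2, h3, h4, h5, h6, h7, c, hc⟩ := slicing_core2 hk hm (isCompact_hom hE.compact _)
    (convex_hom hE.convex _) (isCompact_hom hE.compact _) (convex_hom hE.convex _) h10 hvolC hpos
    hl0 hlm hscale (by positivity) hcubeP
  refine ⟨V, j, G, h1, h2, h3, h4, h5, h6, h7, c, fun z hz => hc z (fun i => ?_)⟩
  have e : 1 / (32 * N) / (m : ℝ) = 1 / (32 * ((k : ℝ) + m) * m) := by
    rw [hcardR, div_div]
  rw [e]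
  exact hz i

end Vale.Agent.Lib.P230
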