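import Vale.Agent.Lib.P230.Defs
import Vale.Agent.Lib.P230.Energy
import Vale.Agent.Lib.P074.Part1

/-! Auxiliary lemmas for the slicing module: shrinking convex sets with a large cube, homotheties,
slices and Fubini. -/

open MeasureTheory Set
open scoped ENNReal

namespace Vale.Agent.Lib.P230

/-! ### Numerics -/

lemma sl_pow_ge_quarter (n : ℕ) (hn : 2 ≤ n) : (1 / 4 : ℝ) ≤ (1 - 1 / (n : ℝ)) ^ n := by
  have hn0 : (0 : ℝ) < n := by positivity
  have hn2 : (2 : ℝ) ≤ n := by exact_mod_cast hn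
  have hmain : ∀ q : ℕ, 2 * q ≤ n → (1 - (q : ℝ) / n) ≤ (1 - 1 / (n : ℝ)) ^ q := by
    intro q hq
    have h1 := one_add_mul_le_pow (a := -(1 / (n : ℝ))) (by
      have : 1 / (n : ℝ) ≤ 1 := by
        rw [div_le_one hn0]; linarith
      linarith) q
    have e1 : (1 : ℝ) + (q : ℝ) * (-(1 / (n : ℝ))) = 1 - (q : ℝ) / n := by ring
    have e2 : (1 : ℝ) + -(1 / (n : ℝ)) = 1 - 1 / (n : ℝ) := by ring
    rw [e1, e2] at h1
    exact h1
  have hbase : 0 ≤ 1 - 1 / (n : ℝ) := by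
    have : 1 / (n : ℝ) ≤ 1 := by
      rw [div_le_one hn0]; linarith
    linarith
  rcases Nat.even_or_odd' n with ⟨q, hq | hq⟩
  · have h1 := hmain q (by omega)
    have hqr : (n : ℝ) = 2 * q := by rw [hq]; push_cast; ring
    have h2 : (1 : ℝ) / 2 ≤ 1 - (q : ℝ) / n := by
      have hq0 : (q : ℝ) / n = 1 / 2 := by
        rw [hqr]
        have : (q : ℝ) ≠ 0 := by
          intro h
          rw [h] at hqr
          simp at hqr
          linarith
        field_simp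
      rw [hq0]; norm_num
    have h3 : (1 - 1 / (n : ℝ)) ^ n = ((1 - 1 / (n : ℝ)) ^ q) ^ 2 := by
      rw [← pow_mul, hq]; ring_nf
    rw [h3]
    have h4 : (1 / 2 : ℝ) ≤ (1 - 1 / (n : ℝ)) ^ q := h2.trans h1
    nlinarith
  · have h1 := hmain q (by omega)
    have hqr : (n : ℝ) = 2 * q + 1 := by rw [hq]; push_cast; ring
    have hq1 : (1 : ℝ) ≤ q := by
      have : 1 ≤ q := by omega
      exact_mod_cast this
    have h3 : (1 - 1 / (n : ℝ)) ^ n = ((1 - 1 / (n : ℝ)) ^ q) ^ 2 * (1 - 1 / (n : ℝ)) := by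
      rw [← pow_mul, ← pow_succ, hq]
      ring_nf
    have h5 : 0 ≤ 1 - (q : ℝ) / n := by
      rw [sub_nonneg, div_le_one hn0]; linarith
    have h6 : (1 - (q : ℝ) / n) ^ 2 * (1 - 1 / (n : ℝ)) ≤ ((1 - 1 / (n : ℝ)) ^ q) ^ 2 * (1 - 1 / (n : ℝ)) := by
      apply mul_le_mul_of_nonneg_right _ hbase
      exact pow_le_pow_left₀ h5 h1 2
    rw [h3]
    refine le_trans ?_ h6
    have e1 : 1 - (q : ℝ) / n = ((q : ℝ) + 1) / n := by
      field_simp
      rw [hqr]; ring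
    have e2 : 1 - 1 / (n : ℝ) = 2 * (q : ℝ) / n := by
      field_simp
      rw [hqr]; ring
    rw [e1, e2, div_pow, div_mul_div_comm, le_div_iff₀ (by positivity)]
    rw [hqr]
    nlinarith

lemma sl_exp_four_le : Real.exp 4 ≤ 55 := by
  have h := Real.exp_one_lt_d9
  have h0 := Real.exp_pos 1
  have e : Real.exp 4 = Real.exp 1 ^ 4 := by
    rw [← Real.exp_nat_mul]; norm_num
  rw [e]
  calc Real.exp 1 ^ 4 ≤ (2.7182818286 : ℝ) ^ 4 := pow_le_pow_left₀ h0.le h.le 4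
    _ ≤ 55 := by norm_num

lemma sl_exp_five_ge : (128 : ℝ) ≤ Real.exp 5 := by
  have h := Real.exp_one_gt_d9
  have e : Real.exp 5 = Real.exp 1 ^ 5 := by
    rw [← Real.exp_nat_mul]; norm_num
  rw [e]
  calc (128 : ℝ) ≤ (2.7182818283 : ℝ) ^ 5 := by norm_num
    _ ≤ Real.exp 1 ^ 5 := pow_le_pow_left₀ (by norm_num) h.le 5

lemma sl_exp_four_ge : (32 : ℝ) ≤ Real.exp 4 := by
  have h := Real.exp_one_gt_d9
  have e : Real.exp 4 = Real.exp 1 ^ 4 := by
    rw [← Real.exp_nat_mul]; norm_num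
  rw [e]
  calc (32 : ℝ) ≤ (2.7182818283 : ℝ) ^ 4 := by norm_num
    _ ≤ Real.exp 1 ^ 4 := pow_le_pow_left₀ (by norm_num) h.le 4

/-! ### Convex sets with a large cube -/

section Fat

variable {ι : Type}

lemma sl_shrink_add {D : Set (ι → ℝ)} (hc : Convex ℝ D) {c : ι → ℝ} {h : ℝ} (hh1 : 1 ≤ h)
    (hcube : ∀ x : ι → ℝ, (∀ i, |x i - c i| ≤ h) → x ∈ D) {y : ι → ℝ} (hy : y ∈ D) {δ : ι → ℝ}
    (hδ : ∀ i, |δ i| ≤ 1) : c + (1 - 1 / h) • (y - c) + δ ∈ D := by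
  have hh0 : 0 < h := by linarith
  have hmem : c + h • δ ∈ D := by
    apply hcube
    intro i
    simp only [Pi.add_apply, Pi.smul_apply, smul_eq_mul, add_sub_cancel_left]
    rw [abs_mul, abs_of_pos hh0]
    have := hδ i
    nlinarith
  have h1h : 0 ≤ 1 / h := by positivity
  have h2h : 0 ≤ 1 - 1 / h := by
    have : 1 / h ≤ 1 := by rw [div_le_one hh0]; exact hh1
    linarith
  have h3 := hc hy hmem h2h h1h (by ring)
  convert h3 using 1
  ext i
  simp only [Pi.add_apply, Pi.smul_apply, smul_eq_mul, Pi.sub_apply]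
  field_simp
  ring

lemma sl_grow_add {D : Set (ι → ℝ)} (hc : Convex ℝ D) {c : ι → ℝ} {h : ℝ} (hh0 : 0 < h)
    (hcube : ∀ x : ι → ℝ, (∀ i, |x i - c i| ≤ h) → x ∈ D) {y : ι → ℝ} (hy : y ∈ D) {δ : ι → ℝ}
    (hδ : ∀ i, |δ i| ≤ 2) : y + δ ∈ AffineMap.homothety c (1 + 2 / h) '' D := by
  set ρ : ℝ := 2 / h with hρ
  have hρ0 : 0 < ρ := by positivity
  have hμ : 0 < 1 + ρ := by linarith
  have hmem : c + (h / 2) • δ ∈ D := by
    apply hcube
    intro i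
    simp only [Pi.add_apply, Pi.smul_apply, smul_eq_mul, add_sub_cancel_left]
    rw [abs_mul, abs_of_pos (by positivity)]
    have := hδ i
    nlinarith
  have h1 := hc hy hmem (a := (1 + ρ)⁻¹) (b := ρ * (1 + ρ)⁻¹) (by positivity) (by positivity) (by
    field_simp)
  refine ⟨_, h1, ?_⟩
  rw [AffineMap.homothety_apply]
  ext i
  simp only [vsub_eq_sub, vadd_eq_add, Pi.add_apply, Pi.smul_apply, smul_eq_mul, Pi.sub_apply]
  have e : ρ * (h / 2) = 1 := by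
    rw [hρ]; field_simp
  have hne : (1 + ρ) ≠ 0 := hμ.ne'
  have hA : (1 + ρ) * (1 + ρ)⁻¹ = 1 := mul_inv_cancel₀ hne
  calc (1 + ρ) * ((1 + ρ)⁻¹ * y i + ρ * (1 + ρ)⁻¹ * (c i + h / 2 * δ i) - c i) + c i
      = ((1 + ρ) * (1 + ρ)⁻¹) * (y i + ρ * (c i + h / 2 * δ i)) - ρ * c i := by ring
    _ = y i + (ρ * (h / 2)) * δ i := by rw [hA]; ring
    _ = y i + δ i := by rw [e, one_mul]

end Fat

end Vale.Agent.Lib.P230
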