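import Vale.Agent.Lib.P230.SlicingFat

/-! Slices of sets in `ℝ^{α ⊕ β}`. -/

open MeasureTheory Set
open scoped ENNReal

namespace Vale.Agent.Lib.P230

/-- The slice of a set in `ℝ^{α ⊕ β}` over `z ∈ ℝ^α`. -/
def slice {α β : Type} (C : Set (α ⊕ β → ℝ)) (z : α → ℝ) : Set (β → ℝ) :=
  {x | Sum.elim z x ∈ C}

/-- The projection to `ℝ^α`. -/
def proj {α β : Type} (C : Set (α ⊕ β → ℝ)) : Set (α → ℝ) := {z | (slice C z).Nonempty}

/-- The number of levels. -/
noncomputable def levelJ (k m : ℕ) : ℕ := ⌈(k : ℝ) * Real.log m⌉₊ + 5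

section Slices

variable {k m : ℕ} {C : Set (Fin k ⊕ Fin m → ℝ)}

lemma sumElim_combo (a b : ℝ) (z z' : Fin k → ℝ) (x x' : Fin m → ℝ) :
    Sum.elim (a • z + b • z') (a • x + b • x') = a • Sum.elim z x + b • Sum.elim z' x' := by
  ext i
  rcases i with i | i <;> simp

lemma continuous_sumElim_right (z : Fin k → ℝ) :
    Continuous (fun x : Fin m → ℝ => (Sum.elim z x : Fin k ⊕ Fin m → ℝ)) := by
  refine continuous_pi (fun i => ?_)
  rcases i with i | i
  · simpa using continuous_const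
  · simpa using continuous_apply i

lemma measurableSet_slice (hC : MeasurableSet C) (z : Fin k → ℝ) : MeasurableSet (slice C z) :=
  hC.preimage (continuous_sumElim_right z).measurable

lemma convex_slice (hC : Convex ℝ C) (z : Fin k → ℝ) : Convex ℝ (slice C z) := by
  intro x hx x' hx' a b ha hb hab
  have h := hC hx hx' ha hb hab
  show Sum.elim z (a • x + b • x') ∈ C
  have e : z = a • z + b • z := by
    rw [← add_smul, hab, one_smul]
  rw [e, sumElim_combo]
  exact h

lemma combo_mem_slice (hC : Convex ℝ C) {z z' : Fin k → ℝ} {x x' : Fin m → ℝ}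
    (hx : x ∈ slice C z) (hx' : x' ∈ slice C z') {a b : ℝ} (ha : 0 ≤ a) (hb : 0 ≤ b)
    (hab : a + b = 1) : a • x + b • x' ∈ slice C (a • z + b • z') := by
  show Sum.elim (a • z + b • z') (a • x + b • x') ∈ C
  rw [sumElim_combo]
  exact hC hx hx' ha hb hab

lemma isCompact_image_inr (hC : IsCompact C) :
    IsCompact ((fun w : Fin k ⊕ Fin m → ℝ => fun i : Fin m => w (Sum.inr i)) '' C) := by
  apply hC.image
  exact continuous_pi (fun i => continuous_apply _)

lemma isCompact_proj (hC : IsCompact C) : IsCompact (proj C) := by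
  have h : proj C = (fun w : Fin k ⊕ Fin m → ℝ => fun i : Fin k => w (Sum.inl i)) '' C := by
    ext z
    constructor
    · rintro ⟨x, hx⟩
      refine ⟨_, hx, ?_⟩
      ext i
      simp
    · rintro ⟨w, hw, rfl⟩
      refine ⟨fun i => w (Sum.inr i), ?_⟩
      show Sum.elim _ _ ∈ C
      convert hw using 1
      ext i
      rcases i with i | i <;> simp
  rw [h]
  apply hC.image
  exact continuous_pi (fun i => continuous_apply _)

lemma slice_subset_image_inr (z : Fin k → ℝ) :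
    slice C z ⊆ (fun w : Fin k ⊕ Fin m → ℝ => fun i : Fin m => w (Sum.inr i)) '' C := by
  intro x hx
  refine ⟨_, hx, ?_⟩
  ext i
  simp

lemma isBounded_slice (hC : IsCompact C) (z : Fin k → ℝ) : Bornology.IsBounded (slice C z) :=
  (isCompact_image_inr hC).isBounded.subset (slice_subset_image_inr z)

lemma convex_proj (hC : Convex ℝ C) : Convex ℝ (proj C) := by
  rintro z ⟨x, hx⟩ z' ⟨x', hx'⟩ a b ha hb hab
  exact ⟨_, combo_mem_slice hC hx hx' ha hb hab⟩

lemma slice_preimage_eq (z : Fin k → ℝ) :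
    slice C z = Prod.mk z ⁻¹' ((MeasurableEquiv.sumPiEquivProdPi (fun _ : Fin k ⊕ Fin m => ℝ)).symm ⁻¹' C) := by
  ext x
  simp only [slice, mem_ofPred_eq, mem_preimage]
  have : (MeasurableEquiv.sumPiEquivProdPi (fun _ : Fin k ⊕ Fin m => ℝ)).symm (z, x) = Sum.elim z x := by
    ext i
    rcases i with i | i <;> rfl
  rw [this]

lemma measurable_volume_slice (hC : MeasurableSet C) :
    Measurable (fun z : Fin k → ℝ => volume (slice C z)) := by
  have h1 : MeasurableSet ((MeasurableEquiv.sumPiEquivProdPi (fun _ : Fin k ⊕ Fin m => ℝ)).symm ⁻¹' C) :=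
    (MeasurableEquiv.sumPiEquivProdPi (fun _ : Fin k ⊕ Fin m => ℝ)).symm.measurable hC
  have h2 := measurable_measure_prodMk_left (ν := (volume : Measure (Fin m → ℝ))) h1
  convert h2 using 2 with z
  rw [slice_preimage_eq]

lemma volume_eq_lintegral_slice (hC : MeasurableSet C) :
    volume C = ∫⁻ z : Fin k → ℝ, volume (slice C z) := by
  have hmp := volume_measurePreserving_sumPiEquivProdPi_symm (fun _ : Fin k ⊕ Fin m => ℝ)
  have h1 := hmp.measure_preimage hC.nullMeasurableSet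
  rw [← h1, Measure.volume_eq_prod, Measure.prod_apply (hmp.measurable hC)]
  apply lintegral_congr
  intro z
  rw [slice_preimage_eq]

/-- Shrinking a slice towards a point of another slice. -/
lemma volume_slice_shrink (hC : Convex ℝ C) {z p : Fin k → ℝ} {x₁ : Fin m → ℝ}
    (hx₁ : x₁ ∈ slice C p) {t : ℝ} (ht0 : 0 < t) (ht1 : t ≤ 1) :
    ENNReal.ofReal (t ^ m) * volume (slice C z) ≤ volume (slice C (t • z + (1 - t) • p)) := by
  have hsub : AffineMap.homothety x₁ t '' slice C z ⊆ slice C (t • z + (1 - t) • p) := by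
    rintro _ ⟨x, hx, rfl⟩
    have h := combo_mem_slice hC hx hx₁ ht0.le (by linarith) (by ring : t + (1 - t) = 1)
    convert h using 1
    rw [AffineMap.homothety_apply]
    ext i
    simp only [vsub_eq_sub, vadd_eq_add, Pi.add_apply, Pi.smul_apply, smul_eq_mul, Pi.sub_apply]
    ring
  have h2 := measure_mono (μ := volume) hsub
  rw [Measure.addHaar_image_homothety, Module.finrank_fin_fun, abs_of_pos (by positivity)] at h2
  exact h2

end Slices

/-! ### Homotheties -/

section Hom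

variable {ι : Type} [Fintype ι] {E : Set (ι → ℝ)}

lemma hom_eq_homothety (lam : ℝ) (E : Set (ι → ℝ)) :
    hom lam E = AffineMap.homothety (cen ι) lam '' E := by
  unfold hom
  apply image_congr
  intro y _
  rw [AffineMap.homothety_apply]
  simp [add_comm]

lemma convex_hom (hE : Convex ℝ E) (lam : ℝ) : Convex ℝ (hom lam E) := by
  rw [hom_eq_homothety]
  exact hE.affine_image _

lemma isCompact_hom (hE : IsCompact E) (lam : ℝ) : IsCompact (hom lam E) := by
  apply hE.image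
  fun_prop

lemma hom_hom (a b : ℝ) (E : Set (ι → ℝ)) : hom a (hom b E) = hom (a * b) E := by
  unfold hom
  rw [image_image]
  apply image_congr
  intro y _
  ext i
  simp only [Pi.add_apply, Pi.smul_apply, smul_eq_mul, Pi.sub_apply]
  ring

lemma volume_hom {lam : ℝ} (hlam : 0 < lam) (E : Set (ι → ℝ)) :
    volume (hom lam E) = ENNReal.ofReal (lam ^ Fintype.card ι) * volume E := by
  rw [hom_eq_homothety, Measure.addHaar_image_homothety, Module.finrank_fintype_fun_eq_card,
    abs_of_pos (by positivity)]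

lemma Normalized.card_pos (hn : 0 < Fintype.card ι) : (0 : ℝ) < Fintype.card ι := by
  exact_mod_cast hn

lemma Normalized.cen_mem (hE : Normalized E) (hn : 0 < Fintype.card ι) : cen ι ∈ E := by
  apply hE.cube
  intro i
  have : (0 : ℝ) < Fintype.card ι := by exact_mod_cast hn
  simp only [sub_self, abs_zero]
  positivity

lemma hom_cube (hE : Normalized E) (hn : 0 < Fintype.card ι) {lam : ℝ} (hlam : 0 < lam)
    {x : ι → ℝ} (hx : ∀ i, |x i - cen ι i| ≤ lam / (2 * (Fintype.card ι : ℝ))) :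
    x ∈ hom lam E := by
  have hcard : (0 : ℝ) < Fintype.card ι := by exact_mod_cast hn
  refine ⟨cen ι + lam⁻¹ • (x - cen ι), ?_, ?_⟩
  · apply hE.cube
    intro i
    simp only [Pi.add_apply, Pi.smul_apply, smul_eq_mul, Pi.sub_apply, add_sub_cancel_left]
    rw [abs_mul, abs_of_pos (inv_pos.2 hlam), inv_mul_le_iff₀ hlam]
    calc |x i - cen ι i| ≤ lam / (2 * (Fintype.card ι : ℝ)) := hx i
      _ = lam * (1 / (2 * (Fintype.card ι : ℝ))) := by ring
  · simp only [add_sub_cancel_left, smul_smul, mul_inv_cancel₀ hlam.ne', one_smul]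
    abel

lemma hom_mono (hE : Normalized E) (hn : 0 < Fintype.card ι) {a b : ℝ} (ha : 0 ≤ a) (hb : 0 < b)
    (hab : a ≤ b) : hom a E ⊆ hom b E := by
  rintro _ ⟨y, hy, rfl⟩
  have hc := hE.cen_mem hn
  have h := hE.convex hy hc (a := a / b) (b := 1 - a / b) (by positivity)
    (by rw [sub_nonneg, div_le_one hb]; exact hab) (by ring)
  refine ⟨_, h, ?_⟩
  ext i
  simp only [Pi.add_apply, Pi.smul_apply, smul_eq_mul, Pi.sub_apply]
  field_simp
  ring

lemma lam1_eq : lam1 ι = 1 - 1 / (Fintype.card ι : ℝ) := rfl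

lemma lam1_ge_half (hn : 2 ≤ Fintype.card ι) : 1 / 2 ≤ lam1 ι := by
  rw [lam1_eq]
  have h : (2 : ℝ) ≤ Fintype.card ι := by exact_mod_cast hn
  have h2 : 1 / (Fintype.card ι : ℝ) ≤ 1 / 2 := by
    rw [div_le_div_iff₀ (by linarith) (by norm_num)]; linarith
  linarith

/-- Thickening from `hom (λ^4)` to `hom (λ^3)`. -/
lemma hom_thick (hn : 2 ≤ Fintype.card ι) (hE : Normalized E) {p δ : ι → ℝ}
    (hp : p ∈ hom (lam1 ι ^ 4) E)
    (hδ : ∀ i, |δ i| ≤ 1 / (16 * (Fintype.card ι : ℝ) ^ 2)) : p + δ ∈ hom (lam1 ι ^ 3) E := by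
  obtain ⟨y, hy, rfl⟩ := hp
  have hN : (2 : ℝ) ≤ Fintype.card ι := by exact_mod_cast hn
  set N : ℝ := (Fintype.card ι : ℝ) with hNdef
  have hN0 : 0 < N := by linarith
  have hl := lam1_ge_half hn
  set l : ℝ := lam1 ι with hldef
  have hl0 : 0 < l := by linarith
  have hl1 : l = 1 - 1 / N := rfl
  have hl3 : (1 / 8 : ℝ) ≤ l ^ 3 := by
    calc (1 / 8 : ℝ) = (1 / 2) ^ 3 := by norm_num
      _ ≤ l ^ 3 := pow_le_pow_left₀ (by norm_num) hl 3
  have hw : cen ι + (N * (l ^ 3)⁻¹) • δ ∈ E := by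
    apply hE.cube
    intro i
    simp only [Pi.add_apply, Pi.smul_apply, smul_eq_mul, add_sub_cancel_left]
    rw [abs_mul, abs_of_pos (by positivity)]
    have h1 := hδ i
    have h2 : (l ^ 3)⁻¹ ≤ 8 := by
      rw [inv_le_comm₀ (by positivity) (by norm_num)]
      norm_num
      linarith
    have h3 : N * (l ^ 3)⁻¹ ≤ N * 8 := by
      apply mul_le_mul_of_nonneg_left h2 hN0.le
    calc N * (l ^ 3)⁻¹ * |δ i| ≤ N * 8 * (1 / (16 * N ^ 2)) :=
          mul_le_mul h3 h1 (abs_nonneg _) (by positivity)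
      _ = 1 / (2 * N) := by field_simp; ring
  have h1N : 0 ≤ 1 / N := by positivity
  have h2N : 0 ≤ l := hl0.le
  have hmem := hE.convex hy hw h2N h1N (by rw [hl1]; ring)
  refine ⟨_, hmem, ?_⟩
  ext i
  simp only [Pi.add_apply, Pi.smul_apply, smul_eq_mul, Pi.sub_apply]
  have e1 : (1 / N) * (N * (l ^ 3)⁻¹ * δ i) = (l ^ 3)⁻¹ * δ i := by
    field_simp
  have e2 : (1 : ℝ) - l = 1 / N := by rw [hl1]; ring
  have e3 : l ^ 3 * (l ^ 3)⁻¹ = 1 := mul_inv_cancel₀ (by positivity)
  calc cen ι i + l ^ 3 * (l * y i + 1 / N * (cen ι i + N * (l ^ 3)⁻¹ * δ i) - cen ι i)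
      = cen ι i + l ^ 3 * (l * y i + (1 / N) * cen ι i + (1 / N) * (N * (l ^ 3)⁻¹ * δ i) - cen ι i) := by
        ring
    _ = cen ι i + l ^ 3 * (l * y i + (1 - l) * cen ι i + (l ^ 3)⁻¹ * δ i - cen ι i) := by
        rw [e1, e2]
    _ = cen ι i + l ^ 4 * (y i - cen ι i) + (l ^ 3 * (l ^ 3)⁻¹) * δ i := by ring
    _ = cen ι i + l ^ 4 * (y i - cen ι i) + δ i := by rw [e3, one_mul]

end Hom

/-- Fatness of the slices over `proj C1`. -/
theorem slice_fat {k m : ℕ} (hn : 2 ≤ k + m) {E : Set (Fin k ⊕ Fin m → ℝ)}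
    (hE : Normalized E) {z : Fin k → ℝ} (hz : z ∈ proj (hom (lam1 (Fin k ⊕ Fin m) ^ 4) E)) :
    ∃ c : Fin m → ℝ, ∀ x : Fin m → ℝ, (∀ i, |x i - c i| ≤ 1 / (16 * ((k : ℝ) + m) ^ 2)) →
      x ∈ slice (hom (lam1 (Fin k ⊕ Fin m) ^ 3) E) z := by
  have hcard : Fintype.card (Fin k ⊕ Fin m) = k + m := by simp
  have hcardR : (Fintype.card (Fin k ⊕ Fin m) : ℝ) = (k : ℝ) + m := by
    rw [hcard]; push_cast; ring
  obtain ⟨x₁, hx₁⟩ := hz
  refine ⟨x₁, fun x hx => ?_⟩
  have h := hom_thick (by rw [hcard]; exact hn) hE (p := Sum.elim z x₁)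
    (δ := Sum.elim (fun _ => 0) (x - x₁)) hx₁ (by
      intro i
      rw [hcardR]
      rcases i with i | i
      · simp only [Sum.elim_inl, abs_zero]
        positivity
      · simpa using hx i)
  show Sum.elim z x ∈ hom (lam1 (Fin k ⊕ Fin m) ^ 3) E
  convert h using 1
  ext i
  rcases i with i | i <;> simp

end Vale.Agent.Lib.P230
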