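import Vale.Agent.Lib.P230.SlicingAux

/-! Lattice point count and energy in a fat convex set. -/

open MeasureTheory Set
open scoped ENNReal

namespace Vale.Agent.Lib.P230

/-- Lattice point count in a fat convex set. -/
theorem fat_count {m : ℕ} {D : Set (Fin m → ℝ)} (hc : Convex ℝ D) (hb : Bornology.IsBounded D)
    {c : Fin m → ℝ} {h : ℝ} (hh : 2 * (m : ℝ) ≤ h) (hh1 : 2 ≤ h)
    (hcube : ∀ x : Fin m → ℝ, (∀ i, |x i - c i| ≤ h) → x ∈ D)
    (A : Finset (Fin m → ℤ)) (hA : ∀ v, toR v ∈ D → v ∈ A) :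
    volume D ≤ ENNReal.ofReal (2 * (A.card : ℝ)) := by
  have hh0 : 0 < h := by linarith
  have h1h : 1 / h ≤ 1 / 2 := by
    rw [div_le_div_iff₀ hh0 (by norm_num)]; linarith
  have h1h0 : 0 < 1 / h := by positivity
  set ρ : ℝ := 1 - 1 / h with hρ
  have hρ0 : 0 < ρ := by rw [hρ]; linarith
  let Box : (Fin m → ℤ) → Set (Fin m → ℝ) := fun v => Set.pi univ (fun i => Ico (v i : ℝ) (v i + 1))
  have hbox : ∀ v, volume (Box v) = 1 := by
    intro v
    simp only [Box]
    rw [volume_pi_pi]
    simp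
  have hsub : AffineMap.homothety c ρ '' D ⊆ ⋃ v ∈ A, Box v := by
    rintro _ ⟨y, hy, rfl⟩
    have hxeq : AffineMap.homothety c ρ y = c + ρ • (y - c) := by
      rw [AffineMap.homothety_apply]
      simp [add_comm]
    rw [hxeq]
    set x := c + ρ • (y - c) with hx
    let v : Fin m → ℤ := fun i => ⌊x i⌋
    have hv : v ∈ A := by
      apply hA
      have h1 := sl_shrink_add hc (by linarith : 1 ≤ h) hcube hy (δ := fun i => (v i : ℝ) - x i)
        (by
          intro i
          have h2 := Int.floor_le (x i)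
          have h3 := Int.lt_floor_add_one (x i)
          rw [abs_le]
          constructor
          · simp only [v]; linarith
          · simp only [v]; linarith)
      convert h1 using 1
      ext i
      simp only [toR, Pi.add_apply]
      have e0 : c i + ((1 - 1 / h) • (y - c)) i = x i := rfl
      rw [e0]
      ring
    simp only [mem_iUnion]
    refine ⟨v, hv, ?_⟩
    intro i _
    exact ⟨Int.floor_le _, Int.lt_floor_add_one _⟩
  have h1 : volume (AffineMap.homothety c ρ '' D) ≤ A.card := by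
    calc volume (AffineMap.homothety c ρ '' D) ≤ volume (⋃ v ∈ A, Box v) := measure_mono hsub
      _ ≤ ∑ v ∈ A, volume (Box v) := measure_biUnion_finset_le _ _
      _ = A.card := by simp [hbox]
  rw [Measure.addHaar_image_homothety, Module.finrank_fin_fun, abs_of_pos (by positivity)] at h1
  have hpow : (1 / 2 : ℝ) ≤ ρ ^ m := by
    have h2 := one_add_mul_le_pow (a := -(1 / h)) (by linarith) m
    have e1 : (1 : ℝ) + -(1 / h) = ρ := by rw [hρ]; ring
    rw [e1] at h2
    refine le_trans ?_ h2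
    have h3 : (m : ℝ) * (1 / h) ≤ 1 / 2 := by
      rw [mul_one_div, div_le_div_iff₀ hh0 (by norm_num)]
      linarith
    linarith
  calc volume D = ENNReal.ofReal 2 * (ENNReal.ofReal (1 / 2) * volume D) := by
        rw [← mul_assoc, ← ENNReal.ofReal_mul (by norm_num)]
        norm_num
    _ ≤ ENNReal.ofReal 2 * (ENNReal.ofReal (ρ ^ m) * volume D) := by
        gcongr
    _ ≤ ENNReal.ofReal 2 * A.card := by gcongr
    _ = ENNReal.ofReal (2 * (A.card : ℝ)) := by
        rw [ENNReal.ofReal_mul (by norm_num), ENNReal.ofReal_natCast]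

/-- Energy of the lattice points in a fat convex set. -/
theorem fat_energy {m : ℕ} {D : Set (Fin m → ℝ)} (hc : Convex ℝ D) (hb : Bornology.IsBounded D)
    (hM : MeasurableSet D)
    {c : Fin m → ℝ} {h : ℝ} (hh : 2 * (m : ℝ) ≤ h) (hh1 : 2 ≤ h)
    (hcube : ∀ x : Fin m → ℝ, (∀ i, |x i - c i| ≤ h) → x ∈ D)
    (A : Finset (Fin m → ℤ)) (hA : ∀ v ∈ A, toR v ∈ D) :
    (energy A : ℝ≥0∞) ≤ ENNReal.ofReal (27 * cE ^ m) * volume D ^ 3 := by
  have hh0 : 0 < h := by linarith
  set μ' : ℝ := 1 + 2 / h with hμ'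
  have hμ0 : 0 < μ' := by positivity
  set H := AffineMap.homothety c μ' with hH
  have hHapp : ∀ y, H y = c + μ' • (y - c) := by
    intro y
    rw [hH, AffineMap.homothety_apply]
    simp [add_comm]
  set D' := H '' D with hD'
  have hc' : Convex ℝ D' := hc.affine_image H
  have hb' : Bornology.IsBounded D' := by
    obtain ⟨R, hR⟩ := hb.exists_norm_le
    rw [isBounded_iff_forall_norm_le]
    refine ⟨‖c‖ + μ' * (R + ‖c‖), ?_⟩
    rintro _ ⟨y, hy, rfl⟩
    rw [hHapp]
    refine (norm_add_le _ _).trans ?_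
    rw [norm_smul, Real.norm_of_nonneg hμ0.le]
    have h1 := hR y hy
    have h2 : ‖y - c‖ ≤ R + ‖c‖ := (norm_sub_le _ _).trans (by linarith)
    have h3 := mul_le_mul_of_nonneg_left h2 hμ0.le
    linarith
  have hM' : MeasurableSet D' := by
    have e : D' = (fun x => c + μ'⁻¹ • (x - c)) ⁻¹' D := by
      ext x
      simp only [hD', mem_image, mem_preimage]
      constructor
      · rintro ⟨y, hy, rfl⟩
        rw [hHapp]
        have : c + μ'⁻¹ • (c + μ' • (y - c) - c) = y := by
          rw [add_sub_cancel_left, smul_smul, inv_mul_cancel₀ hμ0.ne', one_smul]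
          abel
        rwa [this]
      · intro hx
        refine ⟨_, hx, ?_⟩
        rw [hHapp, add_sub_cancel_left, smul_smul, mul_inv_cancel₀ hμ0.ne', one_smul]
        abel
    rw [e]
    exact hM.preimage (by fun_prop)
  have hthick : ∀ v ∈ A, ∀ δ : Fin m → ℝ, (∀ i, -1 ≤ δ i ∧ δ i ≤ 2) → toR v + δ ∈ D' := by
    intro v hv δ hδ
    exact sl_grow_add hc hh0 hcube (hA v hv) (fun i => by
      rw [abs_le]
      have := hδ i
      constructor <;> linarith)
  have h1 := energy_le_of_thick hc' hb' hM' A hthick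
  have hvol : volume D' = ENNReal.ofReal (μ' ^ m) * volume D := by
    rw [hD', hH, Measure.addHaar_image_homothety, Module.finrank_fin_fun,
      abs_of_pos (by positivity)]
  have hpow : μ' ^ m ≤ 3 := by
    have h2 : μ' ≤ Real.exp (2 / h) := by
      have := Real.add_one_le_exp (2 / h)
      rw [hμ']; linarith
    have h3 : μ' ^ m ≤ Real.exp (2 / h) ^ m := pow_le_pow_left₀ hμ0.le h2 m
    rw [← Real.exp_nat_mul] at h3
    have h4 : (m : ℝ) * (2 / h) ≤ 1 := by
      rw [mul_div_assoc', div_le_one hh0]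
      linarith
    have h5 := Real.exp_le_exp.2 h4
    have h6 := Real.exp_one_lt_d9
    linarith
  have hcE : 0 < cE := by
    unfold cE; norm_num
  refine h1.trans ?_
  rw [hvol, mul_pow, ← mul_assoc]
  gcongr ?_ * _
  rw [ENNReal.ofReal_mul (by norm_num), mul_comm]
  gcongr
  calc ENNReal.ofReal (μ' ^ m) ^ 3 ≤ ENNReal.ofReal 3 ^ 3 := by
        gcongr
    _ = ENNReal.ofReal 27 := by
        rw [← ENNReal.ofReal_pow (by norm_num)]
        norm_num

end Vale.Agent.Lib.P230
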