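import Vale.Agent.Lib.P230.UFold
import Vale.Agent.Lib.P230.EnergyLC
import Vale.Agent.Lib.P230.SlicingAux

/-!
# P230: the `2^b`-fold energy modulo a prime is bounded by the continuous one.
-/

open MeasureTheory Set
open scoped ENNReal BigOperators

set_option linter.unusedSectionVars false

namespace Vale.Agent.Lib.P230

open Vale.Agent.Lib.P074

variable {m : ℕ} {ℓ : ℕ} [Fact ℓ.Prime]

/-- The centered lift of a vector modulo `ℓ`. -/
noncomputable def liftZ (z : Fin m → ZMod ℓ) : Fin m → ℤ := fun i => (z i).valMinAbs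

lemma redv_liftZ (z : Fin m → ZMod ℓ) : redvPC ℓ (liftZ z) = z := by
  funext i
  simp [redvPC, liftZ, ZMod.coe_valMinAbs]

lemma abs_liftZ_le (z : Fin m → ZMod ℓ) (i : Fin m) : 2 * |liftZ z i| ≤ (ℓ : ℤ) := by
  have h := ZMod.natAbs_valMinAbs_le (z i)
  have h2 : ((z i).valMinAbs.natAbs : ℤ) = |(z i).valMinAbs| := Int.natCast_natAbs _
  have h3 : 2 * (ℓ / 2 : ℕ) ≤ ℓ := Nat.mul_div_le ℓ 2
  have h4 : ((z i).valMinAbs.natAbs : ℤ) ≤ ((ℓ / 2 : ℕ) : ℤ) := by exact_mod_cast h
  have h5 : (2 : ℤ) * ((ℓ / 2 : ℕ) : ℤ) ≤ (ℓ : ℤ) := by exact_mod_cast h3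
  simp only [liftZ]
  omega

lemma liftZ_eq {w : Fin m → ℤ} (hw : ∀ i, 2 * |w i| < (ℓ : ℤ)) : liftZ (redvPC ℓ w) = w := by
  have h := int_vec_eq_of_redPC (ℓ := ℓ) (liftZ (redvPC ℓ w) - w) (fun i => by
    have h1 := abs_liftZ_le (redvPC ℓ w) i
    have h2 := hw i
    have h3 : |(liftZ (redvPC ℓ w) - w) i| ≤ |liftZ (redvPC ℓ w) i| + |w i| := by
      simpa [Pi.sub_apply] using abs_sub (liftZ (redvPC ℓ w) i) (w i)
    omega) (by rw [redvPC_sub, redv_liftZ, sub_self])
  exact sub_eq_zero.1 h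

lemma liftZ_injective : Function.Injective (liftZ (m := m) (ℓ := ℓ)) := by
  intro y z h
  have := congrArg (redvPC ℓ) h
  rwa [redv_liftZ, redv_liftZ] at this

lemma ubox_disjoint {s t : Fin m → ℤ} (h : s ≠ t) : Disjoint (ubox s) (ubox t) := by
  rw [Set.disjoint_left]
  intro x h1 h2
  exact h (ubox_unique h1 h2)

lemma cpow_measurable {F : Vec m → ℝ≥0∞} (hF : Measurable F) (j : ℕ) : Measurable (cpow F j) := by
  induction j with
  | zero => exact hF
  | succ j ih => exact measurable_cnv ih ih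

lemma sub_ubox {s : Fin m → ℤ} {t : Vec m} (h : t ∈ ubox s) (i : Fin m) :
    |t i - (s i : ℝ)| ≤ 1 := by
  have h1 := h i (Set.mem_univ i)
  rw [abs_le]
  constructor <;> linarith [h1.1, h1.2]

section Main

open Classical

variable (A : Finset (Fin m → ZMod ℓ)) (F₀ : Vec m → ℝ≥0∞) {ρ : ℝ} {D : ℕ} {b : ℕ}

omit [Fact ℓ.Prime] in
lemma indF_nonneg (x : Fin m → ZMod ℓ) : 0 ≤ indF A x := by
  unfold indF
  split_ifs <;> norm_num

/-- The comparison of the discrete and the continuous convolution powers. -/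
lemma pw_le_cpow (hF₀ : Measurable F₀)
    (hρ : (b : ℝ) + 1 ≤ ρ) (hℓ : 2 ^ (b + 1) * D < ℓ)
    (hA : ∀ z ∈ A, (∀ i, |liftZ z i| ≤ (D : ℤ)) ∧
      ∀ x : Vec m, (∀ i, |x i - (liftZ z i : ℝ)| ≤ ρ) → 1 ≤ F₀ x) :
    ∀ j, j ≤ b → ∀ z, pw j (indF A) z ≠ 0 → (∀ i, |liftZ z i| ≤ 2 ^ j * (D : ℤ)) ∧
      ∀ x : Vec m, (∀ i, |x i - (liftZ z i : ℝ)| ≤ ρ - j) →
        ENNReal.ofReal (pw j (indF A) z) ≤ cpow F₀ j x := by
  have hP0 : ∀ j x, 0 ≤ pw j (indF A) x := fun j x =>
    (pw_mono (indF_nonneg A) (fun _ => le_rfl) j).1 x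
  intro j
  induction j with
  | zero =>
    intro _ z hz
    have hzA : z ∈ A := by
      by_contra hn
      apply hz
      simp [pw, indF, hn]
    obtain ⟨h1, h2⟩ := hA z hzA
    refine ⟨fun i => by simpa using h1 i, fun x hx => ?_⟩
    have h3 := h2 x (fun i => by simpa using hx i)
    simp only [pw, cpow, indF, if_pos hzA]
    simpa using h3
  | succ j ih =>
    intro hj z hz
    have hj' : j ≤ b := by omega
    set P := pw j (indF A) with hP
    have hP0' : ∀ x, 0 ≤ P x := hP0 j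
    have hval : pw (j + 1) (indF A) z = ∑ y, P y * P (z - y) := rfl
    rw [hval] at hz ⊢
    set Y : Finset (Fin m → ZMod ℓ) := Finset.univ.filter (fun y => P y ≠ 0 ∧ P (z - y) ≠ 0) with hY
    have hYne : Y.Nonempty := by
      by_contra hn
      rw [Finset.not_nonempty_iff_eq_empty] at hn
      apply hz
      refine Finset.sum_eq_zero fun y _ => ?_
      by_contra hy
      have : y ∈ Y := by
        rw [hY]
        simp only [Finset.mem_filter, Finset.mem_univ, true_and]
        exact ⟨left_ne_zero_of_mul hy, right_ne_zero_of_mul hy⟩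
      rw [hn] at this
      simp at this
    have h2b : (2 : ℤ) ^ (j + 2) * (D : ℤ) < (ℓ : ℤ) := by
      have h1 : 2 ^ (j + 2) ≤ 2 ^ (b + 1) := Nat.pow_le_pow_right (by norm_num) (by omega)
      have h2 : 2 ^ (j + 2) * D ≤ 2 ^ (b + 1) * D := Nat.mul_le_mul_right _ h1
      have h3 : 2 ^ (j + 2) * D < ℓ := lt_of_le_of_lt h2 hℓ
      exact_mod_cast h3
    have hlift : ∀ y ∈ Y, liftZ z = liftZ y + liftZ (z - y) := by
      intro y hy
      rw [hY] at hy
      simp only [Finset.mem_filter, Finset.mem_univ, true_and] at hy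
      have h1 := (ih hj' y hy.1).1
      have h2 := (ih hj' (z - y) hy.2).1
      have h3 : redvPC ℓ (liftZ y + liftZ (z - y)) = z := by
        rw [redvPC_add (ℓ := ℓ), redv_liftZ, redv_liftZ]
        abel
      refine (congrArg liftZ h3.symm).trans (liftZ_eq (ℓ := ℓ) (fun i => ?_))
      have h4 : |(liftZ y + liftZ (z - y)) i| ≤ |liftZ y i| + |liftZ (z - y) i| := by
        simpa [Pi.add_apply] using abs_add_le (liftZ y i) (liftZ (z - y) i)
      have h5 := h1 i
      have h6 := h2 i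
      have h7 : (2 : ℤ) ^ (j + 2) = 4 * 2 ^ j := by ring
      rw [h7] at h2b
      have h8 : (0 : ℤ) ≤ 2 ^ j * (D : ℤ) := by positivity
      nlinarith only [h4, h5, h6, h2b, h8]
    have hYbound : ∀ y ∈ Y, (∀ i, |liftZ y i| ≤ 2 ^ j * (D : ℤ)) ∧
        ∀ i, |liftZ (z - y) i| ≤ 2 ^ j * (D : ℤ) := by
      intro y hy
      rw [hY] at hy
      simp only [Finset.mem_filter, Finset.mem_univ, true_and] at hy
      exact ⟨(ih hj' y hy.1).1, (ih hj' (z - y) hy.2).1⟩
    constructor
    · intro i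
      obtain ⟨y, hy⟩ := hYne
      rw [hlift y hy]
      have h1 := (hYbound y hy).1 i
      have h2 := (hYbound y hy).2 i
      have h4 : |(liftZ y + liftZ (z - y)) i| ≤ |liftZ y i| + |liftZ (z - y) i| := by
        simpa [Pi.add_apply] using abs_add_le (liftZ y i) (liftZ (z - y) i)
      have h7 : (2 : ℤ) ^ (j + 1) = 2 * 2 ^ j := by ring
      rw [h7]
      nlinarith only [h4, h1, h2]
    · intro x hx
      have hsum : ∑ y, P y * P (z - y) = ∑ y ∈ Y, P y * P (z - y) := by
        symm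
        apply Finset.sum_subset (Finset.subset_univ _)
        intro y _ hy
        rw [hY] at hy
        simp only [Finset.mem_filter, Finset.mem_univ, true_and, not_and_or, not_not] at hy
        rcases hy with h | h <;> simp [h]
      rw [hsum, ENNReal.ofReal_sum_of_nonneg (fun y _ => mul_nonneg (hP0' _) (hP0' _))]
      have hFm : Measurable (cpow F₀ j) := cpow_measurable hF₀ j
      have hρj : (1 : ℝ) ≤ ρ - j := by
        have : (j : ℝ) + 1 ≤ (b : ℝ) := by exact_mod_cast hj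
        linarith
      have hbox : ∀ y ∈ Y, ENNReal.ofReal (P y * P (z - y)) ≤
          ∫⁻ t in ubox (liftZ y), cpow F₀ j t * cpow F₀ j (x - t) := by
        intro y hy
        have hy' := hy
        rw [hY] at hy'
        simp only [Finset.mem_filter, Finset.mem_univ, true_and] at hy'
        have h1 := (ih hj' y hy'.1).2
        have h2 := (ih hj' (z - y) hy'.2).2
        have hl := hlift y hy
        have h3 : ∀ t ∈ ubox (liftZ y), ENNReal.ofReal (P y * P (z - y)) ≤
            cpow F₀ j t * cpow F₀ j (x - t) := by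
          intro t ht
          rw [ENNReal.ofReal_mul (hP0' _)]
          refine mul_le_mul' (h1 t fun i => ?_) (h2 _ fun i => ?_)
          · exact (sub_ubox ht i).trans hρj
          · have h4 := sub_ubox ht i
            have h5 := hx i
            have h6 : (liftZ z i : ℝ) = (liftZ y i : ℝ) + (liftZ (z - y) i : ℝ) := by
              rw [hl]
              simp
            have h7 : (x - t) i - (liftZ (z - y) i : ℝ) =
                (x i - (liftZ z i : ℝ)) - (t i - (liftZ y i : ℝ)) := by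
              simp only [Pi.sub_apply]
              rw [h6]
              ring
            rw [h7]
            have h8 := abs_sub ((x i - (liftZ z i : ℝ))) (t i - (liftZ y i : ℝ))
            push_cast at h5
            linarith
        calc ENNReal.ofReal (P y * P (z - y))
            = ∫⁻ _t in ubox (liftZ y), ENNReal.ofReal (P y * P (z - y)) := by
              rw [setLIntegral_const, volume_ubox, mul_one]
          _ ≤ _ := setLIntegral_mono' (measurableSet_ubox _) h3
      have hdisj : Set.PairwiseDisjoint (Y : Set (Fin m → ZMod ℓ)) (fun y => ubox (liftZ y)) := by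
        intro y _ y' _ hne
        exact ubox_disjoint (fun h => hne (liftZ_injective h))
      have hmeas : Measurable fun t => cpow F₀ j t * cpow F₀ j (x - t) :=
        hFm.mul (hFm.comp (measurable_const.sub measurable_id))
      calc ∑ y ∈ Y, ENNReal.ofReal (P y * P (z - y))
          ≤ ∑ y ∈ Y, ∫⁻ t in ubox (liftZ y), cpow F₀ j t * cpow F₀ j (x - t) :=
            Finset.sum_le_sum hbox
        _ = ∫⁻ t in ⋃ y ∈ Y, ubox (liftZ y), cpow F₀ j t * cpow F₀ j (x - t) :=
            (lintegral_biUnion_finset hdisj (fun y _ => measurableSet_ubox _) _).symm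
        _ ≤ ∫⁻ t, cpow F₀ j t * cpow F₀ j (x - t) := setLIntegral_le_lintegral _ _
        _ = cpow F₀ (j + 1) x := rfl

/-- The discrete energy is bounded by the continuous one. -/
theorem N2_pw_le (hF₀ : Measurable F₀)
    (hρ : (b : ℝ) + 1 ≤ ρ) (hℓ : 2 ^ (b + 1) * D < ℓ)
    (hA : ∀ z ∈ A, (∀ i, |liftZ z i| ≤ (D : ℤ)) ∧
      ∀ x : Vec m, (∀ i, |x i - (liftZ z i : ℝ)| ≤ ρ) → 1 ≤ F₀ x) :
    ENNReal.ofReal (N2 (pw b (indF A))) ≤ ∫⁻ x, cpow F₀ b x ^ 2 := by
  have hP0 : ∀ x, 0 ≤ pw b (indF A) x := fun x =>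
    (pw_mono (indF_nonneg A) (fun _ => le_rfl) b).1 x
  have hkey := pw_le_cpow A F₀ hF₀ hρ hℓ hA b le_rfl
  set P := pw b (indF A) with hP
  set Z : Finset (Fin m → ZMod ℓ) := Finset.univ.filter (fun z => P z ≠ 0) with hZ
  have hsum : N2 P = ∑ z ∈ Z, P z ^ 2 := by
    unfold N2
    symm
    apply Finset.sum_subset (Finset.subset_univ _)
    intro y _ hy
    rw [hZ] at hy
    simp only [Finset.mem_filter, Finset.mem_univ, true_and, not_not] at hy
    simp [hy]
  rw [hsum, ENNReal.ofReal_sum_of_nonneg (fun y _ => sq_nonneg _)]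
  have hρb : (1 : ℝ) ≤ ρ - b := by linarith
  have hbox : ∀ z ∈ Z, ENNReal.ofReal (P z ^ 2) ≤ ∫⁻ x in ubox (liftZ z), cpow F₀ b x ^ 2 := by
    intro z hz
    rw [hZ] at hz
    simp only [Finset.mem_filter, Finset.mem_univ, true_and] at hz
    have h1 := (hkey z hz).2
    have h3 : ∀ t ∈ ubox (liftZ z), ENNReal.ofReal (P z ^ 2) ≤ cpow F₀ b t ^ 2 := by
      intro t ht
      rw [ENNReal.ofReal_pow (hP0 _)]
      exact pow_le_pow_left' (h1 t fun i => (sub_ubox ht i).trans hρb) 2
    calc ENNReal.ofReal (P z ^ 2) = ∫⁻ _t in ubox (liftZ z), ENNReal.ofReal (P z ^ 2) := by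
          rw [setLIntegral_const, volume_ubox, mul_one]
      _ ≤ _ := setLIntegral_mono' (measurableSet_ubox _) h3
  have hdisj : Set.PairwiseDisjoint (Z : Set (Fin m → ZMod ℓ)) (fun y => ubox (liftZ y)) := by
    intro y _ y' _ hne
    exact ubox_disjoint (fun h => hne (liftZ_injective h))
  calc ∑ z ∈ Z, ENNReal.ofReal (P z ^ 2)
      ≤ ∑ z ∈ Z, ∫⁻ x in ubox (liftZ z), cpow F₀ b x ^ 2 := Finset.sum_le_sum hbox
    _ = ∫⁻ x in ⋃ z ∈ Z, ubox (liftZ z), cpow F₀ b x ^ 2 :=
        (lintegral_biUnion_finset hdisj (fun y _ => measurableSet_ubox _) _).symm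
    _ ≤ ∫⁻ x, cpow F₀ b x ^ 2 := setLIntegral_le_lintegral _ _

end Main

section Fat

/-- A fat convex set: thickening by homothety. -/
lemma sl_grow_add' {ι : Type*} [Fintype ι] {D : Set (ι → ℝ)} (hc : Convex ℝ D) {c : ι → ℝ} {h s : ℝ}
    (hh0 : 0 < h) (hs : 0 < s)
    (hcube : ∀ x : ι → ℝ, (∀ i, |x i - c i| ≤ h) → x ∈ D) {y : ι → ℝ} (hy : y ∈ D) {δ : ι → ℝ}
    (hδ : ∀ i, |δ i| ≤ s) : y + δ ∈ AffineMap.homothety c (1 + s / h) '' D := by
  set ρ : ℝ := s / h with hρ
  have hρ0 : 0 < ρ := by positivity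
  have hμ : 0 < 1 + ρ := by linarith
  have hmem : c + (h / s) • δ ∈ D := by
    apply hcube
    intro i
    simp only [Pi.add_apply, Pi.smul_apply, smul_eq_mul, add_sub_cancel_left]
    rw [abs_mul, abs_of_pos (by positivity)]
    have h1 := hδ i
    calc h / s * |δ i| ≤ h / s * s := by gcongr
      _ = h := by field_simp
  have h1 := hc hy hmem (a := (1 + ρ)⁻¹) (b := ρ * (1 + ρ)⁻¹) (by positivity) (by positivity) (by
    field_simp)
  refine ⟨_, h1, ?_⟩
  rw [AffineMap.homothety_apply]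
  ext i
  simp only [vsub_eq_sub, vadd_eq_add, Pi.add_apply, Pi.smul_apply, smul_eq_mul, Pi.sub_apply]
  have e : ρ * (h / s) = 1 := by
    rw [hρ]; field_simp
  have hne : (1 + ρ) ≠ 0 := hμ.ne'
  have hA : (1 + ρ) * (1 + ρ)⁻¹ = 1 := mul_inv_cancel₀ hne
  calc (1 + ρ) * ((1 + ρ)⁻¹ * y i + ρ * (1 + ρ)⁻¹ * (c i + h / s * δ i) - c i) + c i
      = ((1 + ρ) * (1 + ρ)⁻¹) * (y i + ρ * (c i + h / s * δ i)) - ρ * c i := by ring
    _ = y i + (ρ * (h / s)) * δ i := by rw [hA]; ring
    _ = y i + δ i := by rw [e, one_mul]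

open Classical in
/-- The `2^b`-fold energy of lattice points in a fat convex set. -/
theorem fat_N2 {D : Set (Fin m → ℝ)} (hc : Convex ℝ D) (hb : Bornology.IsBounded D)
    (hM : MeasurableSet D) {c : Fin m → ℝ} {h : ℝ} (b : ℕ) (hh : ((b : ℝ) + 1) * m ≤ h) (hh0 : 0 < h)
    (hcube : ∀ x : Fin m → ℝ, (∀ i, |x i - c i| ≤ h) → x ∈ D)
    (A : Finset (Fin m → ℤ)) (hA : ∀ v ∈ A, toR v ∈ D) (D₀ : ℕ)
    (hbox : ∀ v ∈ A, ∀ i, |v i| ≤ (D₀ : ℤ)) (hℓ : 2 ^ (b + 1) * D₀ < ℓ) :
    ENNReal.ofReal (N2 (pw b (indF (A.image (redvPC ℓ))))) ≤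
      ENNReal.ofReal (cE ^ m) ^ b * (ENNReal.ofReal 3 * volume D) ^ (2 ^ (b + 1) - 1) := by
  set s : ℝ := (b : ℝ) + 1 with hs
  have hs0 : 0 < s := by positivity
  set μ' : ℝ := 1 + s / h with hμ'
  have hμ0 : 0 < μ' := by positivity
  set H := AffineMap.homothety c μ' with hH
  have hHapp : ∀ y, H y = c + μ' • (y - c) := by
    intro y
    rw [hH, AffineMap.homothety_apply]
    simp [add_comm]
  set D' := H '' D with hD'
  have hc' : Convex ℝ D' := hc.affine_image H
  have hb' : Bornology.IsBounded D' := by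
    obtain ⟨R, hR⟩ := hb.exists_norm_le
    rw [isBounded_iff_forall_norm_le]
    refine ⟨‖c‖ + μ' * (R + ‖c‖), ?_⟩
    rintro _ ⟨y, hy, rfl⟩
    rw [hHapp]
    refine (norm_add_le _ _).trans ?_
    rw [norm_smul, Real.norm_of_nonneg hμ0.le]
    have h1 := hR y hy
    have h2 : ‖y - c‖ ≤ R + ‖c‖ := (norm_sub_le _ _).trans (by linarith)
    have h3 := mul_le_mul_of_nonneg_left h2 hμ0.le
    linarith
  have hM' : MeasurableSet D' := by
    have e : D' = (fun x => c + μ'⁻¹ • (x - c)) ⁻¹' D := by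
      ext x
      simp only [hD', mem_image, mem_preimage]
      constructor
      · rintro ⟨y, hy, rfl⟩
        rw [hHapp]
        have : c + μ'⁻¹ • (c + μ' • (y - c) - c) = y := by
          rw [add_sub_cancel_left, smul_smul, inv_mul_cancel₀ hμ0.ne', one_smul]
          abel
        rwa [this]
      · intro hx
        refine ⟨_, hx, ?_⟩
        rw [hHapp, add_sub_cancel_left, smul_smul, mul_inv_cancel₀ hμ0.ne', one_smul]
        abel
    rw [e]
    exact hM.preimage (by fun_prop)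
  have hvol : volume D' = ENNReal.ofReal (μ' ^ m) * volume D := by
    rw [hD', hH, Measure.addHaar_image_homothety, Module.finrank_fin_fun,
      abs_of_pos (by positivity)]
  have hpow : μ' ^ m ≤ 3 := by
    have h2 : μ' ≤ Real.exp (s / h) := by
      have := Real.add_one_le_exp (s / h)
      rw [hμ']; linarith
    have h3 : μ' ^ m ≤ Real.exp (s / h) ^ m := pow_le_pow_left₀ hμ0.le h2 m
    rw [← Real.exp_nat_mul] at h3
    have h4 : (m : ℝ) * (s / h) ≤ 1 := by
      rw [mul_div_assoc', div_le_one hh0]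
      linarith
    have h5 := Real.exp_le_exp.2 h4
    have h6 := Real.exp_one_lt_d9
    linarith
  have h2D : 2 * D₀ < ℓ := by
    have h1 : 2 ≤ 2 ^ (b + 1) := by
      calc 2 = 2 ^ 1 := by norm_num
        _ ≤ 2 ^ (b + 1) := Nat.pow_le_pow_right (by norm_num) (by omega)
    exact lt_of_le_of_lt (Nat.mul_le_mul_right _ h1) hℓ
  have hkey := N2_pw_le (A.image (redvPC ℓ)) (D'.indicator (1 : Vec m → ℝ≥0∞)) (ρ := s) (D := D₀) (b := b)
    (measurable_one.indicator hM') le_rfl hℓ (by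
      intro z hz
      obtain ⟨v, hv, rfl⟩ := Finset.mem_image.1 hz
      have hl : liftZ (redvPC ℓ v) = v := liftZ_eq (ℓ := ℓ) (fun i => by
        have h1 := hbox v hv i
        have h3 : (2 * (D₀ : ℤ)) < ℓ := by exact_mod_cast h2D
        omega)
      rw [hl]
      refine ⟨hbox v hv, fun x hx => ?_⟩
      have h1 : x ∈ D' := by
        have h2 := sl_grow_add' hc hh0 hs0 hcube (hA v hv) (δ := x - toR v) (fun i => by
          simpa [toR] using hx i)
        rw [add_sub_cancel] at h2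
        exact h2
      simp [h1])
  refine hkey.trans ((lintegral_cpow_ind_sq_le hc' hb' hM' b).trans ?_)
  gcongr
  rw [hvol]
  gcongr

end Fat

end Vale.Agent.Lib.P230
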