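import Vale.Agent.Lib.P230.StepCommon
import Vale.Agent.Lib.P230.Poisson3
import Vale.Agent.Lib.P230.Slicing2
import Vale.Agent.Lib.P230.UFoldLift

/-!
# P230: the recursion step, third form, with the iterated energy of the fibres.
-/

open MeasureTheory
open scoped ENNReal Pointwise

namespace Vale.Agent.Lib.P230

open Classical in
/-- The iterated energy of a set of lattice points in a dilated slice. -/
lemma fibre_N2_le {m bb D₀ Q : ℕ} [Fact Q.Prime]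
    {Sl : Set (Fin m → ℝ)} (hSc : Convex ℝ Sl)
    (hSb : ∀ x ∈ Sl, ∀ i, |x i| ≤ 1) (hSm : MeasurableSet Sl) {c : Fin m → ℝ}
    {h₀ τ V : ℝ} (hτ : 0 < τ) (hh₀ : ((bb : ℝ) + 1) * m ≤ τ * h₀) (hh₁ : 0 < τ * h₀)
    (hcube : ∀ x : Fin m → ℝ, (∀ i, |x i - c i| ≤ h₀) → x ∈ Sl)
    (hV : volume Sl ≤ ENNReal.ofReal V) (hV0 : 0 ≤ V)
    (S : Finset (Fin m → ℤ)) (hS : ∀ v ∈ S, τ⁻¹ • toR v ∈ Sl) (hSbox : ∀ v ∈ S, ∀ i, |v i| ≤ (D₀ : ℤ))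
    (hQb : 2 ^ (bb + 1) * D₀ < Q) :
    N2 (pw bb (indF (S.image (redvPC Q)))) ≤ (cE ^ m) ^ bb * (3 * (τ ^ m * V)) ^ (2 ^ (bb + 1) - 1) := by
  have hτne : τ ≠ 0 := hτ.ne'
  set D : Set (Fin m → ℝ) := (fun x => τ • x) '' Sl with hDdef
  have hDmem : ∀ y, y ∈ D ↔ τ⁻¹ • y ∈ Sl := by
    intro y
    constructor
    · rintro ⟨x, hx, rfl⟩
      simpa [smul_smul, inv_mul_cancel₀ hτne] using hx
    · intro hy
      exact ⟨τ⁻¹ • y, hy, by simp [smul_smul, mul_inv_cancel₀ hτne]⟩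
  have hDc : Convex ℝ D := hSc.is_linear_image (IsLinearMap.isLinearMap_smul τ)
  have hDbox : ∀ y ∈ D, ∀ i, |y i| ≤ τ := by
    rintro _ ⟨x, hx, rfl⟩ i
    have := hSb x hx i
    simp only [Pi.smul_apply, smul_eq_mul, abs_mul, abs_of_pos hτ]
    nlinarith [abs_nonneg (x i)]
  have hDb : Bornology.IsBounded D := by
    have : D ⊆ Set.Icc (fun _ => -τ) (fun _ => τ) := by
      intro y hy
      constructor <;> intro i <;> have := abs_le.1 (hDbox y hy i) <;> simp only <;> linarith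
    exact (isCompact_Icc).isBounded.subset this
  have hDm : MeasurableSet D := by
    have : D = (fun y => τ⁻¹ • y) ⁻¹' Sl := by
      ext y; exact hDmem y
    rw [this]
    exact (measurable_const_smul _) hSm
  have hDcube : ∀ x : Fin m → ℝ, (∀ i, |x i - (τ • c) i| ≤ τ * h₀) → x ∈ D := by
    intro x hx
    rw [hDmem]
    apply hcube
    intro i
    have := hx i
    have h3 : (τ⁻¹ • x) i - c i = τ⁻¹ * (x i - (τ • c) i) := by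
      simp only [Pi.smul_apply, smul_eq_mul]; field_simp
    rw [h3, abs_mul, abs_of_pos (inv_pos.2 hτ)]
    calc τ⁻¹ * |x i - (τ • c) i| ≤ τ⁻¹ * (τ * h₀) := by gcongr
      _ = h₀ := by field_simp
  have hvolD : volume D = ENNReal.ofReal (τ ^ m) * volume Sl := by
    have : D = τ • Sl := by
      rw [hDdef]; rfl
    rw [this, Measure.addHaar_smul]
    simp only [Module.finrank_fintype_fun_eq_card, Fintype.card_fin]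
    rw [abs_of_pos (by positivity)]
  have h1 := fat_N2 (ℓ := Q) hDc hDb hDm bb hh₀ hh₁ hDcube S
    (fun v hv => (hDmem _).2 (hS v hv)) D₀ hSbox hQb
  have hVD : volume D ≤ ENNReal.ofReal (τ ^ m * V) := by
    rw [hvolD, ENNReal.ofReal_mul (by positivity)]
    gcongr
  have hcE : 0 ≤ cE := by unfold cE; norm_num
  have hτV0 : 0 ≤ τ ^ m * V := by positivity
  have h2 : ENNReal.ofReal (cE ^ m) ^ bb * (ENNReal.ofReal 3 * volume D) ^ (2 ^ (bb + 1) - 1) ≤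
      ENNReal.ofReal ((cE ^ m) ^ bb * (3 * (τ ^ m * V)) ^ (2 ^ (bb + 1) - 1)) := by
    rw [ENNReal.ofReal_mul (by positivity), ENNReal.ofReal_pow (by positivity : (0 : ℝ) ≤ cE ^ m) bb,
      ENNReal.ofReal_pow (by positivity : (0 : ℝ) ≤ 3 * (τ ^ m * V)) _,
      ENNReal.ofReal_mul (by norm_num : (0 : ℝ) ≤ 3)]
    gcongr
  have h3 := h1.trans h2
  exact (ENNReal.ofReal_le_ofReal_iff (by positivity)).1 h3

open Classical in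
/-- Fibre selection for one base point. -/
lemma step_fibre3 {m r t c D₀ W Q q bb : ℕ} [Fact Q.Prime] [Fact q.Prime]
    {Sl : Set (Fin m → ℝ)} (hSc : Convex ℝ Sl)
    (hSb : ∀ x ∈ Sl, ∀ i, |x i| ≤ 1) (hSm : MeasurableSet Sl) {cs : Fin m → ℝ}
    {h₀ τ low V θ θ₀ ε ε₂ Ξ b : ℝ} {J : ℕ} (hτ : 0 < τ) (hτD : τ ≤ D₀) (hh₀ : 2 * (m : ℝ) ≤ τ * h₀)
    (hh₁ : 2 ≤ τ * h₀) (hcs : ∀ x : Fin m → ℝ, (∀ i, |x i - cs i| ≤ h₀) → x ∈ Sl)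
    (hlow : ENNReal.ofReal low ≤ volume Sl) (hV : volume Sl ≤ ENNReal.ofReal V) (hV0 : 0 ≤ V)
    (hW : 2 * (W : ℝ) ≤ τ ^ m * low)
    (hτV : τ ^ m * V ≤ 4 * W * Real.exp (J : ℝ))
    (hQD : 4 * D₀ < Q) (hq4 : 2 * D₀ < q) (hε0 : 0 ≤ ε)
    (hε : 1728 * cE ^ m * Real.exp (3 * (J : ℝ)) ≤ ε ^ 2)
    (hbb : 1 ≤ bb) (hh₂ : ((bb : ℝ) + 1) * m ≤ τ * h₀) (hQb : 2 ^ (bb + 1) * D₀ < Q)
    (hε₂0 : 0 ≤ ε₂) (hε₂ : (cE ^ m) ^ bb * (12 * Real.exp (J : ℝ)) ^ (2 ^ (bb + 1) - 1) ≤ ε₂)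
    (hΞ0 : 0 ≤ Ξ) (hΞ₁ : ((Q : ℝ) * θ) ^ (2 ^ (bb + 1)) * ε ≤ Ξ)
    (hΞ₂ : ((Q : ℝ) * θ) ^ (4 * t) * ε₂ ≤ Ξ)
    (hrt : r + 1 ≤ 2 * t)
    (hθ : θ = (W : ℝ) / (Q : ℝ) ^ c) (hθ1 : 1 ≤ θ)
    (hb : plMain3 r t θ Ξ + plThird D₀ r θ (pp Q c) ≤ b) :
    ∃ S : Finset (Fin m → ℤ), S.card = W ∧ (∀ v ∈ S, τ⁻¹ • toR v ∈ Sl) ∧
      (∀ v ∈ S, ∀ i, |v i| ≤ (D₀ : ℤ)) ∧
      (badCount Q q c r S : ℝ) ≤ (Q : ℝ) ^ (c * Fintype.card (Fin m) + c) * b := by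
  obtain ⟨S, hScard, hSmem, hSbox, hSen⟩ := exists_fibre_set hSc hSb hSm hτ hτD hh₀ hh₁ hcs hlow hV
    hV0 hW
  refine ⟨S, hScard, hSmem, hSbox, ?_⟩
  have hcE0 : 0 ≤ cE := by unfold cE; norm_num
  have hτV0 : 0 ≤ τ ^ m * V := by positivity
  have hEn : (energy S : ℝ) ≤ ε ^ 2 * (S.card : ℝ) ^ 3 := by
    rw [hScard]
    refine hSen.trans ?_
    have h8 : (τ ^ m * V) ^ 3 ≤ (4 * W * Real.exp (J : ℝ)) ^ 3 :=
      pow_le_pow_left₀ hτV0 hτV 3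
    have h9 : (4 * (W : ℝ) * Real.exp (J : ℝ)) ^ 3 = 64 * W ^ 3 * Real.exp (3 * (J : ℝ)) := by
      rw [mul_pow, mul_pow, ← Real.exp_nat_mul]
      norm_num
    calc 27 * cE ^ m * (τ ^ m * V) ^ 3
        ≤ 27 * cE ^ m * (64 * W ^ 3 * Real.exp (3 * (J : ℝ))) := by
          rw [← h9]; gcongr
      _ = (1728 * cE ^ m * Real.exp (3 * (J : ℝ))) * (W : ℝ) ^ 3 := by ring
      _ ≤ ε ^ 2 * (W : ℝ) ^ 3 := by gcongr
  have hN2 : N2 (pw bb (indF (S.image (redvPC Q)))) ≤ ε₂ * (S.card : ℝ) ^ (2 ^ (bb + 1) - 1) := by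
    rw [hScard]
    refine (fibre_N2_le hSc hSb hSm hτ hh₂ (by linarith) hcs hV hV0 S hSmem hSbox hQb).trans ?_
    have h8 : (3 * (τ ^ m * V)) ^ (2 ^ (bb + 1) - 1) ≤
        (12 * Real.exp (J : ℝ) * W) ^ (2 ^ (bb + 1) - 1) := by
      apply pow_le_pow_left₀ (by positivity)
      nlinarith only [hτV]
    have h9 : (0 : ℝ) ≤ (cE ^ m) ^ bb := by positivity
    calc (cE ^ m) ^ bb * (3 * (τ ^ m * V)) ^ (2 ^ (bb + 1) - 1)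
        ≤ (cE ^ m) ^ bb * (12 * Real.exp (J : ℝ) * W) ^ (2 ^ (bb + 1) - 1) :=
          mul_le_mul_of_nonneg_left h8 h9
      _ = ((cE ^ m) ^ bb * (12 * Real.exp (J : ℝ)) ^ (2 ^ (bb + 1) - 1)) *
            (W : ℝ) ^ (2 ^ (bb + 1) - 1) := by
          rw [mul_pow]; ring
      _ ≤ ε₂ * (W : ℝ) ^ (2 ^ (bb + 1) - 1) := by gcongr
  have hthetaS : θ = (S.card : ℝ) / (Q : ℝ) ^ c := by rw [hScard, hθ]
  have hθp : θ = (S.card : ℝ) * pp Q c := by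
    rw [hthetaS, pp]; ring
  have hQ1 : (1 : ℝ) ≤ (Q : ℝ) := by
    have := (Fact.out : Q.Prime).one_lt
    exact_mod_cast this.le
  have hQθ : 1 ≤ (Q : ℝ) * θ := by nlinarith only [hθ1, hQ1]
  have hPF := poisson_fibre3 (Q := Q) (q := q) S D₀ hSbox hq4 c r t hrt θ Ξ hthetaS hΞ0 (by
    intro h hh1 hh2
    have hp0 := pp_pos (Q := Q) (c := c)
    have e : ((Q : ℝ) * (S.card : ℝ)) ^ (h - 1) * pp Q c ^ (h - 1) = ((Q : ℝ) * θ) ^ (h - 1) := by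
      rw [← mul_pow, hθp]; ring
    by_cases hcase : h < 2 ^ (bb + 1)
    · have hc := relSet_count (ℓ := Q) S D₀ hSbox hQD hε0 hEn h hh1
      calc _ ≤ ((Q : ℝ) * (S.card : ℝ)) ^ (h - 1) * ε * pp Q c ^ (h - 1) :=
            mul_le_mul_of_nonneg_right (by convert hc) (by positivity)
        _ = ((Q : ℝ) * θ) ^ (h - 1) * ε := by rw [← e]; ring
        _ ≤ ((Q : ℝ) * θ) ^ (2 ^ (bb + 1)) * ε := by
            apply mul_le_mul_of_nonneg_right _ hε0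
            exact pow_le_pow_right₀ hQθ (by omega)
        _ ≤ Ξ := hΞ₁
    · have hc := relSet_count_u (ℓ := Q) S D₀ hSbox hQD hε₂0 bb hbb (by convert hN2) h (by omega)
      calc _ ≤ ((Q : ℝ) * (S.card : ℝ)) ^ (h - 1) * ε₂ * pp Q c ^ (h - 1) :=
            mul_le_mul_of_nonneg_right (by convert hc) (by positivity)
        _ = ((Q : ℝ) * θ) ^ (h - 1) * ε₂ := by rw [← e]; ring
        _ ≤ ((Q : ℝ) * θ) ^ (4 * t) * ε₂ := by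
            apply mul_le_mul_of_nonneg_right _ hε₂0
            exact pow_le_pow_right₀ hQθ (by omega)
        _ ≤ Ξ := hΞ₂)
  refine hPF.trans ?_
  exact mul_le_mul_of_nonneg_left hb (by positivity)

set_option maxHeartbeats 2000000 in
/-- The core of the recursion step, for one normalized body. -/
theorem step_core3 {k m r r' : ℕ} (hk : 100 ≤ k) (hm : 2 ≤ m) {τ₀ θ₀ ε b b₁ b₃ f_k D_k : ℝ}
    {Q t D₀ Qk_min Qk_max Qmin Qmax : ℕ}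
    (hcov : CovOn (Fin k) r' f_k D_k Qk_min Qk_max) (hDk : 0 ≤ D_k)
    (hQp : Q.Prime) (hQ1 : Qk_min ≤ Q) (hQ2 : Q ≤ Qk_max)
    (hτ₀ : 64 * ((k : ℝ) + m) ^ 3 ≤ τ₀)
    (hf : f_k ≤ τ₀ / (32 * ((k : ℝ) + m) * m))
    (hD₀ : 2 * τ₀ ≤ D₀) (hQD : 4 * D₀ < Q) (hqD : 4 * D₀ < Qmin) (hQm : Q ≤ 2 ^ m)
    (hθ₀ : 1 ≤ θ₀) (hexp : 4 * θ₀ * Real.exp (levelJ k m) ≤ 2 ^ m)
    (hrt : r + 1 ≤ 2 * t) (hε0 : 0 ≤ ε)
    (hε : 1728 * cE ^ m * Real.exp (3 * levelJ k m) ≤ ε ^ 2)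
    {bb : ℕ} (hbb : 1 ≤ bb) (hτb : ((bb : ℝ) + 1) * m ≤ τ₀ * (1 / (16 * ((k : ℝ) + m) ^ 2)))
    (hQb : 2 ^ (bb + 1) * D₀ < Q) {ε₂ Ξ : ℝ} (hε₂0 : 0 ≤ ε₂)
    (hε₂ : (cE ^ m) ^ bb * (12 * Real.exp (levelJ k m)) ^ (2 ^ (bb + 1) - 1) ≤ ε₂) (hΞ0 : 0 ≤ Ξ)
    (hΞ₁ : ∀ θ : ℝ, θ₀ ≤ θ → θ ≤ θ₀ + 1 → ((Q : ℝ) * θ) ^ (2 ^ (bb + 1)) * ε ≤ Ξ)
    (hΞ₂ : ∀ θ : ℝ, θ₀ ≤ θ → θ ≤ θ₀ + 1 → ((Q : ℝ) * θ) ^ (4 * t) * ε₂ ≤ Ξ)
    (hPL : ∀ θ : ℝ, θ₀ ≤ θ → θ ≤ θ₀ + 1 → plMain3 r t θ Ξ ≤ b₁)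
    (hthird : ((r : ℝ) + 1) * Real.exp (θ₀ + 1) * ((2 * D₀ + 1 : ℕ) : ℝ) ^ r *
      (4 * θ₀ * Real.exp (levelJ k m)) ≤ b₃ * (τ₀ * (2 * (1 / (16 * ((k : ℝ) + m) ^ 2)))) ^ m)
    (hbb' : b₁ + b₃ ≤ b) (hb : 0 ≤ b)
    (hU : ((2 * D₀ + 1 : ℕ) : ℝ) ^ (k + m) * (((2 * D₀ + 1 : ℕ) : ℝ) ^ k * b) ^ r' < 1)
    {E : Set (Fin k ⊕ Fin m → ℝ)} (hE : Normalized E) {q : ℕ} (hqp : q.Prime) (hq1 : Qmin ≤ q)
    (hq2 : q ≤ Qmax) :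
    ∃ τ : ℝ, τ₀ ≤ τ ∧ τ ≤ 2 * τ₀ ∧ ∃ Λ : AddSubgroup (Fin k ⊕ Fin m → ℤ), Λ.index ≠ 0 ∧
        ENNReal.ofReal (τ ^ (k + m)) * volume E ≤
          ENNReal.ofReal ((1024000000 * Real.sqrt k * θ₀ * D_k) * (Λ.index : ℝ)) ∧
        ∀ x : Fin k ⊕ Fin m → ℤ, ∃ v : Fin (r + 1) → Fin k ⊕ Fin m → ℤ, (∀ i, v i - x ∈ Λ) ∧
          (∀ i, ∃ e ∈ hom (lam1 (Fin k ⊕ Fin m) ^ 3) E, toR (v i) = τ • e) ∧ AffIndMod q v := by
  classical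
  have hcard : Fintype.card (Fin k ⊕ Fin m) = k + m := by simp
  have hm1 : (2 : ℝ) ≤ m := by exact_mod_cast hm
  have hk1 : (1 : ℝ) ≤ k := by exact_mod_cast (by omega : 1 ≤ k)
  have hn3 : (3 : ℝ) ≤ (k : ℝ) + m := by linarith
  have hτ₀pos : 0 < τ₀ := lt_of_lt_of_le (by positivity) hτ₀
  have : Fact Q.Prime := ⟨hQp⟩
  have : Fact q.Prime := ⟨hqp⟩
  obtain ⟨V, j, G, hV, hjJ, hGc, hGP, hVle, hGlow, hvol, c₀, hcube⟩ := slicing2 hk hm hE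
  have hn2' : 2 ≤ k + m := by omega
  have hlam0 : 0 ≤ lam1 (Fin k ⊕ Fin m) := by
    rw [lam1, hcard]
    have : 1 / (((k + m : ℕ) : ℝ)) ≤ 1 := by
      rw [div_le_one (by positivity)]
      exact_mod_cast (by omega : 1 ≤ k + m)
    linarith
  have hlam1 : lam1 (Fin k ⊕ Fin m) ≤ 1 := by
    rw [lam1]
    have : 0 ≤ 1 / ((Fintype.card (Fin k ⊕ Fin m) : ℕ) : ℝ) := by positivity
    linarith
  obtain ⟨hSlc, hSlm, hSlb, -⟩ := step_slices (by omega) hE (lam := lam1 (Fin k ⊕ Fin m) ^ 3)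
    (by positivity) (pow_le_one₀ hlam0 hlam1)
  obtain ⟨-, -, -, hPbox⟩ := step_slices (by omega) hE (lam := lam1 (Fin k ⊕ Fin m) ^ 4)
    (by positivity) (pow_le_one₀ hlam0 hlam1)
  have hGbox : ∀ z ∈ G, ∀ i, |z i| ≤ 1 := fun z hz => hPbox z (hGP hz)
  have hc₀ : c₀ ∈ G := by
    apply hcube
    intro i
    simp only [sub_self, abs_zero]
    positivity
  have hh₀pos : (0 : ℝ) < 1 / (16 * ((k : ℝ) + m) ^ 2) := by positivity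
  have hVlow : (2 * (1 / (16 * ((k : ℝ) + m) ^ 2))) ^ m ≤ V := by
    obtain ⟨c, hc⟩ := slice_fat (k := k) (m := m) hn2' hE (hGP hc₀)
    have h1 := volume_cube_le hh₀pos.le hc
    have h2 := h1.trans (hVle c₀)
    exact (ENNReal.ofReal_le_ofReal_iff hV.le).1 h2
  have hθ₀pos : 0 < θ₀ := by linarith
  have hapos : 0 < Real.exp (-(j : ℝ)) * V / (4 * θ₀) := by positivity
  have hJR : (j : ℝ) ≤ (levelJ k m : ℝ) := by exact_mod_cast hjJ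
  have h1a := step_h1a hn3 hm hτ₀ rfl hVlow hθ₀ hJR hexp
  have hQge2 : 2 ≤ Q := hQp.two_le
  obtain ⟨τ, c, hτ1, hτ2, hτc⟩ := exists_tau_c (m := m) (Q := Q) (by omega) hQge2 hQm hapos hτ₀pos h1a
  have hτpos : 0 < τ := lt_of_lt_of_le hτ₀pos hτ1
  have hQR : (1 : ℝ) ≤ (Q : ℝ) := by exact_mod_cast (by omega : 1 ≤ Q)
  obtain ⟨P, hP⟩ : ∃ P : ℝ, P = (Q : ℝ) ^ c := ⟨_, rfl⟩
  have hP1 : 1 ≤ P := by rw [hP]; exact one_le_pow₀ hQR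
  have hX : τ ^ m * (Real.exp (-(j : ℝ)) * V) = 4 * θ₀ * P := by
    rw [hP, ← hτc]
    field_simp
  obtain ⟨W, hW⟩ : ∃ W : ℕ, W = ⌈θ₀ * P⌉₊ := ⟨_, rfl⟩
  have hθP : 1 ≤ θ₀ * P := by nlinarith only [hθ₀, hP1]
  have hW1 : θ₀ * P ≤ W := by rw [hW]; exact Nat.le_ceil _
  have hW2 : (W : ℝ) < θ₀ * P + 1 := by rw [hW]; exact Nat.ceil_lt_add_one (by linarith)
  have hW3 : 2 * (W : ℝ) ≤ τ ^ m * (Real.exp (-(j : ℝ)) * V) := by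
    rw [hX]; linarith
  have hD₀τ : τ ≤ D₀ := by linarith
  have hmpos : (0 : ℝ) < m := by linarith
  obtain ⟨hB'conv, hB'bdd, hB'cube, hB'box, hB'mem⟩ := step_base (τ := τ) (f_k := f_k) hGc hGbox hcube hτpos (by
    calc f_k ≤ τ₀ / (32 * ((k : ℝ) + m) * m) := hf
      _ ≤ τ / (32 * ((k : ℝ) + m) * m) := by gcongr
      _ = τ * (1 / (32 * ((k : ℝ) + m) * m)) := by ring)
  obtain ⟨Λbar, hidx, hvolB, hhit⟩ := hcov (τ • G) hB'conv hB'bdd hB'cube Q hQp hQ1 hQ2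
  -- finite set of base points
  obtain ⟨Gfin, hGfin⟩ : ∃ Gfin : Finset (Fin k → ℤ), Gfin =
    (Fintype.piFinset (fun _ : Fin k => Finset.Icc (-(D₀ : ℤ)) D₀)).filter (fun z => toR z ∈ τ • G) := ⟨_, rfl⟩
  have hGfinmem : ∀ z, toR z ∈ τ • G → z ∈ Gfin := by
    intro z hz
    rw [hGfin]
    simp only [Finset.mem_filter, Fintype.mem_piFinset, Finset.mem_Icc]
    refine ⟨fun i => ?_, hz⟩
    have h1 := hB'box _ hz i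
    have h2 : |(z i : ℝ)| ≤ (D₀ : ℝ) := by
      have : toR z i = (z i : ℝ) := rfl
      rw [this] at h1
      linarith
    have h3 : |z i| ≤ (D₀ : ℤ) := by exact_mod_cast h2
    exact abs_le.1 h3
  have hG : ∀ z₀ : Fin k → ℤ, ∃ v : Fin (r' + 1) → Fin k → ℤ,
      (∀ i, v i - z₀ ∈ Λbar) ∧ (∀ i, v i ∈ Gfin) ∧ AffIndMod Q v := by
    intro z₀
    obtain ⟨v, h1, h2, h3⟩ := hhit z₀
    exact ⟨v, h1, fun i => hGfinmem _ (h2 i), h3⟩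
  have hGfinne : Gfin.Nonempty := by
    obtain ⟨v, _, h2, _⟩ := hG 0
    exact ⟨_, h2 0⟩
  -- fibres
  obtain ⟨θ, hθ⟩ : ∃ θ : ℝ, θ = (W : ℝ) / (Q : ℝ) ^ c := ⟨_, rfl⟩
  have hθ1 : θ₀ ≤ θ := by
    rw [hθ, ← hP, le_div_iff₀ (by linarith)]; exact hW1
  have hθ2 : θ ≤ θ₀ + 1 := by
    rw [hθ, ← hP, div_le_iff₀ (by linarith)]
    nlinarith only [hW2, hP1]
  have hq4 : 4 * D₀ < q := by omega
  have hthirdle : plThird D₀ r θ (pp Q c) ≤ b₃ := by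
    have hh₀2 : (0 : ℝ) ≤ 2 * (1 / (16 * ((k : ℝ) + m) ^ 2)) := by positivity
    have hA0 : 0 < (τ₀ * (2 * (1 / (16 * ((k : ℝ) + m) ^ 2)))) ^ m := by positivity
    have hP2 : (τ₀ * (2 * (1 / (16 * ((k : ℝ) + m) ^ 2)))) ^ m ≤ 4 * θ₀ * Real.exp (levelJ k m : ℝ) * P := by
      have h1 : τ₀ ^ m * (2 * (1 / (16 * ((k : ℝ) + m) ^ 2))) ^ m ≤ τ ^ m * V :=
        mul_le_mul (pow_le_pow_left₀ hτ₀pos.le hτ1 m) hVlow (by positivity) (by positivity)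
      have h2 : τ ^ m * V = 4 * θ₀ * P * Real.exp (j : ℝ) := by
        rw [← hX, mul_assoc, mul_comm (Real.exp (-(j : ℝ))) V, mul_assoc, ← Real.exp_add]
        simp
      rw [mul_pow]
      refine h1.trans ?_
      rw [h2]
      have h3 : Real.exp (j : ℝ) ≤ Real.exp (levelJ k m : ℝ) := Real.exp_le_exp.2 hJR
      have h4 : 0 ≤ 4 * θ₀ * P := by positivity
      calc 4 * θ₀ * P * Real.exp (j : ℝ) ≤ 4 * θ₀ * P * Real.exp (levelJ k m : ℝ) :=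
            mul_le_mul_of_nonneg_left h3 h4
        _ = _ := by ring
    have hPpos : 0 < P := by linarith
    have hpp : pp Q c = 1 / P := by rw [hP, pp]
    have hexpθ : Real.exp θ ≤ Real.exp (θ₀ + 1) := Real.exp_le_exp.2 hθ2
    have hr0 : (0 : ℝ) ≤ (r : ℝ) + 1 := by positivity
    have hD0 : (0 : ℝ) ≤ ((2 * D₀ + 1 : ℕ) : ℝ) ^ r := by positivity
    unfold plThird
    rw [hpp, one_div, inv_mul_le_iff₀ hPpos]
    have h5 : ((r : ℝ) + 1) * Real.exp θ * ((2 * D₀ + 1 : ℕ) : ℝ) ^ r ≤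
        ((r : ℝ) + 1) * Real.exp (θ₀ + 1) * ((2 * D₀ + 1 : ℕ) : ℝ) ^ r := by gcongr
    have hb3 : 0 ≤ b₃ := by
      by_contra hneg
      push Not at hneg
      have h6 : b₃ * (τ₀ * (2 * (1 / (16 * ((k : ℝ) + m) ^ 2)))) ^ m < 0 :=
        mul_neg_of_neg_of_pos hneg hA0
      have h7 : 0 ≤ ((r : ℝ) + 1) * Real.exp (θ₀ + 1) * ((2 * D₀ + 1 : ℕ) : ℝ) ^ r *
          (4 * θ₀ * Real.exp (levelJ k m)) := by positivity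
      linarith
    have h8 : ((r : ℝ) + 1) * Real.exp (θ₀ + 1) * ((2 * D₀ + 1 : ℕ) : ℝ) ^ r *
        (4 * θ₀ * Real.exp (levelJ k m)) ≤ b₃ * (4 * θ₀ * Real.exp (levelJ k m : ℝ) * P) :=
      hthird.trans (mul_le_mul_of_nonneg_left hP2 hb3)
    have h9 : 0 < 4 * θ₀ * Real.exp (levelJ k m : ℝ) := by positivity
    have h10 : ((r : ℝ) + 1) * Real.exp (θ₀ + 1) * ((2 * D₀ + 1 : ℕ) : ℝ) ^ r ≤ P * b₃ := by
      have : (((r : ℝ) + 1) * Real.exp (θ₀ + 1) * ((2 * D₀ + 1 : ℕ) : ℝ) ^ r) *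
          (4 * θ₀ * Real.exp (levelJ k m : ℝ)) ≤ (P * b₃) * (4 * θ₀ * Real.exp (levelJ k m : ℝ)) := by
        calc _ ≤ b₃ * (4 * θ₀ * Real.exp (levelJ k m : ℝ) * P) := h8
          _ = _ := by ring
      exact le_of_mul_le_mul_right this h9
    exact h5.trans h10
  have key : ∀ z ∈ Gfin, ∃ S : Finset (Fin m → ℤ), S.card = W ∧
      (∀ v ∈ S, τ⁻¹ • toR v ∈ slice (hom (lam1 (Fin k ⊕ Fin m) ^ 3) E) (τ⁻¹ • toR z)) ∧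
      (∀ v ∈ S, ∀ i, |v i| ≤ (D₀ : ℤ)) ∧
      (badCount Q q c r S : ℝ) ≤ (Q : ℝ) ^ (c * Fintype.card (Fin m) + c) * b := by
    intro z hz
    have hzG : τ⁻¹ • toR z ∈ G := by
      rw [hGfin] at hz
      simp only [Finset.mem_filter] at hz
      exact (hB'mem _).1 hz.2
    obtain ⟨cs, hcs⟩ := slice_fat (k := k) (m := m) hn2' hE (hGP hzG)
    have hτh : 4 * ((k : ℝ) + m) ≤ τ * (1 / (16 * ((k : ℝ) + m) ^ 2)) := by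
      have h5 : 64 * ((k : ℝ) + m) ^ 3 ≤ τ := by linarith
      rw [mul_one_div, le_div_iff₀ (by positivity)]
      nlinarith only [h5]
    have hτV : τ ^ m * V ≤ 4 * W * Real.exp (levelJ k m : ℝ) := by
      have h5 : τ ^ m * V = 4 * θ₀ * P * Real.exp (j : ℝ) := by
        rw [← hX, mul_assoc, mul_comm (Real.exp (-(j : ℝ))) V, mul_assoc, ← Real.exp_add]
        simp
      rw [h5]
      have h6 : Real.exp (j : ℝ) ≤ Real.exp (levelJ k m : ℝ) := Real.exp_le_exp.2 hJR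
      have h7 : 4 * θ₀ * P ≤ 4 * W := by linarith
      exact mul_le_mul h7 h6 (Real.exp_pos _).le (by positivity)
    have hτb' : ((bb : ℝ) + 1) * m ≤ τ * (1 / (16 * ((k : ℝ) + m) ^ 2)) :=
      hτb.trans (mul_le_mul_of_nonneg_right hτ1 (by positivity))
    exact step_fibre3 (cs := cs) (h₀ := 1 / (16 * ((k : ℝ) + m) ^ 2)) (low := Real.exp (-(j : ℝ)) * V)
      (V := V) (θ := θ) (θ₀ := θ₀) (J := levelJ k m) (hSlc _) (hSlb _) (hSlm _) hτpos hD₀τ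
      (by linarith) (by linarith) hcs (hGlow _ hzG) (hVle _) hV.le hW3 hτV hQD (by omega) hε0 hε
      hbb hτb' hQb hε₂0 hε₂ hΞ0 (hΞ₁ θ hθ1 hθ2) (hΞ₂ θ hθ1 hθ2) hrt hθ
      (by linarith) ((add_le_add (hPL θ hθ1 hθ2) hthirdle).trans hbb')
  choose! Sz hSz using key
  have hgcard : (Gfin.card : ℝ) ≤ ((2 * D₀ + 1 : ℕ) : ℝ) ^ k := by
    have h1 : Gfin.card ≤ (Fintype.piFinset (fun _ : Fin k => Finset.Icc (-(D₀ : ℤ)) D₀)).card := by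
      rw [hGfin]; exact Finset.card_filter_le _ _
    rw [card_box_eq] at h1
    exact_mod_cast h1
  have hPle : P ≤ ((2 * D₀ + 1 : ℕ) : ℝ) ^ m := by
    obtain ⟨z₁, hz₁⟩ := hGfinne
    obtain ⟨h1, _, h3, _⟩ := hSz z₁ hz₁
    have h4 : Sz z₁ ⊆ Fintype.piFinset (fun _ : Fin m => Finset.Icc (-(D₀ : ℤ)) D₀) := by
      intro v hv
      simp only [Fintype.mem_piFinset, Finset.mem_Icc]
      exact fun i => abs_le.1 (h3 v hv i)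
    have h5 := Finset.card_le_card h4
    rw [card_box_eq, h1] at h5
    have h7 : (W : ℝ) ≤ ((2 * D₀ + 1 : ℕ) : ℝ) ^ m := by exact_mod_cast h5
    have h8 : P ≤ W := by nlinarith only [hW1, hθ₀, hP1]
    linarith
  have hU' : (Gfin.card : ℝ) * (Q : ℝ) ^ c * ((Gfin.card : ℝ) * b) ^ r' < 1 := by
    refine lt_of_le_of_lt ?_ hU
    rw [pow_add, ← hP]
    have h1 : ((Gfin.card : ℝ) * b) ^ r' ≤ (((2 * D₀ + 1 : ℕ) : ℝ) ^ k * b) ^ r' := by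
      gcongr
    have h2 : (Gfin.card : ℝ) * P ≤ ((2 * D₀ + 1 : ℕ) : ℝ) ^ k * ((2 * D₀ + 1 : ℕ) : ℝ) ^ m := by
      exact mul_le_mul hgcard hPle (by linarith) (by positivity)
    exact mul_le_mul h2 h1 (by positivity) (by positivity)
  obtain ⟨Λ, hΛidx, hΛhit⟩ := lift_exists (Q := Q) (q := q) c r r' Λbar hidx Gfin hG Sz b hb
    (fun z hz => (hSz z hz).2.2.2) hU'
  refine ⟨τ, hτ1, hτ2, Λ, ?_, ?_, ?_⟩
  · rw [hΛidx]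
    exact mul_ne_zero hidx (pow_ne_zero _ (by omega))
  · have hvolB' : volume (τ • G) = ENNReal.ofReal (τ ^ k) * volume G := by
      rw [Measure.addHaar_smul]
      simp only [Module.finrank_fintype_fun_eq_card, Fintype.card_fin]
      rw [abs_of_pos (by positivity)]
    have hcast : ((Λ.index : ℕ) : ℝ) = (Λbar.index : ℝ) * P := by
      rw [hΛidx, hP]; push_cast; rfl
    have hvol' : volume (hom (lam1 (Fin k ⊕ Fin m) ^ 4) E) ≤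
        ENNReal.ofReal (110 * ((1000000 / 110) * Real.sqrt k) * (Real.exp (-(j : ℝ)) * V)) * volume G := by
      convert hvol using 3
      ring
    have h9 := step_vol (m := m) (k := k) (τ := τ) (A := Real.exp (-(j : ℝ)) * V)
      (J := (1000000 / 110) * Real.sqrt k) (Dk := D_k) (idx := (Λbar.index : ℝ)) (P := P) (θ₀ := θ₀)
      hτpos (by positivity) (by positivity) hDk (by positivity) (by linarith) hθ₀pos.le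
      (step_vol_E hn2') hvol' hvolB' hvolB hX
    rw [hcast]
    convert h9 using 2
    ring
  · intro x
    obtain ⟨z, hz, u, hu, hA, hΛ⟩ := hΛhit x
    refine ⟨fun i => Sum.elim z (u i), hΛ, ?_, affIndMod_sumElim z u hA⟩
    intro i
    exact step_hit hτpos.ne' z (u i) ((hSz z hz).2.1 (u i) (hu i))

/-- The recursion step. -/
theorem cov_step3 {k m r r' : ℕ} (hk : 100 ≤ k) (hm : 2 ≤ m) {τ₀ θ₀ ε b b₁ b₃ f_k D_k : ℝ}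
    {Q t D₀ Qk_min Qk_max Qmin Qmax : ℕ}
    (hcov : CovOn (Fin k) r' f_k D_k Qk_min Qk_max) (hDk : 0 ≤ D_k)
    (hQp : Q.Prime) (hQ1 : Qk_min ≤ Q) (hQ2 : Q ≤ Qk_max)
    (hτ₀ : 64 * ((k : ℝ) + m) ^ 3 ≤ τ₀)
    (hf : f_k ≤ τ₀ / (32 * ((k : ℝ) + m) * m))
    (hD₀ : 2 * τ₀ ≤ D₀) (hQD : 4 * D₀ < Q) (hqD : 4 * D₀ < Qmin) (hQm : Q ≤ 2 ^ m)
    (hQn : k + m + 2 ≤ Qmin)
    (hθ₀ : 1 ≤ θ₀) (hexp : 4 * θ₀ * Real.exp (levelJ k m) ≤ 2 ^ m)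
    (hrt : r + 1 ≤ 2 * t) (hε0 : 0 ≤ ε)
    (hε : 1728 * cE ^ m * Real.exp (3 * levelJ k m) ≤ ε ^ 2)
    {bb : ℕ} (hbb : 1 ≤ bb) (hτb : ((bb : ℝ) + 1) * m ≤ τ₀ * (1 / (16 * ((k : ℝ) + m) ^ 2)))
    (hQb : 2 ^ (bb + 1) * D₀ < Q) {ε₂ Ξ : ℝ} (hε₂0 : 0 ≤ ε₂)
    (hε₂ : (cE ^ m) ^ bb * (12 * Real.exp (levelJ k m)) ^ (2 ^ (bb + 1) - 1) ≤ ε₂) (hΞ0 : 0 ≤ Ξ)
    (hΞ₁ : ∀ θ : ℝ, θ₀ ≤ θ → θ ≤ θ₀ + 1 → ((Q : ℝ) * θ) ^ (2 ^ (bb + 1)) * ε ≤ Ξ)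
    (hΞ₂ : ∀ θ : ℝ, θ₀ ≤ θ → θ ≤ θ₀ + 1 → ((Q : ℝ) * θ) ^ (4 * t) * ε₂ ≤ Ξ)
    (hPL : ∀ θ : ℝ, θ₀ ≤ θ → θ ≤ θ₀ + 1 → plMain3 r t θ Ξ ≤ b₁)
    (hthird : ((r : ℝ) + 1) * Real.exp (θ₀ + 1) * ((2 * D₀ + 1 : ℕ) : ℝ) ^ r *
      (4 * θ₀ * Real.exp (levelJ k m)) ≤ b₃ * (τ₀ * (2 * (1 / (16 * ((k : ℝ) + m) ^ 2)))) ^ m)
    (hbb' : b₁ + b₃ ≤ b) (hb : 0 ≤ b)
    (hU : ((2 * D₀ + 1 : ℕ) : ℝ) ^ (k + m) * (((2 * D₀ + 1 : ℕ) : ℝ) ^ k * b) ^ r' < 1) :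
    CovOn (Fin k ⊕ Fin m) r (fatOf (k + m) τ₀)
      (3 * (1024000000 * Real.sqrt k * θ₀ * D_k)) Qmin Qmax := by
  have hcard : Fintype.card (Fin k ⊕ Fin m) = k + m := by simp
  have hm1 : (2 : ℝ) ≤ m := by exact_mod_cast hm
  have hk1 : (1 : ℝ) ≤ k := by exact_mod_cast (by omega : 1 ≤ k)
  have hn3 : (3 : ℝ) ≤ (k : ℝ) + m := by linarith
  have hcardR : ((Fintype.card (Fin k ⊕ Fin m) : ℕ) : ℝ) = (k : ℝ) + m := by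
    rw [hcard]; push_cast; rfl
  have hn2 : (64 : ℝ) * ((k : ℝ) + m) ^ 2 ≤ τ₀ := by
    refine le_trans ?_ hτ₀
    have : ((k : ℝ) + m) ^ 2 ≤ ((k : ℝ) + m) ^ 3 := by nlinarith only [hn3, sq_nonneg ((k : ℝ) + m)]
    linarith
  have hD' : 0 ≤ 1024000000 * Real.sqrt k * θ₀ * D_k := by
    have : 0 < θ₀ := by linarith
    positivity
  have key := reduce_to_normalized (ι := Fin k ⊕ Fin m) (by rw [hcard]; omega) r (τ₀ := τ₀)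
    (D := 1024000000 * Real.sqrt k * θ₀ * D_k) (Qmin := Qmin) (Qmax := Qmax)
    (by rw [hcardR]; exact hn2) hD' (by rw [hcard]; exact hQn) ?_
  · rwa [hcard] at key
  intro E hE q hqp hq1 hq2
  rw [hcard]
  exact step_core3 hk hm hcov hDk hQp hQ1 hQ2 hτ₀ hf hD₀ hQD hqD hQm hθ₀ hexp hrt hε0 hε hbb hτb hQb
    hε₂0 hε₂ hΞ0 hΞ₁ hΞ₂ hPL hthird hbb' hb hU hE hqp hq1 hq2


end Vale.Agent.Lib.P230
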