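import Vale.Agent.Lib.P230.Lift
import Vale.Agent.Lib.P230.Position
import Vale.Agent.Lib.P230.Slicing

/-!
# P230: lemmas for the recursion step.
-/

open MeasureTheory
open scoped ENNReal Pointwise

namespace Vale.Agent.Lib.P230

/-- Choice of the scale `τ` and the codimension `c`. -/
theorem exists_tau_c {a τ₀ : ℝ} {m Q : ℕ} (hm : 1 ≤ m) (hQ1 : 2 ≤ Q) (hQm : Q ≤ 2 ^ m)
    (ha : 0 < a) (hτ₀ : 0 < τ₀) (h1 : 1 < τ₀ ^ m * a) :
    ∃ (τ : ℝ) (c : ℕ), τ₀ ≤ τ ∧ τ ≤ 2 * τ₀ ∧ τ ^ m * a = (Q : ℝ) ^ c := by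
  have hQ1' : (1 : ℝ) < Q := by exact_mod_cast (by omega : 1 < Q)
  have hex : ∃ c : ℕ, τ₀ ^ m * a ≤ (Q : ℝ) ^ c := by
    obtain ⟨c, hc⟩ := pow_unbounded_of_one_lt (τ₀ ^ m * a) hQ1'
    exact ⟨c, hc.le⟩
  classical
  let c := Nat.find hex
  have hc : τ₀ ^ m * a ≤ (Q : ℝ) ^ c := Nat.find_spec hex
  have hc0 : c ≠ 0 := by
    intro h0
    rw [h0, pow_zero] at hc
    linarith
  have hcm : (Q : ℝ) ^ (c - 1) < τ₀ ^ m * a := by
    have := Nat.find_min hex (m := c - 1) (by omega)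
    simpa using this
  have hm0 : m ≠ 0 := by omega
  have hQpos : (0 : ℝ) < Q := by linarith
  set X : ℝ := (Q : ℝ) ^ c / a with hX
  have hXpos : 0 < X := by positivity
  refine ⟨X ^ ((m : ℝ)⁻¹), c, ?_, ?_, ?_⟩
  · have : τ₀ ^ m ≤ X := by
      rw [hX, le_div_iff₀ ha]; exact hc
    have h2 := Real.rpow_le_rpow (by positivity) this (by positivity : (0 : ℝ) ≤ (m : ℝ)⁻¹)
    rwa [← Real.rpow_natCast, ← Real.rpow_mul hτ₀.le, mul_inv_cancel₀ (by exact_mod_cast hm0),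
      Real.rpow_one] at h2
  · have : X ≤ (2 * τ₀) ^ m := by
      rw [hX, div_le_iff₀ ha, mul_pow]
      have h3 : (Q : ℝ) ^ c = Q * (Q : ℝ) ^ (c - 1) := by
        rw [← pow_succ']; congr 1; omega
      rw [h3]
      have h4 : (Q : ℝ) ≤ 2 ^ m := by exact_mod_cast hQm
      calc (Q : ℝ) * (Q : ℝ) ^ (c - 1) ≤ 2 ^ m * (τ₀ ^ m * a) := by
            apply mul_le_mul h4 hcm.le (by positivity) (by positivity)
        _ = 2 ^ m * τ₀ ^ m * a := by ring
    have h2 := Real.rpow_le_rpow hXpos.le this (by positivity : (0 : ℝ) ≤ (m : ℝ)⁻¹)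
    rwa [← Real.rpow_natCast (2 * τ₀), ← Real.rpow_mul (by positivity),
      mul_inv_cancel₀ (by exact_mod_cast hm0), Real.rpow_one] at h2
  · rw [← Real.rpow_natCast, ← Real.rpow_mul hXpos.le, inv_mul_cancel₀ (by exact_mod_cast hm0),
      Real.rpow_one, hX]
    field_simp

/-- Energy is monotone in the set. -/
lemma energy_mono {β : Type*} {S A : Finset (β → ℤ)} (h : S ⊆ A) : energy S ≤ energy A := by
  classical
  unfold energy
  apply Finset.card_le_card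
  intro p hp
  simp only [Finset.mem_filter, Finset.mem_product] at hp ⊢
  exact ⟨⟨h hp.1.1, h hp.1.2.1, h hp.1.2.2⟩, h hp.2⟩

/-- Independence passes from the fibre coordinates to the whole vector. -/
lemma affIndMod_sumElim {α β κ : Type*} {q : ℕ} (z : α → ℤ) (u : κ → β → ℤ)
    (h : AffIndMod q u) : AffIndMod q (fun j => Sum.elim z (u j)) := by
  unfold AffIndMod at h ⊢
  let f : ((α ⊕ β → ZMod q) × ZMod q) →ₗ[ZMod q] ((β → ZMod q) × ZMod q) :=
    (LinearMap.funLeft (ZMod q) (ZMod q) (Sum.inr : β → α ⊕ β)).prodMap LinearMap.id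
  apply LinearIndependent.of_comp f
  convert h using 1
  funext j
  apply Prod.ext
  · funext i
    simp [f, LinearMap.funLeft]
  · simp [f]

section Hom

variable {ι : Type} [Fintype ι]

lemma hom_eq (lam : ℝ) (E : Set (ι → ℝ)) :
    hom lam E = (AffineMap.homothety (cen ι) lam) '' E := by
  unfold hom
  apply Set.image_congr
  intro y _
  simp [AffineMap.homothety_apply, add_comm]

lemma Normalized.cen_mem_aux {E : Set (ι → ℝ)} (hE : Normalized E) (hι : 0 < Fintype.card ι) :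
    cen ι ∈ E := by
  apply hE.cube
  intro i
  simp only [sub_self, abs_zero]
  positivity

lemma Normalized.hom_subset {E : Set (ι → ℝ)} (hE : Normalized E) (hι : 0 < Fintype.card ι)
    {lam : ℝ} (h0 : 0 ≤ lam) (h1 : lam ≤ 1) : hom lam E ⊆ E := by
  rintro _ ⟨y, hy, rfl⟩
  have h2 := hE.convex (hE.cen_mem_aux hι) hy (sub_nonneg.2 h1) h0 (by ring)
  convert h2 using 1
  funext i
  simp only [Pi.add_apply, Pi.smul_apply, Pi.sub_apply, smul_eq_mul]
  ring

lemma Normalized.hom_compact {E : Set (ι → ℝ)} (hE : Normalized E) (lam : ℝ) :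
    IsCompact (hom lam E) := by
  apply hE.compact.image
  fun_prop

lemma Normalized.hom_convex {E : Set (ι → ℝ)} (hE : Normalized E) (lam : ℝ) :
    Convex ℝ (hom lam E) := by
  rw [hom_eq]
  exact hE.convex.affine_image _ 

lemma Normalized.volume_hom {E : Set (ι → ℝ)} (lam : ℝ) (h0 : 0 ≤ lam) :
    volume (hom lam E) = ENNReal.ofReal (lam ^ Fintype.card ι) * volume E := by
  rw [hom_eq, Measure.addHaar_image_homothety]
  simp only [Module.finrank_fintype_fun_eq_card]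
  rw [abs_of_nonneg (by positivity)]

end Hom

/-- A cube inside a set gives a volume lower bound. -/
lemma volume_cube_le {m : ℕ} {D : Set (Fin m → ℝ)} {c : Fin m → ℝ} {h : ℝ} (hh : 0 ≤ h)
    (hD : ∀ x : Fin m → ℝ, (∀ i, |x i - c i| ≤ h) → x ∈ D) :
    ENNReal.ofReal ((2 * h) ^ m) ≤ volume D := by
  have hsub : Set.Icc (fun i => c i - h) (fun i => c i + h) ⊆ D := by
    intro x hx
    apply hD
    intro i
    have h1 := hx.1 i
    have h2 := hx.2 i
    rw [abs_le]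
    constructor <;> simp only at h1 h2 <;> linarith
  refine le_trans ?_ (measure_mono hsub)
  rw [Real.volume_Icc_pi]
  have : ∀ i : Fin m, ENNReal.ofReal (c i + h - (c i - h)) = ENNReal.ofReal (2 * h) := by
    intro i; congr 1; ring
  simp only [this, Finset.prod_const, Finset.card_univ, Fintype.card_fin]
  rw [ENNReal.ofReal_pow (by positivity)]

/-- Data of a fibre: a set of exactly `W` lattice points in a scaled fat convex set,
with the energy bound. -/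
lemma exists_fibre_set {m : ℕ} {Sl : Set (Fin m → ℝ)} (hSc : Convex ℝ Sl)
    (hSb : ∀ x ∈ Sl, ∀ i, |x i| ≤ 1) (hSm : MeasurableSet Sl) {c : Fin m → ℝ} {h₀ τ low V : ℝ}
    {D₀ W : ℕ} (hτ : 0 < τ) (hτD : τ ≤ D₀) (hh₀ : 2 * (m : ℝ) ≤ τ * h₀) (hh₁ : 2 ≤ τ * h₀)
    (hcube : ∀ x : Fin m → ℝ, (∀ i, |x i - c i| ≤ h₀) → x ∈ Sl)
    (hlow : ENNReal.ofReal low ≤ volume Sl) (hV : volume Sl ≤ ENNReal.ofReal V) (hV0 : 0 ≤ V)
    (hW : 2 * (W : ℝ) ≤ τ ^ m * low) :
    ∃ S : Finset (Fin m → ℤ), S.card = W ∧ (∀ v ∈ S, τ⁻¹ • toR v ∈ Sl) ∧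
      (∀ v ∈ S, ∀ i, |v i| ≤ (D₀ : ℤ)) ∧
      (energy S : ℝ) ≤ 27 * cE ^ m * (τ ^ m * V) ^ 3 := by
  classical
  have hτne : τ ≠ 0 := hτ.ne'
  set D : Set (Fin m → ℝ) := (fun x => τ • x) '' Sl with hDdef
  have hDmem : ∀ y, y ∈ D ↔ τ⁻¹ • y ∈ Sl := by
    intro y
    constructor
    · rintro ⟨x, hx, rfl⟩
      simpa [smul_smul, inv_mul_cancel₀ hτne] using hx
    · intro hy
      exact ⟨τ⁻¹ • y, hy, by simp [smul_smul, mul_inv_cancel₀ hτne]⟩
  have hDc : Convex ℝ D := hSc.is_linear_image (IsLinearMap.isLinearMap_smul τ)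
  have hDbox : ∀ y ∈ D, ∀ i, |y i| ≤ τ := by
    rintro _ ⟨x, hx, rfl⟩ i
    have := hSb x hx i
    simp only [Pi.smul_apply, smul_eq_mul, abs_mul, abs_of_pos hτ]
    nlinarith [abs_nonneg (x i)]
  have hDb : Bornology.IsBounded D := by
    have : D ⊆ Set.Icc (fun _ => -τ) (fun _ => τ) := by
      intro y hy
      constructor <;> intro i <;> have := abs_le.1 (hDbox y hy i) <;> simp only <;> linarith
    exact (isCompact_Icc).isBounded.subset this
  have hDm : MeasurableSet D := by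
    have : D = (fun y => τ⁻¹ • y) ⁻¹' Sl := by
      ext y; exact hDmem y
    rw [this]
    exact (measurable_const_smul _) hSm
  have hDcube : ∀ x : Fin m → ℝ, (∀ i, |x i - (τ • c) i| ≤ τ * h₀) → x ∈ D := by
    intro x hx
    rw [hDmem]
    apply hcube
    intro i
    have := hx i
    have h3 : (τ⁻¹ • x) i - c i = τ⁻¹ * (x i - (τ • c) i) := by
      simp only [Pi.smul_apply, smul_eq_mul]; field_simp
    rw [h3, abs_mul, abs_of_pos (inv_pos.2 hτ)]
    calc τ⁻¹ * |x i - (τ • c) i| ≤ τ⁻¹ * (τ * h₀) := by gcongr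
      _ = h₀ := by field_simp
  have hvolD : volume D = ENNReal.ofReal (τ ^ m) * volume Sl := by
    have : D = τ • Sl := by
      rw [hDdef]; rfl
    rw [this, Measure.addHaar_smul]
    simp only [Module.finrank_fintype_fun_eq_card, Fintype.card_fin]
    rw [abs_of_pos (by positivity)]
  let box : Finset (Fin m → ℤ) := Fintype.piFinset (fun _ => Finset.Icc (-(D₀ : ℤ)) D₀)
  let A : Finset (Fin m → ℤ) := box.filter (fun v => toR v ∈ D)
  have hAmem : ∀ v, toR v ∈ D → v ∈ A := by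
    intro v hv
    simp only [A, box, Finset.mem_filter, Fintype.mem_piFinset, Finset.mem_Icc]
    refine ⟨fun i => ?_, hv⟩
    have h1 := hDbox _ hv i
    have h2 : |(v i : ℝ)| ≤ (D₀ : ℝ) := by
      have : toR v i = (v i : ℝ) := rfl
      rw [this] at h1
      linarith
    have h3 : |v i| ≤ (D₀ : ℤ) := by exact_mod_cast h2
    exact abs_le.1 h3
  have hcount := fat_count hDc hDb hh₀ hh₁ hDcube A hAmem
  have hlowD : ENNReal.ofReal (τ ^ m * low) ≤ volume D := by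
    rw [hvolD]
    by_cases hl : 0 ≤ low
    · rw [ENNReal.ofReal_mul (by positivity)]
      gcongr
    · rw [ENNReal.ofReal_of_nonpos (by
        have : τ ^ m * low ≤ 0 := mul_nonpos_of_nonneg_of_nonpos (by positivity) (by linarith)
        exact this)]
      exact bot_le
  have hWA : W ≤ A.card := by
    have h1 := hlowD.trans hcount
    by_cases hp : 0 < τ ^ m * low
    · rw [ENNReal.ofReal_le_ofReal_iff (by positivity)] at h1
      have : (W : ℝ) ≤ A.card := by linarith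
      exact_mod_cast this
    · have hW0 : (W : ℝ) ≤ 0 := by linarith
      have : W = 0 := by
        have : (W : ℝ) = 0 := le_antisymm hW0 (Nat.cast_nonneg _)
        exact_mod_cast this
      omega
  obtain ⟨S, hSA, hScard⟩ := Finset.exists_subset_card_eq hWA
  refine ⟨S, hScard, ?_, ?_, ?_⟩
  · intro v hv
    have := hSA hv
    simp only [A, Finset.mem_filter] at this
    exact (hDmem _).1 this.2
  · intro v hv i
    have := hSA hv
    simp only [A, box, Finset.mem_filter, Fintype.mem_piFinset, Finset.mem_Icc] at this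
    exact abs_le.2 (this.1 i)
  · have hE := fat_energy hDc hDb hDm hh₀ hh₁ hDcube A (fun v hv => by
      simp only [A, Finset.mem_filter] at hv; exact hv.2)
    have hVD : volume D ≤ ENNReal.ofReal (τ ^ m * V) := by
      rw [hvolD, ENNReal.ofReal_mul (by positivity)]
      gcongr
    have hcE : 0 ≤ cE := by unfold cE; norm_num
    have h5 : (energy A : ℝ≥0∞) ≤ ENNReal.ofReal (27 * cE ^ m * (τ ^ m * V) ^ 3) := by
      refine hE.trans ?_
      rw [ENNReal.ofReal_mul (by positivity : 0 ≤ 27 * cE ^ m),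
        ENNReal.ofReal_pow (by positivity : 0 ≤ τ ^ m * V)]
      gcongr
    have h6 : (energy S : ℝ) ≤ energy A := by exact_mod_cast energy_mono hSA
    have h7 : (energy A : ℝ) ≤ 27 * cE ^ m * (τ ^ m * V) ^ 3 := by
      have h8 : ENNReal.ofReal (energy A : ℝ) ≤ ENNReal.ofReal (27 * cE ^ m * (τ ^ m * V) ^ 3) := by
        rw [ENNReal.ofReal_natCast]; exact h5
      exact (ENNReal.ofReal_le_ofReal_iff (by positivity)).1 h8
    linarith

/-- Bernoulli: `(1 - 1/n)^n ≥ 1/4` for `n ≥ 2`. -/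
lemma one_sub_inv_pow_ge_aux {n : ℕ} (hn : 2 ≤ n) : (1 / 4 : ℝ) ≤ (1 - 1 / (n : ℝ)) ^ n := by
  have hn' : (2 : ℝ) ≤ n := by exact_mod_cast hn
  have h1 : (1 : ℝ) ≤ (n : ℝ) / 2 := by linarith
  have h2 := one_add_mul_self_le_rpow_one_add (s := -(1 / (n : ℝ))) (by
    have : 1 / (n : ℝ) ≤ 1 := by
      rw [div_le_one (by linarith)]; linarith
    linarith) h1
  have h3 : (n : ℝ) / 2 * (1 / (n : ℝ)) = 1 / 2 := by field_simp
  have h4 : (1 / 2 : ℝ) ≤ (1 + -(1 / (n : ℝ))) ^ ((n : ℝ) / 2) := by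
    have : 1 + (n : ℝ) / 2 * -(1 / (n : ℝ)) = 1 / 2 := by
      rw [mul_neg, h3]; norm_num
    linarith [h2]
  have h5 : (0 : ℝ) ≤ 1 + -(1 / (n : ℝ)) := by
    have : 1 / (n : ℝ) ≤ 1 := by
      rw [div_le_one (by linarith)]; linarith
    linarith
  have h6 : ((1 + -(1 / (n : ℝ))) ^ ((n : ℝ) / 2)) ^ 2 = (1 - 1 / (n : ℝ)) ^ n := by
    rw [← Real.rpow_natCast, ← Real.rpow_mul h5, ← Real.rpow_natCast]
    congr 1
    · ring
  rw [← h6]
  nlinarith [h4]

section SliceLemmas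

variable {α β : Type}

lemma slice_convex {C : Set (α ⊕ β → ℝ)} (hC : Convex ℝ C) (z : α → ℝ) :
    Convex ℝ (slice C z) := by
  intro x hx y hy a b ha hb hab
  have h := hC hx hy ha hb hab
  have h2 : a • Sum.elim z x + b • Sum.elim z y = Sum.elim z (a • x + b • y) := by
    funext i
    cases i with
    | inl i =>
      simp only [Pi.add_apply, Pi.smul_apply, Sum.elim_inl, smul_eq_mul]
      rw [← add_mul, hab, one_mul]
    | inr i => simp
  change Sum.elim z (a • x + b • y) ∈ C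
  rwa [← h2]

lemma slice_isClosed {C : Set (α ⊕ β → ℝ)} (hC : IsClosed C) (z : α → ℝ) :
    IsClosed (slice C z) := by
  have : Continuous (fun x : β → ℝ => Sum.elim z x) := by
    refine continuous_pi fun i => ?_
    cases i with
    | inl i => simpa using continuous_const
    | inr i => simpa using continuous_apply i
  exact hC.preimage this

end SliceLemmas

/-- Arithmetic: the scale equation has a solution. -/
lemma step_h1a {n τ₀ V θ₀ h₀ : ℝ} {m j J : ℕ} (hn3 : 3 ≤ n) (hm : 2 ≤ m)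
    (hτ₀ : 64 * n ^ 3 ≤ τ₀) (hh₀ : h₀ = 1 / (16 * n ^ 2)) (hVlow : (2 * h₀) ^ m ≤ V)
    (hθ₀ : 1 ≤ θ₀) (hjJ : (j : ℝ) ≤ J)
    (hexp : 4 * θ₀ * Real.exp (J : ℝ) ≤ 2 ^ m) :
    1 < τ₀ ^ m * (Real.exp (-(j : ℝ)) * V / (4 * θ₀)) := by
  have hnpos : 0 < n := by linarith
  have hθ₀pos : 0 < θ₀ := by linarith
  have hh₀pos : 0 < h₀ := by rw [hh₀]; positivity
  have h2 : (8 * n) ^ m ≤ τ₀ ^ m * V := by
    have h3 : (8 * n) ^ m = (64 * n ^ 3) ^ m * (2 * h₀) ^ m := by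
      rw [← mul_pow]
      congr 1
      rw [hh₀]
      field_simp
      ring
    rw [h3]
    apply mul_le_mul (pow_le_pow_left₀ (by positivity) hτ₀ m) hVlow (by positivity)
      (by linarith [show 0 < 64 * n ^ 3 by positivity, pow_pos (show 0 < 64 * n ^ 3 by positivity) m,
        pow_pos (lt_of_lt_of_le (show 0 < 64 * n ^ 3 by positivity) hτ₀) m])
  have h4 : (1 : ℝ) / 2 ^ m ≤ Real.exp (-(j : ℝ)) / (4 * θ₀) := by
    rw [div_le_div_iff₀ (by positivity) (by positivity)]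
    have h5 : Real.exp (-(j : ℝ)) * Real.exp (J : ℝ) ≥ 1 := by
      rw [← Real.exp_add]
      apply Real.one_le_exp
      linarith
    have h7 : 0 < Real.exp (-(j : ℝ)) := Real.exp_pos _
    calc 1 * (4 * θ₀) = 4 * θ₀ * 1 := by ring
      _ ≤ 4 * θ₀ * (Real.exp (-(j : ℝ)) * Real.exp (J : ℝ)) := by gcongr
      _ = Real.exp (-(j : ℝ)) * (4 * θ₀ * Real.exp (J : ℝ)) := by ring
      _ ≤ Real.exp (-(j : ℝ)) * 2 ^ m := by gcongr
  have h8 : τ₀ ^ m * (Real.exp (-(j : ℝ)) * V / (4 * θ₀))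
      = (τ₀ ^ m * V) * (Real.exp (-(j : ℝ)) / (4 * θ₀)) := by ring
  rw [h8]
  have h9 : (8 * n) ^ m * (1 / 2 ^ m) ≤ (τ₀ ^ m * V) * (Real.exp (-(j : ℝ)) / (4 * θ₀)) :=
    mul_le_mul h2 h4 (by positivity) (by
      have : 0 < 8 * n := by positivity
      have h5 := pow_pos this m
      linarith)
  have h10 : (8 * n) ^ m * (1 / 2 ^ m) = (4 * n) ^ m := by
    rw [mul_one_div, ← div_pow]
    congr 1
    ring
  rw [h10] at h9
  have h11 : (1 : ℝ) < 4 * n := by linarith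
  have h12 : (1 : ℝ) < (4 * n) ^ m := one_lt_pow₀ h11 (by omega)
  linarith

/-- The scaled convex base. -/
lemma step_base {k : ℕ} {G : Set (Fin k → ℝ)} (hGc : Convex ℝ G) (hGbox : ∀ z ∈ G, ∀ i, |z i| ≤ 1)
    {c₀ : Fin k → ℝ} {h₁ τ f_k : ℝ} (hcube : ∀ z : Fin k → ℝ, (∀ i, |z i - c₀ i| ≤ h₁) → z ∈ G)
    (hτ : 0 < τ) (hf : f_k ≤ τ * h₁) :
    Convex ℝ (τ • G) ∧ Bornology.IsBounded (τ • G) ∧
      (∃ c : Fin k → ℝ, ∀ x : Fin k → ℝ, (∀ i, |x i - c i| ≤ f_k) → x ∈ τ • G) ∧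
      (∀ y ∈ τ • G, ∀ i, |y i| ≤ τ) ∧ (∀ y, y ∈ τ • G ↔ τ⁻¹ • y ∈ G) := by
  have hmem : ∀ y, y ∈ τ • G ↔ τ⁻¹ • y ∈ G := fun y =>
    Set.mem_smul_set_iff_inv_smul_mem₀ hτ.ne' _ _
  have hbox : ∀ y ∈ τ • G, ∀ i, |y i| ≤ τ := by
    intro y hy i
    have h1 := hGbox _ ((hmem y).1 hy) i
    simp only [Pi.smul_apply, smul_eq_mul, abs_mul, abs_of_pos (inv_pos.2 hτ)] at h1
    have : |y i| = τ * (τ⁻¹ * |y i|) := by field_simp
    rw [this]
    nlinarith [abs_nonneg (y i)]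
  refine ⟨hGc.smul τ, ?_, ?_, hbox, hmem⟩
  · have : τ • G ⊆ Set.Icc (fun _ => -τ) (fun _ => τ) := by
      intro y hy
      constructor <;> intro i <;> have := abs_le.1 (hbox y hy i) <;> simp only <;> linarith
    exact (isCompact_Icc).isBounded.subset this
  · refine ⟨τ • c₀, fun x hx => ?_⟩
    rw [hmem]
    apply hcube
    intro i
    have h3 : (τ⁻¹ • x) i - c₀ i = τ⁻¹ * (x i - (τ • c₀) i) := by
      simp only [Pi.smul_apply, smul_eq_mul]; field_simp
    rw [h3, abs_mul, abs_of_pos (inv_pos.2 hτ)]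
    have h4 := hx i
    calc τ⁻¹ * |x i - (τ • c₀) i| ≤ τ⁻¹ * f_k := by gcongr
      _ ≤ τ⁻¹ * (τ * h₁) := by gcongr
      _ = h₁ := by field_simp

/-- The volume chain. -/
lemma step_vol {vE vC1 vG vB : ℝ≥0∞} {τ A J Dk idx P θ₀ : ℝ} {k m : ℕ}
    (hτ : 0 < τ) (hA : 0 ≤ A) (hJ : 0 ≤ J) (hDk : 0 ≤ Dk) (hidx : 0 ≤ idx) (hP : 0 ≤ P)
    (hθ₀ : 0 ≤ θ₀)
    (hE : vE ≤ ENNReal.ofReal 256 * vC1) (hC1 : vC1 ≤ ENNReal.ofReal (110 * J * A) * vG)
    (hB : vB = ENNReal.ofReal (τ ^ k) * vG) (hB2 : vB ≤ ENNReal.ofReal (Dk * idx))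
    (hX : τ ^ m * A = 4 * θ₀ * P) :
    ENNReal.ofReal (τ ^ (k + m)) * vE ≤ ENNReal.ofReal (112640 * J * θ₀ * Dk * (idx * P)) := by
  have h1 : ENNReal.ofReal (τ ^ (k + m)) * vE
      ≤ ENNReal.ofReal (τ ^ (k + m)) * (ENNReal.ofReal 256 * (ENNReal.ofReal (110 * J * A) * vG)) := by
    gcongr
    exact hE.trans (by gcongr)
  refine h1.trans ?_
  have h2 : ENNReal.ofReal (τ ^ (k + m)) * (ENNReal.ofReal 256 * (ENNReal.ofReal (110 * J * A) * vG))
      = ENNReal.ofReal (256 * (110 * J) * (τ ^ m * A)) * vB := by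
    rw [hB, pow_add, ENNReal.ofReal_mul (by positivity : (0 : ℝ) ≤ τ ^ k),
      ENNReal.ofReal_mul (by positivity : (0 : ℝ) ≤ 110 * J),
      ENNReal.ofReal_mul (by positivity : (0 : ℝ) ≤ 256 * (110 * J)),
      ENNReal.ofReal_mul (by positivity : (0 : ℝ) ≤ (256 : ℝ)),
      ENNReal.ofReal_mul (by positivity : (0 : ℝ) ≤ τ ^ m),
      ENNReal.ofReal_mul (by positivity : (0 : ℝ) ≤ (110 : ℝ))]
    ring
  rw [h2, hX]
  calc ENNReal.ofReal (256 * (110 * J) * (4 * θ₀ * P)) * vB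
      ≤ ENNReal.ofReal (256 * (110 * J) * (4 * θ₀ * P)) * ENNReal.ofReal (Dk * idx) := by gcongr
    _ = _ := by
      rw [← ENNReal.ofReal_mul (by positivity)]
      congr 1
      ring

/-- The hits of the lift give the required hits. -/
lemma step_hit {k m : ℕ} {C0 : Set (Fin k ⊕ Fin m → ℝ)} {τ : ℝ} (hτ : τ ≠ 0) (z : Fin k → ℤ)
    (u : Fin m → ℤ) (h1 : τ⁻¹ • toR u ∈ slice C0 (τ⁻¹ • toR z)) :
    ∃ e ∈ C0, toR (Sum.elim z u) = τ • e := by
  refine ⟨τ⁻¹ • toR (Sum.elim z u), ?_, ?_⟩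
  · have h2 : Sum.elim (τ⁻¹ • toR z) (τ⁻¹ • toR u) = τ⁻¹ • toR (Sum.elim z u) := by
      funext l
      cases l with
      | inl l => simp [toR]
      | inr l => simp [toR]
    rw [← h2]
    exact h1
  · rw [smul_smul, mul_inv_cancel₀ hτ, one_smul]

lemma card_box_eq {k : ℕ} (D₀ : ℕ) :
    (Fintype.piFinset (fun _ : Fin k => Finset.Icc (-(D₀ : ℤ)) D₀)).card = (2 * D₀ + 1) ^ k := by
  have hIccCard : (Finset.Icc (-(D₀ : ℤ)) D₀).card = 2 * D₀ + 1 := by
    rw [Int.card_Icc]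
    omega
  simp only [Fintype.card_piFinset, hIccCard, Finset.prod_const, Finset.card_univ,
    Fintype.card_fin]

lemma step_vol_E {k m : ℕ} (hn2 : 2 ≤ k + m) {E : Set (Fin k ⊕ Fin m → ℝ)} :
    volume E ≤ ENNReal.ofReal 256 * volume (hom (lam1 (Fin k ⊕ Fin m) ^ 4) E) := by
  have hcard : Fintype.card (Fin k ⊕ Fin m) = k + m := by simp
  have hlamval : lam1 (Fin k ⊕ Fin m) = 1 - 1 / (((k + m : ℕ) : ℝ)) := by
    rw [lam1, hcard]
  have hlam0 : 0 ≤ lam1 (Fin k ⊕ Fin m) := by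
    rw [hlamval]
    have : 1 / (((k + m : ℕ) : ℝ)) ≤ 1 := by
      rw [div_le_one (by positivity)]
      exact_mod_cast (by omega : 1 ≤ k + m)
    linarith
  have hvolC1 : ENNReal.ofReal (1 / 256) * volume E ≤ volume (hom (lam1 (Fin k ⊕ Fin m) ^ 4) E) := by
    rw [Normalized.volume_hom (E := E) _ (by positivity)]
    gcongr
    rw [hcard]
    have h1 := one_sub_inv_pow_ge_aux hn2
    have h2 : lam1 (Fin k ⊕ Fin m) ^ (k + m) = (1 - 1 / ((k + m : ℕ) : ℝ)) ^ (k + m) := by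
      rw [hlamval]
    rw [← pow_mul, mul_comm, pow_mul, h2]
    calc (1 / 256 : ℝ) = (1 / 4) ^ 4 := by norm_num
      _ ≤ _ := pow_le_pow_left₀ (by norm_num) h1 4
  have h1 : volume E = ENNReal.ofReal 256 * (ENNReal.ofReal (1 / 256) * volume E) := by
    rw [← mul_assoc, ← ENNReal.ofReal_mul (by norm_num)]
    norm_num
  rw [h1]
  gcongr

/-- Facts on slices of a normalized body. -/
lemma step_slices {k m : ℕ} (hcardpos : 0 < k + m) {E : Set (Fin k ⊕ Fin m → ℝ)} (hE : Normalized E)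
    {lam : ℝ} (h0 : 0 ≤ lam) (h1 : lam ≤ 1) :
    (∀ z, Convex ℝ (slice (hom lam E) z)) ∧ (∀ z, MeasurableSet (slice (hom lam E) z)) ∧
    (∀ z, ∀ x ∈ slice (hom lam E) z, ∀ i, |x i| ≤ 1) ∧
    (∀ z ∈ proj (hom lam E), ∀ i, |z i| ≤ 1) := by
  have hc : 0 < Fintype.card (Fin k ⊕ Fin m) := by simpa using hcardpos
  have hsub := hE.hom_subset hc h0 h1
  refine ⟨fun z => slice_convex (hE.hom_convex lam) z,
    fun z => (slice_isClosed (hE.hom_compact lam).isClosed z).measurableSet, ?_, ?_⟩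
  · intro z x hx i
    have := hE.bound _ (hsub hx) (Sum.inr i)
    simpa using this
  · intro z hz i
    obtain ⟨x, hx⟩ := hz
    have := hE.bound _ (hsub hx) (Sum.inl i)
    simpa using this

end Vale.Agent.Lib.P230
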