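import Vale.Agent.Lib.P230.PoissonCore

/-!
# P230: iterated convolutions on a finite abelian group and the count of relation sets.

`cv`, `N2`, `pw`: convolution, square norm and iterated convolution powers of real functions.
The Gowers-Cauchy-Schwarz inequality gives, for a convolution of `2^b` dilates of a function `A`,
the bound by the `2^b`-fold energy of `A`, whatever the dilations are.
-/

open scoped BigOperators
open Finset

set_option linter.unusedSectionVars false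

namespace Vale.Agent.Lib.P230

section Conv

variable {V : Type*} [AddCommGroup V] [Fintype V]

/-- Convolution. -/
noncomputable def cv (f g : V → ℝ) (z : V) : ℝ := ∑ x, f x * g (z - x)

/-- Square norm. -/
noncomputable def N2 (f : V → ℝ) : ℝ := ∑ z, f z ^ 2

lemma N2_nonneg (f : V → ℝ) : 0 ≤ N2 f := Finset.sum_nonneg fun _ _ => sq_nonneg _

lemma cv_comm (f g : V → ℝ) : cv f g = cv g f := by
  funext z
  unfold cv
  rw [← Equiv.sum_comp (Equiv.subLeft z)]
  refine Finset.sum_congr rfl fun x _ => ?_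
  simp only [Equiv.subLeft_apply, sub_sub_cancel]
  ring

lemma cv_assoc (f g h : V → ℝ) : cv (cv f g) h = cv f (cv g h) := by
  funext z
  unfold cv
  simp_rw [Finset.sum_mul, Finset.mul_sum]
  rw [Finset.sum_comm]
  refine Finset.sum_congr rfl fun y _ => ?_
  rw [← Equiv.sum_comp (Equiv.addRight y)]
  refine Finset.sum_congr rfl fun x _ => ?_
  simp only [Equiv.coe_addRight, add_sub_cancel_right]
  have : z - (x + y) = z - y - x := by abel
  rw [this]
  ring

lemma cv_swap (f g f' g' : V → ℝ) : cv (cv f g) (cv f' g') = cv (cv f f') (cv g g') := by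
  rw [cv_assoc, ← cv_assoc g, cv_comm g f', cv_assoc f', ← cv_assoc f]

/-- Iterated convolution powers. -/
noncomputable def pw : ℕ → (V → ℝ) → V → ℝ
  | 0, f => f
  | a + 1, f => cv (pw a f) (pw a f)

lemma pw_cv (a : ℕ) (f g : V → ℝ) : pw a (cv f g) = cv (pw a f) (pw a g) := by
  induction a with
  | zero => rfl
  | succ a ih =>
    simp only [pw]
    rw [ih, cv_swap]

/-- Autocorrelation. -/
noncomputable def acr (f : V → ℝ) (δ : V) : ℝ := ∑ x, f x * f (x - δ)

lemma N2_cv_eq (f g : V → ℝ) : N2 (cv f g) = ∑ δ, acr f δ * acr g δ := by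
  classical
  unfold N2 cv acr
  have h1 : ∀ z : V, (∑ x, f x * g (z - x)) ^ 2 =
      ∑ x, ∑ δ, (f x * f (x - δ)) * (g (z - x) * g (z - x + δ)) := by
    intro z
    rw [sq, Finset.sum_mul_sum]
    refine Finset.sum_congr rfl fun x _ => ?_
    rw [← Equiv.sum_comp (Equiv.subLeft x)]
    refine Finset.sum_congr rfl fun δ _ => ?_
    simp only [Equiv.subLeft_apply]
    have : z - (x - δ) = z - x + δ := by abel
    rw [this]
    ring
  have h2 : ∀ x δ : V, ∑ z, (f x * f (x - δ)) * (g (z - x) * g (z - x + δ)) =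
      (f x * f (x - δ)) * ∑ y, g y * g (y - δ) := by
    intro x δ
    rw [Finset.mul_sum, ← Equiv.sum_comp (Equiv.addRight (x - δ))]
    refine Finset.sum_congr rfl fun y _ => ?_
    simp only [Equiv.coe_addRight]
    have e1 : y + (x - δ) - x = y - δ := by abel
    have e2 : y - δ + δ = y := by abel
    rw [e1, e2]
    ring
  simp_rw [h1]
  calc ∑ z, ∑ x, ∑ δ, (f x * f (x - δ)) * (g (z - x) * g (z - x + δ))
      = ∑ x, ∑ z, ∑ δ, (f x * f (x - δ)) * (g (z - x) * g (z - x + δ)) := Finset.sum_comm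
    _ = ∑ x, ∑ δ, ∑ z, (f x * f (x - δ)) * (g (z - x) * g (z - x + δ)) :=
        Finset.sum_congr rfl fun x _ => Finset.sum_comm
    _ = ∑ x, ∑ δ, (f x * f (x - δ)) * ∑ y, g y * g (y - δ) :=
        Finset.sum_congr rfl fun x _ => Finset.sum_congr rfl fun δ _ => h2 x δ
    _ = ∑ δ, ∑ x, (f x * f (x - δ)) * ∑ y, g y * g (y - δ) := Finset.sum_comm
    _ = _ := Finset.sum_congr rfl fun δ _ => by rw [Finset.sum_mul]

/-- Gowers-Cauchy-Schwarz for convolutions. -/
lemma N2_cv_sq_le (f g : V → ℝ) : N2 (cv f g) ^ 2 ≤ N2 (cv f f) * N2 (cv g g) := by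
  rw [N2_cv_eq, N2_cv_eq, N2_cv_eq]
  have := Finset.sum_mul_sq_le_sq_mul_sq (Finset.univ : Finset V) (acr f) (acr g)
  simpa only [sq] using this

/-- Cauchy-Schwarz for the value of a convolution. -/
lemma cv_apply_sq_le (f g : V → ℝ) (z : V) : cv f g z ^ 2 ≤ N2 f * N2 g := by
  unfold cv N2
  have := Finset.sum_mul_sq_le_sq_mul_sq (Finset.univ : Finset V) f (fun x => g (z - x))
  refine this.trans (le_of_eq ?_)
  congr 1
  exact Equiv.sum_comp (Equiv.subLeft z) (fun y => g y ^ 2)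

lemma cv_comp (σ : V ≃+ V) (f g : V → ℝ) : cv (f ∘ σ) (g ∘ σ) = cv f g ∘ σ := by
  funext z
  simp only [cv, Function.comp]
  rw [← Equiv.sum_comp σ.toEquiv (fun x => f x * g (σ z - x))]
  refine Finset.sum_congr rfl fun x _ => ?_
  simp only [AddEquiv.toEquiv_eq_coe, EquivLike.coe_coe, map_sub]

lemma N2_comp (σ : V ≃+ V) (f : V → ℝ) : N2 (f ∘ σ) = N2 f := by
  unfold N2
  exact Equiv.sum_comp σ.toEquiv (fun z => f z ^ 2)

lemma pw_comp (σ : V ≃+ V) (a : ℕ) (f : V → ℝ) : pw a (f ∘ σ) = pw a f ∘ σ := by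
  induction a with
  | zero => rfl
  | succ a ih =>
    simp only [pw]
    rw [ih, cv_comp]

/-- Iterated convolutions of `2^b` dilates of `A`. -/
def Fam (A : V → ℝ) : ℕ → (V → ℝ) → Prop
  | 0, f => ∃ σ : V ≃+ V, f = A ∘ σ
  | b + 1, f => ∃ g h, Fam A b g ∧ Fam A b h ∧ f = cv g h

lemma fam_N2 (A : V → ℝ) : ∀ (b a : ℕ) (f : V → ℝ), Fam A b f → N2 (pw a f) ≤ N2 (pw (a + b) A) := by
  intro b
  induction b with
  | zero =>
    rintro a f ⟨σ, rfl⟩
    rw [pw_comp, N2_comp]
    exact le_rfl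
  | succ b ih =>
    rintro a f ⟨g, h, hg, hh, rfl⟩
    have h1 := ih (a + 1) g hg
    have h2 := ih (a + 1) h hh
    have e : a + 1 + b = a + (b + 1) := by ring
    rw [e] at h1 h2
    set M := N2 (pw (a + (b + 1)) A) with hM
    have hM0 : 0 ≤ M := N2_nonneg _
    rw [pw_cv]
    have h3 := N2_cv_sq_le (pw a g) (pw a h)
    have h4 : N2 (cv (pw a g) (pw a g)) = N2 (pw (a + 1) g) := rfl
    have h5 : N2 (cv (pw a h) (pw a h)) = N2 (pw (a + 1) h) := rfl
    rw [h4, h5] at h3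
    have h6 : N2 (pw (a + 1) g) * N2 (pw (a + 1) h) ≤ M ^ 2 := by
      rw [sq]
      exact mul_le_mul h1 h2 (N2_nonneg _) hM0
    have h7 := abs_le_of_sq_le_sq (h3.trans h6) hM0
    exact (le_abs_self _).trans h7

/-- The value of a convolution of two members of the family. -/
lemma fam_cv_apply_le (A : V → ℝ) {b : ℕ} {f g : V → ℝ} (hf : Fam A b f) (hg : Fam A b g) (z : V) :
    cv f g z ≤ N2 (pw b A) := by
  have h1 := fam_N2 A b 0 f hf
  have h2 := fam_N2 A b 0 g hg
  rw [zero_add] at h1 h2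
  have h3 := cv_apply_sq_le f g z
  have hM0 : 0 ≤ N2 (pw b A) := N2_nonneg _
  have h4 : N2 f * N2 g ≤ N2 (pw b A) ^ 2 := by
    rw [sq]
    exact mul_le_mul h1 h2 (N2_nonneg _) hM0
  have h5 := abs_le_of_sq_le_sq (h3.trans h4) hM0
  exact (le_abs_self _).trans h5

/-- Monotonicity of convolution powers. -/
lemma pw_mono {f g : V → ℝ} (h0 : ∀ x, 0 ≤ f x) (h : ∀ x, f x ≤ g x) (a : ℕ) :
    (∀ x, 0 ≤ pw a f x) ∧ ∀ x, pw a f x ≤ pw a g x := by
  induction a with
  | zero => exact ⟨h0, h⟩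
  | succ a ih =>
    refine ⟨fun x => Finset.sum_nonneg fun y _ => mul_nonneg (ih.1 _) (ih.1 _), fun x => ?_⟩
    refine Finset.sum_le_sum fun y _ => ?_
    exact mul_le_mul (ih.2 _) (ih.2 _) (ih.1 _) ((ih.1 _).trans (ih.2 _))

end Conv

section Count

open Classical

variable {V : Type} [AddCommGroup V] [Fintype V]

/-- The indicator of a finset, as a real function. -/
noncomputable def indF (A : Finset V) (x : V) : ℝ := if x ∈ A then 1 else 0

/-- The number of tuples in `A` with a prescribed combination. -/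
noncomputable def Phi (A : Finset V) (ι : Type) [Fintype ι] (σ : ι → V ≃+ V) (z : V) : ℝ :=
  (((Fintype.piFinset fun _ : ι => A).filter (fun x => ∑ i, σ i (x i) = z)).card : ℝ)

lemma Phi_equiv (A : Finset V) {ι κ : Type} [Fintype ι] [Fintype κ] (e : ι ≃ κ) (σ : κ → V ≃+ V)
    (z : V) : Phi A ι (σ ∘ e) z = Phi A κ σ z := by
  unfold Phi
  congr 1
  refine Finset.card_nbij' (fun x => x ∘ e.symm) (fun y => y ∘ e) ?_ ?_ ?_ ?_
  · intro x hx
    simp only [Finset.coe_filter, Set.mem_ofPred_eq, Fintype.mem_piFinset, Function.comp] at hx ⊢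
    refine ⟨fun i => hx.1 _, ?_⟩
    rw [← hx.2, ← Equiv.sum_comp e]
    simp
  · intro y hy
    simp only [Finset.coe_filter, Set.mem_ofPred_eq, Fintype.mem_piFinset, Function.comp] at hy ⊢
    refine ⟨fun i => hy.1 _, ?_⟩
    rw [← hy.2, ← Equiv.sum_comp e]
  · intro x _
    funext i
    simp
  · intro y _
    funext i
    simp

lemma Phi_sum (A : Finset V) (ι κ : Type) [Fintype ι] [Fintype κ] (σ : ι → V ≃+ V)
    (τ : κ → V ≃+ V) (z : V) :
    Phi A (ι ⊕ κ) (Sum.elim σ τ) z = cv (Phi A ι σ) (Phi A κ τ) z := by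
  unfold cv Phi
  have h1 := sum_fiber_mul_fiber (V := V) (Fintype.piFinset fun _ : ι => A)
    (Fintype.piFinset fun _ : κ => A) (fun x => ∑ i, σ i (x i)) (fun y => z - ∑ i, τ i (y i))
  have h2 : ∀ d : V, ((Fintype.piFinset fun _ : κ => A).filter (fun y => ∑ i, τ i (y i) = z - d)) =
      ((Fintype.piFinset fun _ : κ => A).filter (fun y => z - ∑ i, τ i (y i) = d)) := by
    intro d
    ext y
    simp only [Finset.mem_filter, and_congr_right_iff]
    intro _
    constructor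
    · intro h; rw [h]; abel
    · intro h; rw [← h]; abel
  simp_rw [h2]
  have h3 := congrArg (fun n : ℕ => (n : ℝ)) h1
  simp only [Nat.cast_sum, Nat.cast_mul] at h3
  rw [h3]
  congr 1
  refine Finset.card_nbij' (fun x => (fun i => x (Sum.inl i), fun i => x (Sum.inr i)))
    (fun p => Sum.elim p.1 p.2) ?_ ?_ ?_ ?_
  · intro x hx
    simp only [Finset.coe_filter, Set.mem_ofPred_eq, Fintype.mem_piFinset, Finset.mem_product] at hx ⊢
    refine ⟨⟨fun i => hx.1 _, fun i => hx.1 _⟩, ?_⟩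
    rw [← hx.2, Fintype.sum_sum_type]
    simp
  · rintro ⟨x, y⟩ hp
    simp only [Finset.coe_filter, Set.mem_ofPred_eq, Fintype.mem_piFinset, Finset.mem_product] at hp ⊢
    refine ⟨?_, ?_⟩
    · rintro (i | i)
      · exact hp.1.1 i
      · exact hp.1.2 i
    · rw [Fintype.sum_sum_type]
      simp only [Sum.elim_inl, Sum.elim_inr]
      rw [hp.2]
      abel
  · intro x _
    funext i
    cases i <;> rfl
  · rintro ⟨x, y⟩ _
    rfl

lemma Phi_one (A : Finset V) {ι : Type} [Fintype ι] (i₀ : ι) (h : ∀ i, i = i₀) (σ : ι → V ≃+ V) :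
    Phi A ι σ = indF A ∘ (σ i₀).symm := by
  funext z
  unfold Phi indF
  simp only [Function.comp]
  by_cases hz : (σ i₀).symm z ∈ A
  · rw [if_pos hz]
    have : (Fintype.piFinset fun _ : ι => A).filter (fun x => ∑ i, σ i (x i) = z) =
        {fun _ => (σ i₀).symm z} := by
      ext x
      simp only [Finset.mem_filter, Fintype.mem_piFinset, Finset.mem_singleton]
      have hsum : ∀ y : ι → V, ∑ i, σ i (y i) = σ i₀ (y i₀) := by
        intro y
        exact Fintype.sum_eq_single i₀ (fun i hi => absurd (h i) hi)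
      rw [hsum]
      constructor
      · rintro ⟨_, h2⟩
        funext i
        rw [h i, ← h2]
        simp
      · rintro rfl
        exact ⟨fun _ => hz, by simp⟩
    rw [this]
    simp
  · rw [if_neg hz]
    have : (Fintype.piFinset fun _ : ι => A).filter (fun x => ∑ i, σ i (x i) = z) = ∅ := by
      apply Finset.filter_eq_empty_iff.2
      intro x hx hsum
      have hsum' : ∑ i, σ i (x i) = σ i₀ (x i₀) :=
        Fintype.sum_eq_single i₀ (fun i hi => absurd (h i) hi)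
      rw [hsum'] at hsum
      apply hz
      rw [← hsum]
      simpa using (Fintype.mem_piFinset.1 hx) i₀
    rw [this]
    simp

/-- Tuple counts are in the family. -/
theorem Phi_fam (A : Finset V) : ∀ (b : ℕ) (ι : Type) [Fintype ι], Fintype.card ι = 2 ^ b →
    ∀ σ : ι → V ≃+ V, Fam (indF A) b (Phi A ι σ) := by
  intro b
  induction b with
  | zero =>
    intro ι _ hc σ
    obtain ⟨i₀, h⟩ := Fintype.card_eq_one_iff.1 (by simpa using hc)
    exact ⟨(σ i₀).symm, Phi_one A i₀ h σ⟩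
  | succ b ih =>
    intro ι _ hc σ
    have hc' : Fintype.card ι = Fintype.card (Fin (2 ^ b) ⊕ Fin (2 ^ b)) := by
      rw [hc, Fintype.card_sum, Fintype.card_fin, pow_succ]
      ring
    let e : ι ≃ Fin (2 ^ b) ⊕ Fin (2 ^ b) := Fintype.equivOfCardEq hc'
    refine ⟨Phi A _ (fun i => σ (e.symm (Sum.inl i))), Phi A _ (fun i => σ (e.symm (Sum.inr i))),
      ih _ (by simp) _, ih _ (by simp) _, ?_⟩
    funext z
    rw [← Phi_sum]
    have h1 : σ = (Sum.elim (fun i => σ (e.symm (Sum.inl i))) (fun i => σ (e.symm (Sum.inr i)))) ∘ e := by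
      funext i
      obtain ⟨j, rfl⟩ := e.symm.surjective i
      cases j <;> simp
    conv_lhs => rw [h1]
    exact Phi_equiv A e _ z

/-- A count over tuples of length `2^(b+1)`. -/
theorem Phi_le (A : Finset V) (b : ℕ) (ι : Type) [Fintype ι] (hc : Fintype.card ι = 2 ^ (b + 1))
    (σ : ι → V ≃+ V) (z : V) : Phi A ι σ z ≤ N2 (pw b (indF A)) := by
  obtain ⟨g, h, hg, hh, e⟩ := Phi_fam A (b + 1) ι hc σ
  rw [e]
  exact fam_cv_apply_le _ hg hh z

/-- The number of tuples in `A` such that a combination with a shift lands in `A`. -/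
noncomputable def cntA (A : Finset V) (n : ℕ) (τ : Fin n → V ≃+ V) (w : V) : ℕ :=
  ((Fintype.piFinset fun _ : Fin n => A).filter (fun x => ∑ i, τ i (x i) + w ∈ A)).card

lemma cntA_base (A : Finset V) (b n : ℕ) (hn : n + 1 = 2 ^ (b + 1)) (τ : Fin n → V ≃+ V) (w : V) :
    (cntA A n τ w : ℝ) ≤ N2 (pw b (indF A)) := by
  refine le_trans ?_ (Phi_le A b (Fin n ⊕ Unit) (by simpa using hn)
    (Sum.elim τ (fun _ => AddEquiv.neg V)) (-w))
  unfold cntA Phi
  norm_cast
  refine Finset.card_le_card_of_injOn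
    (fun x => Sum.elim x (fun _ => ∑ i, τ i (x i) + w)) ?_ ?_
  · intro x hx
    simp only [Finset.coe_filter, Set.mem_ofPred_eq, Fintype.mem_piFinset] at hx ⊢
    refine ⟨?_, ?_⟩
    · rintro (i | i)
      · exact hx.1 i
      · exact hx.2
    · rw [Fintype.sum_sum_type]
      simp only [Sum.elim_inl, Sum.elim_inr, AddEquiv.neg_apply, Finset.univ_unique,
        Finset.sum_singleton]
      abel
  · intro x _ y _ hxy
    funext i
    exact congrFun hxy (Sum.inl i)

lemma cntA_step (A : Finset V) (n : ℕ) (τ : Fin (n + 1) → V ≃+ V) (w : V) {M : ℝ}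
    (h : ∀ w', (cntA A n (Fin.tail τ) w' : ℝ) ≤ M) :
    (cntA A (n + 1) τ w : ℝ) ≤ A.card * M := by
  unfold cntA
  have hmaps : Set.MapsTo (fun x : Fin (n + 1) → V => x 0)
      (((Fintype.piFinset fun _ : Fin (n + 1) => A).filter
        (fun x => ∑ i, τ i (x i) + w ∈ A) : Finset _) : Set _) (A : Set V) := by
    intro x hx
    have := (Finset.mem_filter.1 (Finset.mem_coe.1 hx)).1
    exact Finset.mem_coe.2 ((Fintype.mem_piFinset.1 this) 0)
  rw [Finset.card_eq_sum_card_fiberwise hmaps]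
  push_cast
  calc _ ≤ ∑ _a ∈ A, M := ?_
    _ = _ := by rw [Finset.sum_const, nsmul_eq_mul]
  refine Finset.sum_le_sum fun a _ => ?_
  refine le_trans ?_ (h (τ 0 a + w))
  unfold cntA
  norm_cast
  refine Finset.card_le_card_of_injOn (fun x => Fin.tail x) ?_ ?_
  · intro x hx
    have hx' := Finset.mem_coe.1 hx
    simp only [Finset.mem_filter, Fintype.mem_piFinset] at hx'
    obtain ⟨⟨h1, h2⟩, h3⟩ := hx'
    simp only [Finset.coe_filter, Set.mem_ofPred_eq, Fintype.mem_piFinset]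
    refine ⟨fun i => h1 _, ?_⟩
    rw [Fin.sum_univ_succ, h3] at h2
    have e : ∑ i : Fin n, Fin.tail τ i (Fin.tail x i) + (τ 0 a + w) =
        τ 0 a + ∑ i : Fin n, τ i.succ (x i.succ) + w := by
      simp only [Fin.tail]
      abel
    rw [e]
    exact h2
  · intro x hx y hy hxy
    have hx' := Finset.mem_coe.1 hx
    have hy' := Finset.mem_coe.1 hy
    simp only [Finset.mem_filter] at hx' hy'
    funext i
    refine Fin.cases ?_ (fun j => ?_) i
    · rw [hx'.2, hy'.2]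
    · exact congrFun hxy j

theorem cntA_le (A : Finset V) (b : ℕ) (n₀ : ℕ) (hn : n₀ + 1 = 2 ^ (b + 1)) :
    ∀ (d : ℕ) (τ : Fin (n₀ + d) → V ≃+ V) (w : V),
      (cntA A (n₀ + d) τ w : ℝ) ≤ (A.card : ℝ) ^ d * N2 (pw b (indF A)) := by
  intro d
  induction d with
  | zero =>
    intro τ w
    simpa using cntA_base A b n₀ hn τ w
  | succ d ih =>
    intro τ w
    refine (cntA_step A (n₀ + d) τ w (fun w' => ih _ w')).trans (le_of_eq ?_)
    rw [pow_succ]
    ring

end Count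

section RelCount

variable {β : Type} [Fintype β] [DecidableEq β] {ℓ : ℕ} [Fact ℓ.Prime]

/-- The tuples of coefficients and points appearing in a relation set. -/
noncomputable def tupleSet2 (S : Finset (β → ℤ)) (ℓ m : ℕ) [Fact ℓ.Prime] :
    Finset ((Fin (m + 2) → ZMod ℓ) × (Fin (m + 2) → (β → ℤ))) := by
  classical
  exact ((Finset.univ : Finset (Fin (m + 2) → ZMod ℓ)) ×ˢ Fintype.piFinset (fun _ => S)).filter
    (fun q => (∀ i, q.1 i ≠ 0) ∧ ∑ i, q.1 i • redvPC ℓ (q.2 i) ∈ S.image (redvPC ℓ))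

lemma mem_tupleSet2 {S : Finset (β → ℤ)} {m : ℕ}
    {q : (Fin (m + 2) → ZMod ℓ) × (Fin (m + 2) → (β → ℤ))} :
    q ∈ tupleSet2 S ℓ m ↔ (∀ i, q.2 i ∈ S) ∧ (∀ i, q.1 i ≠ 0) ∧
      ∃ t ∈ S, redvPC ℓ t = ∑ i, q.1 i • redvPC ℓ (q.2 i) := by
  classical
  unfold tupleSet2
  simp only [Finset.mem_filter, Finset.mem_product, Finset.mem_univ, true_and, Fintype.mem_piFinset,
    Finset.mem_image]

/-- A relation set of size `m + 3` comes from a tuple. -/
lemma relSet_surj2 (S : Finset (β → ℤ)) (D : ℕ) (hS : ∀ v ∈ S, ∀ i, |v i| ≤ (D : ℤ))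
    (hℓ : 4 * D < ℓ) (m : ℕ) {R : Finset (β → ℤ)} (hRS : R ⊆ S)
    (hrel : IsRelSet (F := ZMod ℓ) (uvec ℓ) R) (hcard : R.card = m + 3) :
    ∃ q ∈ tupleSet2 S ℓ m, R = Finset.univ.image q.2 ∪
      S.filter (fun t => redvPC ℓ t = ∑ i, q.1 i • redvPC ℓ (q.2 i)) := by
  classical
  obtain ⟨_, a, ha, hsum⟩ := hrel
  let e : R ≃ Fin (m + 3) := Finset.equivFinOfCardEq hcard
  let g : Fin (m + 3) → (β → ℤ) := fun i => (e.symm i : β → ℤ)
  have hgR : ∀ i, g i ∈ R := fun i => (e.symm i).2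
  have hsum2 : ∑ i : Fin (m + 3), a (g i) • redvPC ℓ (g i) = 0 := by
    have h1 : ∑ v ∈ R, a v • redvPC ℓ v = 0 := by
      have := congrArg Prod.fst hsum
      simpa [Prod.fst_sum, uvecPC_fst] using this
    rw [← h1, ← Finset.sum_coe_sort R (fun v => a v • redvPC ℓ v)]
    exact Equiv.sum_comp e.symm (fun v : R => a v • redvPC ℓ (v : β → ℤ))
  let t : β → ℤ := g (Fin.last (m + 2))
  let x : Fin (m + 2) → (β → ℤ) := fun i => g i.castSucc
  have htR : t ∈ R := hgR _
  have hat : a t ≠ 0 := ha t htR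
  let b : Fin (m + 2) → ZMod ℓ := fun i => -(a (x i)) / a t
  have hbne : ∀ i, b i ≠ 0 := fun i =>
    div_ne_zero (neg_ne_zero.2 (ha _ (hgR _))) hat
  have hsum3 : redvPC ℓ t = ∑ i, b i • redvPC ℓ (x i) := by
    rw [Fin.sum_univ_castSucc] at hsum2
    have h1 : ∑ i, b i • redvPC ℓ (x i) = (-(a t)⁻¹) • ∑ i : Fin (m + 2), a (x i) • redvPC ℓ (x i) := by
      rw [Finset.smul_sum]
      refine Finset.sum_congr rfl fun i _ => ?_
      rw [smul_smul]
      congr 1
      simp only [b]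
      field_simp
    have h2 : ∑ i : Fin (m + 2), a (x i) • redvPC ℓ (x i) = -(a t • redvPC ℓ t) :=
      eq_neg_of_add_eq_zero_left hsum2
    rw [h1, h2, smul_neg, neg_smul, neg_neg, smul_smul, inv_mul_cancel₀ hat, one_smul]
  refine ⟨(b, x), ?_, ?_⟩
  · refine mem_tupleSet2.2 ⟨fun i => hRS (hgR _), hbne, t, hRS htR, hsum3⟩
  · ext v
    simp only [Finset.mem_union, Finset.mem_image, Finset.mem_univ, true_and, Finset.mem_filter]
    constructor
    · intro hv
      have hv' : g (e ⟨v, hv⟩) = v := by simp [g]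
      revert hv'
      refine Fin.lastCases ?_ (fun i => ?_) (e ⟨v, hv⟩)
      · intro hv'
        right
        have : t = v := hv'
        rw [← this]
        exact ⟨hRS htR, hsum3⟩
      · intro hv'
        left
        exact ⟨i, hv'⟩
    · rintro (⟨i, rfl⟩ | ⟨hvS, hv⟩)
      · exact hgR _
      · have : v = t := redvPC_injOn (ℓ := ℓ) hS hℓ (Finset.mem_coe.2 hvS) (Finset.mem_coe.2 (hRS htR))
          (hv.trans hsum3.symm)
        rw [this]
        exact htR

open Classical in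
/-- The number of tuples, by the `2^(b+1)`-fold count. -/
lemma tupleSet2_card_le (S : Finset (β → ℤ)) (D : ℕ) (hS : ∀ v ∈ S, ∀ i, |v i| ≤ (D : ℤ))
    (hℓ : 4 * D < ℓ) (b n₀ d m : ℕ) (hn : n₀ + 1 = 2 ^ (b + 1)) (hm : m + 2 = n₀ + d) :
    ((tupleSet2 S ℓ m).card : ℝ) ≤ (ℓ : ℝ) ^ (m + 2) *
      ((S.card : ℝ) ^ d * N2 (pw b (indF (S.image (redvPC ℓ))))) := by
  classical
  set A := S.image (redvPC ℓ) with hA
  have hinj := redvPC_injOn (ℓ := ℓ) hS hℓ
  have hN0 : 0 ≤ N2 (pw b (indF A)) := N2_nonneg _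
  have hAS : (A.card : ℝ) ≤ S.card := by exact_mod_cast Finset.card_image_le
  have hfib : ∀ c ∈ (Finset.univ : Finset (Fin (m + 2) → ZMod ℓ)),
      (((tupleSet2 S ℓ m).filter (fun q => q.1 = c)).card : ℝ) ≤
        (S.card : ℝ) ^ d * N2 (pw b (indF A)) := by
    intro c _
    by_cases hc : ∀ i, c i ≠ 0
    · let τ₀ : Fin (m + 2) → (β → ZMod ℓ) ≃+ (β → ZMod ℓ) := fun i =>
        (LinearEquiv.smulOfNeZero (ZMod ℓ) (β → ZMod ℓ) (c i) (hc i)).toAddEquiv
      have hτ₀ : ∀ i x, τ₀ i x = c i • x := fun _ _ => rfl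
      have e : m + 2 = n₀ + d := hm
      obtain ⟨τ, hτ⟩ : ∃ τ : Fin (n₀ + d) → (β → ZMod ℓ) ≃+ (β → ZMod ℓ),
          ∀ x : (Fin (m + 2) → (β → ZMod ℓ)),
            ∑ i, τ₀ i (x i) = ∑ i, τ i (x (Fin.cast e.symm i)) :=
        ⟨fun i => τ₀ (Fin.cast e.symm i), fun x => by
          exact (Equiv.sum_comp (finCongr e.symm) (fun i => τ₀ i (x i))).symm⟩
      have h1 := cntA_le A b n₀ hn d τ 0
      refine le_trans ?_ (h1.trans ?_)
      · norm_cast
        unfold cntA
        refine Finset.card_le_card_of_injOn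
          (fun q i => redvPC ℓ (q.2 (Fin.cast e.symm i))) ?_ ?_
        · rintro ⟨c', x⟩ hq
          have hq' := Finset.mem_coe.1 hq
          simp only [Finset.mem_filter] at hq'
          obtain ⟨hq1, rfl⟩ := hq'
          have hq2 := mem_tupleSet2.1 hq1
          obtain ⟨hx, _, t, ht, hte⟩ := hq2
          simp only [Finset.coe_filter, Set.mem_ofPred_eq, Fintype.mem_piFinset, add_zero]
          refine ⟨fun i => Finset.mem_image_of_mem _ (hx _), ?_⟩
          have h2 := hτ (fun i => redvPC ℓ (x i))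
          rw [← h2]
          refine Finset.mem_image.2 ⟨t, ht, ?_⟩
          rw [hte]
          exact Finset.sum_congr rfl fun i _ => (hτ₀ i _).symm
        · rintro ⟨c₁, x₁⟩ h₁ ⟨c₂, x₂⟩ h₂ hxy
          have h₁' := Finset.mem_coe.1 h₁
          have h₂' := Finset.mem_coe.1 h₂
          simp only [Finset.mem_filter] at h₁' h₂'
          obtain ⟨h₁1, rfl⟩ := h₁'
          obtain ⟨h₂1, h₂2⟩ := h₂'
          subst h₂2
          have hx₁ := (mem_tupleSet2.1 h₁1).1
          have hx₂ := (mem_tupleSet2.1 h₂1).1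
          congr 1
          funext i
          have h3 := congrFun hxy (Fin.cast e i)
          simp only [Fin.cast_cast, Fin.cast_eq_self] at h3
          exact hinj (Finset.mem_coe.2 (hx₁ i)) (Finset.mem_coe.2 (hx₂ i)) h3
      · exact mul_le_mul_of_nonneg_right (pow_le_pow_left₀ (Nat.cast_nonneg _) hAS _) hN0
    · have hempty : (tupleSet2 S ℓ m).filter (fun q => q.1 = c) = ∅ := by
        apply Finset.filter_eq_empty_iff.2
        rintro ⟨c', x⟩ h1 h2
        simp only at h2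
        subst h2
        exact hc (mem_tupleSet2.1 h1).2.1
      rw [hempty]
      simp only [Finset.card_empty, Nat.cast_zero]
      positivity
  have hcard := Finset.card_eq_sum_card_fiberwise (s := tupleSet2 S ℓ m)
    (t := (Finset.univ : Finset (Fin (m + 2) → ZMod ℓ))) (f := fun q => q.1)
    (fun _ _ => Finset.mem_coe.2 (Finset.mem_univ _))
  rw [hcard]
  push_cast
  refine (Finset.sum_le_sum hfib).trans (le_of_eq ?_)
  rw [Finset.sum_const, nsmul_eq_mul]
  simp only [Finset.card_univ, Fintype.card_pi, ZMod.card, Finset.prod_const, Fintype.card_fin]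
  push_cast
  rfl

open Classical in
/-- The number of relation sets of size at least `2^(b+1)`, by the `2^b`-fold energy. -/
theorem relSet_count_u (S : Finset (β → ℤ)) (D : ℕ) (hS : ∀ v ∈ S, ∀ i, |v i| ≤ (D : ℤ))
    (hℓ : 4 * D < ℓ) {ε : ℝ} (hε : 0 ≤ ε) (b : ℕ) (hb : 1 ≤ b)
    (hM : N2 (pw b (indF (S.image (redvPC ℓ)))) ≤ ε * (S.card : ℝ) ^ (2 ^ (b + 1) - 1))
    (h : ℕ) (hh : 2 ^ (b + 1) ≤ h) :
    (((S.powerset).filter (fun R => IsRelSet (F := ZMod ℓ) (uvec ℓ) R ∧ R.card = h)).card : ℝ) ≤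
      ((ℓ : ℝ) * (S.card : ℝ)) ^ (h - 1) * ε := by
  classical
  have h4 : 4 ≤ 2 ^ (b + 1) := by
    calc 4 = 2 ^ 2 := by norm_num
      _ ≤ 2 ^ (b + 1) := Nat.pow_le_pow_right (by norm_num) (by omega)
  obtain ⟨m, rfl⟩ : ∃ m, h = m + 3 := ⟨h - 3, by omega⟩
  obtain ⟨n₀, hn₀⟩ : ∃ n₀, n₀ + 1 = 2 ^ (b + 1) := ⟨2 ^ (b + 1) - 1, by omega⟩
  obtain ⟨d, hd⟩ : ∃ d, m + 2 = n₀ + d := ⟨m + 2 - n₀, by omega⟩
  have h1 : ((S.powerset).filter (fun R => IsRelSet (F := ZMod ℓ) (uvec ℓ) R ∧ R.card = m + 3)).card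
      ≤ (tupleSet2 S ℓ m).card := by
    refine Finset.card_le_card_of_surjOn (fun q => Finset.univ.image q.2 ∪
      S.filter (fun t => redvPC ℓ t = ∑ i, q.1 i • redvPC ℓ (q.2 i))) ?_
    intro R hR
    have hR' := Finset.mem_filter.1 (Finset.mem_coe.1 hR)
    obtain ⟨q, hq, he⟩ := relSet_surj2 S D hS hℓ m (Finset.mem_powerset.1 hR'.1) hR'.2.1 hR'.2.2
    exact ⟨q, Finset.mem_coe.2 hq, he.symm⟩
  have h2 := tupleSet2_card_le S D hS hℓ b n₀ d m hn₀ hd
  have e1 : 2 ^ (b + 1) - 1 = n₀ := by omega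
  rw [e1] at hM
  have h3 : (S.card : ℝ) ^ d * N2 (pw b (indF (S.image (redvPC ℓ)))) ≤
      (S.card : ℝ) ^ d * (ε * (S.card : ℝ) ^ n₀) :=
    mul_le_mul_of_nonneg_left hM (by positivity)
  have hℓ0 : (0 : ℝ) ≤ (ℓ : ℝ) := Nat.cast_nonneg _
  calc _ ≤ ((tupleSet2 S ℓ m).card : ℝ) := by exact_mod_cast h1
    _ ≤ _ := h2
    _ ≤ (ℓ : ℝ) ^ (m + 2) * ((S.card : ℝ) ^ d * (ε * (S.card : ℝ) ^ n₀)) :=
        mul_le_mul_of_nonneg_left h3 (by positivity)
    _ = _ := by
        have e2 : m + 3 - 1 = m + 2 := by omega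
        rw [e2, mul_pow, hd, pow_add (S.card : ℝ)]
        ring

end RelCount

end Vale.Agent.Lib.P230
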